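import Crest.Agent.R180.CSA1

/-! Finite-dimensional central division algebras in characteristic zero: subalgebras,
orthogonal complements; algebraic elements. -/

set_option autoImplicit false

namespace Crest.Agent.R180

open Module

namespace CDA
variable (A : CDA)

theorem finrank_dvd {B B' : Subalgebra A.K A.D} (h : B ≤ B') :
    finrank A.K B ∣ finrank A.K B' := by
  let _ : DivisionRing B := divisionRingOfFiniteDimensional A.K B
  let _ : Module B B' := Module.compHom B' (Subalgebra.inclusion h).toRingHom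
  have _ : IsScalarTower A.K B B' := ⟨fun k b x => by
    change Subalgebra.inclusion h (k • b) * x = k • (Subalgebra.inclusion h b * x)
    rw [map_smul, smul_mul_assoc]⟩
  exact ⟨finrank B B', (Module.finrank_mul_finrank A.K B B').symm⟩

/-- the trace form on a subalgebra -/
noncomputable def CSA_form (Γ : Subalgebra A.K A.D) :
    LinearMap.BilinForm A.K (Subalgebra.toSubmodule Γ) :=
  LinearMap.mk₂ A.K (fun x y => A.τ (x.1 * y.1))
    (fun x x' y => by simp [add_mul]) (fun c x y => by simp)
    (fun x y y' => by simp [mul_add]) (fun c x y => by simp)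

theorem CSA_form_apply (Γ : Subalgebra A.K A.D) (x y : Subalgebra.toSubmodule Γ) :
    A.CSA_form Γ x y = A.τ (x.1 * y.1) := rfl

theorem CSA_form_refl (Γ : Subalgebra A.K A.D) : (A.CSA_form Γ).IsRefl := by
  intro x y h
  rw [CSA_form_apply] at h ⊢
  rwa [τ_mul_comm]

theorem CSA_form_nondeg (Γ : Subalgebra A.K A.D) : (A.CSA_form Γ).Nondegenerate := by
  have key : ∀ x : Subalgebra.toSubmodule Γ, (∀ y, A.CSA_form Γ x y = 0) → x = 0 := by
    intro x hx
    by_contra h0
    have h0' : x.1 ≠ 0 := fun h => h0 (Subtype.ext h)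
    have := hx ⟨x.1⁻¹, A.inv_mem Γ x.2⟩
    rw [CSA_form_apply, mul_inv_cancel₀ h0', τ_one] at this
    exact one_ne_zero this
  exact ⟨key, fun x hx => key x fun y => A.CSA_form_refl Γ _ _ (hx y)⟩

theorem CSA_mem_orth (Γ : Subalgebra A.K A.D) {V : Submodule A.K A.D}
    (hV : V ≤ Subalgebra.toSubmodule Γ) (c : Subalgebra.toSubmodule Γ) :
    c ∈ (A.CSA_form Γ).orthogonal (V.comap (Subalgebra.toSubmodule Γ).subtype) ↔
      c.1 ∈ A.perp V := by
  rw [LinearMap.BilinForm.mem_orthogonal_iff, mem_perp]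
  constructor
  · intro h v hv
    have := h ⟨v, hV hv⟩ hv
    rw [τ_mul_comm]
    exact this
  · intro h v hv
    have := h v.1 hv
    rw [τ_mul_comm] at this
    exact this

theorem finrank_perp (Γ : Subalgebra A.K A.D) {V : Submodule A.K A.D}
    (hV : V ≤ Subalgebra.toSubmodule Γ) :
    finrank A.K (Subalgebra.toSubmodule Γ ⊓ A.perp V : Submodule A.K A.D) + finrank A.K V =
      finrank A.K Γ := by
  have h1 := LinearMap.BilinForm.finrank_orthogonal (A.CSA_form_nondeg Γ)
    (V.comap (Subalgebra.toSubmodule Γ).subtype)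
  have h2 : finrank A.K (V.comap (Subalgebra.toSubmodule Γ).subtype) = finrank A.K V :=
    (Submodule.comapSubtypeEquivOfLe hV).finrank_eq
  have h3 : (Subalgebra.toSubmodule Γ ⊓ A.perp V : Submodule A.K A.D) =
      ((A.CSA_form Γ).orthogonal (V.comap (Subalgebra.toSubmodule Γ).subtype)).map
        (Subalgebra.toSubmodule Γ).subtype := by
    ext c
    constructor
    · rintro ⟨hc, hc'⟩
      exact ⟨⟨c, hc⟩, (A.CSA_mem_orth Γ hV ⟨c, hc⟩).2 hc', rfl⟩
    · rintro ⟨c, hc, rfl⟩
      exact ⟨c.2, (A.CSA_mem_orth Γ hV c).1 hc⟩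
  have h4 : finrank A.K V ≤ finrank A.K (Subalgebra.toSubmodule Γ) := Submodule.finrank_mono hV
  rw [h3, Submodule.finrank_map_subtype_eq, h1, h2]
  change _ = finrank A.K (Subalgebra.toSubmodule Γ)
  omega

theorem mem_of_perp_perp (Γ : Subalgebra A.K A.D) {V : Submodule A.K A.D}
    (hV : V ≤ Subalgebra.toSubmodule Γ) {x : A.D} (hx : x ∈ Γ)
    (h : ∀ c ∈ Γ, c ∈ A.perp V → A.τ (c * x) = 0) : x ∈ V := by
  have h1 := LinearMap.BilinForm.orthogonal_orthogonal (A.CSA_form_nondeg Γ) (A.CSA_form_refl Γ)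
    (V.comap (Subalgebra.toSubmodule Γ).subtype)
  have h2 : (⟨x, hx⟩ : Subalgebra.toSubmodule Γ) ∈
      V.comap (Subalgebra.toSubmodule Γ).subtype := by
    rw [← h1, LinearMap.BilinForm.mem_orthogonal_iff]
    intro c hc
    exact h c.1 c.2 ((A.CSA_mem_orth Γ hV c).1 hc)
  exact h2

/-- a division algebra of dimension `n²`, `n` prime, is generated by any two non-commuting
elements -/
theorem le_of_prime_sq {n : ℕ} (hn : n.Prime) {Λ B : Subalgebra A.K A.D}
    (hΛ : finrank A.K Λ = n ^ 2) (hB : B ≤ Λ) {a b : A.D} (ha : a ∈ B) (hb : b ∈ B)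
    (hab : a * b ≠ b * a) : Λ ≤ B := by
  have hdvd : finrank A.K B ∣ n ^ 2 := hΛ ▸ A.finrank_dvd hB
  obtain ⟨k, hk, hk'⟩ := (Nat.dvd_prime_pow hn).1 hdvd
  have hk2 : k = 2 := by
    by_contra hk2
    have hBn : finrank A.K B ∣ n := by
      rw [hk']
      have : k ≤ 1 := by omega
      simpa using pow_dvd_pow n this
    have hle : Algebra.adjoin A.K {a} ≤ B := Algebra.adjoin_le (by simpa using ha)
    have hd := A.finrank_dvd hle
    rcases (Nat.dvd_prime hn).1 (hd.trans hBn) with h1 | h1
    · have : Algebra.adjoin A.K {a} = ⊥ := Subalgebra.finrank_eq_one_iff.1 h1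
      have ha' : a ∈ (⊥ : Subalgebra A.K A.D) := this ▸ Algebra.self_mem_adjoin_singleton A.K a
      obtain ⟨c, rfl⟩ := Algebra.mem_bot.1 ha'
      exact hab (Algebra.commutes c b)
    · have h2 : finrank A.K B ≤ finrank A.K (Algebra.adjoin A.K {a}) := by
        rw [h1]; exact Nat.le_of_dvd hn.pos hBn
      have h3 : Algebra.adjoin A.K {a} = B := Subalgebra.eq_of_le_of_finrank_le hle h2
      exact hab (Algebra.commute_of_mem_adjoin_self (h3 ▸ hb : b ∈ Algebra.adjoin A.K {a}))
  rw [hk2, ← hΛ] at hk'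
  exact (Subalgebra.eq_of_le_of_finrank_eq hB hk').ge

/-- `Γ = Cent_Γ(c) ⊕ [c, Γ]` -/
theorem cent_decomp (Γ : Subalgebra A.K A.D) {c : A.D} (hc : c ∈ Γ) {x : A.D} (hx : x ∈ Γ) :
    ∃ y ∈ Γ, ∃ z ∈ Γ, Commute y c ∧ x = y + (c * z - z * c) ∧
      ∀ w ∈ Γ, Commute w c → A.τ (w * z) = 0 := by
  set C : Subalgebra A.K A.D := Γ ⊓ Subalgebra.centralizer A.K {c} with hC
  have memC : ∀ w, w ∈ C ↔ w ∈ Γ ∧ Commute w c := by
    intro w
    rw [hC, Algebra.mem_inf, Subalgebra.mem_centralizer_iff]
    simp only [Set.mem_singleton_iff, forall_eq]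
    exact and_congr_right fun _ => ⟨fun h => h.symm, fun h => h.symm⟩
  have hCΓ : Subalgebra.toSubmodule C ≤ Subalgebra.toSubmodule Γ := fun w hw => ((memC w).1 hw).1
  set W : Submodule A.K A.D := Subalgebra.toSubmodule Γ ⊓ A.perp (Subalgebra.toSubmodule C)
    with hW
  have hdisj : ∀ z, z ∈ C → z ∈ W → z = 0 := by
    intro z hz hzW
    by_contra h0
    have := hzW.2 z⁻¹ (A.inv_mem C hz)
    rw [mul_inv_cancel₀ h0, τ_one] at this
    exact one_ne_zero this
  have hsup : Subalgebra.toSubmodule C ⊔ W = Subalgebra.toSubmodule Γ := by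
    apply Submodule.eq_of_le_of_finrank_le (sup_le hCΓ inf_le_left)
    have h1 := A.finrank_perp Γ hCΓ
    have h2 := Submodule.finrank_sup_add_finrank_inf_eq (Subalgebra.toSubmodule C) W
    have h3 : Subalgebra.toSubmodule C ⊓ W = ⊥ := by
      rw [eq_bot_iff]
      intro z hz
      exact (Submodule.mem_bot _).2 (hdisj z hz.1 hz.2)
    rw [h3, finrank_bot] at h2
    change finrank A.K Γ ≤ finrank A.K (Subalgebra.toSubmodule C ⊔ W : Submodule A.K A.D)
    rw [← hW] at h1
    omega
  let ad : A.D →ₗ[A.K] A.D := LinearMap.mulLeft A.K c - LinearMap.mulRight A.K c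
  have ad_apply : ∀ z, ad z = c * z - z * c := fun z => rfl
  have hmaps : ∀ z ∈ W, ad z ∈ W := by
    intro z hz
    have hzΓ : z ∈ Γ := hz.1
    refine ⟨(sub_mem (mul_mem hc hzΓ) (mul_mem hzΓ hc) : c * z - z * c ∈ Γ), fun w hw => ?_⟩
    have hw' := ((memC w).1 hw).2
    rw [ad_apply, sub_mul, map_sub, mul_assoc c z w, A.τ_mul_comm c, mul_assoc z w c,
      hw'.eq, mul_assoc, sub_self]
  have hinj : Function.Injective (ad.restrict hmaps) := by
    rw [← LinearMap.ker_eq_bot, LinearMap.ker_eq_bot']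
    intro z hz
    have h1 : ad z.1 = 0 := congrArg Subtype.val hz
    rw [ad_apply, sub_eq_zero] at h1
    exact Subtype.ext (hdisj z.1 ((memC _).2 ⟨z.2.1, h1.symm⟩) z.2)
  have hsurj := LinearMap.injective_iff_surjective.1 hinj
  have hx' : x ∈ Subalgebra.toSubmodule C ⊔ W := hsup ▸ hx
  obtain ⟨y, hy, u, hu, rfl⟩ := Submodule.mem_sup.1 hx'
  obtain ⟨z, hz⟩ := hsurj ⟨u, hu⟩
  have hz' : ad z.1 = u := congrArg Subtype.val hz
  refine ⟨y, ((memC y).1 hy).1, z.1, z.2.1, ((memC y).1 hy).2, by rw [← hz', ad_apply], ?_⟩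
  intro w hw hwc
  rw [τ_mul_comm]
  exact z.2.2 w ((memC w).2 ⟨hw, hwc⟩)

theorem exists_pow_eq_adjoin {V : Submodule A.K A.D} (h1 : (1 : A.D) ∈ V) :
    ∃ q, 2 ≤ q ∧ V ^ q = Subalgebra.toSubmodule (Algebra.adjoin A.K (V : Set A.D)) := by
  have hstep : ∀ k, V ^ k ≤ V ^ (k + 1) := by
    intro k x hx
    rw [pow_succ]
    simpa using Submodule.mul_mem_mul hx h1
  have hmono : Monotone fun k => V ^ k := monotone_nat_of_le_succ hstep
  obtain ⟨N, hN⟩ := monotone_stabilizes_iff_noetherian.2
    (inferInstance : IsNoetherian A.K A.D) ⟨fun k => V ^ k, hmono⟩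
  have hN' : ∀ k, V ^ k ≤ V ^ (N + 2) := by
    intro k
    rcases le_total k N with hk | hk
    · exact hmono (by omega : k ≤ N + 2)
    · have h2 : V ^ N = V ^ k := hN k hk
      rw [← h2]
      exact hmono (by omega : N ≤ N + 2)
  refine ⟨N + 2, by omega, le_antisymm ?_ ?_⟩
  · have : ∀ k, V ^ k ≤ Subalgebra.toSubmodule (Algebra.adjoin A.K (V : Set A.D)) := by
      intro k
      induction k with
      | zero =>
        rw [pow_zero, Submodule.one_le]
        exact one_mem (Algebra.adjoin A.K (V : Set A.D))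
      | succ k ih =>
        rw [pow_succ, Submodule.mul_le]
        intro x hx y hy
        have hx' : x ∈ Algebra.adjoin A.K (V : Set A.D) := ih hx
        have hy' : y ∈ Algebra.adjoin A.K (V : Set A.D) := Algebra.subset_adjoin hy
        exact (mul_mem hx' hy' : x * y ∈ Algebra.adjoin A.K (V : Set A.D))
    exact this _
  · intro x hx
    change x ∈ Algebra.adjoin A.K (V : Set A.D) at hx
    induction hx using Algebra.adjoin_induction with
    | mem x hx => exact hN' 1 (by simpa using hx)
    | algebraMap r =>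
      refine hN' 0 ?_
      rw [pow_zero]
      exact Submodule.algebraMap_mem r
    | add y z _ _ hy hz => exact add_mem hy hz
    | mul y z _ _ hy hz =>
      refine hN' (N + 2 + (N + 2)) ?_
      rw [pow_add]
      exact Submodule.mul_mem_mul hy hz

end CDA

section Algebraic
variable {K R : Type} [Field K] [Ring R] [Algebra K R]

theorem CSA_isAlgebraic_of_mem_adjoin {a b : R} (h : Commute a b) (ha : IsAlgebraic K a)
    (hb : IsAlgebraic K b) {x : R} (hx : x ∈ Algebra.adjoin K {a, b}) : IsAlgebraic K x := by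
  have hcomm : ∀ x ∈ ({a, b} : Set R), ∀ y ∈ ({a, b} : Set R), x * y = y * x := by
    intro x hx y hy
    simp only [Set.mem_insert_iff, Set.mem_singleton_iff] at hx hy
    rcases hx with rfl | rfl <;> rcases hy with rfl | rfl
    · rfl
    · exact h.eq
    · exact h.symm.eq
    · rfl
  set S := Algebra.adjoin K ({a, b} : Set R) with hS
  have _ : IsMulCommutative S := Algebra.isMulCommutative_adjoin K hcomm
  let _ : CommRing S := { (inferInstance : Ring S) with mul_comm := fun x y => mul_comm' x y }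
  have inj : Function.Injective S.val := Subtype.val_injective
  have key : ∀ y : S, IsIntegral K y ↔ IsAlgebraic K (y : R) := fun y => by
    rw [isAlgebraic_iff_isIntegral]
    exact (isIntegral_algHom_iff S.val inj).symm
  suffices H : ∀ (x : R) (hx : x ∈ S), IsIntegral K (⟨x, hx⟩ : S) from (key ⟨x, hx⟩).1 (H x hx)
  intro x hx
  induction hx using Algebra.adjoin_induction with
  | mem x hx =>
    rw [key]
    simp only [Set.mem_insert_iff, Set.mem_singleton_iff] at hx
    rcases hx with rfl | rfl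
    · exact ha
    · exact hb
  | algebraMap r => exact isIntegral_algebraMap (R := K) (A := S) (x := r)
  | add y z _ _ hy hz => exact hy.add hz
  | mul y z _ _ hy hz => exact hy.mul hz

theorem isAlgebraic_add_of_commute {a b : R} (h : Commute a b) (ha : IsAlgebraic K a)
    (hb : IsAlgebraic K b) : IsAlgebraic K (a + b) := by
  exact CSA_isAlgebraic_of_mem_adjoin h ha hb
    (add_mem (Algebra.subset_adjoin (by simp)) (Algebra.subset_adjoin (by simp)))

theorem isAlgebraic_mul_of_commute {a b : R} (h : Commute a b) (ha : IsAlgebraic K a)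
    (hb : IsAlgebraic K b) : IsAlgebraic K (a * b) := by
  exact CSA_isAlgebraic_of_mem_adjoin h ha hb
    (mul_mem (Algebra.subset_adjoin (by simp)) (Algebra.subset_adjoin (by simp)))

theorem isAlgebraic_of_conj {a b g : R} (hg : IsUnit g) (h : g * a = b * g)
    (hb : IsAlgebraic K b) : IsAlgebraic K a := by
  obtain ⟨p, hp0, hp⟩ := hb
  refine ⟨p, hp0, ?_⟩
  have hpow : ∀ n : ℕ, g * a ^ n = b ^ n * g := by
    intro n
    induction n with
    | zero => simp
    | succ n ih => rw [pow_succ, ← mul_assoc, ih, mul_assoc, h, ← mul_assoc, ← pow_succ]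
  have key : ∀ q : Polynomial K, g * Polynomial.aeval a q = Polynomial.aeval b q * g := by
    intro q
    induction q using Polynomial.induction_on' with
    | add p q hp hq => rw [map_add, map_add, mul_add, add_mul, hp, hq]
    | monomial n c =>
      rw [Polynomial.aeval_monomial, Polynomial.aeval_monomial, ← Algebra.smul_def,
        ← Algebra.smul_def, mul_smul_comm, smul_mul_assoc, hpow]
  have := key p
  rw [hp, zero_mul] at this
  exact (hg.mul_right_eq_zero).1 this

theorem isAlgebraic_map {K' R' : Type} [Field K'] [Ring R'] [Algebra K' R'] (κ : K →+* K')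
    (φ : R →+* R') (compat : ∀ c, φ (algebraMap K R c) = algebraMap K' R' (κ c)) {a : R}
    (ha : IsAlgebraic K a) : IsAlgebraic K' (φ a) := by
  obtain ⟨p, hp0, hp⟩ := ha
  refine ⟨p.map κ, (Polynomial.map_ne_zero_iff κ.injective).2 hp0, ?_⟩
  have key : ∀ q : Polynomial K,
      Polynomial.aeval (φ a) (q.map κ) = φ (Polynomial.aeval a q) := by
    intro q
    induction q using Polynomial.induction_on' with
    | add p q hp hq => rw [Polynomial.map_add, map_add, map_add, map_add, hp, hq]
    | monomial n c =>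
      rw [Polynomial.map_monomial, Polynomial.aeval_monomial, Polynomial.aeval_monomial, map_mul,
        map_pow, compat]
  rw [key, hp, map_zero]

end Algebraic

end Crest.Agent.R180
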