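import Crest.Agent.R180.Defs

/-! Finite-dimensional central division algebras in characteristic zero: trace form,
Azumaya property, inner derivations. -/

set_option autoImplicit false

namespace Crest.Agent.R180

open Module

namespace CDA
variable (A : CDA)

theorem τ_one : A.τ 1 = 1 := by
  have h : (finrank A.K A.D : A.K) ≠ 0 := by exact_mod_cast (finrank_pos (R := A.K)).ne'
  have h1 : (Algebra.lmul A.K A.D).toLinearMap 1 = 1 := map_one (Algebra.lmul A.K A.D)
  simp only [τ, LinearMap.smul_apply, LinearMap.comp_apply, h1, LinearMap.trace_one, smul_eq_mul]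
  exact inv_mul_cancel₀ h

theorem τ_mul_comm (x y : A.D) : A.τ (x * y) = A.τ (y * x) := by
  have h1 : ∀ x y : A.D, (Algebra.lmul A.K A.D).toLinearMap (x * y) =
      Algebra.lmul A.K A.D x * Algebra.lmul A.K A.D y := map_mul (Algebra.lmul A.K A.D)
  simp only [τ, LinearMap.smul_apply, LinearMap.comp_apply, h1]
  rw [LinearMap.trace_mul_comm]

theorem τ_algebraMap (c : A.K) : A.τ (algebraMap A.K A.D c) = c := by
  rw [Algebra.algebraMap_eq_smul_one, map_smul, τ_one, smul_eq_mul, mul_one]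

theorem inv_mem (B : Subalgebra A.K A.D) {x : A.D} (hx : x ∈ B) : x⁻¹ ∈ B := by
  rcases eq_or_ne x 0 with rfl | h0
  · simp
  have hinj : Function.Injective (LinearMap.mulLeft A.K (⟨x, hx⟩ : B)) := by
    intro y z h
    exact Subtype.ext (mul_left_cancel₀ h0 (congrArg Subtype.val h))
  obtain ⟨y, hy⟩ := LinearMap.injective_iff_surjective.1 hinj 1
  have : x * y = 1 := congrArg Subtype.val hy
  rw [← eq_inv_of_mul_eq_one_right this]
  exact y.2

theorem CSA1_indep {I : Type} (b : I → A.D) (hb : LinearIndependent A.K b) (s : Finset I)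
    (a : I → A.D) (h : ∀ x, ∑ i ∈ s, a i * x * b i = 0) : ∀ i ∈ s, a i = 0 := by
  classical
  induction s using Finset.induction_on generalizing a with
  | empty => simp
  | insert j s hj ih =>
    have hj0 : a j = 0 := by
      by_contra hne
      have h1 : ∀ x, x * b j + ∑ i ∈ s, (a j)⁻¹ * a i * x * b i = 0 := fun x => by
        have := congrArg ((a j)⁻¹ * ·) (h x)
        simpa only [Finset.sum_insert hj, mul_add, Finset.mul_sum, ← mul_assoc,
          inv_mul_cancel₀ hne, one_mul, mul_zero] using this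
      have h2 : ∀ i ∈ s, ∃ c : A.K, algebraMap A.K A.D c = (a j)⁻¹ * a i := by
        intro i hi
        refine Algebra.mem_bot.1 (Algebra.IsCentral.out (Subalgebra.mem_center_iff.2 fun d => ?_))
        refine sub_eq_zero.1 (ih (fun i => d * ((a j)⁻¹ * a i) - (a j)⁻¹ * a i * d)
          (fun x => ?_) i hi)
        have e1 := congrArg (d * ·) (h1 x)
        have e2 := h1 (d * x)
        simp only [mul_add, Finset.mul_sum, mul_zero, mul_assoc] at e1 e2
        simp only [sub_mul, Finset.sum_sub_distrib, mul_assoc]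
        rw [sub_eq_zero, eq_neg_of_add_eq_zero_right e1, eq_neg_of_add_eq_zero_right e2]
      choose! c hc using h2
      have h3 := linearIndependent_iff'.1 hb (insert j s) (Function.update c j 1) (by
        rw [Finset.sum_insert hj, Function.update_self, one_smul, ← one_mul (b j), ← h1 1]
        congr 1
        refine Finset.sum_congr rfl fun i hi => ?_
        rw [Function.update_of_ne (by rintro rfl; exact hj hi), Algebra.smul_def, hc i hi, mul_one])
        j (Finset.mem_insert_self _ _)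
      simp at h3
    intro i hi
    rcases Finset.mem_insert.1 hi with rfl | hi
    · exact hj0
    · refine ih a (fun x => ?_) i hi
      simpa [Finset.sum_insert hj, hj0] using h x

theorem CSA1_surj (φ : A.D →ₗ[A.K] A.D) : ∃ p : Fin (finrank A.K A.D) → A.D,
    ∀ x, ∑ s, p s * x * finBasis A.K A.D s = φ x := by
  let Φ : (Fin (finrank A.K A.D) → A.D) →ₗ[A.K] (A.D →ₗ[A.K] A.D) :=
    { toFun := fun p => ∑ s, LinearMap.mulLeftRight A.K (p s, finBasis A.K A.D s)
      map_add' := fun p q => by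
        ext x; simp [add_mul, Finset.sum_add_distrib]
      map_smul' := fun c p => by
        ext x; simp [Finset.smul_sum] }
  have hΦ : ∀ p x, Φ p x = ∑ s, p s * x * finBasis A.K A.D s := fun p x => by simp [Φ]
  have hinj : Function.Injective Φ := by
    rw [injective_iff_map_eq_zero]
    intro p hp
    funext s
    exact A.CSA1_indep _ (finBasis A.K A.D).linearIndependent Finset.univ p
      (fun x => by rw [← hΦ, hp]; rfl) s (Finset.mem_univ _)
  obtain ⟨p, hp⟩ := (LinearMap.injective_iff_surjective_of_finrank_eq_finrank (by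
    rw [finrank_pi_fintype, finrank_linearMap]; simp)).1 hinj φ
  exact ⟨p, fun x => by rw [← hΦ, hp]⟩

open scoped TensorProduct in
theorem CSA1_transfer {I : Type} [Fintype I] (a b a' b' : I → A.D)
    (h : ∀ y, ∑ s, a s * y * b s = ∑ s, a' s * y * b' s) (β : A.D →ₗ[A.K] A.D →ₗ[A.K] A.D) :
    ∑ s, β (a s) (b s) = ∑ s, β (a' s) (b' s) := by
  let Ψ : A.D ⊗[A.K] A.D →ₗ[A.K] (A.D →ₗ[A.K] A.D) := TensorProduct.lift
    (LinearMap.mk₂ A.K (fun a b => LinearMap.mulLeftRight A.K (a, b))
      (fun a a' b => by ext; simp [add_mul]) (fun c a b => by ext; simp)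
      (fun a b b' => by ext; simp [mul_add]) (fun c a b => by ext; simp))
  have hΨ : ∀ (a b : I → A.D) y, Ψ (∑ s, a s ⊗ₜ b s) y = ∑ s, a s * y * b s := fun a b y => by
    simp [Ψ, map_sum]
  have hsurj : Function.Surjective Ψ := fun φ => by
    obtain ⟨p, hp⟩ := A.CSA1_surj φ
    refine ⟨∑ s, p s ⊗ₜ finBasis A.K A.D s, ?_⟩
    ext x
    simp [Ψ, map_sum, ← hp]
  have hinj : Function.Injective Ψ :=
    (LinearMap.injective_iff_surjective_of_finrank_eq_finrank (by
      rw [finrank_tensorProduct, finrank_linearMap])).2 hsurj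
  have e : (∑ s, a s ⊗ₜ[A.K] b s) = ∑ s, a' s ⊗ₜ b' s :=
    hinj (LinearMap.ext fun y => by rw [hΨ, hΨ, h])
  simpa [map_sum] using congrArg (TensorProduct.lift β) e

theorem CSA1_casimir {I : Type} [Fintype I] (p q : I → A.D)
    (h : ∀ x, ∑ s, p s * x * q s = algebraMap A.K A.D (A.τ x)) (x : A.D)
    (β : A.D →ₗ[A.K] A.D →ₗ[A.K] A.D) : ∑ s, β (p s) (x * q s) = ∑ s, β (p s * x) (q s) := by
  refine A.CSA1_transfer _ _ _ _ (fun y => ?_) β
  have e1 := h (y * x)
  have e2 := h (x * y)
  rw [A.τ_mul_comm] at e1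
  simp only [mul_assoc] at e1 e2 ⊢
  rw [e1, e2]

/-- Azumaya property: the trace is `x ↦ ∑ p x q`, with `∑ q p = 1`. -/
theorem exists_AZ : ∃ (m : ℕ) (p q : Fin m → A.D),
    (∀ x, ∑ s, p s * x * q s = algebraMap A.K A.D (A.τ x)) ∧ ∑ s, q s * p s = 1 := by
  obtain ⟨p, hp⟩ := A.CSA1_surj (Algebra.linearMap A.K A.D ∘ₗ A.τ)
  refine ⟨_, p, finBasis A.K A.D, hp, ?_⟩
  obtain ⟨c, hc⟩ : ∃ c : A.K, algebraMap A.K A.D c = ∑ s, finBasis A.K A.D s * p s := by
    refine Algebra.mem_bot.1 (Algebra.IsCentral.out (Subalgebra.mem_center_iff.2 fun d => ?_))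
    have := A.CSA1_casimir p _ hp d (LinearMap.mul A.K A.D).flip
    simpa [Finset.mul_sum, Finset.sum_mul, mul_assoc] using this
  have h1 := congrArg A.τ hc
  have h2 := congrArg A.τ (hp 1)
  simp only [LinearMap.comp_apply, Algebra.linearMap_apply, τ_algebraMap, τ_one, map_sum,
    mul_one] at h1 h2
  rw [← hc, h1, Finset.sum_congr rfl fun s _ => A.τ_mul_comm _ _, h2, map_one]

/-- derivations are inner -/
theorem deriv_inner (δ : A.D →ₗ[A.K] A.D) (h : ∀ x y, δ (x * y) = δ x * y + x * δ y) :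
    ∃ g, ∀ x, δ x = g * x - x * g := by
  obtain ⟨m, p, q, hp, hq⟩ := A.exists_AZ
  refine ⟨∑ s, δ (q s) * p s, fun x => ?_⟩
  have := A.CSA1_casimir p q hp x ((LinearMap.mul A.K A.D ∘ₗ δ).flip)
  simp only [LinearMap.flip_apply, LinearMap.comp_apply, LinearMap.mul_apply', h, add_mul,
    Finset.sum_add_distrib, mul_assoc, ← Finset.mul_sum, hq, mul_one] at this
  rw [eq_sub_iff_add_eq, this, Finset.sum_mul]
  simp only [mul_assoc]

/-- proper sub-bimodules of `D ^ J` are killed by a scalar vector -/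
theorem bimod {J : Type} [Fintype J] (N : Submodule A.K (J → A.D))
    (hl : ∀ d, ∀ x ∈ N, (fun j => d * x j) ∈ N) (hr : ∀ d, ∀ x ∈ N, (fun j => x j * d) ∈ N)
    (hN : N ≠ ⊤) : ∃ c : J → A.K, c ≠ 0 ∧ ∀ x ∈ N, ∑ j, c j • x j = 0 := by
  classical
  obtain ⟨m, p, q, hp, -⟩ := A.exists_AZ
  let emb : (J → A.K) →ₗ[A.K] (J → A.D) := (Algebra.linearMap A.K A.D).compLeft J
  let U : Submodule A.K (J → A.K) := N.comap emb
  have hU : ∀ x ∈ N, ∀ d, (fun j => A.τ (d * x j)) ∈ U := by
    intro x hx d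
    have : emb (fun j => A.τ (d * x j)) = ∑ s, fun j => p s * (d * x j) * q s := by
      funext j
      simp [emb, ← hp, Finset.sum_apply]
    change emb _ ∈ N
    rw [this]
    exact sum_mem fun s _ => hr _ _ (hl _ _ (hl _ _ hx))
  have hUne : U ≠ ⊤ := by
    intro hUt
    apply hN
    rw [eq_top_iff]
    intro x _
    rw [← Finset.univ_sum_single x]
    refine sum_mem fun j _ => ?_
    have h1 : emb (Pi.single j 1) ∈ N := by
      change Pi.single j 1 ∈ U
      rw [hUt]; trivial
    convert hl (x j) _ h1 using 1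
    funext j'
    by_cases e : j' = j
    · subst e; simp [emb]
    · simp [emb, e]
  obtain ⟨f, hf, hfU⟩ := Submodule.exists_le_ker_of_lt_top U (lt_top_iff_ne_top.2 hUne)
  have hfa : ∀ u : J → A.K, f u = ∑ j, f (Pi.single j 1) * u j := fun u => by
    conv_lhs => rw [← Finset.univ_sum_single u, map_sum]
    refine Finset.sum_congr rfl fun j _ => ?_
    rw [mul_comm, ← smul_eq_mul, ← map_smul, ← Pi.single_smul', smul_eq_mul, mul_one]
  refine ⟨fun j => f (Pi.single j 1), fun h0 => hf (LinearMap.ext fun u => ?_), fun x hx => ?_⟩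
  · rw [hfa]
    simp [show ∀ j, f (Pi.single j 1) = 0 from fun j => congrFun h0 j]
  · by_contra hne
    have h1 : f _ = 0 := hfU (hU x hx (∑ j, f (Pi.single j 1) • x j)⁻¹)
    rw [hfa] at h1
    have h2 := congrArg A.τ (inv_mul_cancel₀ hne)
    simp only [Finset.mul_sum, mul_smul_comm, map_sum, map_smul, smul_eq_mul, τ_one] at h2
    exact one_ne_zero (h2.symm.trans h1)

/-- product formula for the trace along a compatible ring hom -/
theorem τ_map_mul {A' : CDA} (κ : A.K →+* A'.K) (ι : A.D →+* A'.D)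
    (compat : ∀ c, ι (algebraMap A.K A.D c) = algebraMap A'.K A'.D (κ c)) (d : A.D) {e : A'.D}
    (he : ∀ d', Commute (ι d') e) : A'.τ (ι d * e) = κ (A.τ d) * A'.τ e := by
  obtain ⟨m, p, q, hp, hq⟩ := A.exists_AZ
  have h1 : κ (A.τ d) * A'.τ e = A'.τ (ι (∑ s, p s * d * q s) * e) := by
    rw [hp, compat, ← Algebra.smul_def, map_smul, smul_eq_mul]
  have h2 : A'.τ (ι d * e) = A'.τ (ι (d * ∑ s, q s * p s) * e) := by rw [hq, mul_one]
  rw [h1, h2, Finset.mul_sum, map_sum ι, map_sum ι, Finset.sum_mul, Finset.sum_mul, map_sum,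
    map_sum]
  refine Finset.sum_congr rfl fun s _ => ?_
  simp only [map_mul, mul_assoc]
  rw [A'.τ_mul_comm (ι (p s)), (he (p s)).eq]
  simp only [mul_assoc]

end CDA

end Crest.Agent.R180
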