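import Crest.Agent.R180.Fact

/-! The test move `W = Xt + t^β (t₀ ⊗ i + t ∑ e_l ⊗ j^(l+1))`. -/

set_option autoImplicit false

namespace Crest.Agent.R180

open NC Module

theorem Tor.pt_mem_filt {A A0 A' : CDA} {n : ℕ} (R : Tor A A0 n) (L : Lau A0 A') {M : ℕ}
    (t0 : Fin M → A.K) (β : ℕ) (l : Fin M) : R.pt L t0 β l ∈ L.filt.F β :=
  ⟨_, add_mem (L.smul_mem (L.κ_mem _) (L.ι_mem _)) (L.smul_mem L.t_mem (L.ι_mem _)), rfl⟩

theorem core_ι_mem_liftA {A0 A' : CDA} (L : Lau A0 A') {Y : Subalgebra A0.K A0.D} {x : A0.D}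
    (hx : x ∈ Y) : L.ι x ∈ L.liftA Y :=
  Algebra.subset_adjoin ⟨x, hx, rfl⟩

theorem Tor.pt_mem_liftA {A A0 A' : CDA} {n : ℕ} (R : Tor A A0 n) (L : Lau A0 A') {M : ℕ}
    (t0 : Fin M → A.K) (β : ℕ) (l : Fin M) : R.pt L t0 β l ∈ L.liftA R.Λ :=
  Subalgebra.smul_mem _ (add_mem (Subalgebra.smul_mem _ (core_ι_mem_liftA L R.i_mem) _)
    (Subalgebra.smul_mem _ (core_ι_mem_liftA L (pow_mem R.j_mem _)) _)) _

theorem core_ι_smul {A0 A' : CDA} (L : Lau A0 A') (c : A0.K) (x : A0.D) :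
    L.ι (c • x) = L.κ c • L.ι x := by
  rw [Algebra.smul_def, map_mul, L.compat, Algebra.smul_def]

theorem core_τ_ι {A0 A' : CDA} (L : Lau A0 A') (x : A0.D) : A'.τ (L.ι x) = L.κ (A0.τ x) := by
  have := A0.τ_map_mul L.κ L.ι L.compat x (e := 1) (fun _ => Commute.one_right _)
  rwa [mul_one, A'.τ_one, mul_one] at this

theorem core_prim {A A0 : CDA} {n : ℕ} (R : Tor A A0 n) : IsPrimitiveRoot (R.κ R.ζ) n :=
  R.hζ.map_of_injective R.κ.injective

theorem core_jpow_mul_i {A A0 : CDA} {n : ℕ} (R : Tor A A0 n) (b : ℕ) :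
    R.j ^ b * R.i = R.κ R.ζ ^ b • (R.i * R.j ^ b) := by
  simpa using R.jpow_mul_ipow 1 b

/-- the point with `Xt = 0` generates -/
theorem Tor.gen_pt {A A0 A' : CDA} {n : ℕ} (R : Tor A A0 n) (hn : n.Prime) (L : Lau A0 A')
    {M : ℕ} (hM : 2 ≤ M) (hMn : M < n) {t0 : Fin M → A.K} (ht0 : t0 ≠ 0) (β : ℕ) :
    L.liftA R.Λ ≤ Algebra.adjoin A'.K (Set.range (R.pt L t0 β)) := by
  obtain ⟨l, hl⟩ := Function.ne_iff.1 ht0
  have : Nontrivial (Fin M) := Fin.nontrivial_iff_two_le.2 hM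
  obtain ⟨l', hl'⟩ := exists_ne l
  refine R.gen hn L (R.pt_mem_liftA L t0 β) (Algebra.subset_adjoin ⟨l, rfl⟩)
    (Algebra.subset_adjoin ⟨l', rfl⟩) fun h => ?_
  set α := R.κ (t0 l) with hα
  set α' := R.κ (t0 l') with hα'
  have hα0 : α ≠ 0 := by rw [hα]; exact (map_ne_zero R.κ).2 hl
  set J := R.j ^ (l.val + 1) with hJ
  set J' := R.j ^ (l'.val + 1) with hJ'
  have hJJ : L.ι J * L.ι J' = L.ι J' * L.ι J := by
    rw [← map_mul, ← map_mul, hJ, hJ', ← pow_add, ← pow_add, add_comm]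
  have ht : L.t ^ β * L.t ^ β * L.t ≠ 0 := by simp [L.t_ne]
  have h1 : (L.t ^ β * L.t ^ β * L.t) •
      L.ι (α • (R.i * J' - J' * R.i) - α' • (R.i * J - J * R.i)) = 0 := by
    have h2 := sub_eq_zero.2 h
    simp only [Tor.pt, ← hα, ← hα', ← hJ, ← hJ', smul_mul_smul_comm, add_mul, mul_add, smul_add,
      hJJ] at h2
    simp only [map_sub, core_ι_smul, map_mul]
    rw [← h2]
    module
  have h3 := (smul_eq_zero.1 h1).resolve_left ht
  rw [map_eq_zero, sub_eq_zero, hJ, hJ', core_jpow_mul_i, core_jpow_mul_i] at h3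
  set ζ := R.κ R.ζ
  have hz := core_prim R
  set z := R.i * R.j ^ (l.val + 1) with hzd
  set z' := R.i * R.j ^ (l'.val + 1) with hz'd
  have e1 : z * R.i = ζ ^ (l.val + 1) • (R.i * z) := by
    rw [hzd, mul_assoc, core_jpow_mul_i, mul_smul_comm]
  have e2 : z' * R.i = ζ ^ (l'.val + 1) • (R.i * z') := by
    rw [hz'd, mul_assoc, core_jpow_mul_i, mul_smul_comm]
  have h4 : (α * (1 - ζ ^ (l'.val + 1))) • z' = (α' * (1 - ζ ^ (l.val + 1))) • z := by
    linear_combination (norm := module) h3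
  have h5 := congrArg (· * R.i) h4
  have h6 := congrArg (R.i * ·) h4
  simp only [smul_mul_assoc, mul_smul_comm, e1, e2] at h5 h6
  have h7 : (α * (1 - ζ ^ (l'.val + 1)) * (ζ ^ (l'.val + 1) - ζ ^ (l.val + 1))) • (R.i * z') = 0 := by
    linear_combination (norm := module) h5 - ζ ^ (l.val + 1) • h6
  have hz'0 : R.i * z' ≠ 0 := mul_ne_zero R.i_ne (mul_ne_zero R.i_ne (pow_ne_zero _ R.j_ne))
  have h8 := (smul_eq_zero.1 h7).resolve_right hz'0
  rcases mul_eq_zero.1 h8 with h9 | h9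
  · rcases mul_eq_zero.1 h9 with h10 | h10
    · exact hα0 h10
    · exact hz.pow_ne_one_of_pos_of_lt (Nat.succ_ne_zero _) (by omega) (sub_eq_zero.1 h10).symm
  · have := hz.pow_inj (by omega) (by omega) (sub_eq_zero.1 h9)
    exact hl' (Fin.ext (by omega))

/-- second order expansion of an integral element -/
theorem core_expand {A0 A' : CDA} (L : Lau A0 A') {c : A'.D} (hc : c ∈ L.O) :
    ∃ c1 : A0.D, ∃ y ∈ L.O, c = L.ι (L.red c) + L.t • L.ι c1 + L.t ^ 2 • y := by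
  have step : ∀ x ∈ L.O, ∃ y ∈ L.O, x = L.ι (L.red x) + L.t • y := fun x hx => by
    obtain ⟨y, hy, e⟩ := (L.red_eq_zero (sub_mem hx (L.ι_mem (L.red x)))).1
      (by rw [L.red_sub hx (L.ι_mem _), L.red_ι, sub_self])
    exact ⟨y, hy, by rw [← e]; abel⟩
  obtain ⟨y, hy, e⟩ := step c hc
  obtain ⟨y', hy', e'⟩ := step y hy
  refine ⟨L.red y, y', hy', ?_⟩
  conv_lhs => rw [e, e']
  module

/-- reading off the coefficients of `1` and `t` of a vanishing trace -/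
theorem core_τ_coeff {A0 A' : CDA} (L : Lau A0 A') {x0 x1 : A0.D} {y : A'.D} (hy : y ∈ L.O)
    (h : A'.τ (L.ι x0 + L.t • L.ι x1 + L.t ^ 2 • y) = 0) : A0.τ x0 = 0 ∧ A0.τ x1 = 0 := by
  have red1 : ∀ (x : A0.D) {w : A'.D}, w ∈ L.O → A'.τ (L.ι x + L.t • w) = 0 → A0.τ x = 0 := by
    intro x w hw h
    have hO : L.t • w ∈ L.O := L.smul_mem L.t_mem hw
    have := L.τ_red_eq_zero (add_mem (L.ι_mem x) hO) h
    rwa [L.red_add (L.ι_mem x) hO, L.red_ι, (L.red_eq_zero hO).2 ⟨w, hw, rfl⟩, add_zero] at this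
  have hw : L.ι x1 + L.t • y ∈ L.O := add_mem (L.ι_mem _) (L.smul_mem L.t_mem hy)
  have e : L.ι x0 + L.t • L.ι x1 + L.t ^ 2 • y = L.ι x0 + L.t • (L.ι x1 + L.t • y) := by module
  rw [e] at h
  have h0 := red1 x0 hw h
  refine ⟨h0, red1 x1 hy ?_⟩
  rw [map_add, core_τ_ι, h0, map_zero, zero_add, map_smul, smul_eq_mul] at h
  exact (mul_eq_zero.1 h).resolve_left L.t_ne

/-- reading off the coefficients of `1` and `t` -/
theorem core_coeff {A0 A' : CDA} (L : Lau A0 A') {x0 x1 : A0.D} {y : A'.D} (hy : y ∈ L.O)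
    (h : L.ι x0 + L.t • L.ι x1 + L.t ^ 2 • y = 0) : x0 = 0 ∧ x1 = 0 := by
  have red1 : ∀ (x : A0.D) {w : A'.D}, w ∈ L.O → L.ι x + L.t • w = 0 → x = 0 := by
    intro x w hw h
    have hO : L.t • w ∈ L.O := L.smul_mem L.t_mem hw
    have := congrArg L.red h
    rwa [L.red_add (L.ι_mem x) hO, L.red_ι, (L.red_eq_zero hO).2 ⟨w, hw, rfl⟩, add_zero,
      L.red_zero] at this
  have hw : L.ι x1 + L.t • y ∈ L.O := add_mem (L.ι_mem _) (L.smul_mem L.t_mem hy)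
  have e : L.ι x0 + L.t • L.ι x1 + L.t ^ 2 • y = L.ι x0 + L.t • (L.ι x1 + L.t • y) := by module
  rw [e] at h
  have h0 := red1 x0 hw h
  refine ⟨h0, red1 x1 hy ?_⟩
  rw [h0, map_zero, zero_add] at h
  exact (smul_eq_zero.1 h).resolve_left L.t_ne

/-- the trace computation behind `V2` -/
theorem core_V2 {A A0 : CDA} {n : ℕ} (R : Tor A A0 n) (hn : n.Prime) {M : ℕ} (hMn : M < n)
    (b : Fin M → A.D) {v : A.D} (hbv : ∀ l, Commute (b l) v) {c0 c1 : A0.D}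
    (h0 : c0 * R.i - R.i * c0 = 0)
    (h1 : (c1 * R.i - R.i * c1) + (c0 * (∑ l, R.ι (b l) * R.j ^ (l.val + 1)) -
      (∑ l, R.ι (b l) * R.j ^ (l.val + 1)) * c0) = 0)
    (hc1 : ∀ e ∈ R.Λ, A0.τ (c1 * (R.ι v * e)) = 0) (l0 : Fin M) {a : ℕ} (ha : ¬ n ∣ a) :
    A0.τ (c0 * (R.ι (b l0 * v) * R.i ^ a)) = 0 := by
  set ζ := R.κ R.ζ with hζ
  have hz := core_prim R
  obtain ⟨m0, hm0⟩ : ∃ m0, l0.val + 1 + m0 = n := ⟨n - (l0.val + 1), by omega⟩
  set e := R.i ^ a * R.j ^ m0 with he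
  have heΛ : e ∈ R.Λ := mul_mem (pow_mem R.i_mem _) (pow_mem R.j_mem _)
  have hvi : R.i * R.ι v = R.ι v * R.i := (R.comm v _ R.i_mem).symm.eq
  have t1 : A0.τ ((c1 * R.i - R.i * c1) * (R.ι v * e)) = 0 := by
    have a1 := hc1 (R.i * e) (mul_mem R.i_mem heΛ)
    have a2 := hc1 (e * R.i) (mul_mem heΛ R.i_mem)
    rw [sub_mul, map_sub, mul_assoc R.i, A0.τ_mul_comm R.i]
    rw [mul_assoc c1, ← mul_assoc R.i, hvi, mul_assoc, a1, mul_assoc, mul_assoc, a2, sub_zero]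
  have t2 : A0.τ ((c0 * (∑ l, R.ι (b l) * R.j ^ (l.val + 1)) -
      (∑ l, R.ι (b l) * R.j ^ (l.val + 1)) * c0) * (R.ι v * e)) = 0 := by
    have := congrArg (fun x => A0.τ (x * (R.ι v * e))) h1
    simpa only [add_mul, map_add, t1, zero_add, zero_mul, map_zero] using this
  have term : ∀ l : Fin M, A0.τ (c0 * (R.ι (b l) * R.j ^ (l.val + 1)) * (R.ι v * e)) -
      A0.τ (R.ι (b l) * R.j ^ (l.val + 1) * c0 * (R.ι v * e)) =
      (ζ ^ (a * (l.val + 1)) - 1) *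
        A0.τ (c0 * (R.ι (b l * v) * R.i ^ a) * R.j ^ (l.val + 1 + m0)) := by
    intro l
    have c1' : R.j ^ (l.val + 1) * R.ι v = R.ι v * R.j ^ (l.val + 1) :=
      (R.comm v _ (pow_mem R.j_mem _)).symm.eq
    have c2' : e * R.ι (b l) = R.ι (b l) * e := (R.comm (b l) _ heΛ).symm.eq
    have x1 : c0 * (R.ι (b l) * R.j ^ (l.val + 1)) * (R.ι v * e) =
        ζ ^ (a * (l.val + 1)) • (c0 * (R.ι (b l * v) * R.i ^ a) * R.j ^ (l.val + 1 + m0)) := by
      calc _ = c0 * (R.ι (b l) * ((R.j ^ (l.val + 1) * R.ι v) * e)) := by simp only [mul_assoc]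
        _ = c0 * (R.ι (b l) * (R.ι v * ((R.j ^ (l.val + 1) * R.i ^ a) * R.j ^ m0))) := by
          rw [c1', he]; simp only [mul_assoc]
        _ = _ := by
          rw [R.jpow_mul_ipow, map_mul, pow_add R.j (l.val + 1) m0]
          simp only [smul_mul_assoc, mul_smul_comm, mul_assoc, hζ]
    have x2 : c0 * (R.ι v * e) * (R.ι (b l) * R.j ^ (l.val + 1)) =
        c0 * (R.ι (b l * v) * R.i ^ a) * R.j ^ (l.val + 1 + m0) := by
      calc _ = c0 * (R.ι v * ((e * R.ι (b l)) * R.j ^ (l.val + 1))) := by simp only [mul_assoc]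
        _ = _ := by
          rw [c2', he, (hbv l).eq, map_mul, add_comm (l.val + 1) m0, pow_add R.j m0]
          simp only [mul_assoc]
    rw [x1, mul_assoc (R.ι (b l) * R.j ^ (l.val + 1)), A0.τ_mul_comm (R.ι (b l) * _), x2, map_smul,
      smul_eq_mul]
    ring
  have t3 : ∑ l : Fin M, (ζ ^ (a * (l.val + 1)) - 1) *
      A0.τ (c0 * (R.ι (b l * v) * R.i ^ a) * R.j ^ (l.val + 1 + m0)) = 0 := by
    rw [← t2]
    simp only [← term, sub_mul, Finset.mul_sum, Finset.sum_mul, map_sub, map_sum,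
      Finset.sum_sub_distrib]
  rw [Finset.sum_eq_single l0] at t3
  · obtain ⟨u, hu⟩ := R.j_pow
    have hu0 : u ≠ 0 := by
      rintro rfl
      rw [map_zero] at hu
      exact pow_ne_zero _ R.j_ne hu
    rw [hm0, hu, ← Algebra.commutes, ← Algebra.smul_def, map_smul, smul_eq_mul] at t3
    have hne : ζ ^ (a * (l0.val + 1)) - 1 ≠ 0 := by
      rw [sub_ne_zero, Ne, hz.pow_eq_one_iff_dvd, hn.dvd_mul]
      rintro (h | h)
      · exact ha h
      · exact absurd (Nat.le_of_dvd (Nat.succ_pos _) h) (by omega)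
    exact (mul_eq_zero.1 ((mul_eq_zero.1 t3).resolve_left hne)).resolve_left hu0
  · intro l _ hl
    rw [R.τ_eq_zero_of_rel (m := l.val + 1 + m0) ?_ ?_, mul_zero]
    · rintro ⟨k, hk⟩
      have hl' : l.val ≠ l0.val := fun h => hl (Fin.ext h)
      have := l.2
      have := l0.2
      rcases k with _ | _ | k
      · omega
      · omega
      · have : n * (k + 1 + 1) = n * k + n + n := by ring
        omega
    · have c3 : R.ι (b l * v) * R.i = R.i * R.ι (b l * v) := (R.comm _ _ R.i_mem).eq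
      have c4 : c0 * R.i = R.i * c0 := sub_eq_zero.1 h0
      have c5 : R.i ^ a * R.i = R.i * R.i ^ a := by rw [← pow_succ, ← pow_succ']
      rw [mul_assoc, core_jpow_mul_i, mul_smul_comm]
      congr 1
      calc _ = c0 * (R.ι (b l * v) * (R.i ^ a * R.i)) * R.j ^ (l.val + 1 + m0) := by
            simp only [mul_assoc]
        _ = c0 * ((R.ι (b l * v) * R.i) * R.i ^ a) * R.j ^ (l.val + 1 + m0) := by
            rw [c5]; simp only [mul_assoc]
        _ = (c0 * R.i) * (R.ι (b l * v) * R.i ^ a) * R.j ^ (l.val + 1 + m0) := by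
            rw [c3]; simp only [mul_assoc]
        _ = _ := by rw [c4]; simp only [mul_assoc]
  · simp

theorem exists_core {S : St} {T : Tri S} (hT : T.C1) {t0 : Fin S.M → S.A.K} (ht0 : T.b1 t0 = 1)
    {A0 A' : CDA} {n : ℕ} (R : Tor S.A A0 n) (hn : n.Prime) (hMn : S.M < n) (L : Lau A0 A')
    {lam β : ℕ} (hlam : 2 ≤ lam) (hβ : lam ≤ β) (Xt : Fin S.M → A'.D)
    (hX : ∀ l, Xt l ∈ L.filt.F lam) (hXΛ : ∀ l, Xt l ∈ L.liftA R.Λ)
    (e : NC (Fin S.M) S.A.D →+* A'.D) (he : ∀ f, e f ∈ L.filt.F 0)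
    (heC : ∀ d, e (C d) = L.ι (R.ι d)) (heX : ∀ l, e (X l) = Xt l)
    (hb : e T.b ∈ L.filt.F (β + 2)) {W : Fin S.M → A'.D} (hW : ∀ l, W l = Xt l + R.pt L t0 β l)
    (gen : L.liftA R.Λ ≤ Algebra.adjoin A'.K (Set.range W))
    (T0 : Submodule A0.K (Fin S.M → A0.D)) (h1 : T0 ≤ R.toExt.piΛ (Fin S.M))
    (h2 : Disjoint T0 (L.redP (gauge R.toExt L W)))
    (h3 : R.toExt.piΛ (Fin S.M) ≤ T0 ⊔ L.redP (gauge R.toExt L W)) :
    Nonempty (Core T R L W T0 β) := by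

  classical
  have hWl : ∀ l, W l ∈ L.filt.F 2 := fun l => by
    rw [hW]
    exact add_mem (L.filt.anti hlam (hX l)) (L.filt.anti (hlam.trans hβ) (R.pt_mem_filt L t0 β l))
  have hW1 : ∀ l, W l ∈ L.filt.F 1 := fun l => L.filt.anti (by omega) (hWl l)
  have hWΛ : ∀ l, W l ∈ L.liftA R.Λ := fun l => by
    rw [hW]; exact add_mem (hXΛ l) (R.pt_mem_liftA L t0 β l)
  obtain ⟨M', hM', T', ⟨mv⟩⟩ := exists_mv T R.toExt L W hW1 hWΛ gen T0 h1 h2 h3
  obtain ⟨e', he', he'C, he'X⟩ := exists_eval L.filt (L.ι.comp R.ι)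
    (fun d => L.mem_filt_zero.2 (L.ι_mem _)) W hW1 (fun d l => commute_liftA R.toExt L d (hWΛ l))
  have hc0 : mv.φ T.b [] = e' T.b := mv.c0_eq e' he' he'C he'X T.b
  -- linear combinations of the linear coefficients
  have lin : ∀ (h : Fin S.M → S.A.K) (x : A0.D),
      ∑ l, L.ι (R.ι (T.b [l])) * (L.κ (R.κ (h l)) • L.ι x) = L.ι (R.ι (T.b1 h) * x) := by
    intro h x
    rw [T.b1_apply, map_sum, Finset.sum_mul, map_sum]
    refine Finset.sum_congr rfl fun l _ => ?_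
    rw [R.toExt.ι_smul, smul_mul_assoc, core_ι_smul, map_mul, mul_smul_comm]
  set N0 : A0.D := ∑ l, R.ι (T.b [l]) * R.j ^ (l.val + 1) with hN0
  obtain ⟨y, hy, hc0'⟩ : ∃ y ∈ L.O, mv.φ T.b [] =
      L.t ^ β • (L.ι R.i + L.t • L.ι N0 + L.t ^ 2 • y) := by
    have t1 := taylor1 L.filt e e' he he' (fun d => by rw [heC, he'C]; rfl) (by omega : 1 ≤ lam) hβ
      (fun l => by rw [heX]; exact hX l) (R.pt L t0 β) (R.pt_mem_filt L t0 β)
      (fun l => by rw [he'X, heX, hW]) T.b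
    have t2 : ∑ l, e (C (T.b [l])) * R.pt L t0 β l = L.t ^ β • (L.ι R.i + L.t • L.ι N0) := by
      have := lin t0 R.i
      rw [ht0, map_one, one_mul] at this
      rw [← this, hN0, map_sum, Finset.smul_sum, ← Finset.sum_add_distrib, Finset.smul_sum]
      refine Finset.sum_congr rfl fun l _ => ?_
      rw [heC, Tor.pt, mul_smul_comm, mul_add, mul_smul_comm L.t, map_mul]
    obtain ⟨y, hy, hy'⟩ := add_mem (L.filt.anti (by omega : β + 2 ≤ lam + β) t1) hb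
    refine ⟨y, hy, ?_⟩
    rw [t2] at hy'
    rw [hc0, smul_add, smul_smul, ← pow_add, ← hy']
    abel
  set bh := L.ι R.i + L.t • L.ι N0 + L.t ^ 2 • y with hbh
  have hO2 : ∀ {w}, w ∈ L.O → L.t ^ 2 • w ∈ L.O := fun hw => L.smul_mem (L.tpow_mem 2) hw
  have hO1 : ∀ {w}, w ∈ L.O → L.t • w ∈ L.O := fun hw => L.smul_mem L.t_mem hw
  have hbhO : bh ∈ L.O := add_mem (add_mem (L.ι_mem _) (hO1 (L.ι_mem _))) (hO2 hy)
  have hbhr : L.red bh = R.i := by
    have : bh - L.ι R.i ∈ L.filt.F 1 :=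
      ⟨L.ι N0 + L.t • y, add_mem (L.ι_mem _) (hO1 hy), by rw [hbh]; module⟩
    rw [(L.red_eq_of_sub_mem (L.ι_mem _) this).2, L.red_ι]
  have hcomm : ∀ x ∈ T'.Γ, x * bh = bh * x := fun x hx => by
    have := ((mv.Γ_eq x).1 hx).2.eq
    rw [hc0', mul_smul_comm, smul_mul_assoc] at this
    exact smul_right_injective _ (pow_ne_zero β L.t_ne) this
  -- first-order information from `key_lin`
  have keyA : ∀ c ∈ T'.Γ, c ∈ A'.perp T'.V → ∀ (c0 c1 : A0.D), ∀ w ∈ L.O,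
      c = L.ι c0 + L.t • L.ι c1 + L.t ^ 2 • w → ∀ v ∈ T.V, ∀ x ∈ R.Λ,
      A0.τ (c0 * (R.ι v * x)) = 0 ∧ A0.τ (c1 * (R.ι v * x)) = 0 := by
    rintro c hc hcV c0 c1 w hw hcw _ ⟨h, rfl⟩ x hx
    obtain ⟨_, ⟨z, hz, rfl⟩, hτ⟩ := mv.key_lin hc hcV (by omega : 1 ≤ 2) hWl
      (fun l => L.κ (R.κ (h l)) • L.ι x) (fun l => L.smul_mem (L.κ_mem _) (L.ι_mem _))
      (fun l => Subalgebra.smul_mem _ (core_ι_mem_liftA L hx) _)
    rw [lin] at hτ
    have hcO : c ∈ L.O := hcw ▸ add_mem (add_mem (L.ι_mem _) (hO1 (L.ι_mem _))) (hO2 hw)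
    refine core_τ_coeff L (y := w * L.ι (R.ι (T.b1 h) * x) + c * z)
      (add_mem (mul_mem hw (L.ι_mem _)) (mul_mem hcO hz)) ?_
    rw [← hτ]
    congr 1
    rw [mul_add, mul_smul_comm, map_mul L.ι c0, map_mul L.ι c1]
    nth_rw 2 [hcw]
    simp only [add_mul, smul_mul_assoc]
    module
  have hV' : T'.V ≠ ⊥ := fun hV => by
    have := (keyA 1 (one_mem _) (by rw [hV]; intro v hv; rw [(Submodule.mem_bot _).1 hv]; simp)
      1 0 0 (zero_mem _) (by simp) 1 hT.1 1 (one_mem _)).1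
    simp [A0.τ_one] at this
  have hΓle : L.redS (Subalgebra.toSubmodule T'.Γ) ≤ R.dg (Subalgebra.toSubmodule T.Γ) := by
    intro z hz
    refine R.mem_dg_of_commute hn (mv.redΓ_le hz) ?_
    obtain ⟨x, hx, hxO, rfl⟩ := hz
    have := congrArg L.red (hcomm x hx)
    rwa [L.red_mul hxO hbhO, L.red_mul hbhO hxO, hbhr] at this
  have hEle : R.dg (Subalgebra.toSubmodule T.E) ≤ L.redS (Subalgebra.toSubmodule T'.E) := by
    obtain ⟨B0, hB0⟩ := L.exists_redA T'.E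
    rw [← hB0]
    refine Submodule.span_le.2 ?_
    rintro _ ⟨x, hx, a, rfl⟩
    have m1 : R.ι x ∈ Subalgebra.toSubmodule B0 := hB0 ▸ mv.ι_mem_redE hx
    have m2 : R.i ∈ Subalgebra.toSubmodule B0 := hB0 ▸ ⟨bh, mv.mem_E_of_c0 hc0', hbhO, hbhr⟩
    exact mul_mem (s := B0) m1 (pow_mem (S := B0) m2 a)
  have d1 := Submodule.finrank_mono hΓle
  have d2 := Submodule.finrank_mono hEle
  have dΓ' := L.finrank_redS (Subalgebra.toSubmodule T'.Γ)
  have dE' := L.finrank_redS (Subalgebra.toSubmodule T'.E)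
  have dΓ := R.finrank_dg hn (Subalgebra.toSubmodule T.Γ)
  have dE := R.finrank_dg hn (Subalgebra.toSubmodule T.E)
  rw [Subalgebra.finrank_toSubmodule] at dΓ' dE' dΓ dE
  have m1 := T.μ_mul
  have m2 : T'.μ * finrank A'.K T'.E = finrank A'.K T'.Γ := T'.μ_mul
  have pE : 0 < finrank S.A.K T.E := Module.finrank_pos
  have pΓ : 0 < finrank S.A.K T.Γ := Module.finrank_pos
  have hn0 := hn.pos
  rw [dΓ', dΓ] at d1
  rw [dE', dE] at d2
  have hμle : T'.μ ≤ T.μ := by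
    have : T'.μ * (n * finrank S.A.K T.E) ≤ T.μ * (n * finrank S.A.K T.E) :=
      calc _ ≤ T'.μ * finrank A'.K T'.E := Nat.mul_le_mul_left _ d2
        _ ≤ n * finrank S.A.K T.Γ := m2 ▸ d1
        _ = _ := by rw [← m1]; ring
    exact Nat.le_of_mul_le_mul_right this (Nat.mul_pos hn0 pE)
  have hμ : T'.μ = T.μ := le_antisymm hμle (hT.2 _ T' mv.desc hV')
  have hμ0 : 0 < T.μ := Nat.pos_of_mul_pos_right (m1 ▸ pΓ)
  have d3 : n * finrank S.A.K T.Γ ≤ finrank A'.K T'.Γ :=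
    calc _ = T.μ * (n * finrank S.A.K T.E) := by rw [← m1]; ring
      _ ≤ T.μ * finrank A'.K T'.E := Nat.mul_le_mul_left _ d2
      _ = _ := by rw [← hμ, m2]
  have d4 : finrank A'.K T'.E ≤ n * finrank S.A.K T.E := by
    have : T.μ * finrank A'.K T'.E ≤ T.μ * (n * finrank S.A.K T.E) :=
      calc _ = finrank A'.K T'.Γ := by rw [← hμ, m2]
        _ ≤ n * finrank S.A.K T.Γ := d1
        _ = _ := by rw [← m1]; ring
    exact Nat.le_of_mul_le_mul_left this hμ0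
  have redΓ : L.redS (Subalgebra.toSubmodule T'.Γ) = R.dg (Subalgebra.toSubmodule T.Γ) :=
    Submodule.eq_of_le_of_finrank_le hΓle (by rw [dΓ', dΓ]; exact d3)
  have redE : L.redS (Subalgebra.toSubmodule T'.E) = R.dg (Subalgebra.toSubmodule T.E) :=
    (Submodule.eq_of_le_of_finrank_le hEle (by rw [dE', dE]; exact d4)).symm
  have V1 : R.dg T.V ≤ L.redS T'.V := by
    refine Submodule.span_le.2 ?_
    rintro _ ⟨v, hv, a, rfl⟩
    refine L.mem_redS_of_perp T'.Γ T'.V_le_Γ ?_ fun c hc hcV hcO => ?_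
    · rw [redΓ]
      exact Submodule.subset_span ⟨v, T.V_le_Γ hv, a, rfl⟩
    · obtain ⟨c1, w, hw, hcw⟩ := core_expand L hcO
      exact (keyA c hc hcV _ c1 w hw hcw v hv _ (pow_mem R.i_mem a)).1
  have V2 : R.dg1 (T.V * T.V) ≤ L.redS T'.V := by
    refine Submodule.span_le.2 ?_
    rintro _ ⟨w, hw, a, ha, rfl⟩
    have hwΓ : w ∈ T.Γ := by
      refine Submodule.mul_induction_on hw (fun x hx y hy => ?_) (fun x y hx hy => add_mem hx hy)
      exact mul_mem (s := T.Γ) (T.V_le_Γ hx) (T.V_le_Γ hy)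
    refine L.mem_redS_of_perp T'.Γ T'.V_le_Γ ?_ fun c hc hcV hcO => ?_
    · rw [redΓ]
      exact Submodule.subset_span ⟨w, hwΓ, a, rfl⟩
    · obtain ⟨c1, z, hz, hcz⟩ := core_expand L hcO
      set c0 := L.red c with hc0d
      have hcm := sub_eq_zero.2 (hcomm c hc)
      have hco := core_coeff L (x0 := c0 * R.i - R.i * c0)
        (x1 := (c1 * R.i - R.i * c1) + (c0 * N0 - N0 * c0))
        (y := (L.ι c1 * L.ι N0 - L.ι N0 * L.ι c1) + (z * bh - bh * z) +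
          ((L.ι c0 + L.t • L.ι c1) * y - y * (L.ι c0 + L.t • L.ι c1)))
        (add_mem (add_mem
          (sub_mem (mul_mem (L.ι_mem _) (L.ι_mem _)) (mul_mem (L.ι_mem _) (L.ι_mem _)))
          (sub_mem (mul_mem hz hbhO) (mul_mem hbhO hz)))
          (sub_mem (mul_mem (add_mem (L.ι_mem _) (hO1 (L.ι_mem _))) hy)
            (mul_mem hy (add_mem (L.ι_mem _) (hO1 (L.ι_mem _))))))
        (by
          rw [← hcm, hcz, hbh]
          simp only [map_add, map_sub, map_mul, add_mul, mul_add, smul_mul_assoc, mul_smul_comm]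
          module)
      refine Submodule.mul_induction_on (C := fun w => A0.τ (c0 * (R.ι w * R.i ^ a)) = 0) hw
        (fun v₁ hv₁ v₂ hv₂ => ?_) (fun x y hx hy => ?_)
      · obtain ⟨h, rfl⟩ := hv₁
        rw [T.b1_apply, Finset.sum_mul, map_sum, Finset.sum_mul, Finset.mul_sum, map_sum]
        refine Finset.sum_eq_zero fun l _ => ?_
        rw [smul_mul_assoc, R.toExt.ι_smul, smul_mul_assoc, mul_smul_comm, map_smul,
          core_V2 R hn hMn (fun l => T.b [l])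
            (fun l => (T.E_comm _ (factA hT.2 hv₂) _ (T.b_mem _)).symm) hco.1 hco.2
            (fun x hx => (keyA c hc hcV c0 c1 z hz hcz v₂ hv₂ x hx).2) l ha, smul_zero]
      · rw [map_add, add_mul, mul_add, map_add, hx, hy, add_zero]
  obtain ⟨θ, hθV, hθO, hθr⟩ : (1 : A0.D) ∈ L.redS T'.V :=
    V1 (Submodule.subset_span ⟨1, hT.1, 0, by simp⟩)
  exact ⟨⟨M', hM', T', mv, bh, hbhO, hbhr, hc0', θ, hθV, hθO, hθr,
    A'.inv_mem T'.Γ (T'.V_le_Γ hθV), hT.2.of_desc mv.desc hμle, hμ, redΓ, redE, V1, V2⟩⟩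

end Crest.Agent.R180
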