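import Crest.Agent.R180.Core

/-! The classes `C1`–`C4` are preserved by test moves; the step `q ↦ q - 1`. -/

set_option autoImplicit false

namespace Crest.Agent.R180

open NC Module

theorem Core2_pow_le {K D : Type} [Field K] [Ring D] [Algebra K D] {V : Submodule K D}
    {B : Subalgebra K D} (h : V ≤ Subalgebra.toSubmodule B) (q : ℕ) :
    V ^ q ≤ Subalgebra.toSubmodule B := by
  induction q with
  | zero =>
    rw [pow_zero, Submodule.one_le]
    exact B.one_mem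
  | succ q ih =>
    rw [pow_succ]
    exact Submodule.mul_le.2 fun x hx y hy => B.mul_mem (ih hx) (h hy)

theorem Core2_redS_pow_le {A0 A : CDA} (L : Lau A0 A) (X : Submodule A.K A.D) (q : ℕ) :
    L.redS X ^ q ≤ L.redS (X ^ q) := by
  induction q with
  | zero =>
    rw [pow_zero, pow_zero, Submodule.one_le]
    exact ⟨1, Submodule.one_le.1 le_rfl, one_mem _, L.red_one⟩
  | succ q ih =>
    rw [pow_succ, pow_succ]
    exact (mul_le_mul_left ih _).trans (L.redS_mul_le _ _)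

theorem Core2_finrank_pos {A : CDA} (B : Subalgebra A.K A.D) : 0 < finrank A.K B :=
  Module.finrank_pos

namespace Core
variable {S : St} {T : Tri S} {A0 A' : CDA} {n : ℕ} {R : Tor S.A A0 n} {L : Lau A0 A'}
  {W : Fin S.M → A'.D} {T0 : Submodule A0.K (Fin S.M → A0.D)} {β : ℕ} (c : Core T R L W T0 β)

theorem θ_ne : c.θ ≠ 0 := by
  intro h
  have := c.θ_red
  rw [h, L.red_zero] at this
  exact zero_ne_one this

theorem Core2_desc' : Desc c.T'.b c.T''.b :=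
  c.T'.desc_norm c.θ_inv c.θ_ne (factA c.minMu c.θ_V)

theorem desc : Desc T.b c.T''.b := c.mv.desc.trans c.Core2_desc'

theorem c1 : c.T''.C1 :=
  ⟨(c.T'.mem_norm_V c.θ_inv).2 ⟨c.θ, c.θ_V, (inv_mul_cancel₀ c.θ_ne).symm⟩,
    c.minMu.of_desc c.Core2_desc' le_rfl⟩

theorem μ_eq'' : c.T''.μ = T.μ := c.μ_eq

theorem redV : L.redS c.T''.V = L.redS c.T'.V := by
  obtain ⟨h1, h2⟩ := L.inv_mem_O c.θ_O (by rw [c.θ_red]; exact one_ne_zero)
  rw [c.θ_red, inv_one] at h2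
  apply le_antisymm
  · rintro _ ⟨v, hv, hvO, rfl⟩
    obtain ⟨w, hw, rfl⟩ := (c.T'.mem_norm_V c.θ_inv).1 hv
    have hwO : w ∈ L.O := by
      have := mul_mem c.θ_O hvO
      rwa [mul_inv_cancel_left₀ c.θ_ne] at this
    exact ⟨w, hw, hwO, by rw [L.red_mul h1 hwO, h2, one_mul]⟩
  · rintro _ ⟨w, hw, hwO, rfl⟩
    exact ⟨c.θ⁻¹ * w, (c.T'.mem_norm_V c.θ_inv).2 ⟨w, hw, rfl⟩, mul_mem h1 hwO,
      by rw [L.red_mul h1 hwO, h2, one_mul]⟩

theorem Core2_V1 : R.dg T.V ≤ L.redS c.T''.V := c.redV ▸ c.V1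

theorem Core2_V2 : R.dg1 (T.V * T.V) ≤ L.redS c.T''.V := c.redV ▸ c.V2

theorem c2 (hn : n.Prime) (hT : T.C2) : c.T''.C2 ∧ c.T''.ν = T.ν ∧
    L.redS (Subalgebra.toSubmodule c.T''.E') = R.dg (Subalgebra.toSubmodule T.E') := by
  obtain ⟨B0, hB0⟩ := L.exists_redA c.T''.E'
  have hV : R.dg T.V ≤ Subalgebra.toSubmodule B0 :=
    hB0 ▸ c.Core2_V1.trans (L.redS_mono c.T''.V_le_E')
  have hle : R.dg (Subalgebra.toSubmodule T.E') ≤ L.redS (Subalgebra.toSubmodule c.T''.E') := by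
    rw [← hB0]
    refine R.dg_adjoin_le (fun v hv => hV (Submodule.subset_span ⟨v, hv, 0, by simp⟩))
      (hV (Submodule.subset_span ⟨1, hT.1.1, 1, by simp⟩))
  have d1 : finrank A0.K (R.dg (Subalgebra.toSubmodule T.E')) = n * finrank S.A.K T.E' := by
    rw [R.finrank_dg hn, Subalgebra.finrank_toSubmodule]
  have d2 : finrank A0.K (L.redS (Subalgebra.toSubmodule c.T''.E')) = finrank A'.K c.T''.E' := by
    rw [L.finrank_redS, Subalgebra.finrank_toSubmodule]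
  have d3 : n * finrank S.A.K T.E' ≤ finrank A'.K c.T''.E' := by
    rw [← d1, ← d2]
    exact Submodule.finrank_mono hle
  have d4 : finrank A'.K c.T''.E = n * finrank S.A.K T.E := by
    have := congrArg (fun X : Submodule A0.K A0.D => finrank A0.K X) c.redE
    simp only [L.finrank_redS, R.finrank_dg hn, Subalgebra.finrank_toSubmodule] at this
    exact this
  have d5 := c.T''.ν_mul (factA c.c1.2)
  have d6 := T.ν_mul (factA hT.1.2)
  have p1 : 0 < finrank A'.K c.T''.E' := Core2_finrank_pos (A := A') _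
  have p2 : 0 < finrank S.A.K T.E := Core2_finrank_pos _
  have d7 : c.T''.ν * finrank A'.K c.T''.E' = T.ν * (n * finrank S.A.K T.E') := by
    rw [d5, d4, ← d6]; ring
  have h1 : c.T''.ν ≤ T.ν :=
    Nat.le_of_mul_le_mul_right (d7.le.trans (Nat.mul_le_mul_left _ d3)) p1
  have h2 : c.T''.ν = T.ν := le_antisymm h1 (hT.2 _ _ c.desc c.c1 c.μ_eq'')
  have p3 : 0 < T.ν := Nat.pos_of_mul_pos_right (d6 ▸ p2 : 0 < T.ν * finrank S.A.K T.E')
  rw [h2] at d7
  refine ⟨⟨c.c1, fun S' T' hd h1 hμ => ?_⟩, h2, ?_⟩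
  · rw [h2]
    exact hT.2 S' T' (c.desc.trans hd) h1 (hμ.trans c.μ_eq'')
  · refine (Submodule.eq_of_le_of_finrank_eq hle ?_).symm
    rw [d1, d2, Nat.eq_of_mul_eq_mul_left p3 d7]

theorem pow_step (hn : n.Prime) (hT : T.C2) {q : ℕ} (hq : 2 ≤ q)
    (h : T.V ^ (q + 1) = Subalgebra.toSubmodule T.E') :
    c.T''.V ^ q = Subalgebra.toSubmodule c.T''.E' := by
  refine L.eq_of_le_of_redS_le (Core2_pow_le c.T''.V_le_E' q) ?_
  rw [(c.c2 hn hT).2.2, ← h]
  exact (R.dg_pow_succ_le hn T.V hq c.Core2_V1 c.Core2_V2).trans (Core2_redS_pow_le L _ q)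

theorem c3 (hn : n.Prime) (hT : T.C3) : c.T''.C3 := by
  refine ⟨(c.c2 hn hT.1).1, L.eq_of_le_of_redS_le ?_ ?_⟩
  · rw [← pow_two]
    exact Core2_pow_le c.T''.V_le_E' 2
  · rw [(c.c2 hn hT.1).2.2, ← hT.2]
    exact (R.dg_mul_le _ _).trans ((mul_le_mul' c.Core2_V1 c.Core2_V1).trans (L.redS_mul_le _ _))

theorem c4 (hn : n.Prime) (hT : T.C4) : c.T''.C4 ∧ c.T''.k = T.k ∧
    L.redS c.T'.V = R.dg0 T.V ⊔ R.dg1 (Subalgebra.toSubmodule T.E') := by
  obtain ⟨-, hν, hE⟩ := c.c2 hn hT.1.1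
  have hle : R.dg0 T.V ⊔ R.dg1 (Subalgebra.toSubmodule T.E') ≤ L.redS c.T''.V :=
    sup_le ((R.dg0_le_dg _).trans c.Core2_V1) (hT.1.2 ▸ c.Core2_V2)
  have d1 := R.finrank_dg0_sup_dg1 hn T.V (Subalgebra.toSubmodule T.E')
  rw [Subalgebra.finrank_toSubmodule] at d1
  have d2 : finrank A0.K (L.redS c.T''.V) = finrank (⟨A', c.M', c.hM'⟩ : St).A.K c.T''.V :=
    L.finrank_redS c.T''.V
  have d3 := Submodule.finrank_mono hle
  have d4 : finrank (⟨A', c.M', c.hM'⟩ : St).A.K c.T''.E' = n * finrank S.A.K T.E' := by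
    have := congrArg (fun X : Submodule A0.K A0.D => finrank A0.K X) hE
    simp only [L.finrank_redS, R.finrank_dg hn, Subalgebra.finrank_toSubmodule] at this
    exact this
  have d5 := c.T''.k_add
  have d6 := T.k_add
  have d7 : n * finrank S.A.K T.E' = (n - 1) * finrank S.A.K T.E' + finrank S.A.K T.E' := by
    rw [← Nat.succ_mul, Nat.succ_eq_add_one, Nat.sub_add_cancel hn.one_le]
  have h1 : T.k ≤ c.T''.k := hT.2 _ _ c.desc (c.c3 hn hT.1) c.μ_eq'' hν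
  have h2 : c.T''.k = T.k := by omega
  refine ⟨⟨c.c3 hn hT.1, fun S' T' hd h3 hμ hν' => ?_⟩, h2, ?_⟩
  · rw [h2]
    exact hT.2 S' T' (c.desc.trans hd) h3 (hμ.trans c.μ_eq'') (hν'.trans hν)
  · rw [← c.redV]
    exact (Submodule.eq_of_le_of_finrank_eq hle (by omega)).symm

end Core

/-- a test move with `Xt = 0`, `β = 2`, for any prime `n > M` and any slice -/
theorem exists_core0 {S : St} {T : Tri S} (hT : T.C1) {t0 : Fin S.M → S.A.K} (ht0 : T.b1 t0 = 1)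
    {A0 A' : CDA} {n : ℕ} (R : Tor S.A A0 n) (hn : n.Prime) (hMn : S.M < n) (L : Lau A0 A')
    (T0 : Submodule A0.K (Fin S.M → A0.D)) (h1 : T0 ≤ R.toExt.piΛ (Fin S.M))
    (h2 : Disjoint T0 (L.redP (gauge R.toExt L (R.pt L t0 2))))
    (h3 : R.toExt.piΛ (Fin S.M) ≤ T0 ⊔ L.redP (gauge R.toExt L (R.pt L t0 2))) :
    Nonempty (Core T R L (R.pt L t0 2) T0 2) := by
  obtain ⟨e, he, heC, heX⟩ := exists_eval (σ := Fin S.M) L.filt (L.ι.comp R.ι)
    (fun d => L.mem_filt_zero.2 (L.ι_mem _)) (fun _ => 0) (fun _ => zero_mem _)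
    fun _ _ => Commute.zero_right _
  have hb : e T.b = 0 := by
    rw [hom_rec e T.b, T.b_nil]
    simp [heX]
  have ht : t0 ≠ 0 := by
    rintro rfl
    rw [map_zero] at ht0
    exact zero_ne_one ht0
  exact exists_core hT ht0 R hn hMn L (lam := 2) le_rfl le_rfl (fun _ => 0)
    (fun _ => zero_mem _) (fun _ => zero_mem _) e he heC heX (hb ▸ zero_mem _)
    (fun l => (zero_add _).symm) (R.gen_pt hn L S.hM hMn ht 2) T0 h1 h2 h3

theorem exists_C3 {S : St} {T : Tri S} (hT : T.C2) :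
    ∃ (S' : St) (T' : Tri S'), Desc T.b T'.b ∧ T'.C3 := by
  obtain ⟨q, hq, h⟩ := S.A.exists_pow_eq_adjoin hT.1.1
  obtain ⟨q, rfl⟩ := Nat.exists_eq_add_of_le' hq
  change T.V ^ (q + 2) = Subalgebra.toSubmodule T.E' at h
  clear hq
  induction q generalizing S with
  | zero => exact ⟨S, T, Desc.refl _, hT, (pow_two T.V).symm.trans h⟩
  | succ q ih =>
    obtain ⟨n, hMn, hn⟩ := Nat.exists_infinite_primes (S.M + 1)
    obtain ⟨A0, ⟨R⟩⟩ := exists_tor S.A hn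
    obtain ⟨A', ⟨L⟩⟩ := exists_lau A0
    obtain ⟨t0, ht0⟩ := hT.1.1
    obtain ⟨T0, h1, h2, h3⟩ := exists_slice R.toExt L (R.pt_mem_liftA L t0 2)
    obtain ⟨c⟩ := exists_core0 hT.1 ht0 R hn hMn L T0 h1 h2 h3
    obtain ⟨S', T', hd, h3⟩ := ih (c.c2 hn hT).1 (c.pow_step hn hT (by omega) h)
    exact ⟨S', T', c.desc.trans hd, h3⟩

end Crest.Agent.R180
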