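import Crest.Agent.R180.NC

/-! Definitions for row 180 (Kurosh problem for division rings). -/

set_option autoImplicit false

namespace Crest.Agent.R180

open NC Module

/-! ### Filtrations -/

/-- A complete separated multiplicative filtration (`F 0` is a subring, not necessarily all). -/
structure Filt (A : Type) [Ring A] where
  F : ℕ → AddSubgroup A
  one_mem : (1 : A) ∈ F 0
  anti : ∀ {a b : ℕ}, a ≤ b → F b ≤ F a
  mul_mem : ∀ {a b : ℕ} {x y : A}, x ∈ F a → y ∈ F b → x * y ∈ F (a + b)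
  sep : ∀ x, (∀ N, x ∈ F N) → x = 0
  compl : ∀ s : ℕ → A, (∀ N, s (N + 1) - s N ∈ F N) → ∃ x, ∀ N, x - s N ∈ F N

namespace Filt

/-- the trivial filtration `F 0 = ⊤`, `F (n+1) = ⊥` -/
def triv (D : Type) [Ring D] : Filt D where
  F n := if n = 0 then ⊤ else ⊥
  one_mem := by simp
  anti {a b} h := by
    by_cases ha : a = 0
    · simp [ha]
    · have : b ≠ 0 := by omega
      simp [this]
  mul_mem {a b x y} hx hy := by
    by_cases ha : a = 0
    · by_cases hb : b = 0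
      · simp [ha, hb]
      · simp [hb] at hy; simp [hy]
    · simp [ha] at hx; simp [hx]
  sep x h := by simpa using h 1
  compl s h := by
    refine ⟨s 1, fun N => ?_⟩
    by_cases hN : N = 0
    · simp [hN]
    · have : ∀ n, s (n + 1) = s 1 := by
        intro n
        induction n with
        | zero => rfl
        | succ n ih =>
          have := h (n + 1)
          simp only [Nat.add_eq_zero_iff, one_ne_zero, and_false, if_false, AddSubgroup.mem_bot,
            sub_eq_zero] at this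
          rw [this, ih]
      obtain ⟨n, rfl⟩ := Nat.exists_eq_succ_of_ne_zero hN
      simp [this n]

theorem mem_triv {D : Type} [Ring D] (n : ℕ) (x : D) : x ∈ (triv D).F n ↔ (n ≠ 0 → x = 0) := by
  by_cases h : n = 0 <;> simp [triv, h]

/-- total-degree filtration on `NC σ B` -/
def nc {B : Type} [Ring B] (Φ : Filt B) (σ : Type) : Filt (NC σ B) where
  F N :=
    { carrier := {f | ∀ u, f u ∈ Φ.F (N - u.length)}
      add_mem' := fun hf hg u => add_mem (hf u) (hg u)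
      zero_mem' := fun u => zero_mem _
      neg_mem' := fun hf u => neg_mem (hf u) }
  one_mem u := by
    cases u with
    | nil => exact Φ.one_mem
    | cons a u => exact zero_mem _
  anti h f hf u := Φ.anti (by omega) (hf u)
  mul_mem {a b x y} hx hy u := by
    rw [NC.mul_apply]
    refine sum_mem fun k hk => Φ.anti ?_ (Φ.mul_mem (hx _) (hy _))
    simp only [Finset.mem_range] at hk
    simp only [List.length_take, List.length_drop]
    omega
  sep x h := by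
    ext u
    exact Φ.sep _ fun N => by simpa using h (N + u.length) u
  compl s h := by
    have key : ∀ u : List σ, ∃ x : B, ∀ N, x - s (N + u.length) u ∈ Φ.F N := fun u =>
      Φ.compl (fun N => s (N + u.length) u) fun N => by
        have := h (N + u.length) u
        simp only [Nat.add_sub_cancel, NC.sub_apply] at this
        simpa [Nat.add_right_comm N 1] using this
    choose x hx using key
    refine ⟨x, fun N u => ?_⟩
    change x u - s N u ∈ _
    rcases le_total u.length N with hle | hle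
    · have := hx u (N - u.length)
      rwa [Nat.sub_add_cancel hle] at this
    · have h0 : N - u.length = 0 := by omega
      have tele : ∀ k, s (N + k) u - s N u ∈ Φ.F 0 := by
        intro k
        induction k with
        | zero => simp
        | succ k ih =>
          have h1 : s (N + k + 1) u - s (N + k) u ∈ Φ.F 0 := Φ.anti (Nat.zero_le _) (h (N + k) u)
          have := add_mem h1 ih
          rwa [sub_add_sub_cancel] at this
      have h2 := hx u 0
      have h3 := tele (u.length - N)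
      rw [show N + (u.length - N) = 0 + u.length by omega] at h3
      have := add_mem h2 h3
      rw [sub_add_sub_cancel] at this
      rwa [h0]

theorem mem_nc {B : Type} [Ring B] (Φ : Filt B) {σ : Type} (N : ℕ) (f : NC σ B) :
    f ∈ (Φ.nc σ).F N ↔ ∀ u, f u ∈ Φ.F (N - u.length) := Iff.rfl

theorem mem_nc_triv {B : Type} [Ring B] {σ : Type} (N : ℕ) (f : NC σ B) :
    f ∈ ((triv B).nc σ).F N ↔ ∀ u : List σ, u.length < N → f u = 0 := by
  simp only [mem_nc, mem_triv]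
  exact forall_congr' fun u => ⟨fun h hu => h (by omega), fun h hu => h (by omega)⟩

end Filt

/-! ### Words -/

/-- the words of length `p` -/
def wds (σ : Type) [Fintype σ] [DecidableEq σ] : ℕ → Finset (List σ)
  | 0 => {[]}
  | p + 1 => (Finset.univ ×ˢ wds σ p).image fun x => x.1 :: x.2

theorem mem_wds {σ : Type} [Fintype σ] [DecidableEq σ] {p : ℕ} {u : List σ} :
    u ∈ wds σ p ↔ u.length = p := by
  induction p generalizing u with
  | zero => simp [wds]
  | succ p ih =>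
    cases u with
    | nil => simp [wds]
    | cons a u => simp [wds, ih]

theorem sum_wds_succ {σ M : Type} [Fintype σ] [DecidableEq σ] [AddCommMonoid M] (p : ℕ)
    (F : List σ → M) : ∑ u ∈ wds σ (p + 1), F u = ∑ l, ∑ u ∈ wds σ p, F (l :: u) := by
  rw [wds, Finset.sum_image, Finset.sum_product]
  rintro ⟨a, u⟩ _ ⟨b, v⟩ _ h
  simpa using h

/-- the value of a word -/
def wd {σ A : Type} [Monoid A] (y : σ → A) (u : List σ) : A := (u.map y).prod

@[simp] theorem wd_nil {σ A : Type} [Monoid A] (y : σ → A) : wd y [] = 1 := rfl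
@[simp] theorem wd_cons {σ A : Type} [Monoid A] (y : σ → A) (l : σ) (u : List σ) :
    wd y (l :: u) = y l * wd y u := by simp [wd]

/-- the derivative of the value of a word at `y` in direction `z` -/
def dwd {σ A : Type} [Ring A] (y z : σ → A) : List σ → A
  | [] => 0
  | l :: u => z l * wd y u + y l * dwd y z u

@[simp] theorem dwd_nil {σ A : Type} [Ring A] (y z : σ → A) : dwd y z [] = 0 := rfl
@[simp] theorem dwd_cons {σ A : Type} [Ring A] (y z : σ → A) (l : σ) (u : List σ) :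
    dwd y z (l :: u) = z l * wd y u + y l * dwd y z u := rfl

/-! ### Central division algebras -/

/-- A finite-dimensional central division algebra over a field of characteristic zero with
all roots of unity of prime order. -/
structure CDA where
  K : Type
  D : Type
  [fK : Field K]
  [cz : CharZero K]
  [dD : DivisionRing D]
  [alg : Algebra K D]
  [fd : FiniteDimensional K D]
  [cen : Algebra.IsCentral K D]
  roots : ∀ n : ℕ, n.Prime → ∃ ζ : K, IsPrimitiveRoot ζ n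

attribute [instance] CDA.fK CDA.cz CDA.dD CDA.alg CDA.fd CDA.cen

/-- the normalised trace -/
noncomputable def CDA.τ (A : CDA) : A.D →ₗ[A.K] A.K :=
  ((finrank A.K A.D : A.K)⁻¹) • (LinearMap.trace A.K A.D ∘ₗ (Algebra.lmul A.K A.D).toLinearMap)

/-- orthogonal complement for the trace form -/
def CDA.perp (A : CDA) (V : Submodule A.K A.D) : Submodule A.K A.D where
  carrier := {c | ∀ v ∈ V, A.τ (c * v) = 0}
  add_mem' hc hd v hv := by rw [add_mul, map_add, hc v hv, hd v hv, add_zero]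
  zero_mem' v _ := by simp
  smul_mem' a c hc v hv := by rw [smul_mul_assoc, map_smul, hc v hv, smul_zero]

theorem CDA.mem_perp (A : CDA) {V : Submodule A.K A.D} {c : A.D} :
    c ∈ A.perp V ↔ ∀ v ∈ V, A.τ (c * v) = 0 := Iff.rfl

/-- `A0.D = A.D ⊗ Λ` -/
structure Ext (A A0 : CDA) where
  κ : A.K →+* A0.K
  ι : A.D →+* A0.D
  compat : ∀ c, ι (algebraMap A.K A.D c) = algebraMap A0.K A0.D (κ c)
  Λ : Subalgebra A0.K A0.D
  comm : ∀ d, ∀ e ∈ Λ, Commute (ι d) e
  span_top : Submodule.span A0.K {z | ∃ d, ∃ e ∈ Λ, z = ι d * e} = ⊤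

/-- the trivial extension -/
def Ext.refl (A : CDA) : Ext A A where
  κ := RingHom.id _
  ι := RingHom.id _
  compat _ := rfl
  Λ := ⊥
  comm d e he := by
    obtain ⟨c, rfl⟩ := Algebra.mem_bot.1 he
    exact (Algebra.commutes c d).symm
  span_top := by
    rw [eq_top_iff]
    intro z _
    exact Submodule.subset_span ⟨z, 1, one_mem _, by simp⟩

/-- `Γ ⊗ Λ` -/
def Ext.big {A A0 : CDA} (X : Ext A A0) (Γ : Subalgebra A.K A.D) : Subalgebra A0.K A0.D :=
  Algebra.adjoin A0.K (X.ι '' Γ ∪ X.Λ)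

/-- `Λ ^ M` -/
def Ext.piΛ {A A0 : CDA} (X : Ext A A0) (J : Type) : Submodule A0.K (J → A0.D) :=
  Submodule.pi Set.univ fun _ => Subalgebra.toSubmodule X.Λ

/-- extension by a quantum torus `Λ = ⟨i, j⟩`, `j i = ζ i j` -/
structure Tor (A A0 : CDA) (n : ℕ) extends Ext A A0 where
  ζ : A.K
  hζ : IsPrimitiveRoot ζ n
  i : A0.D
  j : A0.D
  i_ne : i ≠ 0
  j_ne : j ≠ 0
  rel : j * i = κ ζ • (i * j)
  i_pow : ∃ u : A0.K, i ^ n = algebraMap A0.K A0.D u
  j_pow : ∃ v : A0.K, j ^ n = algebraMap A0.K A0.D v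
  Λ_eq : Λ = Algebra.adjoin A0.K {i, j}
  transc : ∀ f : Polynomial A.K, f.eval 1 ≠ 0 → Polynomial.aeval i (f.map κ) ≠ 0

namespace Tor
variable {A A0 : CDA} {n : ℕ} (R : Tor A A0 n)
/-- `X ⊗ F₀[i]` -/
def dg (X : Submodule A.K A.D) : Submodule A0.K A0.D :=
  Submodule.span A0.K {z | ∃ x ∈ X, ∃ a : ℕ, z = R.ι x * R.i ^ a}
/-- `X ⊗ F₀` -/
def dg0 (X : Submodule A.K A.D) : Submodule A0.K A0.D :=
  Submodule.span A0.K (R.ι '' X)
/-- `X ⊗ (⊕_{a ≢ 0} F₀ i ^ a)` -/
def dg1 (X : Submodule A.K A.D) : Submodule A0.K A0.D :=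
  Submodule.span A0.K {z | ∃ x ∈ X, ∃ a : ℕ, ¬ n ∣ a ∧ z = R.ι x * R.i ^ a}
end Tor

/-- `A.D = A0.D((t))`, `A.K = A0.K((t))`, `O = A0.D[[t]]`, `red` = reduction mod `t` -/
structure Lau (A0 A : CDA) where
  κ : A0.K →+* A.K
  ι : A0.D →+* A.D
  compat : ∀ c, ι (algebraMap A0.K A0.D c) = algebraMap A.K A.D (κ c)
  t : A.K
  t_ne : t ≠ 0
  O : Subring A.D
  ι_mem : ∀ x, ι x ∈ O
  t_mem : algebraMap A.K A.D t ∈ O
  red : A.D → A0.D
  red_add : ∀ {x y}, x ∈ O → y ∈ O → red (x + y) = red x + red y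
  red_mul : ∀ {x y}, x ∈ O → y ∈ O → red (x * y) = red x * red y
  red_ι : ∀ x, red (ι x) = x
  red_eq_zero : ∀ {x}, x ∈ O → (red x = 0 ↔ ∃ y ∈ O, x = t • y)
  redK : ∀ c : A.K, algebraMap A.K A.D c ∈ O →
    ∃ c₀ : A0.K, red (algebraMap A.K A.D c) = algebraMap A0.K A0.D c₀
  bdd : ∀ x, ∃ N : ℕ, t ^ N • x ∈ O
  sep : ∀ x, (∀ N : ℕ, ∃ y ∈ O, x = t ^ N • y) → x = 0
  compl : ∀ s : ℕ → A.D, (∀ N, ∃ y ∈ O, s (N + 1) - s N = t ^ N • y) →
    ∃ x, ∀ N, ∃ y ∈ O, x - s N = t ^ N • y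
  dim : finrank A.K A.D = finrank A0.K A0.D

namespace Lau
variable {A0 A : CDA} (L : Lau A0 A)

theorem smul_mem {c : A.K} (hc : algebraMap A.K A.D c ∈ L.O) {x : A.D} (hx : x ∈ L.O) :
    c • x ∈ L.O := by rw [Algebra.smul_def]; exact mul_mem hc hx

theorem κ_mem (c : A0.K) : algebraMap A.K A.D (L.κ c) ∈ L.O := L.compat c ▸ L.ι_mem _

theorem tpow_mem (N : ℕ) : algebraMap A.K A.D (L.t ^ N) ∈ L.O := by
  rw [map_pow]; exact pow_mem L.t_mem N

theorem red_zero : L.red 0 = 0 := by simpa using L.red_ι 0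
theorem red_one : L.red 1 = 1 := by simpa using L.red_ι 1

theorem red_κ_smul (c : A0.K) {x : A.D} (hx : x ∈ L.O) : L.red (L.κ c • x) = c • L.red x := by
  rw [Algebra.smul_def, ← L.compat, L.red_mul (L.ι_mem _) hx, L.red_ι, Algebra.smul_def]

/-- the `t`-adic filtration, `F N = t ^ N O` -/
def filt : Filt A.D where
  F N :=
    { carrier := {x | ∃ y ∈ L.O, x = L.t ^ N • y}
      add_mem' := by
        rintro _ _ ⟨y, hy, rfl⟩ ⟨z, hz, rfl⟩
        exact ⟨y + z, add_mem hy hz, (smul_add _ _ _).symm⟩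
      zero_mem' := ⟨0, zero_mem _, (smul_zero _).symm⟩
      neg_mem' := by
        rintro _ ⟨y, hy, rfl⟩
        exact ⟨-y, neg_mem hy, (smul_neg _ _).symm⟩ }
  one_mem := ⟨1, one_mem _, by simp⟩
  anti {a b} h := by
    rintro _ ⟨y, hy, rfl⟩
    obtain ⟨c, rfl⟩ := Nat.exists_eq_add_of_le h
    exact ⟨L.t ^ c • y, L.smul_mem (L.tpow_mem c) hy, by rw [pow_add, mul_smul]⟩
  mul_mem := by
    rintro a b _ _ ⟨y, hy, rfl⟩ ⟨z, hz, rfl⟩
    exact ⟨y * z, mul_mem hy hz, by rw [smul_mul_smul_comm, pow_add]⟩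
  sep := L.sep
  compl := L.compl

theorem mem_filt {N : ℕ} {x : A.D} : x ∈ L.filt.F N ↔ ∃ y ∈ L.O, x = L.t ^ N • y := Iff.rfl

theorem mem_filt_zero {x : A.D} : x ∈ L.filt.F 0 ↔ x ∈ L.O := by
  simp [mem_filt]

/-- reduction of a subspace -/
def redS (X : Submodule A.K A.D) : Submodule A0.K A0.D where
  carrier := {z | ∃ x ∈ X, x ∈ L.O ∧ L.red x = z}
  add_mem' := by
    rintro _ _ ⟨x, hx, hxO, rfl⟩ ⟨y, hy, hyO, rfl⟩
    exact ⟨x + y, add_mem hx hy, add_mem hxO hyO, L.red_add hxO hyO⟩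
  zero_mem' := ⟨0, zero_mem _, zero_mem _, L.red_zero⟩
  smul_mem' := by
    rintro c _ ⟨x, hx, hxO, rfl⟩
    exact ⟨L.κ c • x, X.smul_mem _ hx, L.smul_mem (L.κ_mem c) hxO, L.red_κ_smul c hxO⟩

theorem mem_redS {X : Submodule A.K A.D} {z : A0.D} :
    z ∈ L.redS X ↔ ∃ x ∈ X, x ∈ L.O ∧ L.red x = z := Iff.rfl

/-- reduction of a subspace of `J → D` -/
def redP {J : Type} (X : Submodule A.K (J → A.D)) : Submodule A0.K (J → A0.D) where
  carrier := {z | ∃ x ∈ X, (∀ j, x j ∈ L.O) ∧ ∀ j, L.red (x j) = z j}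
  add_mem' := by
    rintro z z' ⟨x, hx, hxO, h⟩ ⟨y, hy, hyO, h'⟩
    exact ⟨x + y, add_mem hx hy, fun j => add_mem (hxO j) (hyO j), fun j => by
      rw [Pi.add_apply, L.red_add (hxO j) (hyO j), h, h', Pi.add_apply]⟩
  zero_mem' := ⟨0, zero_mem _, fun _ => zero_mem _, fun _ => L.red_zero⟩
  smul_mem' := by
    rintro c z ⟨x, hx, hxO, h⟩
    exact ⟨L.κ c • x, X.smul_mem _ hx, fun j => L.smul_mem (L.κ_mem c) (hxO j), fun j => by
      rw [Pi.smul_apply, L.red_κ_smul c (hxO j), h, Pi.smul_apply]⟩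

theorem mem_redP {J : Type} {X : Submodule A.K (J → A.D)} {z : J → A0.D} :
    z ∈ L.redP X ↔ ∃ x ∈ X, (∀ j, x j ∈ L.O) ∧ ∀ j, L.red (x j) = z j := Iff.rfl

/-- `Y((t))` -/
def lift (Y : Submodule A0.K A0.D) : Submodule A.K A.D := Submodule.span A.K (L.ι '' Y)
/-- `Y((t))` for a subalgebra -/
def liftA (Y : Subalgebra A0.K A0.D) : Subalgebra A.K A.D := Algebra.adjoin A.K (L.ι '' Y)
/-- `Y((t))` in `J → D` -/
def liftP {J : Type} (Y : Submodule A0.K (J → A0.D)) : Submodule A.K (J → A.D) :=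
  Submodule.span A.K ((fun (z : J → A0.D) j => L.ι (z j)) '' Y)

end Lau

/-- the gauge directions `[g, W]`, `g` commuting with the old coefficient algebra -/
def gauge {A A0 A' : CDA} (X : Ext A A0) (L : Lau A0 A') {J : Type} (W : J → A'.D) :
    Submodule A'.K (J → A'.D) where
  carrier := {h | ∃ g, (∀ d, Commute (L.ι (X.ι d)) g) ∧ ∀ l, h l = g * W l - W l * g}
  add_mem' := by
    rintro h h' ⟨g, hg, e⟩ ⟨g', hg', e'⟩
    exact ⟨g + g', fun d => (hg d).add_right (hg' d), fun l => by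
      rw [Pi.add_apply, e, e']; noncomm_ring⟩
  zero_mem' := ⟨0, fun d => Commute.zero_right _, fun l => by simp⟩
  smul_mem' := by
    rintro c h ⟨g, hg, e⟩
    exact ⟨c • g, fun d => (hg d).smul_right c, fun l => by
      rw [Pi.smul_apply, e, smul_sub, smul_mul_assoc, mul_smul_comm]⟩

/-! ### States, morphisms, triples -/

/-- a state: a central division algebra and a number `M ≥ 2` of variables -/
structure St where
  A : CDA
  M : ℕ
  hM : 2 ≤ M

/-- the ring `D⟪w_1, …, w_M⟫` of a state -/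
abbrev St.R (S : St) : Type := NC (Fin S.M) S.A.D

/-- density for the word-length filtration -/
def IsDns {σ K D : Type} [Field K] [Ring D] [Algebra K D] (R : Subalgebra K (NC σ D)) : Prop :=
  ∀ (f : NC σ D) (N : ℕ), ∃ g ∈ R, ∀ u : List σ, u.length < N → g u = f u

/-- morphisms of states -/
structure Mor (S S' : St) where
  κ : S.A.K →+* S'.A.K
  φ : S.R →+* S'.R
  compat : ∀ c, φ (algebraMap S.A.K S.R c) = algebraMap S'.A.K S'.R (κ c)
  dense : ∀ R : Subalgebra S.A.K S.R, IsDns R → IsDns (Algebra.adjoin S'.A.K (φ '' R))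

/-- `b` is a descendant of `a`: making `b` algebraic makes `a` algebraic -/
def Desc {S S' : St} (a : S.R) (b : S'.R) : Prop :=
  ∃ m : Mor S S', ∀ (S'' : St) (m' : Mor S' S''),
    IsAlgebraic S''.A.K (m'.φ b) → IsAlgebraic S''.A.K (m'.φ (m.φ a))

/-- a series without constant term with coefficients in `Γ`, and a central subfield `E` of `Γ` -/
structure Tri (S : St) where
  b : S.R
  Γ : Subalgebra S.A.K S.A.D
  E : Subalgebra S.A.K S.A.D
  b_nil : b [] = 0
  b_mem : ∀ u, b u ∈ Γ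
  E_le : E ≤ Γ
  E_comm : ∀ e ∈ E, ∀ g ∈ Γ, Commute e g

namespace Tri
variable {S : St} (T : Tri S)

/-- the linear part of `b` -/
noncomputable def b1 : (Fin S.M → S.A.K) →ₗ[S.A.K] S.A.D :=
  Fintype.linearCombination S.A.K fun l => T.b [l]

theorem b1_apply (h : Fin S.M → S.A.K) : T.b1 h = ∑ l, h l • T.b [l] := by
  simp [b1, Fintype.linearCombination_apply]

/-- the quadratic part of `b` -/
def b2 (h h' : Fin S.M → S.A.K) : S.A.D := ∑ l, ∑ l', (h l * h' l') • T.b [l, l']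

noncomputable def V : Submodule S.A.K S.A.D := LinearMap.range T.b1
noncomputable def H : Submodule S.A.K (Fin S.M → S.A.K) := LinearMap.ker T.b1
noncomputable def E' : Subalgebra S.A.K S.A.D := Algebra.adjoin S.A.K (T.V : Set S.A.D)
noncomputable def O : Submodule S.A.K S.A.D := Subalgebra.toSubmodule T.E' ⊓ S.A.perp T.V

noncomputable def μ : ℕ := finrank S.A.K T.Γ / finrank S.A.K T.E
noncomputable def ν : ℕ := finrank S.A.K T.E / finrank S.A.K T.E'
noncomputable def k : ℕ := finrank S.A.K T.O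

/-- normalisation `b ↦ θ⁻¹ b` -/
noncomputable def norm (θ : S.A.D) (hθ : θ⁻¹ ∈ T.Γ) : Tri S where
  b := C θ⁻¹ * T.b
  Γ := T.Γ
  E := T.E
  b_nil := by simp [T.b_nil]
  b_mem u := by rw [C_mul_apply]; exact mul_mem hθ (T.b_mem u)
  E_le := T.E_le
  E_comm := T.E_comm

def MinMu : Prop := ∀ (S' : St) (T' : Tri S'), Desc T.b T'.b → T'.V ≠ ⊥ → T.μ ≤ T'.μ
def C1 : Prop := (1 : S.A.D) ∈ T.V ∧ T.MinMu
def C2 : Prop := T.C1 ∧ ∀ (S' : St) (T' : Tri S'), Desc T.b T'.b → T'.C1 → T'.μ = T.μ → T.ν ≤ T'.ν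
def C3 : Prop := T.C2 ∧ T.V * T.V = Subalgebra.toSubmodule T.E'
def C4 : Prop := T.C3 ∧ ∀ (S' : St) (T' : Tri S'), Desc T.b T'.b → T'.C3 → T'.μ = T.μ →
  T'.ν = T.ν → T.k ≤ T'.k

/-- Structure of the leading term of `b(φ)` for substitutions `φ` in two variables. -/
def Unobs : Prop :=
  ∀ (ψ : S.R →+* NC (Fin 2) S.A.D) (φ : Fin S.M → NC (Fin 2) S.A.K),
    (∀ d, ψ (C d) = C d) → (∀ l, ψ (X l) = NC.map (algebraMap S.A.K S.A.D) (φ l)) → (∀ l, φ l [] = 0) →
    LinearIndependent S.A.K (fun (a : Fin 2) (l : Fin S.M) => φ l [a]) →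
    ∀ p : ℕ, 2 ≤ p → (∀ u : List (Fin 2), u.length < p → ψ T.b u = 0) →
    ∀ u : List (Fin 2), u.length = p → ψ T.b u ∈ T.E' ∧
      ∀ γ ∈ T.O, ∑ m ∈ Finset.range p, S.A.τ (γ * ψ T.b (u.rotate m)) = 0

/-- The forms `Q_γ = τ(γ b₂)` on `H` are very nondegenerate. -/
def Nondeg : Prop :=
  2 ≤ finrank S.A.K T.H ∧ ∀ γ ∈ T.O, γ ≠ 0 → ∀ H' ≤ T.H,
    finrank S.A.K T.H ≤ finrank S.A.K H' + 2 * T.k →
    ∃ h ∈ H', ∃ h' ∈ H', S.A.τ (γ * T.b2 h h') ≠ 0

end Tri

/-- The data of a move to the point `W` with slice `T0`. -/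
structure Mv {S : St} (T : Tri S) {A0 A' : CDA} (X : Ext S.A A0) (L : Lau A0 A')
    (W : Fin S.M → A'.D) (T0 : Submodule A0.K (Fin S.M → A0.D)) {M' : ℕ} {hM' : 2 ≤ M'}
    (T' : Tri ⟨A', M', hM'⟩) where
  W_mem : ∀ l, W l ∈ L.filt.F 1
  W_Λ : ∀ l, W l ∈ L.liftA X.Λ
  T0_le : T0 ≤ X.piΛ (Fin S.M)
  T0_disj : Disjoint T0 (L.redP (gauge X L W))
  T0_sup : X.piΛ (Fin S.M) ≤ T0 ⊔ L.redP (gauge X L W)
  φ : NC (Fin S.M) S.A.D →+* NC (Fin M') A'.D
  τb : Fin M' → Fin S.M → A0.D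
  τb_li : LinearIndependent A0.K τb
  τb_span : Submodule.span A0.K (Set.range τb) = T0
  φ_bdd : ∀ f, φ f ∈ (L.filt.nc (Fin M')).F 0
  φ_C : ∀ d, φ (C d) = C (L.ι (X.ι d))
  φ_X : ∀ l, φ (NC.X l) = C (W l) + ∑ s, C (L.ι (τb s l)) * NC.X s
  φb_mem : ∀ u, φ T.b u ∈ L.liftA (X.big T.Γ)
  g : NC (Fin M') A'.D
  g_nil : g [] = 1
  g_mem : ∀ u, g u ∈ L.liftA (X.big T.Γ)
  conj : g * φ T.b = (C (φ T.b []) + T'.b) * g
  Γ_eq : ∀ x, x ∈ T'.Γ ↔ x ∈ L.liftA (X.big T.Γ) ∧ Commute x (φ T.b [])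
  E_eq : T'.E = Algebra.adjoin A'.K ((fun e => L.ι (X.ι e)) '' T.E ∪ {φ T.b []})
  desc : Desc T.b T'.b

/-- the test point `t^β (t₀ ⊗ i + t ∑ e_l ⊗ j^(l+1))` -/
noncomputable def Tor.pt {A A0 A' : CDA} {n : ℕ} (R : Tor A A0 n) (L : Lau A0 A') {M : ℕ}
    (t0 : Fin M → A.K) (β : ℕ) (l : Fin M) : A'.D :=
  L.t ^ β • (L.κ (R.κ (t0 l)) • L.ι R.i + L.t • L.ι (R.j ^ (l.val + 1)))

/-- The outcome of a test move from a triple of class `C1`. -/
structure Core {S : St} (T : Tri S) {A0 A' : CDA} {n : ℕ} (R : Tor S.A A0 n) (L : Lau A0 A')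
    (W : Fin S.M → A'.D) (T0 : Submodule A0.K (Fin S.M → A0.D)) (β : ℕ) where
  M' : ℕ
  hM' : 2 ≤ M'
  T' : Tri ⟨A', M', hM'⟩
  mv : Mv T R.toExt L W T0 T'
  bh : A'.D
  bh_O : bh ∈ L.O
  bh_red : L.red bh = R.i
  c0_eq : mv.φ T.b [] = L.t ^ β • bh
  θ : A'.D
  θ_V : θ ∈ T'.V
  θ_O : θ ∈ L.O
  θ_red : L.red θ = 1
  θ_inv : θ⁻¹ ∈ T'.Γ
  minMu : T'.MinMu
  μ_eq : T'.μ = T.μ
  redΓ : L.redS (Subalgebra.toSubmodule T'.Γ) = R.dg (Subalgebra.toSubmodule T.Γ)
  redE : L.redS (Subalgebra.toSubmodule T'.E) = R.dg (Subalgebra.toSubmodule T.E)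
  V1 : R.dg T.V ≤ L.redS T'.V
  V2 : R.dg1 (T.V * T.V) ≤ L.redS T'.V

/-- the normalised new triple -/
noncomputable def Core.T'' {S : St} {T : Tri S} {A0 A' : CDA} {n : ℕ} {R : Tor S.A A0 n}
    {L : Lau A0 A'} {W : Fin S.M → A'.D} {T0 : Submodule A0.K (Fin S.M → A0.D)} {β : ℕ}
    (c : Core T R L W T0 β) : Tri ⟨A', c.M', c.hM'⟩ := c.T'.norm c.θ c.θ_inv

end Crest.Agent.R180
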