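import Crest.Agent.R180.Defs

/-! Evaluation of noncommutative power series in complete filtered rings; Taylor formulas.
Everything follows from the recursion `NC.eq_C_add_sum` by induction on the filtration degree. -/

set_option autoImplicit false

namespace Crest.Agent.R180

open NC

variable {σ D A : Type} [Fintype σ] [DecidableEq σ] [Ring D] [Ring A] (Φ : Filt A)

omit [Fintype σ] [DecidableEq σ] [Ring D] in
theorem Eval_mul_mem {a b c : ℕ} {x y : A} (hx : x ∈ Φ.F a) (hy : y ∈ Φ.F b) (h : c ≤ a + b) :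
    x * y ∈ Φ.F c := Φ.anti h (Φ.mul_mem hx hy)

/-- partial sums of the evaluation -/
def EvalS (ι : D →+* A) (W : σ → A) : ℕ → NC σ D → A
  | 0, _ => 0
  | N + 1, f => ι (f []) + ∑ l, W l * EvalS ι W N (sh l f)

omit [DecidableEq σ] in
theorem Eval_exists_fun (ι : D →+* A) (hι : ∀ d, ι d ∈ Φ.F 0) (W : σ → A)
    (hW : ∀ l, W l ∈ Φ.F 1) : ∃ e : NC σ D → A, (∀ f, e f ∈ Φ.F 0) ∧
      ∀ f, e f = ι (f []) + ∑ l, W l * e (sh l f) := by
  have h1 : ∀ N (f : NC σ D), EvalS ι W (N + 1) f - EvalS ι W N f ∈ Φ.F N := by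
    intro N
    induction N with
    | zero => intro f; simpa [EvalS] using hι _
    | succ N ih =>
      intro f
      rw [EvalS, EvalS, add_sub_add_left_eq_sub, ← Finset.sum_sub_distrib]
      refine sum_mem fun l _ => ?_
      rw [← mul_sub]
      exact Eval_mul_mem Φ (hW l) (ih _) (by omega)
  choose e he using fun f : NC σ D => Φ.compl (fun N => EvalS ι W N f) (fun N => h1 N f)
  refine ⟨e, fun f => by simpa [EvalS] using he f 0, fun f => ?_⟩
  rw [← sub_eq_zero]
  refine Φ.sep _ fun N => ?_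
  have a1 := he f (N + 1)
  have a2 : ∑ l, W l * (e (sh l f) - EvalS ι W N (sh l f)) ∈ Φ.F (N + 1) :=
    sum_mem fun l _ => Eval_mul_mem Φ (hW l) (he _ N) (by omega)
  have a3 := sub_mem a1 a2
  refine Φ.anti (Nat.le_succ N) ?_
  convert a3 using 1
  simp only [EvalS, mul_sub, Finset.sum_sub_distrib]
  abel

omit [DecidableEq σ] [Ring D] in
/-- a bounded family satisfying a homogeneous recursion vanishes -/
theorem Eval_zero_of_rec {I : Type} (W : σ → A) (hW : ∀ l, W l ∈ Φ.F 1) (g : I → A)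
    (hg : ∀ i, g i ∈ Φ.F 0) (nx : σ → I → I) (h : ∀ i, g i = ∑ l, W l * g (nx l i)) (i : I) :
    g i = 0 := by
  refine Φ.sep _ fun N => ?_
  induction N generalizing i with
  | zero => exact hg i
  | succ N ih =>
    rw [h]
    exact sum_mem fun l _ => Eval_mul_mem Φ (hW l) (ih _) (by omega)

theorem exists_eval (ι : D →+* A) (hι : ∀ d, ι d ∈ Φ.F 0) (W : σ → A) (hW : ∀ l, W l ∈ Φ.F 1)
    (hc : ∀ d l, Commute (ι d) (W l)) :
    ∃ e : NC σ D →+* A, (∀ f, e f ∈ Φ.F 0) ∧ (∀ d, e (C d) = ι d) ∧ ∀ l, e (X l) = W l := by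
  obtain ⟨e, he0, he⟩ := Eval_exists_fun Φ ι hι W hW
  have hadd : ∀ f g, e (f + g) = e f + e g := by
    intro f g
    have := Eval_zero_of_rec Φ W hW (fun p : NC σ D × NC σ D => e (p.1 + p.2) - (e p.1 + e p.2))
      (fun p => sub_mem (he0 _) (add_mem (he0 _) (he0 _))) (fun l p => (sh l p.1, sh l p.2))
      (fun p => by
        rw [he (p.1 + p.2), he p.1, he p.2]
        simp only [NC.add_apply, map_add, sh_add, mul_sub, mul_add, Finset.sum_sub_distrib,
          Finset.sum_add_distrib]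
        abel) (f, g)
    exact sub_eq_zero.1 this
  have hzero : e 0 = 0 := by simpa using hadd 0 0
  have hC : ∀ d, e (C d) = ι d := fun d => by rw [he]; simp [hzero]
  have hCm : ∀ d g, e (C d * g) = ι d * e g := by
    intro d g
    have := Eval_zero_of_rec Φ W hW (fun g : NC σ D => e (C d * g) - ι d * e g)
      (fun g => sub_mem (he0 _) (Φ.mul_mem (hι d) (he0 g))) (fun l g => sh l g)
      (fun g => by
        rw [he (C d * g), he g]
        simp only [sh_mul, C_nil, sh_C, zero_mul, add_zero, C_mul_apply, map_mul, mul_sub, mul_add,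
          Finset.sum_sub_distrib, Finset.mul_sum, ← mul_assoc, (hc d _).eq]
        abel) g
    exact sub_eq_zero.1 this
  have hmul : ∀ f g, e (f * g) = e f * e g := by
    intro f g
    have := Eval_zero_of_rec Φ W hW (fun f : NC σ D => e (f * g) - e f * e g)
      (fun f => sub_mem (he0 _) (Φ.mul_mem (he0 f) (he0 g))) (fun l f => sh l f)
      (fun f => by
        have e1 : ι (f []) * e g = ι (f []) * ι (g []) + ∑ l, W l * (ι (f []) * e (sh l g)) := by
          rw [he g, mul_add, Finset.mul_sum]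
          simp only [← mul_assoc, (hc _ _).eq]
        rw [he (f * g), he f, add_mul, e1]
        simp only [sh_mul, hadd, hCm, mul_nil, map_mul, mul_sub, mul_add, Finset.sum_sub_distrib,
          Finset.sum_add_distrib, Finset.sum_mul, mul_assoc]
        abel) f
    exact sub_eq_zero.1 this
  have hone : e 1 = 1 := by rw [← map_one (C : D →+* NC σ D), hC, map_one]
  refine ⟨⟨⟨⟨e, hone⟩, hmul⟩, hzero, hadd⟩, he0, hC, fun l => ?_⟩
  change e (X l) = W l
  rw [he, Finset.sum_eq_single l (fun a _ ha => by rw [sh_X, if_neg ha, hzero, mul_zero])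
    (by simp), sh_X, if_pos rfl, hone]
  simp

theorem hom_rec (e : NC σ D →+* A) (f : NC σ D) :
    e f = e (C (f [])) + ∑ l, e (X l) * e (sh l f) := by
  conv_lhs => rw [eq_C_add_sum f]
  simp [map_sum]

theorem hom_congr (e e' : NC σ D →+* A) (he : ∀ f, e f ∈ Φ.F 0) (he' : ∀ f, e' f ∈ Φ.F 0)
    (hC : ∀ d, e (C d) = e' (C d)) (hX : ∀ l, e (X l) ∈ Φ.F 1) {c : ℕ}
    (h : ∀ l, e (X l) - e' (X l) ∈ Φ.F c) (f : NC σ D) : e f - e' f ∈ Φ.F c := by
  have key : ∀ N, ∀ f : NC σ D, e f - e' f ∈ Φ.F (min c N) := by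
    intro N
    induction N with
    | zero => intro f; simpa using sub_mem (he f) (he' f)
    | succ N ih =>
      intro f
      rw [hom_rec e, hom_rec e', hC, add_sub_add_left_eq_sub, ← Finset.sum_sub_distrib]
      refine sum_mem fun l _ => ?_
      rw [show e (X l) * e (sh l f) - e' (X l) * e' (sh l f) =
        e (X l) * (e (sh l f) - e' (sh l f)) + (e (X l) - e' (X l)) * e' (sh l f) by noncomm_ring]
      exact add_mem (Eval_mul_mem Φ (hX l) (ih _) (by omega))
        (Eval_mul_mem Φ (h l) (he' _) (by omega))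
  simpa using key c f

theorem hom_ext (e e' : NC σ D →+* A) (he : ∀ f, e f ∈ Φ.F 0) (he' : ∀ f, e' f ∈ Φ.F 0)
    (hC : ∀ d, e (C d) = e' (C d)) (hX : ∀ l, e (X l) ∈ Φ.F 1)
    (h : ∀ l, e (X l) = e' (X l)) : e = e' := by
  ext f
  rw [← sub_eq_zero]
  exact Φ.sep _ fun N => hom_congr Φ e e' he he' hC hX (fun l => by simp [h l]) f

theorem hom_mem (e : NC σ D →+* A) (he : ∀ f, e f ∈ Φ.F 0) {a : ℕ} (hX : ∀ l, e (X l) ∈ Φ.F a)
    {N : ℕ} {f : NC σ D} (hf : ∀ u : List σ, u.length < N → f u = 0) : e f ∈ Φ.F (a * N) := by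
  induction N generalizing f with
  | zero => exact he f
  | succ N ih =>
    rw [hom_rec e, hf [] (by simp), map_zero, map_zero, zero_add]
    refine sum_mem fun l _ => Eval_mul_mem Φ (hX l) (ih fun u hu => ?_) (by rw [mul_add]; omega)
    exact hf _ (by simpa using hu)

/-- leading homogeneous part -/
theorem hom_sub_hmg (e : NC σ D →+* A) (he : ∀ f, e f ∈ Φ.F 0) {a : ℕ}
    (hX : ∀ l, e (X l) ∈ Φ.F a) {p : ℕ} {f : NC σ D}
    (hf : ∀ u : List σ, u.length < p → f u = 0) :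
    e f - ∑ u ∈ wds σ p, e (C (f u)) * wd (fun l => e (X l)) u ∈ Φ.F (a * (p + 1)) := by
  induction p generalizing f with
  | zero =>
    rw [hom_rec e f]
    simp only [wds, Finset.sum_singleton, wd_nil, mul_one, add_sub_cancel_left, zero_add]
    exact sum_mem fun l _ => Eval_mul_mem Φ (hX l) (he _) (by omega)
  | succ p ih =>
    rw [hom_rec e f, hf [] (by simp), map_zero, map_zero, zero_add, sum_wds_succ,
      ← Finset.sum_sub_distrib]
    refine sum_mem fun l _ => ?_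
    have h1 := ih (f := sh l f) fun u hu => hf _ (by simpa using hu)
    have h2 := Eval_mul_mem Φ (hX l) h1 (c := a * (p + 1 + 1)) (by rw [mul_add a (p + 1)]; omega)
    convert h2 using 1
    rw [mul_sub, Finset.mul_sum]
    congr 1
    refine Finset.sum_congr rfl fun u _ => ?_
    rw [wd_cons, sh_apply, ← mul_assoc, ← mul_assoc, ← map_mul, ← map_mul, (C_comm_X _ _).eq]

theorem taylor1 (e e' : NC σ D →+* A) (he : ∀ f, e f ∈ Φ.F 0) (he' : ∀ f, e' f ∈ Φ.F 0)
    (hC : ∀ d, e (C d) = e' (C d)) {a c : ℕ} (ha : 1 ≤ a) (hac : a ≤ c)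
    (hX : ∀ l, e (X l) ∈ Φ.F a) (z : σ → A) (hz : ∀ l, z l ∈ Φ.F c)
    (h : ∀ l, e' (X l) = e (X l) + z l) (f : NC σ D) :
    e' f - e f - ∑ l, e (C (f [l])) * z l ∈ Φ.F (a + c) := by
  have hX' : ∀ l, e' (X l) ∈ Φ.F a := fun l => by
    rw [h]; exact add_mem (hX l) (Φ.anti hac (hz l))
  have hcz : ∀ d l, e (C d) * z l = z l * e' (C d) := fun d l => by
    have h1 : z l = e' (X l) - e (X l) := by rw [h]; abel
    rw [h1, mul_sub, sub_mul, ← map_mul e, (C_comm_X _ _).eq, map_mul e, hC, ← map_mul e',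
      (C_comm_X _ _).eq, map_mul e']
  rw [hom_rec e f, hom_rec e' f, hC, add_sub_add_left_eq_sub, ← Finset.sum_sub_distrib,
    ← Finset.sum_sub_distrib]
  refine sum_mem fun l _ => ?_
  have h1 := hom_congr Φ e' e he' he (fun d => (hC d).symm) (fun l => Φ.anti ha (hX' l)) (c := c)
    (fun l => by rw [h]; simpa using hz l) (sh l f)
  have h2 : e' (sh l f) - e' (C (f [l])) ∈ Φ.F a := by
    rw [hom_rec e' (sh l f), sh_apply, add_sub_cancel_left]
    exact sum_mem fun l' _ => Eval_mul_mem Φ (hX' l') (he' _) (by omega)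
  have h3 := add_mem (Eval_mul_mem Φ (hX l) h1 le_rfl)
    (Eval_mul_mem Φ (hz l) h2 (c := a + c) (by omega))
  convert h3 using 1
  rw [hcz, h]
  noncomm_ring

theorem taylor2 (e e' : NC σ D →+* A) (he : ∀ f, e f ∈ Φ.F 0) (he' : ∀ f, e' f ∈ Φ.F 0)
    (hC : ∀ d, e (C d) = e' (C d)) {a c : ℕ} (ha : 1 ≤ a) (hac : 2 * a ≤ c)
    (hX : ∀ l, e (X l) ∈ Φ.F a) (z : σ → A) (hz : ∀ l, z l ∈ Φ.F c)
    (h : ∀ l, e' (X l) = e (X l) + z l) (f : NC σ D) :
    e' f - e f - ∑ l, e (C (f [l])) * z l -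
      ∑ l, ∑ l', e (C (f [l, l'])) * (e (X l) * z l' + z l * e (X l')) ∈ Φ.F (c + 2 * a) := by
  have hac' : a ≤ c := by omega
  have hX' : ∀ l, e' (X l) ∈ Φ.F a := fun l => by
    rw [h]; exact add_mem (hX l) (Φ.anti hac' (hz l))
  have hcx : ∀ d l, e (C d) * e (X l) = e (X l) * e (C d) := fun d l => by
    rw [← map_mul, ← map_mul, (C_comm_X _ _).eq]
  have hcz : ∀ d l, e (C d) * z l = z l * e (C d) := fun d l => by
    have h1 : z l = e' (X l) - e (X l) := by rw [h]; abel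
    rw [h1, mul_sub, sub_mul, hcx, hC, ← map_mul e', (C_comm_X _ _).eq, map_mul e']
  rw [hom_rec e f, hom_rec e' f, hC, add_sub_add_left_eq_sub, ← Finset.sum_sub_distrib,
    ← Finset.sum_sub_distrib, ← Finset.sum_sub_distrib]
  refine sum_mem fun l _ => ?_
  have h1 := taylor1 Φ e e' he he' hC ha hac' hX z hz h (sh l f)
  have h2 := hom_congr Φ e' e he' he (fun d => (hC d).symm) (fun l => Φ.anti ha (hX' l)) (c := c)
    (fun l => by rw [h]; simpa using hz l) (sh l f)
  have h3 : e (sh l f) - e (C (f [l])) - ∑ l', e (X l') * e (C (f [l, l'])) ∈ Φ.F (2 * a) := by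
    rw [hom_rec e (sh l f), sh_apply, add_sub_cancel_left, ← Finset.sum_sub_distrib]
    refine sum_mem fun l' _ => ?_
    rw [← mul_sub]
    refine Eval_mul_mem Φ (hX l') (b := a) ?_ (by omega)
    rw [hom_rec e (sh l' (sh l f)), sh_apply, sh_apply, add_sub_cancel_left]
    exact sum_mem fun l'' _ => Eval_mul_mem Φ (hX l'') (he _) (by omega)
  have h4 := add_mem (add_mem (Eval_mul_mem Φ (hX l) h1 (c := c + 2 * a) (by omega))
    (Eval_mul_mem Φ (hz l) h2 (c := c + 2 * a) (by omega)))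
    (Eval_mul_mem Φ (hz l) h3 (c := c + 2 * a) (by omega))
  convert h4 using 1
  have e1 : ∑ l', e (C (f [l, l'])) * (e (X l) * z l' + z l * e (X l')) =
      e (X l) * ∑ l', e (C (sh l f [l'])) * z l' + z l * ∑ l', e (X l') * e (C (f [l, l'])) := by
    rw [Finset.mul_sum, Finset.mul_sum, ← Finset.sum_add_distrib]
    refine Finset.sum_congr rfl fun l' _ => ?_
    rw [mul_add, ← mul_assoc, ← mul_assoc, hcx, hcz, sh_apply, mul_assoc, mul_assoc, hcx]
  rw [e1, hcz, h]
  noncomm_ring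

/-- a bounded derivation along `e` vanishing on constants and variables vanishes -/
theorem deriv_ext (e : NC σ D →+* A) (hX : ∀ l, e (X l) ∈ Φ.F 1)
    (δ : NC σ D →+ A) (hδ : ∀ f, δ f ∈ Φ.F 0) (leib : ∀ f g, δ (f * g) = δ f * e g + e f * δ g)
    (hC : ∀ d, δ (C d) = 0) (hδX : ∀ l, δ (X l) = 0) (f : NC σ D) : δ f = 0 := by
  refine Eval_zero_of_rec Φ (fun l => e (X l)) hX δ hδ (fun l f => sh l f) (fun f => ?_) f
  conv_lhs => rw [eq_C_add_sum f]
  simp [map_sum, leib, hC, hδX]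

/-- values lie in closed subrings -/
theorem hom_mem_closed (e : NC σ D →+* A) (he : ∀ f, e f ∈ Φ.F 0) (hX : ∀ l, e (X l) ∈ Φ.F 1)
    (B : Subring A) (hB : ∀ x, (∀ N, ∃ y ∈ B, x - y ∈ Φ.F N) → x ∈ B)
    (hXB : ∀ l, e (X l) ∈ B) {f : NC σ D} (hf : ∀ u, e (C (f u)) ∈ B) : e f ∈ B := by
  refine hB _ fun N => ?_
  induction N generalizing f with
  | zero => exact ⟨0, zero_mem _, by simpa using he f⟩
  | succ N ih =>
    choose y hy hy' using fun l => ih (f := sh l f) (fun u => hf _)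
    refine ⟨e (C (f [])) + ∑ l, e (X l) * y l,
      add_mem (hf _) (sum_mem fun l _ => mul_mem (hXB l) (hy l)), ?_⟩
    rw [hom_rec e f, add_sub_add_left_eq_sub, ← Finset.sum_sub_distrib]
    refine sum_mem fun l _ => ?_
    rw [← mul_sub]
    exact Eval_mul_mem Φ (hX l) (hy' l) (by omega)

omit [Fintype σ] [DecidableEq σ] in
theorem wd_apply_nil {τ B : Type} [Ring B] (y : σ → NC τ B) (u : List σ) :
    wd y u [] = wd (fun l => y l []) u := by
  induction u with
  | nil => rfl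
  | cons l u ih => simp [ih]

omit [Fintype σ] [DecidableEq σ] in
theorem wd_apply_singleton {τ B : Type} [Ring B] (y : σ → NC τ B) (u : List σ) (s : τ) :
    wd y u [s] = dwd (fun l => y l []) (fun l => y l [s]) u := by
  induction u with
  | nil => rfl
  | cons l u ih => rw [wd_cons, mul_singleton, ih, wd_apply_nil, dwd_cons, add_comm]

/-- the linear coefficient of a value: first-order expansion. If the constant terms of the
arguments lie in `F a` then `(e f)[s] ≡ ∑ f[l] · (e w_l)[s]` modulo `F a`. -/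
theorem hom_singleton {τ B : Type} [Ring B] (Ψ : Filt B) (e : NC σ D →+* NC τ B)
    (he : ∀ f, e f ∈ (Ψ.nc τ).F 0) (ι : D →+* B) (hC : ∀ d, e (C d) = C (ι d)) {a : ℕ}
    (ha : 1 ≤ a) (hX : ∀ l, e (X l) [] ∈ Ψ.F a) (f : NC σ D) (s : τ) :
    e f [s] - ∑ l, ι (f [l]) * e (X l) [s] ∈ Ψ.F a := by
  have h0 : ∀ g u, e g u ∈ Ψ.F 0 := fun g u => by simpa using he g u
  rw [hom_rec e f, NC.add_apply, hC, C_cons, zero_add, NC.sum_apply, ← Finset.sum_sub_distrib]
  refine sum_mem fun l _ => ?_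
  have h1 : ι (f [l]) * e (X l) [s] = e (X l) [s] * ι (f [l]) := by
    rw [← C_mul_apply, ← mul_C_apply, ← hC, ← map_mul, ← map_mul, (C_comm_X _ _).eq]
  have h2 : e (sh l f) [] - ι (f [l]) ∈ Ψ.F a := by
    rw [hom_rec e (sh l f), NC.add_apply, hC, C_nil, sh_apply, add_sub_cancel_left, NC.sum_apply]
    exact sum_mem fun l' _ => Eval_mul_mem Ψ (hX l') (h0 _ _) (by omega)
  rw [mul_singleton, h1, add_sub_assoc, ← mul_sub]
  exact add_mem (Eval_mul_mem Ψ (hX l) (h0 _ _) (by omega))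
    (Eval_mul_mem Ψ (h0 _ _) h2 (by omega))

omit [Fintype σ] [DecidableEq σ] in
/-- series with constant term `1` are units -/
theorem isUnit_of_nil {g : NC σ D} (hg : g [] = 1) : IsUnit g := by
  set Ψ := (Filt.triv D).nc σ with hΨ
  have h0 : ∀ x, x ∈ Ψ.F 0 := fun x => (Filt.mem_nc_triv 0 x).2 (by simp)
  have hr : 1 - g ∈ Ψ.F 1 := (Filt.mem_nc_triv 1 _).2 fun u hu => by
    obtain rfl : u = [] := List.length_eq_zero_iff.1 (by omega)
    simp [hg]
  have hp : ∀ N, (1 - g) ^ N ∈ Ψ.F N := by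
    intro N
    induction N with
    | zero => exact h0 _
    | succ N ih => rw [pow_succ]; exact Ψ.mul_mem ih hr
  obtain ⟨x, hx⟩ := Ψ.compl (fun N => ∑ i ∈ Finset.range N, (1 - g) ^ i) fun N => by
    simpa [Finset.sum_range_succ] using hp N
  refine ⟨⟨g, x, ?_, ?_⟩, rfl⟩
  · rw [← sub_eq_zero]
    refine Ψ.sep _ fun N => ?_
    have h1 := mul_neg_geom_sum (1 - g) N
    rw [sub_sub_cancel] at h1
    have h2 := sub_mem (Eval_mul_mem Ψ (h0 g) (hx N) (c := N) (by omega)) (hp N)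
    convert h2 using 1
    rw [mul_sub, h1]; abel
  · rw [← sub_eq_zero]
    refine Ψ.sep _ fun N => ?_
    have h1 := geom_sum_mul_neg (1 - g) N
    rw [sub_sub_cancel] at h1
    have h2 := sub_mem (Eval_mul_mem Ψ (hx N) (h0 g) (c := N) (by omega)) (hp N)
    convert h2 using 1
    rw [sub_mul, h1]; abel

end Crest.Agent.R180
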