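import Crest.Agent.R180.Lau
import Crest.Agent.R180.Eval

/-! Density of subalgebras of `D⟪w⟫` and its propagation. -/

set_option autoImplicit false

namespace Crest.Agent.R180

open NC

theorem Dense_lt_two {σ : Type} {P : List σ → Prop} (h0 : P []) (h1 : ∀ s, P [s]) :
    ∀ u : List σ, u.length < 2 → P u
  | [], _ => h0
  | [s], _ => h1 s
  | _ :: _ :: _, h => absurd h (by simp)

/-- Nakayama: density modulo degree two suffices -/
theorem isDns_of_two {σ K D : Type} [Fintype σ] [DecidableEq σ] [Field K] [Ring D] [Algebra K D]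
    (R : Subalgebra K (NC σ D))
    (h : ∀ f : NC σ D, ∃ g ∈ R, ∀ u : List σ, u.length < 2 → g u = f u) : IsDns R := by
  set Ψ := (Filt.triv D).nc σ with hΨ
  have h0 : ∀ x, x ∈ Ψ.F 0 := fun x => (Filt.mem_nc_triv 0 x).2 (by simp)
  have h2 : ∀ f : NC σ D, ∃ g ∈ R, f - g ∈ Ψ.F 2 := fun f => by
    obtain ⟨g, hg, hg'⟩ := h f
    exact ⟨g, hg, (Filt.mem_nc_triv 2 _).2 fun u hu => by simp [hg' u hu]⟩
  have hX : ∀ l, (X l : NC σ D) ∈ Ψ.F 1 := fun l => (Filt.mem_nc_triv 1 _).2 fun u hu => by
    obtain rfl : u = [] := List.length_eq_zero_iff.1 (by omega)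
    simp
  choose x hxR hx using fun l => h2 (X l)
  have hx1 : ∀ l, x l ∈ Ψ.F 1 := fun l => by
    simpa using sub_mem (hX l) (Ψ.anti (by omega : 1 ≤ 2) (hx l))
  have P : ∀ N, ∀ f ∈ Ψ.F N, ∃ g ∈ R, f - g ∈ Ψ.F (N + 1) := by
    intro N
    induction N with
    | zero =>
      intro f _
      obtain ⟨g, hg, hg'⟩ := h2 f
      exact ⟨g, hg, Ψ.anti (by omega) hg'⟩
    | succ N ih =>
      intro f hf
      have hf' := (Filt.mem_nc_triv _ _).1 hf
      have hs : ∀ l, sh l f ∈ Ψ.F N := fun l => (Filt.mem_nc_triv _ _).2 fun u hu =>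
        hf' _ (by simpa using hu)
      choose g hgR hg using fun l => ih _ (hs l)
      refine ⟨∑ l, x l * g l, sum_mem fun l _ => mul_mem (hxR l) (hgR l), ?_⟩
      conv => enter [2, 1]; rw [eq_C_add_sum f]
      rw [hf' [] (by simp), map_zero, zero_add, ← Finset.sum_sub_distrib]
      refine sum_mem fun l _ => ?_
      rw [show X l * sh l f - x l * g l = (X l - x l) * sh l f + x l * (sh l f - g l) by
        noncomm_ring]
      exact add_mem (Eval_mul_mem Ψ (hx l) (hs l) (by omega))
        (Eval_mul_mem Ψ (hx1 l) (hg l) (by omega))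
  have Q : ∀ N, ∀ f : NC σ D, ∃ g ∈ R, f - g ∈ Ψ.F N := by
    intro N
    induction N with
    | zero => exact fun f => ⟨0, zero_mem _, h0 _⟩
    | succ N ih =>
      intro f
      obtain ⟨g, hg, hg'⟩ := ih f
      obtain ⟨g', hg1, hg2⟩ := P N _ hg'
      exact ⟨g + g', add_mem hg hg1, by rwa [← sub_sub]⟩
  intro f N
  obtain ⟨g, hg, hg'⟩ := Q N f
  exact ⟨g, hg, fun u hu => (sub_eq_zero.1 ((Filt.mem_nc_triv _ _).1 hg' u hu)).symm⟩

theorem not_finite_of_isDns {σ K D : Type} [Nonempty σ] [Field K] [Ring D] [Nontrivial D]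
    [Algebra K D] {R : Subalgebra K (NC σ D)} (h : IsDns R) : ¬ FiniteDimensional K R := by
  classical
  intro hfin
  obtain ⟨a⟩ := ‹Nonempty σ›
  set N := Module.finrank K R + 1 with hN
  choose g hgR hg using fun i : Fin N =>
    h (fun u : List σ => if u.length = i.val then (1 : D) else 0) N
  have hli : LinearIndependent K fun i : Fin N => (⟨g i, hgR i⟩ : R) := by
    rw [Fintype.linearIndependent_iff]
    intro c hc j
    have h1 : ∑ i, c i • g i = 0 := by
      simpa using congrArg Subtype.val hc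
    have h2 := congrArg (fun f : NC σ D => f (List.replicate j.val a)) h1
    simp only [NC.sum_apply, NC.smul_apply, NC.zero_apply] at h2
    rw [Finset.sum_eq_single j] at h2
    · rw [hg j _ (by simp)] at h2
      simpa using h2
    · intro i _ hij
      rw [hg i _ (by simp)]
      have : ¬ (j.val = i.val) := fun e => hij (Fin.ext e.symm)
      simp [this]
    · simp
  have := hli.fintype_card_le_finrank
  simp only [Fintype.card_fin] at this
  omega

theorem isDns_adjoin_X {σ K : Type} [Fintype σ] [DecidableEq σ] [Field K] :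
    IsDns (Algebra.adjoin K (Set.range (X : σ → NC σ K))) := by
  refine isDns_of_two _ fun f => ⟨algebraMap K (NC σ K) (f []) + ∑ l, f [l] • X l, ?_, ?_⟩
  · exact add_mem (Subalgebra.algebraMap_mem _ _) (sum_mem fun l _ =>
      Subalgebra.smul_mem _ (Algebra.subset_adjoin (Set.mem_range_self l)) _)
  · refine Dense_lt_two ?_ fun s => ?_
    · simp [algebraMap_eq, NC.sum_apply]
    · simp [algebraMap_eq, NC.sum_apply]

/-- substitutions with linearly independent linear parts preserve density -/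
theorem isDns_subst {σ σ' K D : Type} [Fintype σ] [DecidableEq σ] [Fintype σ'] [DecidableEq σ']
    [Field K] [Ring D] [Algebra K D] (ψ : NC σ D →+* NC σ' D) (φ : σ → NC σ' K)
    (hC : ∀ d, ψ (C d) = C d) (hX : ∀ l, ψ (X l) = NC.map (algebraMap K D) (φ l))
    (h0 : ∀ l, φ l [] = 0) (hli : LinearIndependent K fun (a : σ') (l : σ) => φ l [a])
    (R : Subalgebra K (NC σ D)) (hR : IsDns R) : IsDns (Algebra.adjoin K (ψ '' R)) := by
  set Ψ := (Filt.triv D).nc σ' with hΨ
  have hz : ∀ x, x ∈ Ψ.F 0 := fun x => (Filt.mem_nc_triv 0 x).2 (by simp)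
  have hX1 : ∀ l, ψ (X l) ∈ Ψ.F 1 := fun l => (Filt.mem_nc_triv 1 _).2 fun u hu => by
    obtain rfl : u = [] := List.length_eq_zero_iff.1 (by omega)
    simp [hX, h0]
  obtain ⟨m, hm⟩ : ∃ m : σ' → σ → K, ∀ a b, ∑ l, m a l * φ l [b] = if b = a then 1 else 0 := by
    obtain ⟨G, hG⟩ := LinearMap.exists_leftInverse_of_injective
      (Fintype.linearCombination K fun (a : σ') (l : σ) => φ l [a])
      (LinearMap.ker_eq_bot.2 hli.fintypeLinearCombination_injective)
    refine ⟨fun a l => G (Pi.single l 1) a, fun a b => ?_⟩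
    have h1 := congrFun (LinearMap.congr_fun hG (Pi.single b 1)) a
    simp only [LinearMap.comp_apply, Fintype.linearCombination_apply_single, one_smul,
      LinearMap.id_apply] at h1
    have h2 : (fun l => φ l [b]) = ∑ l, φ l [b] • (Pi.single l (1 : K) : σ → K) := by
      funext l'
      simp [Finset.sum_apply, Pi.single_apply]
    rw [h2, map_sum, Finset.sum_apply] at h1
    simp only [map_smul, Pi.smul_apply, smul_eq_mul, Pi.single_apply] at h1
    rw [Finset.sum_congr rfl fun l _ => mul_comm _ _, h1]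
    simp [eq_comm]
  refine isDns_of_two _ fun f' => ?_
  obtain ⟨g, hg, hg'⟩ := hR
    (C (f' []) + ∑ a, C (f' [a]) * ∑ l, C (algebraMap K D (m a l)) * X l) 2
  refine ⟨ψ g, Algebra.subset_adjoin ⟨g, hg, rfl⟩, fun u hu => ?_⟩
  have h1 := hom_mem Ψ ψ (fun f => hz _) hX1 (N := 2)
    (f := g - (C (f' []) + ∑ a, C (f' [a]) * ∑ l, C (algebraMap K D (m a l)) * X l))
    (fun u hu => by rw [NC.sub_apply, hg' u hu, sub_self])
  have h2 := (Filt.mem_nc_triv _ _).1 h1 u hu
  rw [map_sub, NC.sub_apply, sub_eq_zero] at h2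
  rw [h2]
  simp only [map_add, map_sum, map_mul, hC, hX]
  revert u
  intro u hu _
  refine Dense_lt_two (P := fun u => (C (f' []) + ∑ a, C (f' [a]) *
    ∑ l, C (algebraMap K D (m a l)) * NC.map (algebraMap K D) (φ l) : NC σ' D) u = f' u)
    ?_ (fun s => ?_) u hu
  · simp [NC.sum_apply, h0]
  · simp only [NC.add_apply, C_cons, zero_add, NC.sum_apply, C_mul_apply, NC.map_apply,
      ← map_mul, ← map_sum, hm]
    simp [apply_ite (algebraMap K D)]

/-- moves preserve density -/
theorem isDns_move {A A0 A' : CDA} (X : Ext A A0) (L : Lau A0 A') {σ σ' : Type} [Fintype σ]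
    [DecidableEq σ] [Fintype σ'] [DecidableEq σ'] (W : σ → A'.D) (hW : ∀ l, W l ∈ L.filt.F 1)
    (gen : L.liftA X.Λ ≤ Algebra.adjoin A'.K (Set.range W))
    (τb : σ' → σ → A0.D) (hli : LinearIndependent A0.K τb)
    (hdisj : Disjoint (Submodule.span A0.K (Set.range τb)) (L.redP (gauge X L W)))
    (φ : NC σ A.D →+* NC σ' A'.D) (hφ : ∀ f, φ f ∈ (L.filt.nc σ').F 0)
    (hC : ∀ d, φ (C d) = C (L.ι (X.ι d)))
    (hX : ∀ l, φ (NC.X l) = C (W l) + ∑ s, C (L.ι (τb s l)) * NC.X s)
    (R : Subalgebra A.K (NC σ A.D)) (hR : IsDns R) : IsDns (Algebra.adjoin A'.K (φ '' R)) := by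
  set R' := Algebra.adjoin A'.K (φ '' R) with hR'
  have hXn : ∀ l, φ (NC.X l) [] = W l := fun l => by simp [hX, NC.sum_apply]
  have hXs : ∀ l s, φ (NC.X l) [s] = L.ι (τb s l) := fun l s => by simp [hX, NC.sum_apply]
  have hX1 : ∀ l, φ (NC.X l) ∈ (L.filt.nc σ').F 1 := fun l u => by
    cases u with
    | nil => rw [hXn]; exact hW l
    | cons a u => simpa using hφ (NC.X l) (a :: u)
  -- jets of values of `φ` are jets of elements of `R'`
  have hjet : ∀ f, ∃ r ∈ R', r [] = φ f [] ∧ ∀ s, r [s] = φ f [s] := by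
    intro f
    let jet : NC σ' A'.D →ₗ[A'.K] (Option σ' → A'.D) :=
      { toFun := fun f j => f j.toList
        map_add' := fun _ _ => rfl
        map_smul' := fun _ _ => rfl }
    obtain ⟨r, hr, hr'⟩ := L.closedP ((Subalgebra.toSubmodule R').map jet) (x := jet (φ f))
      fun N => by
        obtain ⟨g, hg, hg'⟩ := hR f (N + 1)
        refine ⟨jet (φ g), ⟨φ g, Algebra.subset_adjoin ⟨g, hg, rfl⟩, rfl⟩, fun j => ?_⟩
        have h1 := hom_mem (L.filt.nc σ') φ hφ hX1 (N := N + 1) (f := f - g)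
          (fun u hu => by rw [NC.sub_apply, hg' u hu, sub_self]) j.toList
        rw [map_sub] at h1
        refine L.filt.anti ?_ h1
        cases j <;> simp
    exact ⟨r, hr, congrFun hr' none, fun s => congrFun hr' (some s)⟩
  -- constant terms exhaust `D'`
  have hcst : ∀ d : A'.D, ∃ r ∈ R', r [] = d := by
    let B : Subalgebra A'.K A'.D :=
      { carrier := {d | ∃ r ∈ R', r [] = d}
        mul_mem' := by
          rintro _ _ ⟨r, hr, rfl⟩ ⟨r', hr', rfl⟩
          exact ⟨r * r', mul_mem hr hr', rfl⟩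
        add_mem' := by
          rintro _ _ ⟨r, hr, rfl⟩ ⟨r', hr', rfl⟩
          exact ⟨r + r', add_mem hr hr', rfl⟩
        algebraMap_mem' := fun c => ⟨algebraMap _ _ c, Subalgebra.algebraMap_mem _ _, rfl⟩ }
    have hBW : Algebra.adjoin A'.K (Set.range W) ≤ B := by
      refine Algebra.adjoin_le ?_
      rintro _ ⟨l, rfl⟩
      obtain ⟨r, hr, h1, -⟩ := hjet (NC.X l)
      exact ⟨r, hr, h1.trans (hXn l)⟩
    have hBι : ∀ x, L.ι x ∈ B := by
      intro x
      have hx : x ∈ Submodule.span A0.K {z | ∃ d, ∃ e ∈ X.Λ, z = X.ι d * e} := by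
        rw [X.span_top]; trivial
      induction hx using Submodule.span_induction with
      | mem z hz =>
        obtain ⟨d, e, he, rfl⟩ := hz
        rw [map_mul]
        refine mul_mem ?_ (hBW (gen (Algebra.subset_adjoin ⟨e, he, rfl⟩)))
        obtain ⟨r, hr, h1, -⟩ := hjet (C d)
        exact ⟨r, hr, by rw [h1, hC, C_nil]⟩
      | zero => rw [map_zero]; exact zero_mem _
      | add x y _ _ hx hy => rw [map_add]; exact add_mem hx hy
      | smul c x _ hx => rw [L.lau_ι_smul]; exact B.smul_mem hx _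
    have hB : L.lift ⊤ ≤ Subalgebra.toSubmodule B := by
      refine Submodule.span_le.2 ?_
      rintro _ ⟨x, -, rfl⟩
      exact hBι x
    rw [L.lift_top] at hB
    exact fun d => hB (Submodule.mem_top (x := d))
  -- the bimodule of linear parts
  let N : Submodule A'.K (σ' → A'.D) :=
    { carrier := {x | ∃ r ∈ R', r [] = 0 ∧ ∀ s, r [s] = x s}
      add_mem' := by
        rintro x y ⟨r, hr, h0, h1⟩ ⟨r', hr', h0', h1'⟩
        exact ⟨r + r', add_mem hr hr', by simp [h0, h0'], fun s => by simp [h1, h1']⟩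
      zero_mem' := ⟨0, zero_mem _, rfl, fun _ => rfl⟩
      smul_mem' := by
        rintro c x ⟨r, hr, h0, h1⟩
        exact ⟨c • r, R'.smul_mem hr c, by simp [h0], fun s => by simp [h1]⟩ }
  have hN : N = ⊤ := by
    by_contra hN
    obtain ⟨c, hc0, hc⟩ := A'.bimod N (by
      rintro d x ⟨r, hr, h0, h1⟩
      obtain ⟨q, hq, rfl⟩ := hcst d
      exact ⟨q * r, mul_mem hq hr, by simp [h0], fun s => by simp [mul_singleton, h0, h1]⟩) (by
      rintro d x ⟨r, hr, h0, h1⟩
      obtain ⟨q, hq, rfl⟩ := hcst d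
      exact ⟨r * q, mul_mem hr hq, by simp [h0], fun s => by simp [mul_singleton, h0, h1]⟩) hN
    choose q hq hq' using hcst
    have key : ∀ r ∈ R', ∑ s, c s • q (r []) [s] = ∑ s, c s • r [s] := by
      intro r hr
      have := hc (fun s => q (r []) [s] - r [s])
        ⟨q (r []) - r, sub_mem (hq _) hr, by simp [hq'], fun s => rfl⟩
      simpa [smul_sub, Finset.sum_sub_distrib, sub_eq_zero] using this
    let δ : A'.D →ₗ[A'.K] A'.D :=
      { toFun := fun d => ∑ s, c s • q d [s]
        map_add' := fun a b => by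
          have := key (q a + q b) (add_mem (hq a) (hq b))
          simpa [hq', Finset.sum_add_distrib] using this
        map_smul' := fun a b => by
          have := key (a • q b) (R'.smul_mem (hq b) a)
          simp only [NC.smul_apply, hq'] at this
          rw [this, RingHom.id_apply, Finset.smul_sum]
          exact Finset.sum_congr rfl fun s _ => smul_comm _ _ _ }
    have hδ : ∀ r ∈ R', δ (r []) = ∑ s, c s • r [s] := key
    obtain ⟨g, hg⟩ := A'.deriv_inner δ fun a b => by
      have := hδ (q a * q b) (mul_mem (hq a) (hq b))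
      simp only [mul_nil, hq', mul_singleton, smul_add, Finset.sum_add_distrib] at this
      rw [this, add_comm]
      simp only [δ, LinearMap.coe_mk, AddHom.coe_mk, Finset.sum_mul, Finset.mul_sum,
        smul_mul_assoc, mul_smul_comm]
    have hv1 : (∑ s, c s • fun l => L.ι (τb s l)) ∈ gauge X L W := by
      refine ⟨g, fun d => ?_, fun l => ?_⟩
      · obtain ⟨r, hr, h1, h2⟩ := hjet (C d)
        have := hδ r hr
        simp only [h1, h2, hC, C_nil, C_cons, smul_zero, Finset.sum_const_zero, hg] at this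
        exact (sub_eq_zero.1 this).symm
      · obtain ⟨r, hr, h1, h2⟩ := hjet (NC.X l)
        have := hδ r hr
        simp only [h1, h2, hXn, hXs, hg] at this
        rw [this, Finset.sum_apply]
        rfl
    have hv2 : (∑ s, c s • fun l => L.ι (τb s l)) ∈
        L.liftP (Submodule.span A0.K (Set.range τb)) := by
      rw [L.lau_liftP_span]
      exact sum_mem fun s _ => Submodule.smul_mem _ _ (Submodule.subset_span ⟨s, rfl⟩)
    have hv := Submodule.disjoint_def.1 (L.disjoint_liftP hdisj) _ hv2 hv1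
    exact hc0 (funext (Fintype.linearIndependent_iff.1 (L.li_lift hli) c hv))
  refine isDns_of_two _ fun f => ?_
  obtain ⟨q, hq, hq'⟩ := hcst (f [])
  obtain ⟨r, hr, h0, h1⟩ : (fun s => f [s] - q [s]) ∈ N := by rw [hN]; trivial
  exact ⟨q + r, add_mem hq hr, Dense_lt_two (by simp [hq', h0]) fun s => by simp [h1]⟩

end Crest.Agent.R180
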