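import Crest.Agent.R180.Defs

/-! Existence of the Laurent series extension `D((t))` over `K((t))` (Hahn series over `ℤ`). -/

set_option autoImplicit false

namespace Crest.Agent.R180

open HahnSeries Module

namespace LauEx

variable (K D : Type) [Field K] [DivisionRing D] [Algebra K D]

/-- the coefficientwise map `K((t)) → D((t))` -/
noncomputable def mp : HahnSeries ℤ K →+* HahnSeries ℤ D where
  toFun c := c.map (algebraMap K D)
  map_zero' := by ext; simp
  map_one' := by
    ext n
    by_cases h : n = 0 <;> simp [h]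
  map_add' x y := by ext; simp
  map_mul' x y := HahnSeries.map_mul (algebraMap K D).toNonUnitalRingHom

@[simp] theorem mp_coeff (c : HahnSeries ℤ K) (n : ℤ) :
    (mp K D c).coeff n = algebraMap K D (c.coeff n) := rfl

theorem mp_comm (c : HahnSeries ℤ K) (x : HahnSeries ℤ D) : mp K D c * x = x * mp K D c := by
  ext n
  rw [coeff_mul, coeff_mul]
  refine Finset.sum_equiv (Equiv.prodComm _ _) (fun _ => Finset.swap_mem_antidiagonal.symm) ?_
  intro i _
  simp [Algebra.commutes]

theorem mp_C (c : K) : mp K D (C c) = C (algebraMap K D c) := map_C c _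

theorem mp_single (n : ℤ) : mp K D (single n 1) = single n 1 := by
  ext m
  by_cases h : m = n <;> simp [h]

/-- `D((t))` -/
def LD : Type := HahnSeries ℤ D

noncomputable instance : Ring (LD D) := inferInstanceAs (Ring (HahnSeries ℤ D))

instance : IsDomain (LD D) := inferInstanceAs (IsDomain (HahnSeries ℤ D))

noncomputable instance : Algebra (HahnSeries ℤ K) (LD D) :=
  RingHom.toAlgebra' (S := LD D) (mp K D) (mp_comm K D)

/-- the coefficients -/
def co (x : LD D) (n : ℤ) : D := HahnSeries.coeff (R := D) x n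

/-- constants -/
noncomputable def cc : D →+* LD D := C

variable {D}

theorem ext' {x y : LD D} (h : ∀ n, co D x n = co D y n) : x = y :=
  HahnSeries.ext (funext h)

theorem co_add (x y : LD D) (n : ℤ) : co D (x + y) n = co D x n + co D y n := rfl

theorem co_sub (x y : LD D) (n : ℤ) : co D (x - y) n = co D x n - co D y n := rfl

theorem co_neg (x : LD D) (n : ℤ) : co D (-x) n = -co D x n := rfl

theorem co_zero (n : ℤ) : co D 0 n = 0 := rfl

theorem co_sum {ι : Type} (s : Finset ι) (f : ι → LD D) (n : ℤ) :
    co D (∑ i ∈ s, f i) n = ∑ i ∈ s, co D (f i) n := by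
  classical
  induction s using Finset.induction_on with
  | empty => simp [co_zero]
  | insert a s ha ih => rw [Finset.sum_insert ha, Finset.sum_insert ha, co_add, ih]

theorem co_cc (d : D) (n : ℤ) : co D (cc D d) n = if n = 0 then d else 0 := by
  change (C d : HahnSeries ℤ D).coeff n = _
  by_cases h : n = 0 <;> simp [h]

theorem co_mul_cc (x : LD D) (d : D) (n : ℤ) : co D (x * cc D d) n = co D x n * d :=
  coeff_mul_single_zero (R := D) (Γ := ℤ) (x := x)

theorem co_cc_mul (x : LD D) (d : D) (n : ℤ) : co D (cc D d * x) n = d * co D x n :=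
  coeff_single_zero_mul (R := D) (Γ := ℤ) (x := x)

variable {K}

theorem co_alg (c : HahnSeries ℤ K) (n : ℤ) :
    co D (algebraMap (HahnSeries ℤ K) (LD D) c) n = algebraMap K D (c.coeff n) := rfl

theorem co_smul_cc (c : HahnSeries ℤ K) (d : D) (n : ℤ) :
    co D (c • cc D d) n = c.coeff n • d := by
  rw [Algebra.smul_def, co_mul_cc, co_alg, Algebra.smul_def]

theorem co_single_smul (a : ℤ) (x : LD D) (n : ℤ) :
    co D ((single a 1 : HahnSeries ℤ K) • x) n = co D x (n - a) := by
  rw [Algebra.smul_def]
  change (mp K D (single a 1) * (show HahnSeries ℤ D from x)).coeff n = _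
  rw [mp_single, coeff_single_mul, one_mul]
  rfl

theorem co_tpow_smul (N : ℕ) (x : LD D) (n : ℤ) :
    co D ((single 1 1 : HahnSeries ℤ K) ^ N • x) n = co D x (n - N) := by
  rw [single_pow, one_pow, co_single_smul]
  simp

variable (K D)

/-- a basis of `D((t))` over `K((t))` -/
noncomputable def basis {ι : Type} [Fintype ι] (e : Basis ι K D) :
    Basis ι (HahnSeries ℤ K) (LD D) :=
  Basis.mk (v := fun i => cc D (e i))
    (by
      rw [Fintype.linearIndependent_iff]
      intro g hg i
      ext n
      have h := congrArg (fun x => co D x n) hg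
      simp only [co_sum, co_smul_cc, co_zero] at h
      exact Fintype.linearIndependent_iff.1 e.linearIndependent _ h i)
    (by
      intro x _
      have : x = ∑ i, (HahnSeries.map (show HahnSeries ℤ D from x) (e.coord i)) • cc D (e i) := by
        refine ext' fun n => ?_
        simp only [co_sum, co_smul_cc, map_coeff]
        exact (e.sum_repr _).symm
      rw [this]
      exact Submodule.sum_mem _ fun i _ =>
        Submodule.smul_mem _ _ (Submodule.subset_span ⟨i, rfl⟩))

theorem fd [FiniteDimensional K D] : FiniteDimensional (HahnSeries ℤ K) (LD D) :=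
  Module.Finite.of_basis (basis K D (Module.finBasis K D))

theorem finrank_eq [FiniteDimensional K D] : finrank (HahnSeries ℤ K) (LD D) = finrank K D := by
  rw [finrank_eq_card_basis (basis K D (Module.finBasis K D)), Fintype.card_fin]

theorem central [Algebra.IsCentral K D] : Algebra.IsCentral (HahnSeries ℤ K) (LD D) := by
  constructor
  intro x hx
  rw [Subalgebra.mem_center_iff] at hx
  have h1 : ∀ n, ∃ c : K, algebraMap K D c = co D x n := by
    intro n
    have : co D x n ∈ Subalgebra.center K D := by
      rw [Subalgebra.mem_center_iff]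
      intro d
      rw [← co_cc_mul, hx, co_mul_cc]
    exact Algebra.mem_bot.1 (Algebra.IsCentral.out this)
  choose c hc using h1
  refine Algebra.mem_bot.2 ⟨⟨c, (HahnSeries.isPWO_support (show HahnSeries ℤ D from x)).mono ?_⟩,
    ext' fun n => hc n⟩
  intro n hn
  change co D x n ≠ 0
  rw [← hc]
  exact (map_ne_zero _).2 hn

/-- power series -/
def OO : Subring (LD D) where
  carrier := {x | ∀ m < 0, co D x m = 0}
  add_mem' hx hy m hm := by rw [co_add, hx m hm, hy m hm, add_zero]
  zero_mem' _ _ := rfl
  neg_mem' hx m hm := by rw [co_neg, hx m hm, neg_zero]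
  one_mem' m hm := by
    rw [← (cc D).map_one, co_cc, if_neg hm.ne]
  mul_mem' {x y} hx hy m hm := by
    change HahnSeries.coeff ((show HahnSeries ℤ D from x) * (show HahnSeries ℤ D from y)) m = 0
    rw [coeff_mul]
    refine Finset.sum_eq_zero fun i hi => ?_
    rw [Finset.mem_antidiagonal] at hi
    have h1 : ¬ i.1 < 0 := fun h => hi.1 (hx _ h)
    have h2 : ¬ i.2 < 0 := fun h => hi.2.1 (hy _ h)
    omega

variable {D}

theorem mem_OO {x : LD D} : x ∈ OO D ↔ ∀ m < 0, co D x m = 0 := Iff.rfl

theorem co_mul_zero {x y : LD D} (hx : x ∈ OO D) (hy : y ∈ OO D) :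
    co D (x * y) 0 = co D x 0 * co D y 0 := by
  change HahnSeries.coeff ((show HahnSeries ℤ D from x) * (show HahnSeries ℤ D from y)) 0 = _
  rw [coeff_mul]
  refine Finset.sum_eq_single (0, 0) (fun i hi hne => ?_) fun h => ?_
  · rw [Finset.mem_antidiagonal] at hi
    have h1 : ¬ i.1 < 0 := fun h => hi.1 (hx _ h)
    have h2 : ¬ i.2 < 0 := fun h => hi.2.1 (hy _ h)
    exact absurd (Prod.ext (by have := hi.2.2; omega) (by have := hi.2.2; omega)) hne
  · rw [Finset.mem_antidiagonal] at h
    simp only [mem_support, add_zero, and_true, not_and_or, not_not] at h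
    rcases h with h | h
    · rw [h, zero_mul]
    · rw [h, mul_zero]

theorem exists_tpow_iff (N : ℕ) (x : LD D) :
    (∃ y ∈ OO D, x = (single 1 1 : HahnSeries ℤ K) ^ N • y) ↔ ∀ m < (N : ℤ), co D x m = 0 := by
  constructor
  · rintro ⟨y, hy, rfl⟩ m hm
    rw [co_tpow_smul]
    exact hy _ (by omega)
  · intro h
    refine ⟨(single (-N : ℤ) 1 : HahnSeries ℤ K) • x, fun m hm => ?_, ext' fun n => ?_⟩
    · rw [co_single_smul]
      exact h _ (by omega)
    · rw [co_tpow_smul, co_single_smul]
      congr 1
      omega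

theorem exists_bdd (x : LD D) : ∃ N : ℕ, ∀ m < -(N : ℤ), co D x m = 0 := by
  obtain ⟨b, hb⟩ : ∃ b : ℤ, b = HahnSeries.order (R := D) x := ⟨_, rfl⟩
  refine ⟨b.natAbs, fun m hm => ?_⟩
  exact coeff_eq_zero_of_lt_order (R := D) (x := x) (by rw [← hb]; omega)

theorem compl (s : ℕ → LD D) (h : ∀ N : ℕ, ∀ m < (N : ℤ), co D (s (N + 1) - s N) m = 0) :
    ∃ x, ∀ N : ℕ, ∀ m < (N : ℤ), co D (x - s N) m = 0 := by
  have key : ∀ (m : ℤ) (N k : ℕ), m < N → co D (s (N + k)) m = co D (s N) m := by
    intro m N k hm
    induction k with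
    | zero => rfl
    | succ k ih =>
      have := h (N + k) m (by push_cast; omega)
      rw [co_sub, sub_eq_zero] at this
      rw [← ih, ← this]
      rfl
  have key2 : ∀ (m : ℤ) (N N' : ℕ), m < N → m < N' → co D (s N) m = co D (s N') m := by
    intro m N N' hN hN'
    rw [← key m N N' hN, add_comm, key m N' N hN']
  obtain ⟨B, hB⟩ := exists_bdd (s 0)
  refine ⟨ofSuppBddBelow (fun m => co D (s (m.toNat + 1)) m)
    ⟨-(B : ℤ), fun m hm => not_lt.1 fun h => hm ?_⟩, fun N m hm => ?_⟩
  · change co D (s (m.toNat + 1)) m = 0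
    rw [key2 m _ 0 (by omega) (by omega)]
    exact hB m h
  · rw [co_sub, sub_eq_zero]
    exact key2 m _ N (by omega) hm

end LauEx

open LauEx in
theorem exists_lau (A0 : CDA) : ∃ A : CDA, Nonempty (Lau A0 A) := by
  have := fd A0.K A0.D
  have := central A0.K A0.D
  have : CharZero (HahnSeries ℤ A0.K) :=
    charZero_of_injective_ringHom (f := (C : A0.K →+* HahnSeries ℤ A0.K)) C_injective
  let A : CDA :=
    { K := HahnSeries ℤ A0.K
      D := LD A0.D
      dD := divisionRingOfFiniteDimensional (HahnSeries ℤ A0.K) (LD A0.D)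
      alg := (inferInstance : Algebra (HahnSeries ℤ A0.K) (LD A0.D))
      fd := fd A0.K A0.D
      cen := central A0.K A0.D
      roots := fun n hn => by
        obtain ⟨ζ, hζ⟩ := A0.roots n hn
        exact ⟨C ζ, hζ.map_of_injective C_injective⟩ }
  refine ⟨A, ⟨
    { κ := C
      ι := cc A0.D
      compat := fun c => (mp_C A0.K A0.D c).symm
      t := single 1 1
      t_ne := single_ne_zero one_ne_zero
      O := OO A0.D
      ι_mem := fun x m hm => by rw [co_cc, if_neg hm.ne]
      t_mem := fun m hm => (co_alg (K := A0.K) (single 1 1) m).trans (by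
        rw [coeff_single_of_ne (by omega), map_zero])
      red := fun x => co A0.D x 0
      red_add := fun _ _ => rfl
      red_mul := fun hx hy => co_mul_zero hx hy
      red_ι := fun x => by rw [co_cc, if_pos rfl]
      red_eq_zero := fun {x} hx => ?_
      redK := fun c _ => ⟨c.coeff 0, rfl⟩
      bdd := fun x => ?_
      sep := fun x hx => ?_
      compl := fun s hs => ?_
      dim := finrank_eq A0.K A0.D }⟩⟩
  · have := exists_tpow_iff A0.K 1 x
    rw [pow_one] at this
    refine Iff.trans ⟨fun h m hm => ?_, fun h => h 0 (by norm_num)⟩ this.symm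
    by_cases h0 : m = 0
    · rw [h0]; exact h
    · exact hx m (by push_cast at hm; omega)
  · obtain ⟨N, hN⟩ := exists_bdd x
    refine ⟨N, fun m hm => ?_⟩
    exact (co_tpow_smul (K := A0.K) N x m).trans (hN _ (by omega))
  · refine ext' fun n => ?_
    exact (exists_tpow_iff A0.K (n.toNat + 1) x).1 (hx _) n (by omega)
  · obtain ⟨x, hx⟩ := LauEx.compl s fun N => (exists_tpow_iff A0.K N _).1 (hs N)
    exact ⟨x, fun N => (exists_tpow_iff A0.K N _).2 (hx N)⟩

end Crest.Agent.R180
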