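import Crest.Agent.R180.TorExAux1

/-! The Hahn series model of the quantum torus over a coefficient ring containing a clock and a
shift element. -/

set_option autoImplicit false

namespace Crest.Agent.R180

open HahnSeries

/-- the exponent group -/
abbrev TorExG : Type := ℤ ×ₗ ℤ

/-- multiplication by `n` on the exponent group -/
def TorExmul (n : ℕ) : TorExG →+ TorExG := nsmulAddMonoidHom n

theorem TorExmul_apply (n : ℕ) (g : TorExG) : TorExmul n g = n • g := rfl

theorem TorExmul_le {n : ℕ} (hn : n ≠ 0) (g g' : TorExG) :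
    TorExmul n g ≤ TorExmul n g' ↔ g ≤ g' := nsmul_le_nsmul_iff_right hn

theorem TorExmul_inj {n : ℕ} (hn : n ≠ 0) : Function.Injective (TorExmul n) := fun g g' h =>
  le_antisymm ((TorExmul_le hn g g').1 h.le) ((TorExmul_le hn g' g).1 h.ge)

/-- coefficientwise map of Hahn series as a ring hom -/
noncomputable def TorExmap {R S : Type} [Ring R] [Ring S] (f : R →+* S) :
    HahnSeries TorExG R →+* HahnSeries TorExG S where
  toFun x := x.map f
  map_one' := HahnSeries.map_one f.toMonoidWithZeroHom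
  map_mul' _ _ := HahnSeries.map_mul (f : R →ₙ+* S)
  map_zero' := by ext; simp
  map_add' x y := by ext; simp

theorem TorExmap_coeff {R S : Type} [Ring R] [Ring S] (f : R →+* S) (x : HahnSeries TorExG R)
    (g : TorExG) : (TorExmap f x).coeff g = f (x.coeff g) := rfl

theorem TorEx_central {R : Type} [Ring R] (y : HahnSeries TorExG R)
    (hy : ∀ g r, y.coeff g * r = r * y.coeff g) (x : HahnSeries TorExG R) : y * x = x * y := by
  ext g
  simp_rw [coeff_mul, hy]
  exact Finset.sum_equiv (Equiv.prodComm _ _) (fun _ ↦ Finset.swap_mem_antidiagonal.symm) <| by simp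

section Model
variable {K Cf : Type} [Field K] [Ring Cf] [Algebra K Cf] {n : ℕ} [NeZero n]

/-- the embedding of the centre -/
noncomputable def TorExρ (K Cf : Type) [Field K] [Ring Cf] [Algebra K Cf] (n : ℕ) [NeZero n] :
    HahnSeries TorExG K →+* HahnSeries TorExG Cf :=
  (embDomainRingHom (TorExmul n) (TorExmul_inj (NeZero.ne n)) (TorExmul_le (NeZero.ne n))).comp
    (TorExmap (algebraMap K Cf))

theorem TorExρ_coeff (f : HahnSeries TorExG K) (g : TorExG) :
    (TorExρ K Cf n f).coeff (n • g) = algebraMap K Cf (f.coeff g) :=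
  embDomain_coeff (f := ⟨⟨TorExmul n, TorExmul_inj (NeZero.ne n)⟩, TorExmul_le (NeZero.ne n) _ _⟩)
    (x := TorExmap (algebraMap K Cf) f) (a := g)

theorem TorExρ_coeff_of_not (f : HahnSeries TorExG K) {g : TorExG} (hg : ∀ g', n • g' ≠ g) :
    (TorExρ K Cf n f).coeff g = 0 :=
  embDomain_of_notMem_range
    (f := ⟨⟨TorExmul n, TorExmul_inj (NeZero.ne n)⟩, TorExmul_le (NeZero.ne n) _ _⟩)
    (x := TorExmap (algebraMap K Cf) f) (by rintro ⟨g', h⟩; exact hg g' h)

theorem TorExρ_single (g : TorExG) (c : K) :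
    TorExρ K Cf n (single g c) = single (n • g) (algebraMap K Cf c) := by
  ext h
  by_cases hh : ∃ g', n • g' = h
  · obtain ⟨g', rfl⟩ := hh
    rw [TorExρ_coeff]
    by_cases e : g' = g
    · subst e; simp
    · rw [coeff_single_of_ne e, map_zero, coeff_single_of_ne]
      exact fun h => e (TorExmul_inj (NeZero.ne n) h)
  · push Not at hh
    rw [TorExρ_coeff_of_not _ hh, coeff_single_of_ne (hh g).symm]

theorem TorExρ_C (c : K) : TorExρ K Cf n (C c) = single 0 (algebraMap K Cf c) := by
  have h0 : n • (0 : TorExG) = 0 := (TorExmul n).map_zero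
  rw [C_apply, TorExρ_single, h0]

theorem TorExρ_comm (f : HahnSeries TorExG K) (x : HahnSeries TorExG Cf) :
    TorExρ K Cf n f * x = x * TorExρ K Cf n f := by
  refine TorEx_central _ (fun g r => ?_) x
  by_cases hh : ∃ g', n • g' = g
  · obtain ⟨g', rfl⟩ := hh
    rw [TorExρ_coeff, Algebra.commutes]
  · push Not at hh
    rw [TorExρ_coeff_of_not _ hh, zero_mul, mul_zero]

/-- the reduced exponent -/
def TorExe (n : ℕ) (a : ℤ) : ℕ := (a : ZMod n).val

theorem TorExe_lt (a : ℤ) : TorExe n a < n := ZMod.val_lt _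

theorem TorExe_pow_add {P : Cf} (hP : P ^ n = 1) (a b : ℤ) :
    P ^ TorExe n (a + b) = P ^ TorExe n a * P ^ TorExe n b := by
  rw [TorExe, Int.cast_add, ZMod.val_add, ← pow_eq_pow_mod _ hP, _root_.pow_add]; rfl

omit [NeZero n] in
theorem TorExe_eq_zero {a : ℤ} : TorExe n a = 0 ↔ (n : ℤ) ∣ a := by
  rw [TorExe, ZMod.val_eq_zero, ZMod.intCast_zmod_eq_zero_iff_dvd]

omit [NeZero n] in
theorem TorExe_one {P : Cf} (hP : P ^ n = 1) : P ^ TorExe n 1 = P := by
  have : ((1 : ℤ) : ZMod n) = ((1 : ℕ) : ZMod n) := by simp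
  rw [TorExe, this, ZMod.val_natCast, ← pow_eq_pow_mod _ hP, pow_one]

/-- the homogeneous unit of degree `g` -/
def TorExw (n : ℕ) (P Q : Cf) (g : TorExG) : Cf :=
  P ^ TorExe n (ofLex g).1 * Q ^ TorExe n (ofLex g).2

theorem TorExw_mul {P Q : Cf} {ζ : K} (rel : Q * P = ζ • (P * Q)) (hP : P ^ n = 1)
    (hQ : Q ^ n = 1) (g g' : TorExG) :
    TorExw n P Q g * TorExw n P Q g' =
      ζ ^ (TorExe n (ofLex g').1 * TorExe n (ofLex g).2) • TorExw n P Q (g + g') := by
  simp only [TorExw, ofLex_add, Prod.fst_add, Prod.snd_add, TorExe_pow_add hP, TorExe_pow_add hQ]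
  rw [mul_assoc, ← mul_assoc (Q ^ _), TorEx_pow_rel rel]
  simp only [mul_assoc, mul_smul_comm, smul_mul_assoc]

omit [NeZero n] in
theorem TorExw_nsmul (P Q : Cf) (g : TorExG) : TorExw n P Q (n • g) = 1 := by
  have h1 : TorExe n (ofLex (n • g)).1 = 0 := TorExe_eq_zero.2 ⟨(ofLex g).1, by simp⟩
  have h2 : TorExe n (ofLex (n • g)).2 = 0 := TorExe_eq_zero.2 ⟨(ofLex g).2, by simp⟩
  rw [TorExw, h1, h2, pow_zero, pow_zero, one_mul]

omit [NeZero n] in
theorem TorExw_zero (P Q : Cf) : TorExw n P Q 0 = 1 := by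
  simpa using TorExw_nsmul (n := n) P Q 0

end Model

theorem TorEx_model (A : CDA) {n : ℕ} [NeZero n] {Cf : Type} [Ring Cf] [Nontrivial Cf]
    [Algebra A.K Cf] (ι0 : A.D →ₐ[A.K] Cf) (ζ : A.K) (hζ : IsPrimitiveRoot ζ n) (P Q : Cf)
    (hP : P ^ n = 1) (hQ : Q ^ n = 1) (rel : Q * P = ζ • (P * Q))
    (cP : ∀ d, Commute (ι0 d) P) (cQ : ∀ d, Commute (ι0 d) Q) :
    ∃ A0 : CDA, Nonempty (Tor A A0 n) := by
  classical
  have hn : 0 < n := Nat.pos_of_ne_zero (NeZero.ne n)
  have uP : IsUnit P := IsUnit.of_pow_eq_one hP (NeZero.ne n)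
  have uQ : IsUnit Q := IsUnit.of_pow_eq_one hQ (NeZero.ne n)
  have uw : ∀ g, IsUnit (TorExw n P Q g) := fun g => (uP.pow _).mul (uQ.pow _)
  have cw : ∀ d g, Commute (ι0 d) (TorExw n P Q g) := fun d g =>
    ((cP d).pow_right _).mul_right ((cQ d).pow_right _)
  have udw : ∀ d g, d ≠ 0 → IsUnit (ι0 d * TorExw n P Q g) := fun d g hd =>
    ((IsUnit.mk0 d hd).map ι0).mul (uw g)
  let S : TorExG → AddSubgroup Cf := fun g =>
    { carrier := {x | ∃ d, x = ι0 d * TorExw n P Q g}
      add_mem' := by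
        rintro _ _ ⟨d, rfl⟩ ⟨d', rfl⟩
        exact ⟨d + d', by rw [map_add, add_mul]⟩
      zero_mem' := ⟨0, by simp⟩
      neg_mem' := by
        rintro _ ⟨d, rfl⟩
        exact ⟨-d, by rw [map_neg, neg_mul]⟩ }
  have hS : ∀ g x, x ∈ S g ↔ ∃ d, x = ι0 d * TorExw n P Q g := fun g x => Iff.rfl
  have Smul : ∀ g g' x y, x ∈ S g → y ∈ S g' → x * y ∈ S (g + g') := by
    rintro g g' _ _ ⟨d, rfl⟩ ⟨d', rfl⟩
    refine ⟨ζ ^ (TorExe n (ofLex g').1 * TorExe n (ofLex g).2) • (d * d'), ?_⟩
    rw [mul_assoc, ← mul_assoc (TorExw n P Q g), ← (cw d' g).eq, mul_assoc,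
      TorExw_mul rel hP hQ, map_smul, map_mul]
    simp only [mul_assoc, mul_smul_comm, smul_mul_assoc]
  have Ssingle : ∀ (g : TorExG) (x : Cf), x ∈ S g → ∀ h, (single g x).coeff h ∈ S h := by
    intro g x hx h
    by_cases e : h = g
    · subst e; simpa using hx
    · rw [coeff_single_of_ne e]; exact zero_mem _
  let R : Subring (HahnSeries TorExG Cf) :=
    { carrier := {x | ∀ g, x.coeff g ∈ S g}
      mul_mem' := by
        intro x y hx hy g
        rw [coeff_mul]
        refine sum_mem fun ij hij => ?_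
        rw [← (Finset.mem_antidiagonal.1 hij).2.2]
        exact Smul _ _ _ _ (hx _) (hy _)
      one_mem' := Ssingle 0 1 ⟨1, by simp [TorExw_zero]⟩
      add_mem' := fun {x y} hx hy g => by rw [coeff_add]; exact add_mem (hx g) (hy g)
      zero_mem' := fun g => zero_mem _
      neg_mem' := fun {x} hx g => by rw [coeff_neg]; exact neg_mem (hx g) }
  have hR : ∀ x, x ∈ R ↔ ∀ g, x.coeff g ∈ S g := fun x => Iff.rfl
  let g1 : TorExG := toLex (1, 0)
  let g2 : TorExG := toLex (0, 1)
  let ι : A.D →+* HahnSeries TorExG Cf := HahnSeries.C.comp (ι0 : A.D →+* Cf)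
  have hι : ∀ d, ι d = single 0 (ι0 d) := fun d => rfl
  have he0 : TorExe n 0 = 0 := TorExe_eq_zero.2 (dvd_zero _)
  refine TorEx_abs' (TorExρ A.K Cf n) TorExρ_comm HahnSeries.C ι ?_ hn ζ hζ
    (i := single g1 P) (j := single g2 Q) ?_ ?_ ?_ (u := single g1 1) (v := single g2 1) ?_ ?_
    (single_ne_zero uP.ne_zero) (single_ne_zero uQ.ne_zero) R ?_ ?_ ?_ ?_ ?_ ?_ ?_
  · intro c
    rw [hι, TorExρ_C, AlgHom.commutes]
  · intro d
    rw [hι, Commute, SemiconjBy, single_mul_single, single_mul_single, add_comm, (cP d).eq]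
  · intro d
    rw [hι, Commute, SemiconjBy, single_mul_single, single_mul_single, add_comm, (cQ d).eq]
  · rw [TorExρ_C, single_mul_single, single_mul_single, single_mul_single, rel,
      zero_add, add_comm, Algebra.smul_def]
  · rw [TorExρ_single, single_pow, hP, RingHom.map_one]
  · rw [TorExρ_single, single_pow, hQ, RingHom.map_one]
  · intro c g
    by_cases hh : ∃ g', n • g' = g
    · obtain ⟨g', rfl⟩ := hh
      rw [TorExρ_coeff]
      exact ⟨algebraMap A.K A.D (c.coeff g'), by rw [TorExw_nsmul, mul_one, AlgHom.commutes]⟩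
    · push Not at hh
      rw [TorExρ_coeff_of_not _ hh]; exact zero_mem _
  · intro d
    exact Ssingle 0 _ ⟨d, by simp [TorExw_zero]⟩
  · exact Ssingle g1 _ ⟨1, by simp [TorExw, g1, he0, TorExe_one hP]⟩
  · exact Ssingle g2 _ ⟨1, by simp [TorExw, g2, he0, TorExe_one hQ]⟩
  · intro x hx y hy hxy
    by_contra hne
    push Not at hne
    have h := coeff_mul_order_add_order x y
    rw [hxy, coeff_zero] at h
    have ux : ∀ z ∈ R, z ≠ 0 → IsUnit z.leadingCoeff := by
      intro z hz hz0
      have h0 := leadingCoeff_ne_zero.2 hz0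
      rw [leadingCoeff_eq] at h0 ⊢
      obtain ⟨d, hd⟩ := hz z.order
      rw [hd] at h0 ⊢
      exact udw d _ (by rintro rfl; simp at h0)
    exact ((ux x hx hne.1).mul (ux y hy hne.2)).ne_zero h.symm
  · intro x hx hxι hxi hxj
    have key : ∀ g, ∃ c : A.K, x.coeff g = algebraMap A.K Cf c ∧ ((∀ g', n • g' ≠ g) → c = 0) := by
      intro g
      obtain ⟨d, hd⟩ := hx g
      by_cases hd0 : d = 0
      · exact ⟨0, by simp [hd, hd0], fun _ => rfl⟩
      have hu := udw d g hd0
      rw [← hd] at hu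
      have e1 : P * x.coeff g = x.coeff g * P := by
        have := congrArg (fun z => z.coeff (g + g1)) hxi.eq
        simpa only [coeff_single_mul_add, coeff_mul_single_add] using this
      have e2 : Q * x.coeff g = x.coeff g * Q := by
        have := congrArg (fun z => z.coeff (g + g2)) hxj.eq
        simpa only [coeff_single_mul_add, coeff_mul_single_add] using this
      have e3 : ∀ d', ι0 d' * x.coeff g = x.coeff g * ι0 d' := by
        intro d'
        have := congrArg (fun z => z.coeff (g + 0)) (hxι d').eq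
        simpa only [hι, coeff_single_mul_add, coeff_mul_single_add] using this
      have fix : ∀ (m : ℕ) (y : Cf), IsUnit y → m < n → ζ ^ m • y = y → m = 0 := by
        intro m y hy hm h
        have h1 : (ζ ^ m - 1) • y = 0 := by rw [sub_smul, h, one_smul, sub_self]
        have h2 : ζ ^ m = 1 := by
          by_contra h3
          exact hy.ne_zero ((smul_eq_zero_iff_right (sub_ne_zero.2 h3)).1 h1)
        exact Nat.eq_zero_of_dvd_of_lt ((hζ.pow_eq_one_iff_dvd m).1 h2) hm
      have f1 : x.coeff g * P = ζ ^ TorExe n (ofLex g).2 • (P * x.coeff g) := by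
        have := TorEx_pow_rel rel 1 (TorExe n (ofLex g).2)
        rw [pow_one, one_mul] at this
        rw [hd, TorExw, mul_assoc, mul_assoc, this, ← mul_assoc P, ← (cP d).eq]
        simp only [mul_smul_comm, mul_assoc]
        rw [← mul_assoc P, ← mul_assoc (P ^ _), (Commute.self_pow P _).eq]
      have f2 : Q * x.coeff g = ζ ^ TorExe n (ofLex g).1 • (x.coeff g * Q) := by
        have := TorEx_pow_rel rel (TorExe n (ofLex g).1) 1
        rw [pow_one, mul_one] at this
        rw [hd, TorExw, ← mul_assoc Q, ← (cQ d).eq, mul_assoc, ← mul_assoc Q, this]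
        simp only [mul_smul_comm, smul_mul_assoc, mul_assoc]
        rw [(Commute.self_pow Q _).eq]
      have b0 : TorExe n (ofLex g).2 = 0 :=
        fix _ _ (uP.mul hu) (TorExe_lt _) (by rw [← f1, e1])
      have a0 : TorExe n (ofLex g).1 = 0 :=
        fix _ _ (hu.mul uQ) (TorExe_lt _) (by rw [← f2, e2])
      have hw : TorExw n P Q g = 1 := by simp [TorExw, a0, b0]
      rw [hw, mul_one] at hd
      have hc : d ∈ Subalgebra.center A.K A.D := by
        rw [Subalgebra.mem_center_iff]
        intro d'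
        apply (ι0 : A.D →+* Cf).injective
        have := e3 d'
        rw [hd] at this
        simpa using this
      obtain ⟨c, hc⟩ := Algebra.mem_bot.1 (Algebra.IsCentral.out hc)
      refine ⟨c, by rw [hd, ← hc, AlgHom.commutes], fun h => ?_⟩
      obtain ⟨a, ha⟩ := TorExe_eq_zero.1 a0
      obtain ⟨b, hb⟩ := TorExe_eq_zero.1 b0
      refine absurd ?_ (h (toLex (a, b)))
      apply ofLex.injective
      ext
      · simpa using ha.symm
      · simpa using hb.symm
    choose c hc hc0 using key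
    refine ⟨⟨fun g => c (n • g), ?_⟩, ?_⟩
    · intro f
      obtain ⟨a, b, hab, h⟩ := x.isPWO_support fun m => ⟨n • (f m : TorExG), by
        rw [mem_support, hc]
        exact (map_ne_zero _).2 (f m).2⟩
      exact ⟨a, b, hab, (TorExmul_le (NeZero.ne n) _ _).1 h⟩
    · ext g
      by_cases hh : ∃ g', n • g' = g
      · obtain ⟨g', rfl⟩ := hh
        rw [TorExρ_coeff, hc]
      · push Not at hh
        rw [TorExρ_coeff_of_not _ hh, hc, hc0 g hh, map_zero]
  · intro f hf h
    have h1 := congrArg (fun z => z.coeff (f.natDegree • g1)) h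
    simp only [TorExρ_C, single_pow, single_mul_single, zero_add, coeff_sum, coeff_zero] at h1
    rw [Finset.sum_eq_single f.natDegree] at h1
    · rw [coeff_single_same] at h1
      exact (((IsUnit.mk0 _ (Polynomial.leadingCoeff_ne_zero.2 hf)).map (algebraMap A.K Cf)).mul
        (uP.pow _)).ne_zero h1
    · intro b _ hb
      refine coeff_single_of_ne fun e => hb ?_
      have := congrArg (fun z => (ofLex z).1) e
      simpa [g1] using this.symm
    · simp

end Crest.Agent.R180
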