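import Crest.Agent.R180.CSA
import Crest.Agent.R180.TorExAux2

/-! Existence of the quantum torus extension. -/

set_option autoImplicit false

namespace Crest.Agent.R180

/-- clock and shift matrices -/
theorem TorEx_clock_shift {K : Type} [Field K] {n : ℕ} [NeZero n] {ζ : K} (hζ : ζ ^ n = 1) :
    ∃ P Q : Module.End K (ZMod n → K), P ^ n = 1 ∧ Q ^ n = 1 ∧ Q * P = ζ • (P * Q) := by
  let P : Module.End K (ZMod n → K) :=
    { toFun := fun v a => ζ ^ a.val * v a
      map_add' := fun v w => by ext a; simp [mul_add]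
      map_smul' := fun c v => by ext a; simp [mul_left_comm] }
  let Q : Module.End K (ZMod n → K) :=
    { toFun := fun v a => v (a + 1)
      map_add' := fun v w => rfl
      map_smul' := fun c v => rfl }
  have hP : ∀ (m : ℕ) v a, (P ^ m) v a = (ζ ^ m) ^ a.val * v a := by
    intro m
    induction m with
    | zero => simp
    | succ m ih =>
      intro v a
      rw [pow_succ, Module.End.mul_apply, ih]
      change _ * (ζ ^ a.val * v a) = _
      rw [pow_succ, mul_pow, mul_assoc]
  have hQ : ∀ (m : ℕ) v a, (Q ^ m) v a = v (a + m) := by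
    intro m
    induction m with
    | zero => simp
    | succ m ih =>
      intro v a
      rw [pow_succ, Module.End.mul_apply, ih]
      change v (a + m + 1) = _
      rw [Nat.cast_succ, add_assoc]
  refine ⟨P, Q, ?_, ?_, ?_⟩
  · refine LinearMap.ext fun v => funext fun a => ?_
    rw [hP, hζ]; simp
  · refine LinearMap.ext fun v => funext fun a => ?_
    rw [hQ]; simp
  · refine LinearMap.ext fun v => funext fun a => ?_
    change ζ ^ (a + 1).val * v (a + 1) = ζ * (ζ ^ a.val * v (a + 1))
    have h1 : ζ ^ (1 : ZMod n).val = ζ := by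
      rw [← Nat.cast_one, ZMod.val_natCast, ← pow_eq_pow_mod _ hζ, pow_one]
    rw [ZMod.val_add, ← pow_eq_pow_mod _ hζ, pow_add, h1]
    ring

open scoped TensorProduct in
theorem exists_tor (A : CDA) {n : ℕ} (hn : n.Prime) : ∃ A0 : CDA, Nonempty (Tor A A0 n) := by
  have : NeZero n := ⟨hn.ne_zero⟩
  obtain ⟨ζ, hζ⟩ := A.roots n hn
  obtain ⟨P, Q, hP, hQ, rel⟩ := TorEx_clock_shift (n := n) hζ.pow_eq_one
  have : Nontrivial (A.D ⊗[A.K] Module.End A.K (ZMod n → A.K)) := inferInstance
  refine TorEx_model A (Cf := A.D ⊗[A.K] Module.End A.K (ZMod n → A.K))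
    Algebra.TensorProduct.includeLeft ζ hζ (1 ⊗ₜ P) (1 ⊗ₜ Q) ?_ ?_ ?_ ?_ ?_
  · rw [Algebra.TensorProduct.tmul_pow, hP, one_pow, Algebra.TensorProduct.one_def]
  · rw [Algebra.TensorProduct.tmul_pow, hQ, one_pow, Algebra.TensorProduct.one_def]
  · rw [Algebra.TensorProduct.tmul_mul_tmul, Algebra.TensorProduct.tmul_mul_tmul, rel,
      TensorProduct.tmul_smul]
  · intro d
    simp [Commute, SemiconjBy, Algebra.TensorProduct.tmul_mul_tmul]
  · intro d
    simp [Commute, SemiconjBy, Algebra.TensorProduct.tmul_mul_tmul]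

end Crest.Agent.R180
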