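import Crest.Agent.R180.TorLem1

/-! Test points in the quantum torus: it satisfies no polynomial identity of degree `< n`. -/

set_option autoImplicit false

namespace Crest.Agent.R180

/-- Euler's identity for words -/
theorem dwd_self {σ B : Type} [Ring B] (y : σ → B) (u : List σ) :
    dwd y y u = u.length • wd y u := by
  induction u with
  | nil => simp
  | cons l u ih => rw [dwd_cons, ih, wd_cons, List.length_cons, succ_nsmul', mul_smul_comm]

theorem dwd_comm {σ B : Type} [Ring B] (y : σ → B) (x : B) (u : List σ) :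
    dwd y (fun l => x * y l - y l * x) u = x * wd y u - wd y u * x := by
  induction u with
  | nil => simp
  | cons l u ih => rw [dwd_cons, ih, wd_cons]; noncomm_ring

theorem TorTest_wd_append {σ B : Type} [Monoid B] (y : σ → B) (u v : List σ) :
    wd y (u ++ v) = wd y u * wd y v := by
  simp [wd]

theorem TorTest_wd_mem {σ K B : Type} [CommRing K] [Ring B] [Algebra K B] (Λ : Subalgebra K B)
    {y : σ → B} (hy : ∀ l, y l ∈ Λ) (u : List σ) : wd y u ∈ Λ := by
  induction u with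
  | nil => exact one_mem _
  | cons l u ih => rw [wd_cons]; exact mul_mem (hy l) ih

/-- the trace of a marked cyclic word -/
noncomputable def TorTest_Θ {σ : Type} (A0 : CDA) (y z : σ → A0.D) : List σ → A0.K
  | [] => 0
  | l :: v => A0.τ (z l * wd y v)

theorem TorTest_τ_dwd {σ : Type} (A0 : CDA) (y z : σ → A0.D) (u w : List σ) :
    A0.τ (dwd y z u * wd y w) =
      ∑ m ∈ Finset.range u.length, TorTest_Θ A0 y z ((u ++ w).rotate m) := by
  induction u generalizing w with
  | nil => simp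
  | cons l u ih =>
    rw [List.length_cons, Finset.sum_range_succ', dwd_cons, add_mul, map_add, add_comm]
    congr 1
    · rw [mul_assoc, A0.τ_mul_comm, mul_assoc]
      have h1 : wd y w * y l = wd y (w ++ [l]) := by simp [TorTest_wd_append]
      rw [h1, ih]
      refine Finset.sum_congr rfl fun m _ => ?_
      rw [List.cons_append, List.rotate_cons_succ, List.append_assoc]
    · rw [List.rotate_zero, List.cons_append, TorTest_Θ, TorTest_wd_append, mul_assoc]

theorem TorTest_interp {K σ : Type} [Field K] [DecidableEq σ] {ζ : K} {n p : ℕ}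
    (hζ : IsPrimitiveRoot ζ n) (hp : p ≤ n) (u₀ : List σ) :
    ∃ η : σ → Polynomial K, ∀ l a, a < p →
      (η l).eval (ζ ^ (a + 1)) = if u₀[a]? = some l then 1 else 0 := by
  classical
  have hinj : Set.InjOn (fun a : ℕ => ζ ^ (a + 1)) (Finset.range p : Finset ℕ) := by
    intro a ha b hb hab
    simp only [Finset.coe_range, Set.mem_Iio] at ha hb
    have hz : ζ ≠ 0 := hζ.ne_zero (by omega)
    simp only [pow_succ] at hab
    exact hζ.pow_inj (by omega) (by omega) (mul_right_cancel₀ hz hab)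
  refine ⟨fun l => Lagrange.interpolate (Finset.range p) (fun a : ℕ => ζ ^ (a + 1))
      fun a => if u₀[a]? = some l then 1 else 0, fun l a ha => ?_⟩
  exact Lagrange.eval_interpolate_at_node (v := fun a : ℕ => ζ ^ (a + 1)) (i := a)
    (fun a => if u₀[a]? = some l then (1 : K) else 0) hinj (Finset.mem_range.2 ha)

theorem TorTest_eval {K σ : Type} [Field K] [DecidableEq σ] {ζ : K} {p : ℕ} {u₀ : List σ}
    (hu : u₀.length = p) {η : σ → Polynomial K}
    (hη : ∀ l a, a < p → (η l).eval (ζ ^ (a + 1)) = if u₀[a]? = some l then 1 else 0)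
    {P : List σ → Polynomial K} (hP0 : P [] = 1)
    (hP : ∀ l u, P (l :: u) = (η l * P u).comp (Polynomial.C ζ * Polynomial.X))
    (u : List σ) (k : ℕ) (hk : u.length + k = p) :
    (P u).eval (ζ ^ k) = if u = u₀.drop k then 1 else 0 := by
  induction u generalizing k with
  | nil =>
    rw [hP0, Polynomial.eval_one, if_pos]
    rw [List.drop_eq_nil_of_le (by simp at hk; omega)]
  | cons l u ih =>
    rw [List.length_cons] at hk
    have hk' : k < u₀.length := by omega
    rw [hP, Polynomial.eval_comp, Polynomial.eval_mul, Polynomial.eval_mul, Polynomial.eval_C,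
      Polynomial.eval_X, ← pow_succ', hη l k (by omega), ih (k + 1) (by omega),
      List.drop_eq_getElem_cons hk', List.getElem?_eq_getElem hk']
    by_cases h1 : l = u₀[k]
    · subst h1
      simp only [if_true, one_mul, List.cons.injEq, true_and]
    · have h2 : ¬ u₀[k] = l := fun h => h1 h.symm
      simp only [Option.some.injEq, h2, if_false, zero_mul, List.cons.injEq, h1, false_and]

namespace Tor
variable {A A0 : CDA} {n : ℕ} (R : Tor A A0 n) {σ : Type} [Fintype σ] [DecidableEq σ]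

omit [Fintype σ] [DecidableEq σ] in
/-- evaluation of a polynomial at `i` -/
noncomputable def ev : Polynomial A.K →+* A0.D :=
  (Polynomial.aeval R.i : Polynomial A0.K →ₐ[A0.K] A0.D).toRingHom.comp
    (Polynomial.mapRingHom R.κ)

theorem ev_apply (f : Polynomial A.K) : R.ev f = Polynomial.aeval R.i (f.map R.κ) := rfl

theorem ev_C (c : A.K) : R.ev (Polynomial.C c) = algebraMap A0.K A0.D (R.κ c) := by
  simp [ev_apply]

theorem ev_X : R.ev Polynomial.X = R.i := by
  simp [ev_apply]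

theorem ev_mem (f : Polynomial A.K) : R.ev f ∈ R.Λ := by
  induction f using Polynomial.induction_on with
  | C a => rw [ev_C]; exact algebraMap_mem _ _
  | add p q hp hq => rw [map_add]; exact add_mem hp hq
  | monomial k a ih => rw [pow_succ, ← mul_assoc, map_mul, ev_X]; exact mul_mem ih R.i_mem

theorem ev_mul_i (f : Polynomial A.K) : R.ev f * R.i = R.i * R.ev f := by
  rw [← R.ev_X, ← map_mul, ← map_mul, mul_comm]

theorem j_mul_ev (f : Polynomial A.K) :
    R.j * R.ev f = R.ev (f.comp (Polynomial.C R.ζ * Polynomial.X)) * R.j := by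
  induction f using Polynomial.induction_on with
  | C a => rw [Polynomial.C_comp, ev_C, Algebra.commutes]
  | add p q hp hq => rw [Polynomial.add_comp, map_add, map_add, mul_add, add_mul, hp, hq]
  | monomial k a ih =>
    rw [pow_succ, ← mul_assoc, Polynomial.mul_comp _ Polynomial.X, Polynomial.X_comp,
      map_mul _ _ Polynomial.X, ← mul_assoc, ih, ev_X, mul_assoc, R.rel,
      map_mul _ _ (Polynomial.C R.ζ * Polynomial.X), map_mul _ (Polynomial.C R.ζ), ev_C, ev_X,
      Algebra.smul_def]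
    simp only [mul_assoc]

theorem jpow_mul_i (p : ℕ) : R.j ^ p * R.i = R.κ R.ζ ^ p • (R.i * R.j ^ p) := by
  induction p with
  | zero => simp
  | succ p ih =>
    rw [pow_succ, mul_assoc, R.rel, mul_smul_comm, ← mul_assoc, ih, smul_mul_assoc, smul_smul,
      pow_succ', mul_assoc]

omit [Fintype σ] in
theorem exists_testPt {p : ℕ} (hp : p ≤ n) {u₀ : List σ} (hu : u₀.length = p) :
    ∃ y : σ → A0.D, (∀ l, y l ∈ R.Λ) ∧ ∃ P : List σ → Polynomial A.K,
      (∀ u, wd y u = R.ev (P u) * R.j ^ u.length) ∧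
      ∀ u, u.length = p → (P u).eval 1 = if u = u₀ then 1 else 0 := by
  obtain ⟨η, hη⟩ := TorTest_interp R.hζ hp u₀
  obtain ⟨P, hP0, hP⟩ : ∃ P : List σ → Polynomial A.K, P [] = 1 ∧
      ∀ l u, P (l :: u) = (η l * P u).comp (Polynomial.C R.ζ * Polynomial.X) :=
    ⟨fun u => u.foldr (fun l Q => (η l * Q).comp (Polynomial.C R.ζ * Polynomial.X)) 1, rfl,
      fun _ _ => rfl⟩
  refine ⟨fun l => R.j * R.ev (η l), fun l => mul_mem R.j_mem (R.ev_mem _), P, fun u => ?_, ?_⟩
  · induction u with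
    | nil => simp [hP0]
    | cons l u ih =>
      rw [wd_cons, ih, hP, List.length_cons, pow_succ', ← mul_assoc _ R.j, ← j_mul_ev, map_mul]
      simp only [mul_assoc]
  · intro u hu'
    simpa using TorTest_eval hu hη hP0 hP u 0 (by simpa using hu')

/-- take `y l = j * η_l(i)` with `η_l(ζ^a) = [u₀[a-1] = l]` (Lagrange interpolation) -/
theorem test0 {p : ℕ} (hp : p ≤ n) (r : List σ → A.K) {u₀ : List σ} (hu : u₀.length = p)
    (hr : r u₀ ≠ 0) : ∃ y : σ → A0.D, (∀ l, y l ∈ R.Λ) ∧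
      ∑ u ∈ wds σ p, R.κ (r u) • wd y u ≠ 0 ∧
      (∑ u ∈ wds σ p, R.κ (r u) • wd y u) * R.i =
        R.κ R.ζ ^ p • (R.i * ∑ u ∈ wds σ p, R.κ (r u) • wd y u) := by
  obtain ⟨y, hy, P, hP, hP1⟩ := R.exists_testPt hp hu
  have e : ∑ u ∈ wds σ p, R.κ (r u) • wd y u =
      R.ev (∑ u ∈ wds σ p, Polynomial.C (r u) * P u) * R.j ^ p := by
    rw [map_sum, Finset.sum_mul]
    refine Finset.sum_congr rfl fun u hu' => ?_
    rw [hP, mem_wds.1 hu', map_mul, ev_C, Algebra.smul_def, mul_assoc]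
  refine ⟨y, hy, ?_, ?_⟩
  · rw [e]
    refine mul_ne_zero (R.transc _ ?_) (pow_ne_zero _ R.j_ne)
    rw [Polynomial.eval_finsetSum, Finset.sum_eq_single u₀]
    · rw [Polynomial.eval_mul, Polynomial.eval_C, hP1 _ hu, if_pos rfl, mul_one]
      exact hr
    · intro u hu' hne
      rw [Polynomial.eval_mul, hP1 _ (mem_wds.1 hu'), if_neg hne, mul_zero]
    · intro h
      exact absurd (mem_wds.2 hu) h
  · rw [e, mul_assoc, jpow_mul_i, mul_smul_comm, ← mul_assoc, ev_mul_i, mul_assoc]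

/-- version with coefficients in `D` -/
theorem test0' {p : ℕ} (hp : p ≤ n) (r : List σ → A.D) {u₀ : List σ} (hu : u₀.length = p)
    (hr : r u₀ ≠ 0) : ∃ y : σ → A0.D, (∀ l, y l ∈ R.Λ) ∧
      ∑ u ∈ wds σ p, R.ι (r u) * wd y u ≠ 0 := by
  obtain ⟨y, hy, hZ, -⟩ := R.test0 hp (fun u => A.τ ((r u₀)⁻¹ * r u)) hu
    (by rw [inv_mul_cancel₀ hr, A.τ_one]; exact one_ne_zero)
  refine ⟨y, hy, fun h => ?_⟩
  set Z := ∑ u ∈ wds σ p, R.κ (A.τ ((r u₀)⁻¹ * r u)) • wd y u with hZdef
  have hZm : Z⁻¹ ∈ R.Λ :=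
    A0.inv_mem _ (sum_mem fun u _ => R.Λ.smul_mem (TorTest_wd_mem _ hy u) _)
  have h1 : A0.τ (R.ι (r u₀)⁻¹ * (∑ u ∈ wds σ p, R.ι (r u) * wd y u) * Z⁻¹) = A0.τ (Z * Z⁻¹) := by
    conv_rhs => rw [hZdef, Finset.sum_mul]
    rw [Finset.mul_sum, Finset.sum_mul, map_sum, map_sum]
    refine Finset.sum_congr rfl fun u _ => ?_
    rw [← mul_assoc, ← map_mul, mul_assoc,
      R.toExt.τ_ι_mul _ (mul_mem (TorTest_wd_mem _ hy u) hZm), smul_mul_assoc, map_smul,
      smul_eq_mul]
  rw [h, mul_zero, zero_mul, map_zero, mul_inv_cancel₀ hZ, A0.τ_one] at h1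
  exact zero_ne_one h1

theorem test1 {p : ℕ} (hp0 : 0 < p) (hp : p < n) (r : List σ → A.K) {u₀ : List σ}
    (hu : u₀.length = p) (hr : r u₀ ≠ 0) :
    ∃ y z : σ → A0.D, (∀ l, y l ∈ R.Λ) ∧ (∀ l, z l ∈ R.Λ) ∧
      A0.τ (R.i * ∑ u ∈ wds σ p, R.κ (r u) • dwd y z u) ≠ 0 := by
  obtain ⟨y, hy, hZ, hrel⟩ := R.test0 hp.le r hu hr
  set Z := ∑ u ∈ wds σ p, R.κ (r u) • wd y u with hZdef
  have hZm : Z⁻¹ ∈ R.Λ :=
    A0.inv_mem _ (sum_mem fun u _ => R.Λ.smul_mem (TorTest_wd_mem _ hy u) _)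
  set x : A0.D := Z⁻¹ * R.i⁻¹ with hx
  have hxm : x ∈ R.Λ := mul_mem hZm (A0.inv_mem _ R.i_mem)
  refine ⟨y, fun l => x * y l - y l * x, hy,
    fun l => sub_mem (mul_mem hxm (hy l)) (mul_mem (hy l) hxm), ?_⟩
  have e : ∑ u ∈ wds σ p, R.κ (r u) • dwd y (fun l => x * y l - y l * x) u = x * Z - Z * x := by
    rw [hZdef, Finset.mul_sum, Finset.sum_mul, ← Finset.sum_sub_distrib]
    refine Finset.sum_congr rfl fun u _ => ?_
    rw [dwd_comm, smul_sub, mul_smul_comm, smul_mul_assoc]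
  have hi := R.i_ne
  have h1 : R.i * Z⁻¹ = R.κ R.ζ ^ p • (Z⁻¹ * R.i) := by
    calc R.i * Z⁻¹ = Z⁻¹ * (Z * R.i) * Z⁻¹ := by rw [inv_mul_cancel_left₀ hZ]
      _ = _ := by
        rw [hrel, mul_smul_comm, smul_mul_assoc, mul_assoc, mul_inv_cancel_right₀ hZ]
  have h2 : R.i * (x * Z - Z * x) = (R.κ R.ζ ^ p - 1) • (1 : A0.D) := by
    rw [mul_sub, sub_smul, one_smul, hx]
    congr 1
    · rw [← mul_assoc, ← mul_assoc, h1, smul_mul_assoc, smul_mul_assoc, mul_inv_cancel_right₀ hi,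
        inv_mul_cancel₀ hZ]
    · rw [mul_inv_cancel_left₀ hZ, mul_inv_cancel₀ hi]
  rw [e, h2, map_smul, A0.τ_one, smul_eq_mul, mul_one, sub_ne_zero, ← map_pow, ← map_one R.κ]
  exact fun h => R.hζ.pow_ne_one_of_pos_of_lt hp0.ne' hp (R.κ.injective h)

theorem test2 {p : ℕ} (hp0 : 0 < p) (hp : p ≤ n) (r : List σ → A.K) {u₀ : List σ}
    (hu : u₀.length = p) (hr : ∑ m ∈ Finset.range p, r (u₀.rotate m) ≠ 0) :
    ∃ y z : σ → A0.D, (∀ l, y l ∈ R.Λ) ∧ (∀ l, z l ∈ R.Λ) ∧
      A0.τ (∑ u ∈ wds σ p, R.κ (r u) • dwd y z u) ≠ 0 := by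
  obtain ⟨q, rfl⟩ : ∃ q, p = q + 1 := ⟨p - 1, by omega⟩
  obtain ⟨l₀, v₀, rfl⟩ : ∃ l₀ v₀, u₀ = l₀ :: v₀ := by
    cases u₀ with
    | nil => simp at hu
    | cons l v => exact ⟨l, v, rfl⟩
  let c : List σ → A.K := fun u => ∑ m ∈ Finset.range (q + 1), r (u.rotate (q + 1 - m))
  have hc : c (l₀ :: v₀) ≠ 0 := by
    have : c (l₀ :: v₀) = ∑ m ∈ Finset.range (q + 1), r ((l₀ :: v₀).rotate m) := by
      simp only [c]
      rw [Finset.sum_range_succ', Finset.sum_range_succ' (fun m => r ((l₀ :: v₀).rotate m)),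
        ← Finset.sum_range_reflect (fun m => r ((l₀ :: v₀).rotate (m + 1))) q]
      congr 1
      · refine Finset.sum_congr rfl fun m hm => ?_
        rw [Finset.mem_range] at hm
        congr 2
        omega
      · rw [Nat.sub_zero, ← hu, List.rotate_length, List.rotate_zero]
    rwa [this]
  obtain ⟨y, hy, hZ, -⟩ := R.test0 (p := q) (by omega) (fun v => c (l₀ :: v)) (u₀ := v₀)
    (by simpa using hu) hc
  set Z := ∑ v ∈ wds σ q, R.κ (c (l₀ :: v)) • wd y v with hZdef
  have hZm : Z⁻¹ ∈ R.Λ :=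
    A0.inv_mem _ (sum_mem fun u _ => R.Λ.smul_mem (TorTest_wd_mem _ hy u) _)
  let z : σ → A0.D := fun l => if l = l₀ then Z⁻¹ else 0
  refine ⟨y, z, hy, fun l => ?_, ?_⟩
  · simp only [z]
    split_ifs
    · exact hZm
    · exact zero_mem _
  have e1 : A0.τ (∑ u ∈ wds σ (q + 1), R.κ (r u) • dwd y z u) =
      ∑ u ∈ wds σ (q + 1), R.κ (c u) * TorTest_Θ A0 y z u := by
    have a1 : ∀ u ∈ wds σ (q + 1), A0.τ (R.κ (r u) • dwd y z u) =
        ∑ m ∈ Finset.range (q + 1), R.κ (r u) * TorTest_Θ A0 y z (u.rotate m) := by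
      intro u hu'
      have := TorTest_τ_dwd A0 y z u []
      rw [wd_nil, mul_one, List.append_nil, mem_wds.1 hu'] at this
      rw [map_smul, this, smul_eq_mul, Finset.mul_sum]
    rw [map_sum, Finset.sum_congr rfl a1, Finset.sum_comm]
    simp only [c, map_sum, Finset.sum_mul]
    rw [Finset.sum_comm (s := wds σ (q + 1))]
    refine Finset.sum_congr rfl fun m hm => ?_
    rw [Finset.mem_range] at hm
    refine Finset.sum_nbij' (fun u => u.rotate m) (fun u => u.rotate (q + 1 - m))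
      (fun u hu' => ?_) (fun u hu' => ?_) (fun u hu' => ?_) (fun u hu' => ?_) (fun u hu' => ?_)
    · exact mem_wds.2 (by rw [List.length_rotate]; exact mem_wds.1 hu')
    · exact mem_wds.2 (by rw [List.length_rotate]; exact mem_wds.1 hu')
    · rw [List.rotate_rotate, show m + (q + 1 - m) = u.length by rw [mem_wds.1 hu']; omega,
        List.rotate_length]
    · rw [List.rotate_rotate, show q + 1 - m + m = u.length by rw [mem_wds.1 hu']; omega,
        List.rotate_length]
    · rw [List.rotate_rotate, show m + (q + 1 - m) = u.length by rw [mem_wds.1 hu']; omega,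
        List.rotate_length]
  rw [e1, sum_wds_succ, Finset.sum_eq_single l₀]
  · have : ∑ v ∈ wds σ q, R.κ (c (l₀ :: v)) * TorTest_Θ A0 y z (l₀ :: v) = A0.τ (Z⁻¹ * Z) := by
      conv_rhs => rw [hZdef, Finset.mul_sum, map_sum]
      refine Finset.sum_congr rfl fun v _ => ?_
      rw [TorTest_Θ, mul_smul_comm, map_smul, smul_eq_mul]
      simp only [z, if_true, hZdef]
    rw [this, inv_mul_cancel₀ hZ, A0.τ_one]
    exact one_ne_zero
  · intro l _ hl
    refine Finset.sum_eq_zero fun v _ => ?_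
    simp [TorTest_Θ, z, hl]
  · intro h
    exact absurd (Finset.mem_univ _) h

end Tor

end Crest.Agent.R180
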