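import Crest.Agent.R180.Key
import Crest.Agent.R180.TorTest
import Crest.Agent.R180.LauEx
import Crest.Agent.R180.TorEx

/-! Fact 0 (a nonzero `b` has a descendant with `V ≠ 0`), Fact A (`μ` minimal ⇒ `V ≤ E`),
generation lemma. -/

set_option autoImplicit false

namespace Crest.Agent.R180

open NC Module

/-- the coefficientwise filtration on `NC σ B` -/
def Fact_cw {B : Type} [Ring B] (Φ : Filt B) (σ : Type) : Filt (NC σ B) where
  F N :=
    { carrier := {f | ∀ u, f u ∈ Φ.F N}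
      add_mem' := fun hf hg u => add_mem (hf u) (hg u)
      zero_mem' := fun _ => zero_mem _
      neg_mem' := fun hf u => neg_mem (hf u) }
  one_mem u := by
    cases u with
    | nil => exact Φ.one_mem
    | cons a u => exact zero_mem _
  anti h f hf u := Φ.anti h (hf u)
  mul_mem {a b x y} hx hy u := by
    rw [NC.mul_apply]
    exact sum_mem fun k _ => Φ.mul_mem (hx _) (hy _)
  sep x h := by
    ext u
    exact Φ.sep _ fun N => h N u
  compl s h := by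
    choose x hx using fun u : List σ => Φ.compl (fun N => s N u) fun N => h N u
    exact ⟨x, fun N u => hx u N⟩

theorem Fact_split {A0 A : CDA} (L : Lau A0 A) {c : A0.D} {x : A.D} (hx : x ∈ L.O) {k : ℕ}
    (h : L.ι c + L.t • x ∈ L.filt.F (1 + k)) : c = 0 ∧ x ∈ L.filt.F k := by
  have htx : L.t • x ∈ L.O := L.smul_mem L.t_mem hx
  have h1 := (L.mem_filt_one.1 (L.filt.anti (Nat.le_add_right 1 k) h)).2
  rw [L.red_add (L.ι_mem _) htx, L.red_ι, (L.red_eq_zero htx).2 ⟨x, hx, rfl⟩, add_zero] at h1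
  rw [h1, map_zero, zero_add, ← pow_one L.t, L.tpow_smul_mem_filt] at h
  exact ⟨h1, h⟩

theorem Fact_div {A0 A : CDA} (L : Lau A0 A) {c B : A.D} (hB : B ∈ L.O) {p : ℕ}
    (h : c - L.t ^ p • B ∈ L.filt.F (p + 1)) :
    ∃ bh ∈ L.O, c = L.t ^ p • bh ∧ L.red bh = L.red B := by
  have ht : L.t ^ p ≠ 0 := pow_ne_zero _ L.t_ne
  have e : c = L.t ^ p • (L.t ^ p)⁻¹ • c := by rw [smul_smul, mul_inv_cancel₀ ht, one_smul]
  rw [e, ← smul_sub, L.tpow_smul_mem_filt] at h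
  obtain ⟨h1, h2⟩ := L.red_eq_of_sub_mem hB h
  exact ⟨_, h1, e, h2⟩

theorem Fact_wd_smul {σ K B : Type} [CommRing K] [Ring B] [Algebra K B] (t : K) (x : σ → B)
    (u : List σ) : wd (fun l => t • x l) u = t ^ u.length • wd x u := by
  induction u with
  | nil => simp
  | cons l u ih => rw [wd_cons, wd_cons, ih, smul_mul_smul_comm, List.length_cons, pow_succ']

theorem Fact_red_wd {A0 A : CDA} (L : Lau A0 A) {σ : Type} {x : σ → A.D} (hx : ∀ l, x l ∈ L.O)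
    (u : List σ) : wd x u ∈ L.O ∧ L.red (wd x u) = wd (fun l => L.red (x l)) u := by
  induction u with
  | nil => exact ⟨one_mem _, L.red_one⟩
  | cons l u ih =>
    rw [wd_cons, wd_cons, L.red_mul (hx l) ih.1, ih.2]
    exact ⟨mul_mem (hx l) ih.1, rfl⟩

theorem Fact_mem_perp_bot (A : CDA) (c : A.D) : c ∈ A.perp ⊥ := by
  intro v hv
  rw [Submodule.mem_bot] at hv
  simp [hv]

theorem Tor.gen {A A0 A' : CDA} {n : ℕ} (R : Tor A A0 n) (hn : n.Prime) (L : Lau A0 A') {J : Type}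
    {W : J → A'.D} (hW : ∀ l, W l ∈ L.liftA R.Λ) {a b : A'.D}
    (ha : a ∈ Algebra.adjoin A'.K (Set.range W)) (hb : b ∈ Algebra.adjoin A'.K (Set.range W))
    (hab : a * b ≠ b * a) : L.liftA R.Λ ≤ Algebra.adjoin A'.K (Set.range W) := by
  refine A'.le_of_prime_sq hn ?_ (Algebra.adjoin_le ?_) ha hb hab
  · rw [← Subalgebra.finrank_toSubmodule, L.liftA_toSubmodule, ← L.finrank_redS, L.redS_lift,
      Subalgebra.finrank_toSubmodule, R.finrank_Λ hn]
  · rintro _ ⟨l, rfl⟩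
    exact hW l

/-- `y + t y'` with `y' = (i, j)` has non-commuting entries even after an `O(t³)` perturbation -/
theorem Tor.noncomm {A A0 A' : CDA} {n : ℕ} (R : Tor A A0 n) (hn : n.Prime) (L : Lau A0 A')
    (y₁ y₂ : A0.D) {a b : A'.D} (ha : a - (L.ι y₁ + L.t • L.ι R.i) ∈ L.filt.F 3)
    (hb : b - (L.ι y₂ + L.t • L.ι R.j) ∈ L.filt.F 3) : a * b ≠ b * a := by
  intro hab
  set a₀ := L.ι y₁ + L.t • L.ι R.i with ha₀
  set b₀ := L.ι y₂ + L.t • L.ι R.j with hb₀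
  have ha0 : a₀ ∈ L.filt.F 0 :=
    L.mem_filt_zero.2 (add_mem (L.ι_mem _) (L.smul_mem L.t_mem (L.ι_mem _)))
  have hb0 : b₀ ∈ L.filt.F 0 :=
    L.mem_filt_zero.2 (add_mem (L.ι_mem _) (L.smul_mem L.t_mem (L.ι_mem _)))
  have hb1 : b ∈ L.filt.F 0 := by
    simpa using add_mem (L.filt.anti (Nat.zero_le 3) hb) hb0
  have h1 : a₀ * b₀ - b₀ * a₀ ∈ L.filt.F 3 := by
    have e : a₀ * b₀ - b₀ * a₀ = (a * b - b * a) +
        (b * (a - a₀) - (a - a₀) * b + ((b - b₀) * a₀ - a₀ * (b - b₀))) := by noncomm_ring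
    rw [e, hab, sub_self, zero_add]
    exact add_mem (sub_mem (Eval_mul_mem _ hb1 ha le_rfl) (Eval_mul_mem _ ha hb1 le_rfl))
      (sub_mem (Eval_mul_mem _ hb ha0 le_rfl) (Eval_mul_mem _ ha0 hb le_rfl))
  have e : a₀ * b₀ - b₀ * a₀ = L.ι (y₁ * y₂ - y₂ * y₁) + L.t •
      (L.ι (y₁ * R.j + R.i * y₂ - y₂ * R.i - R.j * y₁) +
        L.t • (L.ι (R.i * R.j - R.j * R.i) + L.t • (0 : A'.D))) := by
    simp only [ha₀, hb₀, map_sub, map_add, map_mul, mul_add, add_mul, smul_add, smul_sub,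
      smul_mul_assoc, mul_smul_comm, smul_zero]
    abel
  rw [e] at h1
  have o3 : L.ι (R.i * R.j - R.j * R.i) + L.t • (0 : A'.D) ∈ L.O := by
    rw [smul_zero, add_zero]; exact L.ι_mem _
  have h2 := (Fact_split L (k := 2) (add_mem (L.ι_mem _) (L.smul_mem L.t_mem o3)) h1).2
  have h3 := (Fact_split L (k := 1) o3 h2).2
  have h4 := (Fact_split L (k := 0) (zero_mem _) h3).1
  rw [R.rel, ← one_smul A0.K (R.i * R.j), smul_smul, ← sub_smul, smul_eq_zero] at h4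
  rcases h4 with h4 | h4
  · rw [mul_one, ← map_one R.κ, ← map_sub, map_eq_zero, sub_eq_zero] at h4
    exact R.hζ.ne_one hn.one_lt h4.symm
  · exact mul_ne_zero R.i_ne R.j_ne h4

theorem fact0 {S : St} (T : Tri S) (hb : T.b ≠ 0) :
    ∃ (S' : St) (T' : Tri S'), Desc T.b T'.b ∧ T'.V ≠ ⊥ := by
  classical
  have hex : ∃ p, ∃ u : List (Fin S.M), u.length = p ∧ T.b u ≠ 0 := by
    by_contra hc
    push Not at hc
    exact hb (by ext u; exact hc _ u rfl)
  obtain ⟨u₀, hu₀, hbu⟩ := Nat.find_spec hex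
  set p := Nat.find hex with hp
  have hlow : ∀ u : List (Fin S.M), u.length < p → T.b u = 0 := fun u hu => by
    by_contra hc
    exact Nat.find_min hex hu ⟨u, rfl, hc⟩
  have hp0 : p ≠ 0 := by
    intro h0
    rw [h0, List.length_eq_zero_iff] at hu₀
    exact hbu (hu₀ ▸ T.b_nil)
  obtain ⟨n, hpn, hn⟩ := Nat.exists_infinite_primes p
  obtain ⟨A0, ⟨R⟩⟩ := exists_tor S.A hn
  obtain ⟨A', ⟨L⟩⟩ := exists_lau A0
  obtain ⟨y, hyΛ, hy⟩ := R.test0' hpn T.b hu₀ hbu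
  let l0 : Fin S.M := ⟨0, by have := S.hM; omega⟩
  let l1 : Fin S.M := ⟨1, by have := S.hM; omega⟩
  let y' : Fin S.M → A0.D := fun l => if l = l0 then R.i else R.j
  have hy'Λ : ∀ l, y' l ∈ R.Λ := fun l => by
    simp only [y']; split_ifs; exacts [R.i_mem, R.j_mem]
  let x : Fin S.M → A'.D := fun l => L.ι (y l) + L.t • L.ι (y' l)
  have hxO : ∀ l, x l ∈ L.O := fun l => add_mem (L.ι_mem _) (L.smul_mem L.t_mem (L.ι_mem _))
  have hxr : ∀ l, L.red (x l) = y l := fun l => by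
    have htx : L.t • L.ι (y' l) ∈ L.O := L.smul_mem L.t_mem (L.ι_mem _)
    rw [L.red_add (L.ι_mem _) htx, L.red_ι, (L.red_eq_zero htx).2 ⟨_, L.ι_mem _, rfl⟩, add_zero]
  let W : Fin S.M → A'.D := fun l => L.t • x l
  have hW : ∀ l, W l ∈ L.filt.F 1 := fun l => ⟨x l, hxO l, by rw [pow_one]⟩
  have hWΛ : ∀ l, W l ∈ L.liftA R.Λ := fun l => Subalgebra.smul_mem _ (add_mem
    (Algebra.subset_adjoin (Set.mem_image_of_mem _ (hyΛ l)))
    (Subalgebra.smul_mem _ (Algebra.subset_adjoin (Set.mem_image_of_mem _ (hy'Λ l))) _)) _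
  have hxW : ∀ l, x l ∈ Algebra.adjoin A'.K (Set.range W) := fun l => by
    have : x l = L.t⁻¹ • W l := by rw [smul_smul, inv_mul_cancel₀ L.t_ne, one_smul]
    rw [this]
    exact Subalgebra.smul_mem _ (Algebra.subset_adjoin (Set.mem_range_self l)) _
  have gen := R.gen hn L hWΛ (hxW l0) (hxW l1) (R.noncomm hn L (y l0) (y l1)
    (by simp [x, y']) (by simp [x, y', l0, l1]))
  obtain ⟨T0, h1, h2, h3⟩ := exists_slice R.toExt L hWΛ
  obtain ⟨M', hM', T', ⟨mv⟩⟩ := exists_mv T R.toExt L W hW hWΛ gen T0 h1 h2 h3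
  refine ⟨_, T', mv.desc, fun hV => ?_⟩
  have hCW : ∀ l, (C (W l) * (1 + X ()) : NC Unit A'.D) ∈ (Fact_cw L.filt Unit).F 1 := by
    intro l u
    rw [C_mul_apply]
    refine Eval_mul_mem _ (hW l) (b := 0) (add_mem ((Fact_cw L.filt Unit).one_mem u) ?_) le_rfl
    rw [X_apply]
    split_ifs
    exacts [L.filt.one_mem, zero_mem _]
  obtain ⟨e, he, heC, heX⟩ := exists_eval (Fact_cw L.filt Unit)
    ((C : A'.D →+* NC Unit A'.D).comp (L.ι.comp R.ι))
    (fun d u => by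
      cases u with
      | nil => exact L.mem_filt_zero.2 (L.ι_mem _)
      | cons a u => exact zero_mem _)
    (fun l => C (W l) * (1 + X ())) hCW
    (fun d l => ((commute_liftA R.toExt L d (hWΛ l)).map C).mul_right
      ((Commute.one_right _).add_right (C_comm_X _ _)))
  have hX0 : ∀ l, e (X l) [] = W l := fun l => by simp [heX]
  have hX1 : ∀ l, e (X l) [()] = W l := fun l => by simp [heX]
  have hm := hom_sub_hmg (Fact_cw L.filt Unit) e he (a := 1) (fun l => heX l ▸ hCW l) hlow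
  rw [one_mul] at hm
  set B : A'.D := ∑ u ∈ wds (Fin S.M) p, L.ι (R.ι (T.b u)) * wd x u with hB
  have hBO : B ∈ L.O := sum_mem fun u _ => mul_mem (L.ι_mem _) (Fact_red_wd L hxO u).1
  have hBr : L.red B ≠ 0 := by
    rw [hB, L.red_sum _ fun u _ => mul_mem (L.ι_mem _) (Fact_red_wd L hxO u).1]
    convert hy using 2 with u
    rw [L.red_mul (L.ι_mem _) (Fact_red_wd L hxO u).1, L.red_ι, (Fact_red_wd L hxO u).2]
    simp only [hxr]
  have hsum : ∑ u ∈ wds (Fin S.M) p, L.ι (R.ι (T.b u)) * wd W u = L.t ^ p • B := by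
    rw [hB, Finset.smul_sum]
    refine Finset.sum_congr rfl fun u hu => ?_
    rw [Fact_wd_smul, mem_wds.1 hu, mul_smul_comm]
  have m0 : e T.b [] - L.t ^ p • B ∈ L.filt.F (p + 1) := by
    have := hm []
    simp only [NC.sub_apply, NC.sum_apply, heC, RingHom.comp_apply, C_mul_apply, wd_apply_nil,
      hX0] at this
    rwa [hsum] at this
  have m1 : e T.b [()] - p • L.t ^ p • B ∈ L.filt.F (p + 1) := by
    have := hm [()]
    simp only [NC.sub_apply, NC.sum_apply, heC, RingHom.comp_apply, C_mul_apply,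
      wd_apply_singleton, hX0, hX1, dwd_self] at this
    rw [← hsum, Finset.smul_sum]
    convert this using 3 with u hu
    rw [mem_wds.1 hu, mul_smul_comm]
  obtain ⟨bh, hbO, hbe, hbr⟩ := Fact_div L hBO m0
  rw [smul_comm] at m1
  obtain ⟨dh, hdO, hde, hdr⟩ := Fact_div L (nsmul_mem hBO p) m1
  have hc0 : mv.φ T.b [] = L.t ^ p • bh :=
    (mv.c0_eq (c0.comp e) (fun f => he f []) (fun d => by simp [heC]) hX0 T.b).trans hbe
  have hbΓ : bh⁻¹ ∈ T'.Γ := A'.inv_mem _ (T'.E_le (mv.mem_E_of_c0 hc0))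
  have hk := mv.key hbΓ (hV ▸ Fact_mem_perp_bot A' _) e (fun f u => by simpa using he f u)
    heC hX0 (fun l => hX1 l ▸ hWΛ l)
  rw [hde, mul_smul_comm, map_smul, smul_eq_zero] at hk
  obtain ⟨hiO, hir⟩ := L.inv_mem_O hbO (hbr ▸ hBr)
  have h5 := L.τ_red_eq_zero (mul_mem hiO hdO) (hk.resolve_left (pow_ne_zero _ L.t_ne))
  have h6 : L.red (p • B) = p • L.red B := by
    rw [← Finset.card_range p, ← Finset.sum_const, ← Finset.sum_const, L.red_sum _ fun _ _ => hBO]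
  rw [L.red_mul hiO hdO, hir, hdr, hbr, h6, mul_smul_comm, inv_mul_cancel₀ hBr, map_nsmul,
    A0.τ_one, nsmul_one, Nat.cast_eq_zero] at h5
  exact hp0 h5

theorem factA {S : St} {T : Tri S} (h : T.MinMu) : T.V ≤ Subalgebra.toSubmodule T.E := by
  classical
  intro v hv
  by_contra hvE
  have hv0 : v ≠ 0 := fun h0 => hvE (h0 ▸ zero_mem _)
  obtain ⟨h0, hh0⟩ := T.mem_V_iff.1 hv
  obtain ⟨A', ⟨L⟩⟩ := exists_lau S.A
  let x : Fin S.M → A'.D := fun l => L.ι (algebraMap S.A.K S.A.D (h0 l))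
  have hxB : ∀ (B : Subalgebra A'.K A'.D) l, x l ∈ B := fun B l => by
    simp only [x, L.compat]; exact B.algebraMap_mem _
  let W : Fin S.M → A'.D := fun l => L.t • x l
  have hW : ∀ l, W l ∈ L.filt.F 1 := fun l => ⟨x l, L.ι_mem _, by rw [pow_one]⟩
  have hWΛ : ∀ l, W l ∈ L.liftA (Ext.refl S.A).Λ := fun l => Subalgebra.smul_mem _ (hxB _ l) _
  have gen : L.liftA (Ext.refl S.A).Λ ≤ Algebra.adjoin A'.K (Set.range W) := by
    refine Algebra.adjoin_le ?_
    rintro _ ⟨z, hz, rfl⟩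
    obtain ⟨c, rfl⟩ := Algebra.mem_bot.1 hz
    rw [L.compat]
    exact Subalgebra.algebraMap_mem _ _
  obtain ⟨T0, h1, h2, h3⟩ := exists_slice (Ext.refl S.A) L hWΛ
  obtain ⟨M', hM', T', ⟨mv⟩⟩ := exists_mv T (Ext.refl S.A) L W hW hWΛ gen T0 h1 h2 h3
  obtain ⟨e, he, heC, heX⟩ := exists_eval L.filt L.ι (fun d => L.mem_filt_zero.2 (L.ι_mem _)) W hW
    (fun d l => commute_liftA (Ext.refl S.A) L d (hWΛ l))
  have hsx : ∑ l, L.ι (T.b [l]) * x l = L.ι v := by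
    rw [← hh0, map_sum]
    refine Finset.sum_congr rfl fun l _ => ?_
    rw [← map_mul, ← Algebra.commutes, ← Algebra.smul_def]
  have hm := hom_sub_hmg L.filt e he (a := 1) (p := 1) (f := T.b) (fun l => heX l ▸ hW l)
    (fun u hu => by
      obtain rfl : u = [] := List.length_eq_zero_iff.1 (by omega)
      exact T.b_nil)
  rw [sum_wds_succ] at hm
  simp only [wds, Finset.sum_singleton, heC, heX, wd_cons, wd_nil, mul_one, W, mul_smul_comm,
    ← Finset.smul_sum, hsx, one_mul] at hm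
  rw [← pow_one L.t] at hm
  obtain ⟨bh, hbO, hbe, hbr⟩ := Fact_div L (L.ι_mem v) hm
  rw [L.red_ι] at hbr
  have hc0 : mv.φ T.b [] = L.t ^ 1 • bh := (mv.c0_eq e he heC heX T.b).trans hbe
  have hbE : bh ∈ T'.E := mv.mem_E_of_c0 hc0
  have hV : T'.V ≠ ⊥ := by
    intro hV
    obtain ⟨y, hy, hk⟩ := mv.key_lin (A'.inv_mem _ (T'.E_le hbE)) (hV ▸ Fact_mem_perp_bot A' _)
      le_rfl hW x (fun l => L.ι_mem _) (hxB _)
    change A'.τ (bh⁻¹ * (∑ l, L.ι (T.b [l]) * x l + y)) = 0 at hk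
    rw [hsx] at hk
    obtain ⟨hiO, hir⟩ := L.inv_mem_O hbO (hbr ▸ hv0)
    obtain ⟨hyO, hyr⟩ := L.mem_filt_one.1 hy
    have h5 := L.τ_red_eq_zero (mul_mem hiO (add_mem (L.ι_mem v) hyO)) hk
    rw [L.red_mul hiO (add_mem (L.ι_mem v) hyO), L.red_add (L.ι_mem v) hyO, hir, hbr, hyr,
      L.red_ι, add_zero, inv_mul_cancel₀ hv0, S.A.τ_one] at h5
    exact one_ne_zero h5
  have hμ := h _ T' mv.desc hV
  have dΓ : finrank A'.K T'.Γ ≤ finrank S.A.K T.Γ := by
    have := Submodule.finrank_mono mv.redΓ_le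
    rwa [L.finrank_redS, Ext.refl_big, Subalgebra.finrank_toSubmodule,
      Subalgebra.finrank_toSubmodule] at this
  have dE : finrank S.A.K T.E < finrank A'.K T'.E := by
    have hlt : Subalgebra.toSubmodule T.E < L.redS (Subalgebra.toSubmodule T'.E) :=
      lt_of_le_of_ne (fun z hz => mv.ι_mem_redE hz) fun heq => hvE (heq ▸ ⟨bh, hbE, hbO, hbr⟩)
    have := Submodule.finrank_lt_finrank_of_lt hlt
    rwa [L.finrank_redS, Subalgebra.finrank_toSubmodule, Subalgebra.finrank_toSubmodule] at this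
  have e1 := T.μ_mul
  have e2 : T'.μ * finrank A'.K T'.E = finrank A'.K T'.Γ := T'.μ_mul
  have e3 : 0 < finrank S.A.K T.Γ := finrank_pos
  have e4 : 0 < T.μ := Nat.pos_of_ne_zero fun h0 => by rw [h0, zero_mul] at e1; omega
  have e5 : T.μ * finrank S.A.K T.E < T.μ * finrank A'.K T'.E := Nat.mul_lt_mul_of_pos_left dE e4
  have e6 : T.μ * finrank A'.K T'.E ≤ T'.μ * finrank A'.K T'.E := Nat.mul_le_mul_right _ hμ
  omega

theorem exists_C1 {S : St} {T : Tri S} (h : T.MinMu) (hV : T.V ≠ ⊥) :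
    ∃ T' : Tri S, Desc T.b T'.b ∧ T'.C1 := by
  obtain ⟨θ, hθ, h0⟩ := (Submodule.ne_bot_iff _).1 hV
  have hE : θ ∈ T.E := factA h hθ
  have hi : θ⁻¹ ∈ T.Γ := S.A.inv_mem _ (T.E_le hE)
  have hd := T.desc_norm hi h0 hE
  exact ⟨T.norm θ hi, hd, (T.mem_norm_V hi).2 ⟨θ, hθ, (inv_mul_cancel₀ h0).symm⟩,
    h.of_desc hd le_rfl⟩

end Crest.Agent.R180
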