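import Mathlib

/-! Pure algebra for the limit construction of row 180. -/

set_option autoImplicit false

namespace Crest.Agent.R180

open Filter

/-- From a countable algebraic two-generated infinite-dimensional domain to the statement. -/
theorem final_of_alg (k D : Type) [Field k] [CharZero k] [Ring D] [IsDomain D] [Algebra k D]
    [Countable D] (halg : ∀ d : D, IsAlgebraic k d) (x y : D)
    (gen : Algebra.adjoin k ({x, y} : Set D) = ⊤) (inf : ¬ Module.Finite k D) :
    ∃ (D : Type) (_ : DivisionRing D), Countable D ∧ CharZero D ∧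
      Algebra.IsAlgebraic (Subring.center D) D ∧
      (∃ x y : D, Algebra.adjoin (Subring.center D) ({x, y} : Set D) = ⊤) ∧
      ¬ FiniteDimensional (Subring.center D) D := by
  classical
  have hu : ∀ d : D, IsUnit d ∨ d = 0 := fun d => by
    by_cases h : d = 0
    · exact Or.inr h
    · exact Or.inl ((halg d).isIntegral.isUnit h)
  let _inst : DivisionRing D := DivisionRing.ofIsUnitOrEqZero hu
  let ι : k →+* Subring.center D := (algebraMap k D).codRestrict _ fun c =>
    Subring.mem_center_iff.2 fun g => (Algebra.commutes c g).symm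
  let _inst : Algebra k (Subring.center D) := ι.toAlgebra
  have : IsScalarTower k (Subring.center D) D := IsScalarTower.of_algebraMap_eq fun c => rfl
  refine ⟨D, inferInstance, inferInstance, charZero_of_injective_algebraMap (algebraMap k D).injective, ?_, ⟨x, y, ?_⟩, ?_⟩
  · exact ⟨fun d => (halg d).ringHom_of_comp_eq ι (RingHom.id D) ι.injective rfl⟩
  · rw [eq_top_iff]
    intro d _
    have hd : d ∈ Algebra.adjoin k ({x, y} : Set D) := gen ▸ Algebra.mem_top
    exact Algebra.adjoin_le (S := (Algebra.adjoin (Subring.center D) ({x, y} : Set D)).restrictScalars k)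
      Algebra.subset_adjoin hd
  · intro hfd
    apply inf
    obtain ⟨B, hB, hBD⟩ := exists_subalgebra_of_fg k (Subring.center D) D
      ⟨{x, y}, by simpa using gen⟩ hfd.fg_top
    have : Module.Finite B D := ⟨hBD⟩
    have : Module.Finite k B := by
      obtain ⟨s, rfl⟩ := hB
      refine Algebra.finite_adjoin_of_finite_of_isIntegral s.finite_toSet fun z _ => ?_
      exact ((isAlgebraic_algebraMap_iff (A := D) Subtype.val_injective).1 (halg _)).isIntegral
    exact Module.Finite.trans B D

/-- a two-generated infinite-dimensional domain over a countable field -/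
structure FinalAlg where
  k : Type
  A : Type
  [fk : Field k]
  [cz : CharZero k]
  [ck : Countable k]
  [rA : Ring A]
  [dA : IsDomain A]
  [alg : Algebra k A]
  x : A
  y : A
  gen : Algebra.adjoin k ({x, y} : Set A) = ⊤
  inf : ¬ Module.Finite k A

attribute [instance] FinalAlg.fk FinalAlg.cz FinalAlg.ck FinalAlg.rA FinalAlg.dA FinalAlg.alg

/-- morphisms -/
structure FinalHom (B B' : FinalAlg) where
  κ : B.k →+* B'.k
  φ : B.A →+* B'.A
  compat : ∀ c, φ (algebraMap B.k B.A c) = algebraMap B'.k B'.A (κ c)
  hx : φ B.x = B'.x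
  hy : φ B.y = B'.y

instance (B : FinalAlg) : Countable B.A := by
  have h := Algebra.cardinalMk_adjoin_le B.k ({B.x, B.y} : Set B.A)
  rw [B.gen] at h
  have h1 : Cardinal.mk B.k ≤ Cardinal.aleph0 := Cardinal.mk_le_aleph0
  have h2 : Cardinal.mk ({B.x, B.y} : Set B.A) ≤ Cardinal.aleph0 := Cardinal.mk_le_aleph0
  have h3 : Countable (⊤ : Subalgebra B.k B.A) :=
    Cardinal.mk_le_aleph0_iff.1 (h.trans (by simp [h2]))
  exact (Subalgebra.topEquiv (R := B.k) (A := B.A)).symm.injective.countable

/-- iterated transition maps -/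
def finalLe {G : ℕ → Type} [∀ n, NonAssocSemiring (G n)] (g : ∀ n, G n →+* G (n + 1))
    (i j : ℕ) (h : i ≤ j) : G i →+* G j :=
  Nat.leRec (motive := fun j _ => G i →+* G j) (RingHom.id _) (fun k _ r => (g k).comp r) h

section
variable {G : ℕ → Type} [∀ n, NonAssocSemiring (G n)] (g : ∀ n, G n →+* G (n + 1))

theorem finalLe_self (i : ℕ) (h : i ≤ i) (a : G i) : finalLe g i i h a = a := by
  unfold finalLe
  rw [Nat.leRec_self]; rfl

theorem finalLe_succ {i j : ℕ} (h : i ≤ j) (h' : i ≤ j + 1) (a : G i) :
    finalLe g i (j + 1) h' a = g j (finalLe g i j h a) := by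
  unfold finalLe
  rw [Nat.leRec_succ _ _ h]; rfl

instance : DirectedSystem G (finalLe g · · ·) where
  map_self i a := finalLe_self g i _ a
  map_map k j i hij hjk a := by
    induction k, hjk using Nat.le_induction with
    | base => exact finalLe_self g _ _ _
    | succ k hjk ih =>
      rw [finalLe_succ g hjk, finalLe_succ g (hij.trans hjk)]
      exact congrArg _ ih

theorem final_lift (d : DirectLimit G (finalLe g)) :
    ∀ᶠ n in atTop, ∃ a : G n, DirectLimit.Ring.of G (finalLe g) n a = d := by
  obtain ⟨i, a, rfl⟩ := DirectLimit.exists_eq_mk _ d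
  filter_upwards [eventually_ge_atTop i] with n hn
  exact ⟨finalLe g i n hn a, DirectLimit.Ring.of_f hn a⟩

theorem final_eq {i : ℕ} {a b : G i}
    (h : DirectLimit.Ring.of G (finalLe g) i a = DirectLimit.Ring.of G (finalLe g) i b) :
    ∀ᶠ n in atTop, ∀ hn : i ≤ n, finalLe g i n hn a = finalLe g i n hn b := by
  obtain ⟨j, h1, h2, he⟩ := Quotient.exact h
  filter_upwards [eventually_ge_atTop j] with n hn hi
  have := congrArg (finalLe g j n hn) he
  simpa only [DirectedSystem.map_map'] using this

end

theorem final_fin {k A ι : Type} [Field k] [Ring A] [Algebra k A] [Fintype ι] {x y : A}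
    (gen : Algebra.adjoin k ({x, y} : Set A) = ⊤) (v : ι → A)
    (h1 : (1 : A) ∈ Submodule.span k (Set.range v))
    (hx : ∀ i, x * v i ∈ Submodule.span k (Set.range v))
    (hy : ∀ i, y * v i ∈ Submodule.span k (Set.range v)) : Module.Finite k A := by
  have key : ∀ a ∈ Algebra.adjoin k ({x, y} : Set A), ∀ w ∈ Submodule.span k (Set.range v),
      a * w ∈ Submodule.span k (Set.range v) := by
    intro a ha
    induction ha using Algebra.adjoin_induction with
    | mem a ha =>
      intro w hw
      induction hw using Submodule.span_induction with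
      | mem w hw =>
        obtain ⟨i, rfl⟩ := hw
        rcases ha with rfl | rfl
        · exact hx i
        · exact hy i
      | zero => simp
      | add w w' _ _ h h' => rw [mul_add]; exact add_mem h h'
      | smul c w _ h => rw [mul_smul_comm]; exact Submodule.smul_mem _ _ h
    | algebraMap c => intro w hw; rw [← Algebra.smul_def]; exact Submodule.smul_mem _ _ hw
    | add a b _ _ h h' => intro w hw; rw [add_mul]; exact add_mem (h w hw) (h' w hw)
    | mul a b _ _ h h' => intro w hw; rw [mul_assoc]; exact h _ (h' w hw)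
  refine ⟨⟨(Set.finite_range v).toFinset, ?_⟩⟩
  rw [Set.Finite.coe_toFinset, eq_top_iff]
  intro a _
  simpa using key a (gen ▸ Algebra.mem_top) 1 h1

theorem final_limit (B : ℕ → FinalAlg) (m : ∀ n, FinalHom (B n) (B (n + 1)))
    (alg : ∀ i (a : (B i).A), ∃ j, ∃ h : i ≤ j,
      IsAlgebraic (B j).k (finalLe (fun n => (m n).φ) i j h a)) :
    ∃ (D : Type) (_ : DivisionRing D), Countable D ∧ CharZero D ∧
      Algebra.IsAlgebraic (Subring.center D) D ∧
      (∃ x y : D, Algebra.adjoin (Subring.center D) ({x, y} : Set D) = ⊤) ∧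
      ¬ FiniteDimensional (Subring.center D) D := by
  classical
  let φ := finalLe (G := fun n => (B n).A) (fun n => (m n).φ)
  let κ := finalLe (G := fun n => (B n).k) (fun n => (m n).κ)
  let D := DirectLimit (fun n => (B n).A) φ
  let k := DirectLimit (fun n => (B n).k) κ
  let oD : ∀ n, (B n).A →+* D := DirectLimit.Ring.of _ φ
  let ok : ∀ n, (B n).k →+* k := DirectLimit.Ring.of _ κ
  have hcomp : ∀ i j (h : i ≤ j) c,
      φ i j h (algebraMap _ _ c) = algebraMap _ _ (κ i j h c) := by
    intro i j h c
    induction j, h using Nat.le_induction with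
    | base => simp only [φ, κ, finalLe_self]
    | succ j h ih =>
      simp only [φ, κ] at ih ⊢
      rw [finalLe_succ _ h, finalLe_succ _ h, ih, (m j).compat]
  have hx : ∀ i j (h : i ≤ j), φ i j h (B i).x = (B j).x := by
    intro i j h
    induction j, h using Nat.le_induction with
    | base => simp only [φ, finalLe_self]
    | succ j h ih =>
      simp only [φ] at ih ⊢
      rw [finalLe_succ _ h, ih, (m j).hx]
  have hy : ∀ i j (h : i ≤ j), φ i j h (B i).y = (B j).y := by
    intro i j h
    induction j, h using Nat.le_induction with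
    | base => simp only [φ, finalLe_self]
    | succ j h ih =>
      simp only [φ] at ih ⊢
      rw [finalLe_succ _ h, ih, (m j).hy]
  have hoD : ∀ i j (h : i ≤ j) a, oD j (φ i j h a) = oD i a := fun i j h a =>
    DirectLimit.Ring.of_f (G := fun n => (B n).A) (f := φ) h a
  let ι : k →+* D := DirectLimit.Ring.lift _ κ D (fun n => (oD n).comp (algebraMap _ _))
    fun i j h c => by
      simp only [RingHom.comp_apply]
      rw [← hcomp, hoD]
  have hι : ∀ n c, ι (ok n c) = oD n (algebraMap _ _ c) := fun n c => rfl
  have both : ∀ (c : k) (d : D), ∃ n c' d', ok n c' = c ∧ oD n d' = d := fun c d => by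
    obtain ⟨n, ⟨c', hc⟩, d', hd⟩ := ((final_lift _ c).and (final_lift _ d)).exists
    exact ⟨n, c', d', hc, hd⟩
  let _inst : Algebra k D := ι.toAlgebra' fun c d => by
    obtain ⟨n, c, d, rfl, rfl⟩ := both c d
    rw [hι, ← map_mul, ← map_mul, Algebra.commutes]
  have hsmul : ∀ n c a, ok n c • oD n a = oD n (c • a) := fun n c a => by
    rw [Algebra.smul_def, Algebra.smul_def, map_mul, ← hι]; rfl
  have : CharZero k := (ok 0).charZero_iff (ok 0).injective |>.1 inferInstance
  have : NoZeroDivisors D := ⟨fun {a b} h => by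
    obtain ⟨n, a, b, rfl, rfl⟩ := DirectLimit.exists_eq_mk₂ _ a b
    have h' : oD n (a * b) = oD n 0 := by rw [map_mul, map_zero]; exact h
    obtain ⟨j, hj, hn⟩ := ((final_eq _ h').and (eventually_ge_atTop n)).exists
    have := hj hn
    rw [map_mul, map_zero, mul_eq_zero] at this
    rcases this with h0 | h0
    · left; change oD n a = 0; rw [← hoD n j hn, h0, map_zero]
    · right; change oD n b = 0; rw [← hoD n j hn, h0, map_zero]⟩
  have : IsDomain D := NoZeroDivisors.to_isDomain D
  have : Countable D := inferInstanceAs (Countable (Quotient _))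
  have hxn : ∀ n, oD n (B n).x = oD 0 (B 0).x := fun n => by rw [← hx 0 n (Nat.zero_le n), hoD]
  have hyn : ∀ n, oD n (B n).y = oD 0 (B 0).y := fun n => by rw [← hy 0 n (Nat.zero_le n), hoD]
  refine final_of_alg k D ?_ (oD 0 (B 0).x) (oD 0 (B 0).y) ?_ ?_
  · intro d
    obtain ⟨i, a, rfl⟩ := DirectLimit.exists_eq_mk _ d
    obtain ⟨j, h, ha⟩ := alg i a
    have := ha.ringHom_of_comp_eq (ok j) (oD j) (ok j).injective (RingHom.ext fun c => hι j c)
    rwa [hoD] at this
  · rw [eq_top_iff]
    intro d _
    obtain ⟨n, a, rfl⟩ := DirectLimit.exists_eq_mk _ d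
    change oD n a ∈ _
    have ha : a ∈ Algebra.adjoin (B n).k ({(B n).x, (B n).y} : Set (B n).A) :=
      (B n).gen ▸ Algebra.mem_top
    induction ha using Algebra.adjoin_induction with
    | mem a ha =>
      rcases ha with rfl | rfl
      · rw [hxn n]; exact Algebra.subset_adjoin (by simp)
      · rw [hyn n]; exact Algebra.subset_adjoin (by simp)
    | algebraMap c => rw [← hι]; exact Subalgebra.algebraMap_mem _ (ok n c)
    | add a b _ _ h h' => rw [map_add]; exact add_mem (h trivial) (h' trivial)
    | mul a b _ _ h h' => rw [map_mul]; exact mul_mem (h trivial) (h' trivial)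
  · intro hfin
    let b := Module.finBasis k D
    set r := Module.finrank k D
    -- the elements to be expressed
    let e : Option (Bool × Fin r) → D := fun o => match o with
      | none => 1
      | some (true, i) => oD 0 (B 0).x * b i
      | some (false, i) => oD 0 (B 0).y * b i
    have l1 : ∀ᶠ n in atTop, ∀ i, ∃ a, oD n a = b i :=
      eventually_all.2 fun i => final_lift _ (b i)
    have l2 : ∀ᶠ n in atTop, ∀ o i, ∃ c, ok n c = b.repr (e o) i :=
      eventually_all.2 fun o => eventually_all.2 fun i => final_lift _ _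
    obtain ⟨N, h1, h2⟩ := (l1.and l2).exists
    choose v hv using h1
    choose c hc using h2
    let e' : Option (Bool × Fin r) → (B N).A := fun o => match o with
      | none => 1
      | some (true, i) => (B N).x * v i
      | some (false, i) => (B N).y * v i
    have he : ∀ o, oD N (e' o) = e o := by
      rintro (_ | ⟨_ | _, i⟩)
      · exact map_one _
      · simp only [e, e', map_mul, hv, hyn N]
      · simp only [e, e', map_mul, hv, hxn N]
    have hrel : ∀ o, oD N (e' o) = oD N (∑ i, c o i • v i) := fun o => by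
      rw [he, map_sum]
      simp only [← hsmul, hv, hc]
      exact (b.sum_repr _).symm
    obtain ⟨j, hj, hN⟩ := ((eventually_all.2 fun o => final_eq _ (hrel o)).and
      (eventually_ge_atTop N)).exists
    have hmem : ∀ o, φ N j hN (e' o) ∈
        Submodule.span (B j).k (Set.range fun i => φ N j hN (v i)) := fun o => by
      rw [hj o hN, map_sum]
      refine Submodule.sum_mem _ fun i _ => ?_
      rw [Algebra.smul_def, map_mul, hcomp, ← Algebra.smul_def]
      exact Submodule.smul_mem _ _ (Submodule.subset_span ⟨i, rfl⟩)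
    refine (B j).inf (final_fin (B j).gen (fun i => φ N j hN (v i)) ?_ (fun i => ?_) fun i => ?_)
    · simpa only [e', map_one] using hmem none
    · simpa only [e', map_mul, hx] using hmem (some (true, i))
    · simpa only [e', map_mul, hy] using hmem (some (false, i))

/-- The bookkeeping: a class of algebras with the extension property has a limit. -/
theorem final_class (Real : FinalAlg → Prop) (B0 : FinalAlg) (h0 : Real B0)
    (step : ∀ B, Real B → ∀ a : B.A, ∃ B', Real B' ∧ ∃ m : FinalHom B B',
      IsAlgebraic B'.k (m.φ a)) :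
    ∃ (D : Type) (_ : DivisionRing D), Countable D ∧ CharZero D ∧
      Algebra.IsAlgebraic (Subring.center D) D ∧
      (∃ x y : D, Algebra.adjoin (Subring.center D) ({x, y} : Set D) = ⊤) ∧
      ¬ FiniteDimensional (Subring.center D) D := by
  classical
  have en : ∀ B : FinalAlg, ∃ e : ℕ → B.A, Function.Surjective e := fun B =>
    exists_surjective_nat B.A
  choose e he using en
  choose nx hnx mr hmr using step
  let T := Σ B : {B // Real B}, ℕ → ℕ → B.1.A
  let pick : ∀ (_ : ℕ) (t : T), t.1.1.A := fun n t => t.2 n.unpair.1 n.unpair.2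
  let sc : ℕ → T → T := fun n t =>
    ⟨⟨nx t.1.1 t.1.2 (pick n t), hnx _ _ _⟩, fun a b =>
      if a ≤ n then (mr t.1.1 t.1.2 (pick n t)).φ (t.2 a b) else e _ b⟩
  let s : ℕ → T := fun n => Nat.rec ⟨⟨B0, h0⟩, fun _ => e B0⟩ sc n
  let B : ℕ → FinalAlg := fun n => (s n).1.1
  let m : ∀ n, FinalHom (B n) (B (n + 1)) := fun n => mr (s n).1.1 (s n).1.2 (pick n (s n))
  have hq : ∀ n a b, a ≤ n → (s (n + 1)).2 a b = (m n).φ ((s n).2 a b) := fun n a b h =>
    if_pos h
  have hsurj : ∀ n, Function.Surjective ((s n).2 n) := by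
    rintro (_ | n)
    · exact he B0
    · have : (s (n + 1)).2 (n + 1) = e _ := funext fun b => if_neg (Nat.not_succ_le_self n)
      rw [this]; exact he _
  have hle : ∀ i j (h : i ≤ j) b,
      finalLe (G := fun n => (B n).A) (fun n => (m n).φ) i j h ((s i).2 i b) = (s j).2 i b := by
    intro i j h b
    induction j, h using Nat.le_induction with
    | base => exact finalLe_self _ _ _ _
    | succ j h ih => rw [finalLe_succ _ h, ih, hq j i b h]
  refine final_limit B m fun i a => ?_
  obtain ⟨b, rfl⟩ := hsurj i a
  have hi : i ≤ Nat.pair i b := Nat.left_le_pair i b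
  refine ⟨Nat.pair i b + 1, hi.trans (Nat.le_succ _), ?_⟩
  rw [finalLe_succ _ hi, hle]
  have hp : pick (Nat.pair i b) (s (Nat.pair i b)) = (s (Nat.pair i b)).2 i b := by
    simp only [pick, Nat.unpair_pair]
  rw [← hp]
  exact hmr _ _ _

end Crest.Agent.R180
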