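import Crest.Agent.R180.NF

/-! Basic facts on morphisms, descendants and triples. -/

set_option autoImplicit false

namespace Crest.Agent.R180

open NC

theorem Mor_isDns_mono {σ K D : Type} [Field K] [Ring D] [Algebra K D]
    {R R' : Subalgebra K (NC σ D)} (h : R ≤ R') (hR : IsDns R) : IsDns R' := fun f N => by
  obtain ⟨g, hg, hg'⟩ := hR f N
  exact ⟨g, h hg, hg'⟩

/-- the identity morphism -/
def Mor.id (S : St) : Mor S S where
  κ := RingHom.id _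
  φ := RingHom.id _
  compat _ := rfl
  dense R hR := by
    refine Mor_isDns_mono (fun x hx => Algebra.subset_adjoin ⟨x, hx, rfl⟩) hR

/-- composition of morphisms -/
def Mor.comp {S S' S'' : St} (m' : Mor S' S'') (m : Mor S S') : Mor S S'' where
  κ := m'.κ.comp m.κ
  φ := m'.φ.comp m.φ
  compat c := by
    rw [RingHom.comp_apply, RingHom.comp_apply, m.compat, m'.compat]
  dense R hR := by
    refine Mor_isDns_mono ?_ (m'.dense _ (m.dense R hR))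
    refine Algebra.adjoin_le ?_
    rintro _ ⟨x, hx, rfl⟩
    change x ∈ Algebra.adjoin S'.A.K (m.φ '' R) at hx
    change m'.φ x ∈ Algebra.adjoin S''.A.K ((m'.φ.comp m.φ) '' R)
    induction hx using Algebra.adjoin_induction with
    | mem x hx =>
      obtain ⟨y, hy, rfl⟩ := hx
      exact Algebra.subset_adjoin ⟨y, hy, rfl⟩
    | algebraMap r => rw [m'.compat]; exact Subalgebra.algebraMap_mem _ _
    | add y z _ _ hy hz => rw [map_add]; exact add_mem hy hz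
    | mul y z _ _ hy hz => rw [map_mul]; exact mul_mem hy hz

theorem Desc.refl {S : St} (a : S.R) : Desc a a :=
  ⟨Mor.id S, fun _ _ h => h⟩

theorem Desc.trans {S S' S'' : St} {a : S.R} {b : S'.R} {c : S''.R} (h : Desc a b)
    (h' : Desc b c) : Desc a c := by
  obtain ⟨m, hm⟩ := h
  obtain ⟨m', hm'⟩ := h'
  exact ⟨m'.comp m, fun S3 m3 h3 => hm S3 (m3.comp m') (hm' S3 m3 h3)⟩

theorem Mor_isAlgebraic_C {S : St} (c : S.A.D) : IsAlgebraic S.A.K (C c : S.R) :=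
  isAlgebraic_map (RingHom.id S.A.K) (C : S.A.D →+* S.R) (fun _ => rfl)
    (IsAlgebraic.of_finite S.A.K c)

theorem Mor_commute_C {σ D : Type} [Ring D] {c : D} {b : NC σ D} (hc : ∀ u, Commute (b u) c) :
    Commute (C c : NC σ D) b := by
  ext u
  rw [C_mul_apply, mul_C_apply, (hc u).eq]

theorem desc_of_conj {S S' : St} (m : Mor S S') (a : S.R) {g b : S'.R} {c : S'.A.D}
    (hg : g [] = 1) (h : g * m.φ a = (C c + b) * g) (hc : ∀ u, Commute (b u) c) : Desc a b := by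
  refine ⟨m, fun S'' m' hb => ?_⟩
  have hu : IsUnit (m'.φ g) := (isUnit_of_nil hg).map m'.φ
  have h1 : m'.φ g * m'.φ (m.φ a) = (m'.φ (C c) + m'.φ b) * m'.φ g := by
    rw [← map_mul, h, map_mul, map_add]
  exact isAlgebraic_of_conj hu h1 (isAlgebraic_add_of_commute ((Mor_commute_C hc).map m'.φ)
    (isAlgebraic_map m'.κ m'.φ m'.compat (Mor_isAlgebraic_C c)) hb)

theorem desc_norm {S : St} (b : S.R) {θ : S.A.D} (hθ : θ ≠ 0) (h : ∀ u, Commute θ (b u)) :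
    Desc b (C θ⁻¹ * b : S.R) := by
  refine ⟨Mor.id S, fun S'' m' hb => ?_⟩
  have e : b = C θ * (C θ⁻¹ * b) := by
    rw [← mul_assoc, ← map_mul, mul_inv_cancel₀ hθ, map_one, one_mul]
  have hc : Commute (C θ : S.R) (C θ⁻¹ * b) :=
    Mor_commute_C fun u => by
      rw [C_mul_apply]
      exact ((Commute.refl θ).inv_left₀).mul_left (h u).symm
  change IsAlgebraic S''.A.K (m'.φ b)
  rw [e, map_mul]
  exact isAlgebraic_mul_of_commute (hc.map m'.φ)
    (isAlgebraic_map m'.κ m'.φ m'.compat (Mor_isAlgebraic_C θ)) hb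

theorem exists_tri {S : St} (a : S.R) : ∃ T : Tri S, Desc a T.b := by
  obtain ⟨g, b, hg, -, hb, hb', h⟩ := exists_nf S.A ⊤ a fun _ => Algebra.mem_top
  refine ⟨⟨b, ⊤, ⊥, hb, fun _ => Algebra.mem_top, bot_le, fun e he g _ => ?_⟩,
    desc_of_conj (Mor.id S) a hg h fun u => (hb' u).2⟩
  obtain ⟨c, rfl⟩ := Algebra.mem_bot.1 he
  exact Algebra.commutes c g

theorem alg_of_desc_zero {S S' : St} {a : S.R} (h : Desc a (0 : S'.R)) :
    ∃ m : Mor S S', IsAlgebraic S'.A.K (m.φ a) := by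
  obtain ⟨m, hm⟩ := h
  exact ⟨m, hm S' (Mor.id S') isAlgebraic_zero⟩

namespace Tri
variable {S : St} (T : Tri S)

theorem V_le_Γ : T.V ≤ Subalgebra.toSubmodule T.Γ := by
  rintro _ ⟨h, rfl⟩
  rw [b1_apply]
  exact sum_mem fun l _ => Submodule.smul_mem _ _ (T.b_mem _)

theorem mem_V_iff {v : S.A.D} : v ∈ T.V ↔ ∃ h : Fin S.M → S.A.K, ∑ l, h l • T.b [l] = v := by
  simp only [V, LinearMap.mem_range, b1_apply]

theorem b_singleton_mem_V (l : Fin S.M) : T.b [l] ∈ T.V := by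
  refine T.mem_V_iff.2 ⟨Pi.single l 1, ?_⟩
  rw [Finset.sum_eq_single l (fun a _ ha => by simp [ha]) (by simp)]
  simp

theorem mem_perp_V_iff {c : S.A.D} : c ∈ S.A.perp T.V ↔ ∀ l, S.A.τ (c * T.b [l]) = 0 := by
  rw [CDA.mem_perp]
  refine ⟨fun h l => h _ (T.b_singleton_mem_V l), fun h v hv => ?_⟩
  obtain ⟨a, rfl⟩ := T.mem_V_iff.1 hv
  simp [Finset.mul_sum, map_sum, h]

theorem V_le_E' : T.V ≤ Subalgebra.toSubmodule T.E' := fun _ hv => Algebra.subset_adjoin hv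

theorem k_add : T.k + Module.finrank S.A.K T.V = Module.finrank S.A.K T.E' :=
  S.A.finrank_perp T.E' T.V_le_E'

theorem μ_mul : T.μ * Module.finrank S.A.K T.E = Module.finrank S.A.K T.Γ :=
  Nat.div_mul_cancel (S.A.finrank_dvd T.E_le)

theorem ν_mul (h : T.V ≤ Subalgebra.toSubmodule T.E) :
    T.ν * Module.finrank S.A.K T.E' = Module.finrank S.A.K T.E :=
  Nat.div_mul_cancel (S.A.finrank_dvd (Algebra.adjoin_le fun _ hv => h hv))

theorem Mor_norm_b1 {θ : S.A.D} (hθ : θ⁻¹ ∈ T.Γ) (h : Fin S.M → S.A.K) :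
    (T.norm θ hθ).b1 h = θ⁻¹ * T.b1 h := by
  rw [b1_apply, b1_apply, Finset.mul_sum]
  refine Finset.sum_congr rfl fun l _ => ?_
  change h l • (C θ⁻¹ * T.b : S.R) [l] = _
  rw [C_mul_apply, mul_smul_comm]

theorem mem_norm_V {θ : S.A.D} (hθ : θ⁻¹ ∈ T.Γ) {v : S.A.D} :
    v ∈ (T.norm θ hθ).V ↔ ∃ w ∈ T.V, v = θ⁻¹ * w := by
  constructor
  · rintro ⟨h, rfl⟩
    exact ⟨T.b1 h, ⟨h, rfl⟩, T.Mor_norm_b1 hθ h⟩
  · rintro ⟨_, ⟨h, rfl⟩, rfl⟩
    exact ⟨h, T.Mor_norm_b1 hθ h⟩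

theorem norm_H {θ : S.A.D} (hθ : θ⁻¹ ∈ T.Γ) (h0 : θ ≠ 0) : (T.norm θ hθ).H = T.H := by
  ext h
  simp only [H, LinearMap.mem_ker, Mor_norm_b1, mul_eq_zero, inv_eq_zero, h0, false_or]

theorem norm_b2 {θ : S.A.D} (hθ : θ⁻¹ ∈ T.Γ) (h h' : Fin S.M → S.A.K) :
    (T.norm θ hθ).b2 h h' = θ⁻¹ * T.b2 h h' := by
  rw [b2, b2, Finset.mul_sum]
  refine Finset.sum_congr rfl fun l _ => ?_
  rw [Finset.mul_sum]
  refine Finset.sum_congr rfl fun l' _ => ?_
  change (h l * h' l') • (C θ⁻¹ * T.b : S.R) [l, l'] = _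
  rw [C_mul_apply, mul_smul_comm]

theorem desc_norm {θ : S.A.D} (hθ : θ⁻¹ ∈ T.Γ) (h0 : θ ≠ 0) (hE : θ ∈ T.E) :
    Desc T.b (T.norm θ hθ).b :=
  Crest.Agent.R180.desc_norm T.b h0 fun u => T.E_comm θ hE _ (T.b_mem u)

theorem MinMu.of_desc {T : Tri S} (h : T.MinMu) {S' : St} {T' : Tri S'} (hd : Desc T.b T'.b)
    (hμ : T'.μ ≤ T.μ) : T'.MinMu := fun S'' T'' hd' hV =>
  hμ.trans (h S'' T'' (hd.trans hd') hV)

end Tri

end Crest.Agent.R180
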