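import Crest.Agent.R180.Dense
import Crest.Agent.R180.Mor
import Crest.Agent.R180.FinalAux1

/-! The limit construction. -/

set_option autoImplicit false

namespace Crest.Agent.R180

section
variable (K R : Type) [Field K] [CharZero K] [Ring R] [IsDomain R] [Algebra K R]

/-- the algebra generated by a pair over a countable subfield -/
def finalMk (s : Set K) (hs : s.Countable) (x y : R)
    (h : ¬ FiniteDimensional K (Algebra.adjoin K ({x, y} : Set R))) : FinalAlg where
  k := Subfield.closure s
  A := Algebra.adjoin (Subfield.closure s) ({x, y} : Set R)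
  ck := Cardinal.mk_le_aleph0_iff.1 ((Subfield.cardinalMk_closure_le_max s).trans
    (max_le (Cardinal.le_aleph0_iff_set_countable.2 hs) le_rfl))
  x := ⟨x, Algebra.subset_adjoin (by simp)⟩
  y := ⟨y, Algebra.subset_adjoin (by simp)⟩
  gen := by
    rw [eq_top_iff, ← Algebra.adjoin_adjoin_coe_preimage]
    refine Algebra.adjoin_mono ?_
    rintro z (hz | hz)
    · exact Or.inl (Subtype.ext hz)
    · exact Or.inr (Subtype.ext hz)
  inf hfin := by
    apply h
    have hfg : (Subalgebra.toSubmodule
        (Algebra.adjoin (Subfield.closure s) ({x, y} : Set R))).FG :=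
      Module.Finite.iff_fg.1 hfin
    obtain ⟨t, ht⟩ := hfg
    have hle : Subalgebra.toSubmodule (Algebra.adjoin K ({x, y} : Set R)) ≤
        Submodule.span K (t : Set R) := by
      rw [Algebra.adjoin_eq_span, Submodule.span_le]
      intro z hz
      have h1 : z ∈ Subalgebra.toSubmodule
          (Algebra.adjoin (Subfield.closure s) ({x, y} : Set R)) := by
        rw [Algebra.adjoin_eq_span]; exact Submodule.subset_span hz
      rw [← ht] at h1
      exact Submodule.span_subset_span _ _ _ h1
    exact Submodule.finiteDimensional_of_le hle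

theorem finalMk_map (s : Set K) (hs : s.Countable) (x y : R)
    (h : ¬ FiniteDimensional K (Algebra.adjoin K ({x, y} : Set R))) :
    ∃ (ι : (finalMk K R s hs x y h).k →+* K) (j : (finalMk K R s hs x y h).A →+* R),
      (∀ c, j (algebraMap _ _ c) = algebraMap K R (ι c)) ∧
      j (finalMk K R s hs x y h).x = x ∧ j (finalMk K R s hs x y h).y = y :=
  ⟨(Subfield.closure s).subtype,
    (Algebra.adjoin (Subfield.closure s) ({x, y} : Set R)).val.toRingHom, fun _ => rfl, rfl, rfl⟩

theorem finalMk_step (B : FinalAlg) (ι : B.k →+* K) (j : B.A →+* R)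
    (hj : ∀ c, j (algebraMap _ _ c) = algebraMap K R (ι c)) (a : B.A) (ha : IsAlgebraic K (j a))
    (h : ¬ FiniteDimensional K (Algebra.adjoin K ({j B.x, j B.y} : Set R))) :
    ∃ (s : Set K) (hs : s.Countable) (m : FinalHom B (finalMk K R s hs _ _ h)),
      IsAlgebraic (finalMk K R s hs _ _ h).k (m.φ a) := by
  obtain ⟨p, hp0, hp⟩ := ha
  let s : Set K := Set.range ι ∪ (p.coeffs : Set K)
  have hs : s.Countable := (Set.countable_range _).union p.coeffs.countable_toSet
  have hκ : ∀ c, ι c ∈ Subfield.closure s := fun c => Subfield.subset_closure (Or.inl ⟨c, rfl⟩)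
  have hφ : ∀ z, j z ∈ Algebra.adjoin (Subfield.closure s) ({j B.x, j B.y} : Set R) := by
    intro z
    have hz : z ∈ Algebra.adjoin B.k ({B.x, B.y} : Set B.A) := B.gen ▸ Algebra.mem_top
    induction hz using Algebra.adjoin_induction with
    | mem z hz => rcases hz with rfl | rfl <;> exact Algebra.subset_adjoin (by simp)
    | algebraMap c =>
      rw [hj]
      exact Subalgebra.algebraMap_mem _ (⟨_, hκ c⟩ : Subfield.closure s)
    | add a b _ _ h h' => rw [map_add]; exact add_mem h h'
    | mul a b _ _ h h' => rw [map_mul]; exact mul_mem h h'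
  refine ⟨s, hs, ⟨ι.codRestrict _ hκ, j.codRestrict _ hφ, fun c => Subtype.ext (hj c),
      rfl, rfl⟩, ?_⟩
  have hl : p ∈ Polynomial.lifts (algebraMap (Subfield.closure s) K) := by
    rw [Polynomial.lifts_iff_coeffs_subset_range]
    intro c hc
    exact ⟨⟨c, Subfield.subset_closure (Or.inr hc)⟩, rfl⟩
  obtain ⟨q, hqp⟩ := (Polynomial.mem_lifts _).1 hl
  have hq : IsAlgebraic (Subfield.closure s) (j a) :=
    ⟨q, fun h => hp0 (by rw [← hqp, h, Polynomial.map_zero]), by
      rwa [← hqp, Polynomial.aeval_map_algebraMap] at hp⟩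
  exact (isAlgebraic_algHom_iff (Algebra.adjoin (Subfield.closure s)
    ({j B.x, j B.y} : Set R)).val Subtype.val_injective).1 hq

end

theorem final_isDns_mono {σ K D : Type} [Field K] [Ring D] [Algebra K D]
    {R R' : Subalgebra K (NC σ D)} (h : R ≤ R') (hR : IsDns R) : IsDns R' := fun f N =>
  let ⟨g, hg, e⟩ := hR f N
  ⟨g, h hg, e⟩

instance finalDomain (S : St) : IsDomain S.R := NoZeroDivisors.to_isDomain _

instance finalNonempty (S : St) : Nonempty (Fin S.M) := ⟨⟨0, by have := S.hM; omega⟩⟩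

/-- realisability in a state -/
def FinalReal (B : FinalAlg) : Prop :=
  ∃ (S : St) (ι : B.k →+* S.A.K) (j : B.A →+* S.R),
    (∀ c, j (algebraMap B.k B.A c) = algebraMap S.A.K S.R (ι c)) ∧
    IsDns (Algebra.adjoin S.A.K ({j B.x, j B.y} : Set S.R))

theorem finalReal_mk (S : St) (s : Set S.A.K) (hs : s.Countable) (x y : S.R)
    (h : IsDns (Algebra.adjoin S.A.K ({x, y} : Set S.R))) :
    FinalReal (finalMk S.A.K S.R s hs x y (not_finite_of_isDns h)) := by
  obtain ⟨ι, j, h1, h2, h3⟩ := finalMk_map S.A.K S.R s hs x y (not_finite_of_isDns h)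
  exact ⟨S, ι, j, h1, by rwa [h2, h3]⟩

theorem final (main : ∀ (S : St) (a : S.R),
      ∃ (S' : St) (m : Mor S S'), IsAlgebraic S'.A.K (m.φ a)) :
    ∃ (D : Type) (_ : DivisionRing D), Countable D ∧ CharZero D ∧
      Algebra.IsAlgebraic (Subring.center D) D ∧
      (∃ x y : D, Algebra.adjoin (Subring.center D) ({x, y} : Set D) = ⊤) ∧
      ¬ FiniteDimensional (Subring.center D) D := by
  classical
  let S0 : St := ⟨⟨ℂ, ℂ, fun n hn => ⟨_, Complex.isPrimitiveRoot_exp n hn.ne_zero⟩⟩, 2, le_rfl⟩
  have h0 : IsDns (Algebra.adjoin S0.A.K ({NC.X (0 : Fin 2), NC.X (1 : Fin 2)} : Set S0.R)) := by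
    refine final_isDns_mono (Algebra.adjoin_mono ?_) (isDns_adjoin_X (σ := Fin 2) (K := ℂ))
    rintro _ ⟨i, rfl⟩
    fin_cases i
    · exact Or.inl rfl
    · exact Or.inr rfl
  refine final_class FinalReal _ (finalReal_mk S0 ∅ Set.countable_empty _ _ h0) ?_
  rintro B ⟨S, ι, j, hj, hd⟩ a
  obtain ⟨S', m, ha⟩ := main S (j a)
  have hd' : IsDns (Algebra.adjoin S'.A.K ({m.φ (j B.x), m.φ (j B.y)} : Set S'.R)) := by
    refine final_isDns_mono (Algebra.adjoin_le ?_) (m.dense _ hd)
    rintro _ ⟨z, hz, rfl⟩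
    induction hz using Algebra.adjoin_induction with
    | mem z hz => rcases hz with rfl | rfl <;> exact Algebra.subset_adjoin (by simp)
    | algebraMap c => rw [m.compat]; exact Subalgebra.algebraMap_mem _ _
    | add a b _ _ h h' => rw [map_add]; exact add_mem h h'
    | mul a b _ _ h h' => rw [map_mul]; exact mul_mem h h'
  obtain ⟨s, hs, m', hm'⟩ := finalMk_step S'.A.K S'.R B (m.κ.comp ι) (m.φ.comp j)
    (fun c => by rw [RingHom.comp_apply, hj, m.compat]; rfl) a ha (not_finite_of_isDns hd')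
  exact ⟨_, finalReal_mk S' s hs _ _ hd', m', hm'⟩

end Crest.Agent.R180
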