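import Crest.Agent.R180.Move

/-! Linear and quadratic parts after a move. -/

set_option autoImplicit false

namespace Crest.Agent.R180

open NC Module

theorem key_τ_comm (A : CDA) {w β : A.D} (h : Commute w β) (x : A.D) :
    A.τ (w * (β * x - x * β)) = 0 := by
  rw [mul_sub, map_sub, ← mul_assoc, ← mul_assoc, A.τ_mul_comm (w * x), ← mul_assoc, h.eq,
    sub_self]

theorem key_bdd {A0 A : CDA} (L : Lau A0 A) {I : Type} [Fintype I] (x : I → A.D) :
    ∃ N : ℕ, ∀ i, L.t ^ N • x i ∈ L.O := by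
  choose N hN using fun i => L.bdd (x i)
  refine ⟨∑ i, N i, fun i => ?_⟩
  obtain ⟨k, hk⟩ := Nat.exists_eq_add_of_le'
    (Finset.single_le_sum (f := N) (fun _ _ => Nat.zero_le _) (Finset.mem_univ i))
  rw [hk, pow_add, mul_smul]
  exact L.smul_mem (L.tpow_mem k) (hN i)

namespace Mv
variable {S : St} {T : Tri S} {A0 A' : CDA} {X : Ext S.A A0} {L : Lau A0 A'}
  {W : Fin S.M → A'.D} {T0 : Submodule A0.K (Fin S.M → A0.D)} {M' : ℕ} {hM' : 2 ≤ M'}
  {T' : Tri ⟨A', M', hM'⟩} (mv : Mv T X L W T0 T')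
include mv

theorem φ_X_nil (l : Fin S.M) : mv.φ (NC.X l) [] = W l := by
  simp [mv.φ_X, NC.sum_apply]

theorem φ_X_singleton (l : Fin S.M) (s : Fin M') : mv.φ (NC.X l) [s] = L.ι (mv.τb s l) := by
  simp [mv.φ_X, NC.sum_apply]

theorem φ_X_mem (l : Fin S.M) : mv.φ (NC.X l) ∈ (L.filt.nc (Fin M')).F 1 := by
  intro u
  cases u with
  | nil => exact mv.φ_X_nil l ▸ mv.W_mem l
  | cons a u => simpa using mv.φ_bdd (NC.X l) (a :: u)

theorem finrank_T0 : finrank A0.K T0 = M' := by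
  rw [← mv.τb_span, finrank_span_eq_card mv.τb_li, Fintype.card_fin]

/-- the constant term only depends on `W` -/
theorem c0_eq (e : NC (Fin S.M) S.A.D →+* A'.D) (he : ∀ f, e f ∈ L.filt.F 0)
    (hC : ∀ d, e (C d) = L.ι (X.ι d)) (hX : ∀ l, e (NC.X l) = W l) (f : NC (Fin S.M) S.A.D) :
    mv.φ f [] = e f := by
  have h := hom_ext L.filt (NC.c0.comp mv.φ) e (fun f => mv.φ_bdd f []) he
    (fun d => by simp [mv.φ_C, hC]) (fun l => mv.φ_X_mem l []) fun l => by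
      simp [mv.φ_X_nil, hX]
  exact congrArg (fun ψ : NC (Fin S.M) S.A.D →+* A'.D => ψ f) h

/-- first-order part of the conjugation -/
theorem lin_eq (s : Fin M') : mv.φ T.b [s] =
    T'.b [s] + (mv.φ T.b [] * mv.g [s] - mv.g [s] * mv.φ T.b []) := by
  have h := congrArg (fun f : NC (Fin M') A'.D => f [s]) mv.conj
  simp only [mul_singleton, mv.g_nil, NC.add_apply, C_nil, C_cons, T'.b_nil, one_mul, mul_one,
    add_zero, zero_add] at h
  rw [eq_sub_of_add_eq h]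
  abel

theorem key_τ_lin {c : A'.D} (hc : c ∈ T'.Γ) (hcV : c ∈ A'.perp T'.V) (s : Fin M') :
    A'.τ (c * mv.φ T.b [s]) = 0 := by
  rw [mv.lin_eq, mul_add, map_add, hcV _ (T'.b_singleton_mem_V s),
    key_τ_comm A' ((mv.Γ_eq c).1 hc).2, add_zero]

theorem key_sum_lin {h : Fin M' → A'.K} (hh : h ∈ T'.H) : ∑ s, h s • mv.φ T.b [s] =
    mv.φ T.b [] * (∑ s, h s • mv.g [s]) - (∑ s, h s • mv.g [s]) * mv.φ T.b [] := by
  have h0 : ∑ s, h s • T'.b [s] = 0 := (T'.b1_apply h).symm.trans hh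
  simp only [mv.lin_eq, smul_add, smul_sub, Finset.sum_add_distrib, Finset.sum_sub_distrib, h0,
    zero_add, Finset.mul_sum, Finset.sum_mul, mul_smul_comm, smul_mul_assoc]

/-- KEY: `Γ' ∩ V'^⊥` is orthogonal to the derivative of `b` at `W` in every integral direction -/
theorem key {c : A'.D} (hc : c ∈ T'.Γ) (hcV : c ∈ A'.perp T'.V)
    (e : NC (Fin S.M) S.A.D →+* NC Unit A'.D) (he : ∀ f, e f ∈ (L.filt.nc Unit).F 0)
    (hC : ∀ d, e (C d) = C (L.ι (X.ι d))) (hX0 : ∀ l, e (NC.X l) [] = W l)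
    (hX1 : ∀ l, e (NC.X l) [()] ∈ L.liftA X.Λ) : A'.τ (c * e T.b [()]) = 0 := by
  have ev : ∀ f, mv.φ f [] = e f [] := mv.c0_eq (NC.c0.comp e) (fun f => he f [])
    (fun d => by simp [hC]) fun l => by simp [hX0]
  have h1 : (fun l => e (NC.X l) [()]) ∈ L.liftP T0 ⊔ gauge X L W :=
    L.liftP_le_sup (gauge_le X L mv.W_Λ) mv.T0_le mv.T0_disj mv.T0_sup
      ((L.mem_liftP_pi X.Λ _).2 hX1)
  obtain ⟨y, hy, z, ⟨g, hg, hz⟩, hyz⟩ := Submodule.mem_sup.1 h1
  rw [← mv.τb_span, L.lau_liftP_span, Submodule.mem_span_range_iff_exists_fun] at hy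
  obtain ⟨a, rfl⟩ := hy
  obtain ⟨N, hN⟩ := key_bdd L fun o : Option (Fin M') =>
    o.elim g fun s => algebraMap A'.K A'.D (a s)
  have hg' : L.t ^ N • g ∈ L.O := hN none
  have ha' : ∀ s, algebraMap A'.K A'.D (L.t ^ N * a s) ∈ L.O := fun s => by
    rw [map_mul, ← Algebra.smul_def]
    exact hN (some s)
  let δ : NC (Fin S.M) S.A.D →+ A'.D := AddMonoidHom.mk'
    (fun f => L.t ^ N • (e f [()] - ∑ s, a s • mv.φ f [s] - (g * e f [] - e f [] * g)))
    fun f f' => by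
      simp only [map_add, NC.add_apply, smul_add, Finset.sum_add_distrib, mul_add, add_mul, smul_sub]
      abel
  have hδ : ∀ f, δ f = L.t ^ N •
      (e f [()] - ∑ s, a s • mv.φ f [s] - (g * e f [] - e f [] * g)) := fun _ => rfl
  have h2 := deriv_ext L.filt (NC.c0.comp e) (fun l => by simpa [hX0] using mv.W_mem l) δ
    (fun f => by
      have b0 : e f [] ∈ L.O := L.mem_filt_zero.1 (he f [])
      rw [L.mem_filt_zero, hδ, smul_sub, smul_sub, smul_sub, Finset.smul_sum, ← smul_mul_assoc,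
        ← mul_smul_comm]
      refine sub_mem (sub_mem (L.smul_mem (L.tpow_mem N) (L.mem_filt_zero.1 (he f [()])))
        (sum_mem fun s _ => ?_)) (sub_mem (mul_mem hg' b0) (mul_mem b0 hg'))
      rw [smul_smul]
      exact L.smul_mem (ha' s) (L.mem_filt_zero.1 (mv.φ_bdd f [s])))
    (fun f f' => by
      simp only [hδ, map_mul, mul_singleton, mul_nil, ev, RingHom.comp_apply, c0_apply,
        smul_mul_assoc, mul_smul_comm, ← smul_add, sub_mul, mul_sub, Finset.sum_mul,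
        Finset.mul_sum]
      simp only [smul_add, Finset.sum_add_distrib, smul_sub, mul_assoc]
      abel)
    (fun d => by simp [hδ, hC, mv.φ_C, (hg d).eq])
    (fun l => by
      have := congrFun hyz l
      simp only [Pi.add_apply, Finset.sum_apply, Pi.smul_apply, hz] at this
      simp only [hδ, mv.φ_X_singleton, hX0, ← this]
      simp) T.b
  rw [hδ, smul_eq_zero, sub_sub, sub_eq_zero] at h2
  rw [h2.resolve_left (pow_ne_zero N L.t_ne), ← ev, mul_add, map_add, Finset.mul_sum, map_sum,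
    ← neg_sub, mul_neg, map_neg, key_τ_comm A' ((mv.Γ_eq c).1 hc).2]
  simp [mv.key_τ_lin hc hcV]

/-- KEY in constant directions: if `W = O(t^a)` then the derivative in an integral direction `h`
is `b₁(h) + O(t^a)`. -/
theorem key_lin {c : A'.D} (hc : c ∈ T'.Γ) (hcV : c ∈ A'.perp T'.V) {a : ℕ} (ha : 1 ≤ a)
    (hW : ∀ l, W l ∈ L.filt.F a) (h : Fin S.M → A'.D) (hO : ∀ l, h l ∈ L.O)
    (hΛ : ∀ l, h l ∈ L.liftA X.Λ) :
    ∃ y ∈ L.filt.F a, A'.τ (c * (∑ l, L.ι (X.ι (T.b [l])) * h l + y)) = 0 := by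
  obtain ⟨e, he, hC, hX⟩ := exists_eval (L.filt.nc Unit) (C.comp (L.ι.comp X.ι))
    (fun d u => by
      cases u with
      | nil => exact L.mem_filt_zero.2 (L.ι_mem _)
      | cons _ _ => exact zero_mem _)
    (fun l => C (W l) + C (h l) * NC.X ())
    (fun l u => by
      match u with
      | [] => simpa using mv.W_mem l
      | [_] => simpa [L.mem_filt_zero] using hO l
      | _ :: _ :: _ => simp)
    fun d l => ((commute_liftA X L d (mv.W_Λ l)).map C).add_right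
      (((commute_liftA X L d (hΛ l)).map C).mul_right (C_comm_X _ _))
  have e1 : ∀ l, e (NC.X l) [()] = h l := fun l => by simp [hX]
  have e0 : ∀ l, e (NC.X l) [] = W l := fun l => by simp [hX]
  have h1 := hom_singleton L.filt e he (L.ι.comp X.ι) hC ha (fun l => e0 l ▸ hW l) T.b ()
  refine ⟨_, h1, ?_⟩
  simp only [e1, RingHom.comp_apply, add_sub_cancel]
  exact mv.key hc hcV e he hC e0 fun l => e1 l ▸ hΛ l

/-- the linear coefficients of `φ b` -/
theorem φb_singleton {a : ℕ} (ha : 1 ≤ a) (hW : ∀ l, W l ∈ L.filt.F a) (s : Fin M') :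
    mv.φ T.b [s] - ∑ l, L.ι (X.ι (T.b [l]) * mv.τb s l) ∈ L.filt.F a := by
  have h := hom_singleton L.filt mv.φ mv.φ_bdd (L.ι.comp X.ι) mv.φ_C ha
    (fun l => mv.φ_X_nil l ▸ hW l) T.b s
  simpa only [mv.φ_X_singleton, RingHom.comp_apply, map_mul] using h

/-- second-order part of the conjugation on the kernel of the new linear part -/
theorem quad {c : A'.D} (hc : c ∈ T'.Γ) {h h' : Fin M' → A'.K} (hh' : h' ∈ T'.H) (hh : h ∈ T'.H)
    {z : A'.D} (hz : z ∈ L.liftA (X.big T.Γ))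
    (hzc : mv.φ T.b [] * z - z * mv.φ T.b [] = ∑ s, h s • mv.φ T.b [s]) :
    A'.τ (c * T'.b2 h h') = A'.τ (c * ∑ s, ∑ s', (h s * h' s') • mv.φ T.b [s, s']) +
      A'.τ (c * z * ∑ s, h' s • mv.φ T.b [s]) := by
  have _ := hz
  have hcβ := ((mv.Γ_eq c).1 hc).2
  have h0 : ∑ s, h s • T'.b [s] = 0 := (T'.b1_apply h).symm.trans hh
  have h1 : ∀ s s', T'.b [s, s'] = mv.φ T.b [s, s'] + mv.g [s] * mv.φ T.b [s'] -
      (mv.φ T.b [] * mv.g [s, s'] - mv.g [s, s'] * mv.φ T.b []) - T'.b [s] * mv.g [s'] := by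
    intro s s'
    have h := congrArg (fun f : NC (Fin M') A'.D => f [s, s']) mv.conj
    simp only [mul_pair, mv.g_nil, NC.add_apply, C_nil, C_cons, T'.b_nil, one_mul, mul_one,
      add_zero, zero_add] at h
    rw [eq_sub_of_add_eq' h.symm]
    abel
  have h2 : T'.b2 h h' = ∑ s, ∑ s', (h s * h' s') • mv.φ T.b [s, s'] +
      (∑ s, h s • mv.g [s]) * (∑ s, h' s • mv.φ T.b [s]) -
      (mv.φ T.b [] * (∑ s, ∑ s', (h s * h' s') • mv.g [s, s']) -
        (∑ s, ∑ s', (h s * h' s') • mv.g [s, s']) * mv.φ T.b []) -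
      (∑ s, h s • T'.b [s]) * ∑ s, h' s • mv.g [s] := by
    simp only [Tri.b2, h1, smul_add, smul_sub, Finset.sum_add_distrib, Finset.sum_sub_distrib,
      Finset.sum_mul_sum, smul_mul_smul_comm]
    simp only [Finset.mul_sum, Finset.sum_mul, mul_smul_comm, smul_mul_assoc]
  have h3 : Commute (c * (z - ∑ s, h s • mv.g [s])) (mv.φ T.b []) := by
    refine hcβ.mul_left ?_
    rw [mv.key_sum_lin hh] at hzc
    rw [Commute, SemiconjBy, sub_mul, mul_sub, sub_eq_sub_iff_sub_eq_sub, ← neg_sub, hzc, neg_sub]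
  have h4 := key_τ_comm A' h3 (∑ s, h' s • mv.g [s])
  rw [← mv.key_sum_lin hh', mul_sub, sub_mul, map_sub, sub_eq_zero] at h4
  rw [h2, h0, zero_mul, sub_zero, mul_sub, map_sub, key_τ_comm A' hcβ, sub_zero, mul_add, map_add,
    h4, mul_assoc]

theorem exists_z {h : Fin M' → A'.K} (hh : h ∈ T'.H) : ∃ z ∈ L.liftA (X.big T.Γ),
    mv.φ T.b [] * z - z * mv.φ T.b [] = ∑ s, h s • mv.φ T.b [s] ∧
      ∀ w ∈ T'.Γ, A'.τ (w * z) = 0 := by
  obtain ⟨y, -, z, hz, h1, h2, h3⟩ := A'.cent_decomp (L.liftA (X.big T.Γ)) (mv.φb_mem [])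
    (x := ∑ s, h s • mv.φ T.b [s])
    (sum_mem fun s _ => Subalgebra.smul_mem _ (mv.φb_mem [s]) _)
  have hy : y = 0 := by
    by_contra hy
    have h4 := key_τ_comm A' h1.inv_left₀ (∑ s, h s • mv.g [s] - z)
    have h5 : mv.φ T.b [] * (∑ s, h s • mv.g [s] - z) - (∑ s, h s • mv.g [s] - z) * mv.φ T.b [] =
        y := by
      rw [mv.key_sum_lin hh] at h2
      rw [← sub_eq_iff_eq_add.2 h2, mul_sub, sub_mul]
      abel
    rw [h5, inv_mul_cancel₀ hy, A'.τ_one] at h4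
    exact one_ne_zero h4
  refine ⟨z, hz, by rw [h2, hy, zero_add], fun w hw => ?_⟩
  exact h3 w ((mv.Γ_eq w).1 hw).1 ((mv.Γ_eq w).1 hw).2

theorem redΓ_le : L.redS (Subalgebra.toSubmodule T'.Γ) ≤ Subalgebra.toSubmodule (X.big T.Γ) := by
  rintro _ ⟨x, hx, hO, rfl⟩
  exact L.red_mem_of_mem_liftA ((mv.Γ_eq x).1 hx).1 hO

theorem ι_mem_redE {e : S.A.D} (he : e ∈ T.E) :
    X.ι e ∈ L.redS (Subalgebra.toSubmodule T'.E) := by
  refine ⟨L.ι (X.ι e), ?_, L.ι_mem _, L.red_ι _⟩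
  rw [mv.E_eq]
  exact Algebra.subset_adjoin (Or.inl ⟨e, he, rfl⟩)

theorem mem_E_of_c0 {β : ℕ} {x : A'.D} (h : mv.φ T.b [] = L.t ^ β • x) : x ∈ T'.E := by
  have h1 : mv.φ T.b [] ∈ T'.E := by
    rw [mv.E_eq]
    exact Algebra.subset_adjoin (Or.inr rfl)
  have h2 := T'.E.smul_mem h1 (L.t ^ β)⁻¹
  rwa [h, smul_smul, inv_mul_cancel₀ (pow_ne_zero β L.t_ne), one_smul] at h2

end Mv

end Crest.Agent.R180
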