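import Mathlib

/-! Linear algebra: a common Lagrangian pair for a very nondegenerate family of bilinear forms;
the commutator subspace of homogeneous noncommutative polynomials. -/

set_option autoImplicit false

namespace Crest.Agent.R180

open Module

/-- A generic perturbation of an injective map is injective. -/
theorem LA_perturb {K X Y : Type} [Field K] [Infinite K] [AddCommGroup X] [Module K X]
    [FiniteDimensional K X] [AddCommGroup Y] [Module K Y] (A B : X →ₗ[K] Y)
    (hA : Function.Injective A) :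
    ∃ s : K, s ≠ 0 ∧ ∀ x, A x + s • B x = 0 → x = 0 := by
  obtain ⟨A', hA'⟩ := A.exists_leftInverse_of_injective (LinearMap.ker_eq_bot.mpr hA)
  let T : Module.End K X := A' ∘ₗ B
  have hfin : Set.Finite ({μ | T.HasEigenvalue μ} ∪ {0}) :=
    T.finite_hasEigenvalue.union (Set.finite_singleton 0)
  obtain ⟨μ, hμ⟩ := hfin.exists_notMem
  have hμ0 : μ ≠ 0 := fun h => hμ (Or.inr h)
  have hμe : ¬ T.HasEigenvalue μ := fun h => hμ (Or.inl h)
  refine ⟨-μ⁻¹, neg_ne_zero.mpr (inv_ne_zero hμ0), fun x hx => ?_⟩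
  by_contra hx0
  apply hμe
  have h1 : A' (A x) = x := by
    have := LinearMap.congr_fun hA' x
    simpa using this
  have h2 : x + (-μ⁻¹) • T x = 0 := by
    have := congrArg A' hx
    rw [map_add, map_smul, map_zero, h1] at this
    exact this
  have h3 : T x = μ • x := by
    have h4 : x = μ⁻¹ • T x := by
      rw [neg_smul, ← sub_eq_add_neg, sub_eq_zero] at h2
      exact h2
    conv_rhs => rw [h4, smul_smul, mul_inv_cancel₀ hμ0, one_smul]
  exact Module.End.hasEigenvalue_of_hasEigenvector ⟨Module.End.mem_eigenspace_iff.mpr h3, hx0⟩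

theorem LA_inj_aux {K H O : Type} [Field K] [Infinite K] [AddCommGroup H] [Module K H]
    [FiniteDimensional K H] [AddCommGroup O] [Module K O] [FiniteDimensional K O]
    (Q : O →ₗ[K] H →ₗ[K] H →ₗ[K] K)
    (hQ : ∀ γ, γ ≠ 0 → ∀ H' : Submodule K H, finrank K H ≤ finrank K H' + finrank K O →
      ∃ h, ∃ h' ∈ H', Q γ h h' ≠ 0) (n : ℕ) (hn : n ≤ finrank K O) :
    ∃ (α : H) (O1 : Submodule K O), finrank K O1 = n ∧ ∀ γ ∈ O1, Q γ α = 0 → γ = 0 := by
  induction n with
  | zero => exact ⟨0, ⊥, finrank_bot K O, fun γ hγ _ => (Submodule.mem_bot K).mp hγ⟩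
  | succ n ih =>
    obtain ⟨α, O1, hO1, hinj⟩ := ih (by omega)
    have hne : O1 ≠ ⊤ := by
      intro h
      rw [h, finrank_top] at hO1
      omega
    obtain ⟨γ, -, hγ⟩ := SetLike.exists_of_lt (lt_top_iff_ne_top.mpr hne)
    by_cases hc : ∀ δ ∈ O1 ⊔ Submodule.span K {γ}, Q δ α = 0 → δ = 0
    · exact ⟨α, _, by rw [Submodule.finrank_sup_span_singleton hγ, hO1], hc⟩
    push Not at hc
    obtain ⟨γ0, -, hγ0, hγ0ne⟩ := hc
    have hγ0O : γ0 ∉ O1 := fun h => hγ0ne (hinj γ0 h hγ0)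
    let R : Submodule K (Module.Dual K H) := O1.map (Q.flip α)
    have hR : finrank K R ≤ finrank K O :=
      (Submodule.finrank_map_le _ _).trans (Submodule.finrank_le _)
    have hdim := Subspace.finrank_add_finrank_dualCoannihilator_eq R
    obtain ⟨h, h', hh', hne'⟩ := hQ γ0 hγ0ne R.dualCoannihilator (by omega)
    have hnot : Q γ0 h ∉ R := fun hm =>
      hne' ((Submodule.mem_dualCoannihilator h').mp hh' _ hm)
    let A : (O1 × K) →ₗ[K] Module.Dual K H :=
      ((Q.flip α) ∘ₗ O1.subtype).coprod (LinearMap.toSpanSingleton K _ (Q γ0 h))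
    let B : (O1 × K) →ₗ[K] Module.Dual K H :=
      ((Q.flip h) ∘ₗ O1.subtype) ∘ₗ LinearMap.fst K _ _
    have hA : Function.Injective A := by
      rw [← LinearMap.ker_eq_bot, LinearMap.ker_eq_bot']
      rintro ⟨o, c⟩ hoc
      have h1 : Q o α + c • Q γ0 h = 0 := hoc
      have hc0 : c = 0 := by
        by_contra hc0
        apply hnot
        have h2 : Q γ0 h = (-c⁻¹) • Q o α := by
          ext y
          have h3 := LinearMap.congr_fun h1 y
          simp only [LinearMap.add_apply, LinearMap.smul_apply, smul_eq_mul,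
            LinearMap.zero_apply] at h3 ⊢
          field_simp
          linear_combination h3
        rw [h2]
        exact R.smul_mem _ ⟨o, o.2, rfl⟩
      rw [hc0, zero_smul, add_zero] at h1
      have ho : o = 0 := Subtype.ext (hinj o o.2 h1)
      rw [ho, hc0]; rfl
    obtain ⟨s, hs, hAB⟩ := LA_perturb A B hA
    refine ⟨α + s • h, O1 ⊔ Submodule.span K {γ0},
      by rw [Submodule.finrank_sup_span_singleton hγ0O, hO1], fun δ hδ hQδ => ?_⟩
    obtain ⟨o, ho, y, hy, rfl⟩ := Submodule.mem_sup.mp hδ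
    obtain ⟨c, rfl⟩ := Submodule.mem_span_singleton.mp hy
    have h0 := hAB (⟨o, ho⟩, c * s) (by
      change Q o α + (c * s) • Q γ0 h + s • Q o h = 0
      rw [← hQδ]
      simp only [map_add, map_smul, LinearMap.add_apply, LinearMap.smul_apply, hγ0, smul_zero,
        smul_add, smul_smul, add_zero, mul_comm s c]
      abel)
    have h1 : o = 0 := congrArg (fun x : O1 × K => (x.1 : O)) h0
    have h2 : c * s = 0 := congrArg Prod.snd h0
    rw [h1, (mul_eq_zero.mp h2).resolve_right hs, zero_smul, add_zero]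

theorem LA_inj {K H O : Type} [Field K] [Infinite K] [AddCommGroup H] [Module K H]
    [FiniteDimensional K H] [AddCommGroup O] [Module K O] [FiniteDimensional K O]
    (Q : O →ₗ[K] H →ₗ[K] H →ₗ[K] K)
    (hQ : ∀ γ, γ ≠ 0 → ∀ H' : Submodule K H, finrank K H ≤ finrank K H' + finrank K O →
      ∃ h, ∃ h' ∈ H', Q γ h h' ≠ 0) :
    ∃ α : H, ∀ γ, Q γ α = 0 → γ = 0 := by
  obtain ⟨α, O1, h1, h2⟩ := LA_inj_aux Q hQ _ le_rfl
  have : O1 = ⊤ := Submodule.eq_top_of_finrank_eq h1
  exact ⟨α, fun γ => h2 γ (this ▸ Submodule.mem_top)⟩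

theorem exists_lagr {K H O : Type} [Field K] [Infinite K] [AddCommGroup H] [Module K H]
    [FiniteDimensional K H] [AddCommGroup O] [Module K O] [FiniteDimensional K O]
    (Q : O →ₗ[K] H →ₗ[K] H →ₗ[K] K) (h2 : 2 ≤ finrank K H)
    (hQ : ∀ γ, γ ≠ 0 → ∀ H' : Submodule K H, finrank K H ≤ finrank K H' + 2 * finrank K O →
      ∃ h ∈ H', ∃ h' ∈ H', Q γ h h' ≠ 0) :
    ∃ α β : H, LinearIndependent K ![α, β] ∧ (∀ γ, Q γ α β = 0) ∧
      ∀ f g : O →ₗ[K] K, ∃ h, ∀ γ, Q γ α h = f γ ∧ Q γ β h = g γ := by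
  rcases subsingleton_or_nontrivial O with hO | hO
  · have : Nontrivial H := Module.nontrivial_of_finrank_pos (R := K) (by omega)
    obtain ⟨x, hx⟩ := exists_ne (0 : H)
    obtain ⟨y, hy⟩ := exists_linearIndependent_pair_of_one_lt_finrank (R := K) (by omega) hx
    refine ⟨x, y, hy, fun γ => ?_, fun f g => ⟨0, fun γ => ?_⟩⟩
    · rw [Subsingleton.elim γ 0]; simp
    · rw [Subsingleton.elim γ 0]; simp
  obtain ⟨α, hα⟩ := LA_inj Q (fun γ hγ H' hH' => by
    obtain ⟨h, -, h', hh', hne⟩ := hQ γ hγ H' (by omega)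
    exact ⟨h, h', hh', hne⟩)
  let R : Submodule K (Module.Dual K H) := LinearMap.range (Q.flip α)
  have hR : finrank K R ≤ finrank K O := LinearMap.finrank_range_le _
  have hdim := Subspace.finrank_add_finrank_dualCoannihilator_eq R
  let H1 : Submodule K H := R.dualCoannihilator
  have hH1 : ∀ h ∈ H1, ∀ γ, Q γ α h = 0 := fun h hh γ =>
    (Submodule.mem_dualCoannihilator h).mp hh _ ⟨γ, rfl⟩
  let Q1 : O →ₗ[K] H1 →ₗ[K] H1 →ₗ[K] K :=
    { toFun := fun γ => (Q γ).compl₁₂ H1.subtype H1.subtype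
      map_add' := fun a b => by ext; simp
      map_smul' := fun a b => by ext; simp }
  have hQ1 : ∀ γ (x y : H1), Q1 γ x y = Q γ x y := fun _ _ _ => rfl
  obtain ⟨β, hβ⟩ := LA_inj Q1 (fun γ hγ H' hH' => by
    have hm : finrank K (H'.map H1.subtype) = finrank K H' :=
      Submodule.finrank_map_subtype_eq H1 H'
    have hd : finrank K H1 = finrank K R.dualCoannihilator := rfl
    obtain ⟨h, ⟨x, -, rfl⟩, h', ⟨y, hy, rfl⟩, hne⟩ := hQ γ hγ (H'.map H1.subtype) (by omega)
    exact ⟨x, y, hy, hne⟩)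
  have key : ∀ γ γ' : O, Q γ α + Q γ' β = 0 → γ = 0 ∧ γ' = 0 := by
    intro γ γ' h
    have h1 : γ' = 0 := hβ γ' (by
      ext y
      have := LinearMap.congr_fun h y
      rw [LinearMap.add_apply, hH1 y y.2, zero_add] at this
      exact this)
    rw [h1, map_zero, LinearMap.zero_apply, add_zero] at h
    exact ⟨hα γ h, h1⟩
  refine ⟨α, β, ?_, fun γ => hH1 β β.2 γ, fun f g => ?_⟩
  · rw [LinearIndependent.pair_iff]
    intro a b hab
    obtain ⟨γ, hγ⟩ := exists_ne (0 : O)
    obtain ⟨h1, h2⟩ := key (a • γ) (b • γ) (by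
      have := congrArg (Q γ) hab
      simpa using this)
    exact ⟨(smul_eq_zero.mp h1).resolve_right hγ, (smul_eq_zero.mp h2).resolve_right hγ⟩
  · let Ψ : (O × O) →ₗ[K] H →ₗ[K] K := (Q.flip α).coprod (Q.flip β)
    have hΨ : Function.Injective Ψ := by
      rw [← LinearMap.ker_eq_bot, LinearMap.ker_eq_bot']
      rintro ⟨γ, γ'⟩ h
      obtain ⟨h1, h2⟩ := key γ γ' h
      rw [h1, h2]; rfl
    obtain ⟨h, hh⟩ := (LinearMap.flip_surjective_iff₁.mpr hΨ) (f.coprod g)
    refine ⟨h, fun γ => ⟨?_, ?_⟩⟩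
    · have := LinearMap.congr_fun hh (γ, 0)
      simpa [Ψ] using this
    · have := LinearMap.congr_fun hh (0, γ)
      simpa [Ψ] using this

/-- `r = a - a ∘ rot⁻¹` on words of length `p` when the cyclic sums of `r` vanish; take
`a u = -(1/p) ∑_{m<p} m • r (u.rotate (p - m))`. In terms of `A_l(v) = a (l :: v)` this says
`r = ∑_l [w_l, A_l]`. -/
theorem exists_cyc {σ K V : Type} [Field K] [CharZero K] [AddCommGroup V] [Module K V] {p : ℕ}
    (hp : 0 < p) (r : List σ → V)
    (hr : ∀ u : List σ, u.length = p → ∑ m ∈ Finset.range p, r (u.rotate m) = 0) :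
    ∃ a : List σ → V, ∀ (l : σ) (v : List σ) (l' : σ) (v' : List σ), (l :: v).length = p →
      l :: v = v' ++ [l'] → r (l :: v) = a (l :: v) - a (l' :: v') := by
  refine ⟨fun u => (p : K)⁻¹ • ∑ m ∈ Finset.range p, ((m + 1 : ℕ) : K) • r (u.rotate (m + 1)),
    fun l v l' v' hlen heq => ?_⟩
  set u := l :: v with hu
  have h1 : (l' :: v').rotate 1 = u := by
    rw [heq]; simp [List.rotate_cons_succ]
  have h2 : ∀ m, (l' :: v').rotate (m + 1) = u.rotate m := fun m => by
    rw [← h1, List.rotate_rotate, add_comm]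
  have h3 : u.rotate p = u := by rw [← hlen, List.rotate_length]
  have h4 : ∑ m ∈ Finset.range p, ((m + 1 : ℕ) : K) • r (u.rotate (m + 1)) =
      ∑ m ∈ Finset.range p, (m : K) • r (u.rotate m) + (p : K) • r u := by
    have e1 := Finset.sum_range_succ' (fun m => (m : K) • r (u.rotate m)) p
    have e2 := Finset.sum_range_succ (fun m => (m : K) • r (u.rotate m)) p
    rw [e1] at e2
    simp only [Nat.cast_zero, zero_smul, add_zero, h3] at e2
    exact e2
  have h5 : ∑ m ∈ Finset.range p, ((m + 1 : ℕ) : K) • r ((l' :: v').rotate (m + 1)) =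
      ∑ m ∈ Finset.range p, (m : K) • r (u.rotate m) := by
    simp only [h2, Nat.cast_add, Nat.cast_one, add_smul, one_smul, Finset.sum_add_distrib,
      hr u hlen, add_zero]
  have hp' : (p : K) ≠ 0 := Nat.cast_ne_zero.mpr hp.ne'
  simp only [h4, h5]
  rw [← smul_sub, add_sub_cancel_left, smul_smul, inv_mul_cancel₀ hp', one_smul]

end Crest.Agent.R180
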