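import Crest.Agent.R180.Lau1

/-! Reduction modulo `t` of subspaces of `D((t))`. -/

set_option autoImplicit false

namespace Crest.Agent.R180

open Module

namespace Lau
variable {A0 A : CDA} (L : Lau A0 A)

theorem lau_ι_smul (c : A0.K) (y : A0.D) : L.ι (c • y) = L.κ c • L.ι y := by
  rw [Algebra.smul_def, map_mul, L.compat, Algebra.smul_def]

theorem lau_red_smul {c : A.K} {c₀ : A0.K} (hc : algebraMap A.K A.D c ∈ L.O)
    (h : L.red (algebraMap A.K A.D c) = algebraMap A0.K A0.D c₀) {x : A.D} (hx : x ∈ L.O) :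
    L.red (c • x) = c₀ • L.red x := by
  rw [Algebra.smul_def, L.red_mul hc hx, h, Algebra.smul_def]

/-- integral vectors with independent reductions are independent -/
theorem lau_li_of_red {J I : Type} [Fintype I] {x : I → J → A.D} (hx : ∀ s j, x s j ∈ L.O)
    (h : LinearIndependent A0.K fun s j => L.red (x s j)) : LinearIndependent A.K x := by
  rw [Fintype.linearIndependent_iff] at h ⊢
  intro c hc
  by_contra hne
  have hc' : (fun s => algebraMap A.K A.D (c s)) ≠ 0 := fun e => hne fun s =>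
    (algebraMap A.K A.D).injective ((congrFun e s).trans (map_zero _).symm)
  obtain ⟨m, h1, s, h2⟩ := L.exists_normalizeP hc'
  have e : ∀ s, L.t ^ m • algebraMap A.K A.D (c s) = algebraMap A.K A.D (L.t ^ m * c s) :=
    fun s => by rw [map_mul, Algebra.smul_def]
  simp only [e] at h1 h2
  choose c₀ hc₀ using fun s => L.redK _ (h1 s)
  refine h2 ((hc₀ s).trans ?_)
  rw [h c₀ ?_ s, map_zero]
  funext j
  have h3 : ∑ s, (L.t ^ m * c s) • x s j = 0 := by
    have := congrFun hc j
    simp only [Finset.sum_apply, Pi.smul_apply, Pi.zero_apply] at this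
    simp only [mul_smul, ← Finset.smul_sum, this, smul_zero]
  have h4 := L.red_sum Finset.univ (x := fun s => (L.t ^ m * c s) • x s j)
    fun s _ => L.smul_mem (h1 s) (hx s j)
  rw [h3, L.red_zero] at h4
  simp only [Finset.sum_apply, Pi.smul_apply, Pi.zero_apply]
  rw [h4]
  exact Finset.sum_congr rfl fun s _ => (L.lau_red_smul (h1 s) (hc₀ s) (hx s j)).symm

theorem lau_liftP_span {J I : Type} (τ : I → J → A0.D) :
    L.liftP (Submodule.span A0.K (Set.range τ)) =
      Submodule.span A.K (Set.range fun s j => L.ι (τ s j)) := by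
  apply le_antisymm
  · refine Submodule.span_le.2 ?_
    rintro _ ⟨z, hz, rfl⟩
    show (fun j => L.ι (z j)) ∈ Submodule.span A.K (Set.range fun s j => L.ι (τ s j))
    induction hz using Submodule.span_induction with
    | mem z hz =>
      obtain ⟨s, rfl⟩ := hz
      exact Submodule.subset_span ⟨s, rfl⟩
    | zero =>
      have : (fun j => L.ι ((0 : J → A0.D) j)) = 0 := funext fun j => map_zero _
      exact this ▸ zero_mem _
    | add z z' _ _ h h' =>
      have : (fun j => L.ι ((z + z') j)) = (fun j => L.ι (z j)) + fun j => L.ι (z' j) :=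
        funext fun j => map_add _ _ _
      exact this ▸ add_mem h h'
    | smul c z _ h =>
      have : (fun j => L.ι ((c • z) j)) = L.κ c • fun j => L.ι (z j) :=
        funext fun j => L.lau_ι_smul _ _
      exact this ▸ Submodule.smul_mem _ _ h
  · refine Submodule.span_mono ?_
    rintro _ ⟨s, rfl⟩
    exact ⟨τ s, Submodule.subset_span ⟨s, rfl⟩, rfl⟩

theorem lau_exists_basis {K V : Type} [Field K] [AddCommGroup V] [Module K V]
    [FiniteDimensional K V] (Y : Submodule K V) : ∃ τ : Fin (finrank K Y) → V,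
      LinearIndependent K τ ∧ Submodule.span K (Set.range τ) = Y := by
  let b := Module.finBasis K Y
  refine ⟨Y.subtype ∘ b, b.linearIndependent.map' Y.subtype Y.ker_subtype, ?_⟩
  rw [Set.range_comp, ← Submodule.map_span, b.span_eq, Submodule.map_subtype_top]

theorem lau_finrank_liftP {J : Type} [Fintype J] (Y : Submodule A0.K (J → A0.D)) :
    finrank A.K (L.liftP Y) = finrank A0.K Y := by
  obtain ⟨τ, h1, h2⟩ := lau_exists_basis Y
  rw [← congrArg L.liftP h2, lau_liftP_span, finrank_span_eq_card (L.li_lift h1), Fintype.card_fin]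

theorem lau_red_mem_liftP {J : Type} [Fintype J] {Y : Submodule A0.K (J → A0.D)} {x : J → A.D}
    (hx : x ∈ L.liftP Y) (hO : ∀ j, x j ∈ L.O) : (fun j => L.red (x j)) ∈ Y := by
  obtain ⟨τ, h1, h2⟩ := lau_exists_basis Y
  rw [← congrArg L.liftP h2, lau_liftP_span, Submodule.mem_span_range_iff_exists_fun] at hx
  obtain ⟨c, rfl⟩ := hx
  simp only [Finset.sum_apply, Pi.smul_apply] at hO ⊢
  have h3 := L.coord_mem_O h1 hO
  choose c₀ hc₀ using fun s => L.redK _ (h3 s)
  have e : (fun j => L.red (∑ s, c s • L.ι (τ s j))) = ∑ s, c₀ s • τ s := by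
    funext j
    rw [L.red_sum _ fun s _ => L.smul_mem (h3 s) (L.ι_mem _), Finset.sum_apply]
    exact Finset.sum_congr rfl fun s _ => by
      rw [L.lau_red_smul (h3 s) (hc₀ s) (L.ι_mem _), L.red_ι, Pi.smul_apply]
  rw [e]
  exact sum_mem fun s _ => Submodule.smul_mem _ _ (h2.le (Submodule.subset_span ⟨s, rfl⟩))

/-- a complement of the reduction lifts to a complement -/
theorem disjoint_liftP {J : Type} [Fintype J] {G : Submodule A.K (J → A.D)}
    {T0 : Submodule A0.K (J → A0.D)} (h : Disjoint T0 (L.redP G)) : Disjoint (L.liftP T0) G := by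
  rw [Submodule.disjoint_def] at h ⊢
  intro x h1 h2
  by_contra hne
  obtain ⟨m, h3, j, h4⟩ := L.exists_normalizeP hne
  exact h4 (congrFun (h _ (L.lau_red_mem_liftP (Submodule.smul_mem _ (L.t ^ m) h1) h3)
    ⟨_, Submodule.smul_mem _ (L.t ^ m) h2, h3, fun _ => rfl⟩) j)

theorem finrank_redP {J : Type} [Fintype J] (X : Submodule A.K (J → A.D)) :
    finrank A0.K (L.redP X) = finrank A.K X := by
  apply le_antisymm
  · obtain ⟨τ, h1, h2⟩ := lau_exists_basis (L.redP X)
    have h3 : ∀ s, τ s ∈ L.redP X := fun s => h2 ▸ Submodule.subset_span ⟨s, rfl⟩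
    choose x hx hO hr using h3
    have h4 : LinearIndependent A.K x := L.lau_li_of_red hO (by simpa only [hr] using h1)
    have h5 : LinearIndependent A.K fun s => (⟨x s, hx s⟩ : X) :=
      LinearIndependent.of_comp X.subtype h4
    simpa using h5.fintype_card_le_finrank
  · obtain ⟨U, hU⟩ := (L.redP X).exists_isCompl
    have h1 := Submodule.finrank_add_eq_of_isCompl hU
    have h2 := Submodule.finrank_add_finrank_le_of_disjoint (L.disjoint_liftP hU.symm.disjoint)
    rw [lau_finrank_liftP, Module.finrank_pi_fintype, Finset.sum_const, L.dim] at h2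
    rw [Module.finrank_pi_fintype, Finset.sum_const] at h1
    omega

theorem lau_redP_pi {J : Type} (X : Submodule A.K A.D) :
    L.redP (Submodule.pi Set.univ fun _ : J => X) = Submodule.pi Set.univ fun _ => L.redS X := by
  ext z
  constructor
  · rintro ⟨x, hx, hO, hr⟩ j _
    exact ⟨x j, hx j trivial, hO j, hr j⟩
  · intro hz
    choose x hx hO hr using fun j => hz j trivial
    exact ⟨x, fun j _ => hx j, hO, hr⟩

theorem lau_liftP_pi {J : Type} [Fintype J] (Y : Submodule A0.K A0.D) :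
    L.liftP (Submodule.pi Set.univ fun _ : J => Y) = Submodule.pi Set.univ fun _ => L.lift Y := by
  classical
  apply le_antisymm
  · refine Submodule.span_le.2 ?_
    rintro _ ⟨z, hz, rfl⟩ j _
    exact Submodule.subset_span ⟨z j, hz j trivial, rfl⟩
  · intro x hx
    rw [← Finset.univ_sum_single x]
    refine sum_mem fun j _ => ?_
    have : L.lift Y ≤ (L.liftP (Submodule.pi Set.univ fun _ : J => Y)).comap
        (LinearMap.single A.K (fun _ : J => A.D) j) := by
      refine Submodule.span_le.2 ?_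
      rintro _ ⟨y, hy, rfl⟩
      refine Submodule.subset_span ⟨Pi.single j y, fun i _ => ?_, funext fun i => ?_⟩
      · by_cases h : i = j
        · subst h; simpa using hy
        · simp [h]
      · by_cases h : i = j
        · subst h; simp
        · simp [h]
    exact this (hx j trivial)

theorem lau_finrank_pi {K V : Type} [Field K] [AddCommGroup V] [Module K V] (X : Submodule K V) :
    finrank K (Submodule.pi Set.univ fun _ : Unit => X) = finrank K X := by
  have : (Submodule.pi Set.univ fun _ : Unit => X).map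
      (LinearEquiv.funUnique Unit K V : (Unit → V) →ₗ[K] V) = X := by
    ext x
    constructor
    · rintro ⟨y, hy, rfl⟩
      exact hy _ trivial
    · exact fun hx => ⟨fun _ => x, fun _ _ => hx, rfl⟩
  conv_rhs => rw [← this]
  exact (LinearEquiv.finrank_map_eq _ _).symm

theorem finrank_redS (X : Submodule A.K A.D) : finrank A0.K (L.redS X) = finrank A.K X := by
  rw [← lau_finrank_pi X, ← L.finrank_redP, lau_redP_pi, lau_finrank_pi]

theorem redS_mono {X Y : Submodule A.K A.D} (h : X ≤ Y) : L.redS X ≤ L.redS Y := by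
  rintro _ ⟨x, hx, hO, rfl⟩
  exact ⟨x, h hx, hO, rfl⟩

theorem redP_mono {J : Type} {X Y : Submodule A.K (J → A.D)} (h : X ≤ Y) :
    L.redP X ≤ L.redP Y := by
  rintro _ ⟨x, hx, hO, hr⟩
  exact ⟨x, h hx, hO, hr⟩

theorem eq_of_le_of_redS_le {X Y : Submodule A.K A.D} (h : X ≤ Y) (h' : L.redS Y ≤ L.redS X) :
    X = Y :=
  Submodule.eq_of_le_of_finrank_le h (by
    rw [← L.finrank_redS, ← L.finrank_redS]
    exact Submodule.finrank_mono h')

theorem lau_eq_of_le_of_redP_le {J : Type} [Fintype J] {X Y : Submodule A.K (J → A.D)}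
    (h : X ≤ Y) (h' : L.redP Y ≤ L.redP X) : X = Y :=
  Submodule.eq_of_le_of_finrank_le h (by
    rw [← L.finrank_redP, ← L.finrank_redP]
    exact Submodule.finrank_mono h')

theorem redS_mul_le (X Y : Submodule A.K A.D) : L.redS X * L.redS Y ≤ L.redS (X * Y) := by
  refine Submodule.mul_le.2 ?_
  rintro _ ⟨x, hx, hxO, rfl⟩ _ ⟨y, hy, hyO, rfl⟩
  exact ⟨x * y, Submodule.mul_mem_mul hx hy, mul_mem hxO hyO, L.red_mul hxO hyO⟩

/-- the reduction of a subalgebra is a subalgebra -/
theorem exists_redA (B : Subalgebra A.K A.D) : ∃ B0 : Subalgebra A0.K A0.D,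
    Subalgebra.toSubmodule B0 = L.redS (Subalgebra.toSubmodule B) := by
  refine ⟨(L.redS (Subalgebra.toSubmodule B)).toSubalgebra
    ⟨1, one_mem B, one_mem _, L.red_one⟩ ?_, rfl⟩
  rintro _ _ ⟨x, hx, hxO, rfl⟩ ⟨y, hy, hyO, rfl⟩
  exact ⟨x * y, mul_mem (s := B) hx hy, mul_mem hxO hyO, L.red_mul hxO hyO⟩

theorem redP_liftP {J : Type} [Fintype J] (Y : Submodule A0.K (J → A0.D)) :
    L.redP (L.liftP Y) = Y := by
  apply le_antisymm
  · rintro z ⟨x, hx, hO, hr⟩
    exact (funext hr : (fun j => L.red (x j)) = z) ▸ L.lau_red_mem_liftP hx hO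
  · intro z hz
    exact ⟨_, Submodule.subset_span ⟨z, hz, rfl⟩, fun j => L.ι_mem _, fun j => L.red_ι _⟩

theorem redS_lift (Y : Submodule A0.K A0.D) : L.redS (L.lift Y) = Y := by
  have h := L.redP_liftP (Submodule.pi Set.univ fun _ : Unit => Y)
  rw [lau_liftP_pi, lau_redP_pi] at h
  ext z
  have := SetLike.ext_iff.1 h fun _ => z
  simpa [Submodule.mem_pi] using this

theorem red_mem_of_mem_liftA {Y : Subalgebra A0.K A0.D} {x : A.D} (hx : x ∈ L.liftA Y)
    (hxO : x ∈ L.O) : L.red x ∈ Y := by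
  have h : L.red x ∈ L.redS (L.lift (Subalgebra.toSubmodule Y)) :=
    ⟨x, L.liftA_toSubmodule Y ▸ hx, hxO, rfl⟩
  rwa [redS_lift] at h

theorem mem_liftP_pi {J : Type} [Fintype J] (Y : Subalgebra A0.K A0.D) (x : J → A.D) :
    x ∈ L.liftP (Submodule.pi Set.univ fun _ : J => Subalgebra.toSubmodule Y) ↔
      ∀ j, x j ∈ L.liftA Y := by
  rw [lau_liftP_pi, ← liftA_toSubmodule]
  simp [Submodule.mem_pi]

theorem closedP {J : Type} [Fintype J] (X : Submodule A.K (J → A.D)) {x : J → A.D}
    (h : ∀ N, ∃ y ∈ X, ∀ j, x j - y j ∈ L.filt.F N) : x ∈ X := by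
  have key : X = X ⊔ Submodule.span A.K {x} := by
    refine L.lau_eq_of_le_of_redP_le le_sup_left ?_
    rintro z ⟨w, hw, hO, hr⟩
    obtain ⟨y, hy, _, hv, rfl⟩ := Submodule.mem_sup.1 hw
    obtain ⟨c, rfl⟩ := Submodule.mem_span_singleton.1 hv
    obtain ⟨N, hN⟩ := L.bdd (algebraMap A.K A.D c)
    rw [Algebra.smul_def, ← map_mul] at hN
    obtain ⟨y', hy', h'⟩ := h (N + 1)
    have h1 : ∀ j, (y + c • y') j - (y + c • x) j ∈ L.filt.F 1 := fun j => by
      obtain ⟨v, hv, e⟩ := h' j
      refine ⟨-((L.t ^ N * c) • v), neg_mem (L.smul_mem hN hv), ?_⟩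
      have : (y + c • y') j - (y + c • x) j = -(c • (x j - y' j)) := by
        simp only [Pi.add_apply, Pi.smul_apply, smul_sub]
        abel
      rw [this, e, smul_neg, smul_smul, smul_smul]
      congr 2
      ring
    exact ⟨y + c • y', add_mem hy (X.smul_mem _ hy'), fun j => (L.red_eq_of_sub_mem (hO j) (h1 j)).1,
      fun j => (L.red_eq_of_sub_mem (hO j) (h1 j)).2.trans (hr j)⟩
  rw [key]
  exact Submodule.mem_sup_right (Submodule.mem_span_singleton_self x)

/-- subspaces are closed -/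
theorem closedS (X : Submodule A.K A.D) {x : A.D} (h : ∀ N, ∃ y ∈ X, x - y ∈ L.filt.F N) :
    x ∈ X :=
  L.closedP (Submodule.pi Set.univ fun _ : Unit => X) (x := fun _ => x) (fun N => by
    obtain ⟨y, hy, h'⟩ := h N
    exact ⟨fun _ => y, fun _ _ => hy, fun _ => h'⟩) () trivial

theorem liftP_le_sup {J : Type} [Fintype J] {G : Submodule A.K (J → A.D)}
    {T0 Y : Submodule A0.K (J → A0.D)} (hG : G ≤ L.liftP Y) (hT : T0 ≤ Y)
    (h : Disjoint T0 (L.redP G)) (h' : Y ≤ T0 ⊔ L.redP G) : L.liftP Y ≤ L.liftP T0 ⊔ G := by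
  have _ := h
  have h1 : L.liftP T0 ≤ L.liftP Y := Submodule.span_mono (Set.image_mono hT)
  refine (L.lau_eq_of_le_of_redP_le (sup_le h1 hG) ?_).ge
  rw [redP_liftP]
  exact h'.trans (sup_le ((L.redP_liftP T0).ge.trans (L.redP_mono le_sup_left))
    (L.redP_mono le_sup_right))

/-- reduction commutes with orthogonal complements inside a subalgebra -/
theorem redS_perp (Γ : Subalgebra A.K A.D) {V : Submodule A.K A.D}
    (hV : V ≤ Subalgebra.toSubmodule Γ) :
    L.redS (Subalgebra.toSubmodule Γ ⊓ A.perp V) =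
      L.redS (Subalgebra.toSubmodule Γ) ⊓ A0.perp (L.redS V) := by
  obtain ⟨Γ0, h0⟩ := L.exists_redA Γ
  refine Submodule.eq_of_le_of_finrank_eq (le_inf (L.redS_mono inf_le_left) ?_) ?_
  · rintro _ ⟨x, hx, hxO, rfl⟩ _ ⟨v, hv, hvO, rfl⟩
    rw [← L.red_mul hxO hvO]
    exact L.τ_red_eq_zero (mul_mem hxO hvO) (hx.2 v hv)
  · have h1 := A.finrank_perp Γ hV
    have h2 := A0.finrank_perp Γ0 (V := L.redS V) (h0 ▸ L.redS_mono hV)
    rw [← Subalgebra.finrank_toSubmodule, h0, finrank_redS, finrank_redS,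
      Subalgebra.finrank_toSubmodule] at h2
    rw [finrank_redS]
    omega

/-- duality: membership in the reduction of `V` can be tested against `Γ ∩ V^⊥` -/
theorem mem_redS_of_perp (Γ : Subalgebra A.K A.D) {V : Submodule A.K A.D}
    (hV : V ≤ Subalgebra.toSubmodule Γ) {x : A0.D} (hx : x ∈ L.redS (Subalgebra.toSubmodule Γ))
    (h : ∀ c ∈ Γ, c ∈ A.perp V → c ∈ L.O → A0.τ (L.red c * x) = 0) : x ∈ L.redS V := by
  obtain ⟨Γ0, h0⟩ := L.exists_redA Γ
  refine A0.mem_of_perp_perp Γ0 (h0 ▸ L.redS_mono hV) ?_ fun c hc hc' => ?_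
  · rw [← h0] at hx
    exact hx
  · have : c ∈ L.redS (Subalgebra.toSubmodule Γ ⊓ A.perp V) := by
      rw [L.redS_perp Γ hV, ← h0]
      exact ⟨hc, hc'⟩
    obtain ⟨d, hd, hdO, rfl⟩ := this
    exact h d hd.1 hd.2 hdO

end Lau

end Crest.Agent.R180
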