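import Crest.Agent.R180.CSA

/-! Reduction modulo `t` of subspaces of `D((t))`. -/

set_option autoImplicit false

namespace Crest.Agent.R180

open Module

namespace Lau
variable {A0 A : CDA} (L : Lau A0 A)

theorem red_neg {x : A.D} (hx : x ∈ L.O) : L.red (-x) = - L.red x := by
  have := L.red_add hx (neg_mem hx)
  rw [add_neg_cancel, L.red_zero] at this
  exact (neg_eq_of_add_eq_zero_right this.symm).symm

theorem red_sub {x y : A.D} (hx : x ∈ L.O) (hy : y ∈ L.O) :
    L.red (x - y) = L.red x - L.red y := by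
  rw [sub_eq_add_neg, L.red_add hx (neg_mem hy), L.red_neg hy, sub_eq_add_neg]

theorem red_sum {J : Type} (s : Finset J) {x : J → A.D} (hx : ∀ j ∈ s, x j ∈ L.O) :
    L.red (∑ j ∈ s, x j) = ∑ j ∈ s, L.red (x j) := by
  classical
  induction s using Finset.induction_on with
  | empty => simpa using L.red_zero
  | insert a s ha ih =>
    have h' : ∀ j ∈ s, x j ∈ L.O := fun j hj => hx j (Finset.mem_insert_of_mem hj)
    rw [Finset.sum_insert ha, Finset.sum_insert ha,
      L.red_add (hx a (Finset.mem_insert_self a s)) (sum_mem h'), ih h']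

theorem red_pow {x : A.D} (hx : x ∈ L.O) (m : ℕ) : L.red (x ^ m) = L.red x ^ m := by
  induction m with
  | zero => simpa using L.red_one
  | succ m ih => rw [pow_succ, L.red_mul (pow_mem hx m) hx, ih, pow_succ]

theorem mem_O_of_mem_filt {N : ℕ} {x : A.D} (hx : x ∈ L.filt.F N) : x ∈ L.O :=
  L.mem_filt_zero.1 (L.filt.anti (Nat.zero_le N) hx)

theorem mem_filt_one {x : A.D} : x ∈ L.filt.F 1 ↔ x ∈ L.O ∧ L.red x = 0 := by
  constructor
  · intro hx
    have hO := L.mem_O_of_mem_filt hx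
    refine ⟨hO, (L.red_eq_zero hO).2 ?_⟩
    simpa [L.mem_filt] using hx
  · rintro ⟨hO, h⟩
    simpa [L.mem_filt] using (L.red_eq_zero hO).1 h

theorem red_eq_of_sub_mem {x y : A.D} (hy : y ∈ L.O) (h : x - y ∈ L.filt.F 1) :
    x ∈ L.O ∧ L.red x = L.red y := by
  obtain ⟨h1, h2⟩ := L.mem_filt_one.1 h
  have hx : x ∈ L.O := by simpa using add_mem h1 hy
  rw [L.red_sub hx hy, sub_eq_zero] at h2
  exact ⟨hx, h2⟩

theorem tpow_smul_mem_filt {a b : ℕ} {x : A.D} :
    L.t ^ a • x ∈ L.filt.F (a + b) ↔ x ∈ L.filt.F b := by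
  simp only [L.mem_filt, pow_add, mul_smul]
  refine exists_congr fun y => and_congr_right fun _ => ?_
  exact (smul_right_injective A.D (pow_ne_zero a L.t_ne)).eq_iff

theorem smul_mem_filt {c : A.K} (hc : algebraMap A.K A.D c ∈ L.O) {N : ℕ} {x : A.D}
    (hx : x ∈ L.filt.F N) : c • x ∈ L.filt.F N := by
  obtain ⟨y, hy, rfl⟩ := hx
  exact ⟨c • y, L.smul_mem hc hy, smul_comm _ _ _⟩

theorem Lau1_normalize {J : Type} [Fintype J] {x : J → A.D} (hx : x ≠ 0) :
    ∃ m : ℤ, (∀ j, L.t ^ m • x j ∈ L.O) ∧ ∃ j, L.red (L.t ^ m • x j) ≠ 0 := by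
  classical
  choose N hN using fun j => L.bdd (x j)
  let M := Finset.univ.sup N
  have hM : ∀ j, L.t ^ M • x j ∈ L.O := fun j => by
    obtain ⟨c, hc⟩ := Nat.exists_eq_add_of_le' (Finset.le_sup (f := N) (Finset.mem_univ j))
    change M = _ at hc
    rw [hc, pow_add, mul_smul]
    exact L.smul_mem (L.tpow_mem c) (hN j)
  have hex : ∃ k, ¬ ∀ j, L.t ^ M • x j ∈ L.filt.F (k + 1) := by
    by_contra hc
    push Not at hc
    refine hx (funext fun j => ?_)
    have := L.filt.sep _ fun k => L.filt.anti (Nat.le_succ k) (hc k j)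
    exact (smul_eq_zero.1 this).resolve_left (pow_ne_zero M L.t_ne)
  have h1 : ∀ j, L.t ^ M • x j ∈ L.filt.F (Nat.find hex) := by
    cases hk : Nat.find hex with
    | zero => exact fun j => L.mem_filt_zero.2 (hM j)
    | succ k => exact not_not.1 (Nat.find_min hex (hk ▸ Nat.lt_succ_self k))
  have h2 := Nat.find_spec hex
  set k := Nat.find hex
  have e : ∀ j, L.t ^ M • x j = L.t ^ k • L.t ^ ((M : ℤ) - k) • x j := fun j => by
    rw [smul_smul, ← zpow_natCast L.t k, ← zpow_add₀ L.t_ne, add_sub_cancel, zpow_natCast]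
  have hO : ∀ j, L.t ^ ((M : ℤ) - k) • x j ∈ L.O := fun j => by
    refine L.mem_filt_zero.1 ((L.tpow_smul_mem_filt (a := k)).1 ?_)
    rw [← e]
    exact h1 j
  refine ⟨M - k, hO, ?_⟩
  by_contra hc
  push Not at hc
  refine h2 fun j => ?_
  rw [e]
  exact L.tpow_smul_mem_filt.2 (L.mem_filt_one.2 ⟨hO j, hc j⟩)

/-- every nonzero element can be normalised -/
theorem exists_normalize {x : A.D} (hx : x ≠ 0) :
    ∃ m : ℤ, L.t ^ m • x ∈ L.O ∧ L.red (L.t ^ m • x) ≠ 0 := by
  obtain ⟨m, h1, _, h2⟩ := L.Lau1_normalize (x := fun _ : Unit => x)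
    fun h => hx (congrFun h ())
  exact ⟨m, h1 (), h2⟩

theorem exists_normalizeP {J : Type} [Fintype J] {x : J → A.D} (hx : x ≠ 0) :
    ∃ m : ℤ, (∀ j, L.t ^ m • x j ∈ L.O) ∧ ∃ j, L.red (L.t ^ m • x j) ≠ 0 :=
  L.Lau1_normalize hx

theorem Lau1_pos {m : ℤ} (hm : 0 < m) {x : A.D} (hx : x ∈ L.O) : L.red (L.t ^ m • x) = 0 := by
  obtain ⟨k, rfl⟩ := Int.eq_ofNat_of_zero_le hm.le
  rw [zpow_natCast]
  refine (L.mem_filt_one.1 (L.filt.anti (a := 1) (b := k) (by omega) ⟨x, hx, rfl⟩)).2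

theorem Lau1_nonpos {m : ℤ} (hm : m ≤ 0) {x : A.D} (hx : L.t ^ m • x ∈ L.O) : x ∈ L.O := by
  obtain ⟨k, rfl⟩ := Int.exists_eq_neg_ofNat hm
  have := L.smul_mem (L.tpow_mem k) hx
  rwa [smul_smul, zpow_neg, zpow_natCast, mul_inv_cancel₀ (pow_ne_zero k L.t_ne), one_smul] at this

theorem inv_mem_O {x : A.D} (hx : x ∈ L.O) (h : L.red x ≠ 0) :
    x⁻¹ ∈ L.O ∧ L.red x⁻¹ = (L.red x)⁻¹ := by
  have hx0 : x ≠ 0 := fun e => h (by rw [e, L.red_zero])
  obtain ⟨m, h1, h2⟩ := L.exists_normalize (inv_ne_zero hx0)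
  have hm : m ≤ 0 := by
    by_contra hm
    have h3 := L.red_mul hx h1
    rw [mul_smul_comm, mul_inv_cancel₀ hx0, L.Lau1_pos (not_le.1 hm) (one_mem _)] at h3
    exact mul_ne_zero h h2 h3.symm
  have hi := L.Lau1_nonpos hm h1
  refine ⟨hi, ?_⟩
  have h3 := L.red_mul hx hi
  rw [mul_inv_cancel₀ hx0, L.red_one] at h3
  exact eq_inv_of_mul_eq_one_right h3.symm

theorem Lau1_key {J I : Type} [Fintype I] {τ : I → J → A0.D}
    (hτ : LinearIndependent A0.K τ) {c : I → A.K} (hc : ∀ s, algebraMap A.K A.D (c s) ∈ L.O)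
    (h : ∀ j, L.red (∑ s, c s • L.ι (τ s j)) = 0) (s : I) :
    L.red (algebraMap A.K A.D (c s)) = 0 := by
  choose c₀ hc₀ using fun s => L.redK (c s) (hc s)
  have : ∑ s, c₀ s • τ s = 0 := by
    funext j
    rw [Finset.sum_apply, Pi.zero_apply, ← h j,
      L.red_sum _ fun s _ => L.smul_mem (hc s) (L.ι_mem _)]
    refine Finset.sum_congr rfl fun s _ => ?_
    rw [Pi.smul_apply, Algebra.smul_def, Algebra.smul_def, L.red_mul (hc s) (L.ι_mem _), hc₀,
      L.red_ι]
  rw [hc₀, Fintype.linearIndependent_iff.1 hτ c₀ this s, map_zero]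

theorem Lau1_normK {I : Type} [Fintype I] {c : I → A.K} (hc : c ≠ 0) :
    ∃ m : ℤ, (∀ s, algebraMap A.K A.D (L.t ^ m * c s) ∈ L.O) ∧
      ∃ s, L.red (algebraMap A.K A.D (L.t ^ m * c s)) ≠ 0 := by
  obtain ⟨m, h⟩ := L.exists_normalizeP (x := fun s => algebraMap A.K A.D (c s)) fun h =>
    hc (funext fun s => (algebraMap A.K A.D).injective (by simpa using congrFun h s))
  exact ⟨m, by simpa only [Algebra.smul_def, map_mul] using h⟩

/-- integral vectors have integral coordinates in a constant linearly independent family -/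
theorem coord_mem_O {J I : Type} [Fintype J] [Fintype I] {τ : I → J → A0.D}
    (hτ : LinearIndependent A0.K τ) {c : I → A.K} (h : ∀ j, ∑ s, c s • L.ι (τ s j) ∈ L.O)
    (s : I) : algebraMap A.K A.D (c s) ∈ L.O := by
  by_cases hc : c = 0
  · rw [hc, Pi.zero_apply, map_zero]
    exact zero_mem _
  obtain ⟨m, h1, s', h2⟩ := L.Lau1_normK hc
  have hm : m ≤ 0 := by
    by_contra hm
    refine h2 (L.Lau1_key hτ h1 (fun j => ?_) s')
    simp only [mul_smul, ← Finset.smul_sum]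
    exact L.Lau1_pos (not_le.1 hm) (h j)
  refine L.Lau1_nonpos hm ?_
  rw [Algebra.smul_def, ← map_mul]
  exact h1 s

theorem li_lift {J I : Type} [Fintype J] [Fintype I] {τ : I → J → A0.D}
    (hτ : LinearIndependent A0.K τ) : LinearIndependent A.K fun s j => L.ι (τ s j) := by
  rw [Fintype.linearIndependent_iff]
  intro c h
  by_contra hc
  obtain ⟨m, h1, s', h2⟩ := L.Lau1_normK (c := c) fun e => hc fun s => congrFun e s
  refine h2 (L.Lau1_key hτ h1 (fun j => ?_) s')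
  have hj := congrFun h j
  simp only [Finset.sum_apply, Pi.smul_apply, Pi.zero_apply] at hj
  simp only [mul_smul, ← Finset.smul_sum]
  rw [hj, smul_zero, L.red_zero]

theorem liftA_toSubmodule (Y : Subalgebra A0.K A0.D) :
    Subalgebra.toSubmodule (L.liftA Y) = L.lift (Subalgebra.toSubmodule Y) := by
  rw [liftA, lift, Algebra.adjoin_eq_span]
  congr 1
  exact congrArg SetLike.coe (Submonoid.closure_eq (Y.toSubmonoid.map L.ι))

theorem lift_top : L.lift ⊤ = ⊤ := by
  let b := Module.finBasis A0.K A0.D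
  have h1 : LinearIndependent A0.K fun s (_ : Unit) => b s :=
    LinearIndependent.of_comp (LinearMap.proj ()) b.linearIndependent
  have h2 : LinearIndependent A.K fun s => L.ι (b s) :=
    LinearIndependent.of_comp (LinearMap.pi fun _ : Unit => LinearMap.id) (L.li_lift h1)
  have h3 := h2.span_eq_top_of_card_eq_finrank' (by rw [Fintype.card_fin, L.dim])
  rw [eq_top_iff, ← h3]
  refine Submodule.span_mono ?_
  rintro _ ⟨s, rfl⟩
  exact ⟨b s, trivial, rfl⟩

/-- the trace is computed coefficientwise -/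
theorem τ_red {x : A.D} (hx : x ∈ L.O) :
    algebraMap A.K A.D (A.τ x) ∈ L.O ∧
      L.red (algebraMap A.K A.D (A.τ x)) = algebraMap A0.K A0.D (A0.τ (L.red x)) := by
  obtain ⟨m, p, q, h1, h2⟩ := A0.exists_AZ
  have h3 : ∀ y ∈ L.lift ⊤, ∃ c, ∑ s, L.ι (p s) * y * L.ι (q s) = algebraMap A.K A.D c := by
    intro y hy
    induction hy using Submodule.span_induction with
    | mem y hy =>
      obtain ⟨d, -, rfl⟩ := hy
      refine ⟨L.κ (A0.τ d), ?_⟩
      rw [← L.compat, ← h1, map_sum]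
      simp only [map_mul]
    | zero => exact ⟨0, by simp⟩
    | add y z _ _ hy hz =>
      obtain ⟨a, ha⟩ := hy
      obtain ⟨b, hb⟩ := hz
      exact ⟨a + b, by simp only [mul_add, add_mul, Finset.sum_add_distrib, ha, hb, map_add]⟩
    | smul a y _ hy =>
      obtain ⟨b, hb⟩ := hy
      refine ⟨a * b, ?_⟩
      simp only [mul_smul_comm, smul_mul_assoc, ← Finset.smul_sum, hb]
      rw [map_mul, Algebra.smul_def]
  obtain ⟨c, hc⟩ := h3 x (by rw [L.lift_top]; trivial)
  have h4 : A.τ x = c := by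
    rw [← A.τ_algebraMap c, ← hc, map_sum]
    simp only [fun s => A.τ_mul_comm (L.ι (p s) * x) (L.ι (q s)), ← mul_assoc, ← map_mul]
    rw [← map_sum, ← Finset.sum_mul, ← map_sum, h2, map_one, one_mul]
  have hO : ∀ s, L.ι (p s) * x * L.ι (q s) ∈ L.O := fun s =>
    mul_mem (mul_mem (L.ι_mem _) hx) (L.ι_mem _)
  rw [h4, ← hc, L.red_sum _ fun s _ => hO s, ← h1]
  refine ⟨sum_mem fun s _ => hO s, Finset.sum_congr rfl fun s _ => ?_⟩
  rw [L.red_mul (mul_mem (L.ι_mem _) hx) (L.ι_mem _), L.red_mul (L.ι_mem _) hx, L.red_ι, L.red_ι]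

theorem τ_red_eq_zero {x : A.D} (hx : x ∈ L.O) (h : A.τ x = 0) : A0.τ (L.red x) = 0 := by
  have := (L.τ_red hx).2
  rw [h, map_zero, L.red_zero] at this
  exact (algebraMap A0.K A0.D).injective (by rw [← this, map_zero])

end Lau

end Crest.Agent.R180
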