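import Crest.Agent.R180.Dense
import Crest.Agent.R180.Mor
import Crest.Agent.R180.LA

/-! Solving `b(φ) = 0` order by order. -/

set_option autoImplicit false

namespace Crest.Agent.R180

open NC Module

section Subst
variable {σ σ' K D : Type} [Fintype σ] [DecidableEq σ] [Field K] [Ring D] [Algebra K D]

/-- `ψ` is the substitution `w_l ↦ φ l` -/
def IsSub (ψ : NC σ D →+* NC σ' D) (φ : σ → NC σ' K) : Prop :=
  (∀ d, ψ (C d) = C d) ∧ ∀ l, ψ (X l) = NC.map (algebraMap K D) (φ l)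

theorem sol_mem0 (f : NC σ' D) : f ∈ ((Filt.triv D).nc σ').F 0 := by simp [Filt.mem_nc_triv]

omit [Fintype σ] [DecidableEq σ] in
theorem sol_map_mem {z : σ → NC σ' K} {c : ℕ} (hz : ∀ l, ∀ u : List σ', u.length < c → z l u = 0)
    (l : σ) : NC.map (algebraMap K D) (z l) ∈ ((Filt.triv D).nc σ').F c := by
  rw [Filt.mem_nc_triv]
  intro u hu
  simp [hz l u hu]

omit [Fintype σ] [DecidableEq σ] in
theorem sol_lt_one {φ : σ → NC σ' K} (h0 : ∀ l, φ l [] = 0) :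
    ∀ l, ∀ u : List σ', u.length < 1 → φ l u = 0 := by
  intro l u hu
  obtain rfl : u = [] := List.length_eq_zero_iff.1 (by omega)
  exact h0 l

theorem exists_isSub (φ : σ → NC σ' K) (h0 : ∀ l, φ l [] = 0) :
    ∃ ψ : NC σ D →+* NC σ' D, IsSub ψ φ := by
  obtain ⟨ψ, -, hC, hX⟩ := exists_eval ((Filt.triv D).nc σ') (C : D →+* NC σ' D)
    (fun _ => sol_mem0 _) (fun l => NC.map (algebraMap K D) (φ l)) (sol_map_mem (sol_lt_one h0))
    (fun d l => by
      ext u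
      change (C d * _ : NC σ' D) u = (_ * C d : NC σ' D) u
      rw [C_mul_apply, mul_C_apply, NC.map_apply, Algebra.commutes])
  exact ⟨ψ, hC, hX⟩

theorem IsSub.X_mem {ψ : NC σ D →+* NC σ' D} {φ : σ → NC σ' K} (h : IsSub ψ φ)
    (h0 : ∀ l, φ l [] = 0) (l : σ) : ψ (X l) ∈ ((Filt.triv D).nc σ').F 1 := by
  rw [h.2]; exact sol_map_mem (sol_lt_one h0) l

theorem IsSub.nil {ψ : NC σ D →+* NC σ' D} {φ : σ → NC σ' K} (h : IsSub ψ φ)
    (h0 : ∀ l, φ l [] = 0) (f : NC σ D) : ψ f [] = f [] := by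
  rw [hom_rec ψ f, NC.add_apply, NC.sum_apply, h.1]
  simp [h.2, h0]

theorem IsSub.single {ψ : NC σ D →+* NC σ' D} {φ : σ → NC σ' K} (h : IsSub ψ φ)
    (h0 : ∀ l, φ l [] = 0) (f : NC σ D) (a : σ') : ψ f [a] = ∑ l, φ l [a] • f [l] := by
  rw [hom_rec ψ f, NC.add_apply, NC.sum_apply, h.1]
  simp [h.2, h0, mul_singleton, h.nil h0, Algebra.smul_def]

theorem IsSub.pair {ψ : NC σ D →+* NC σ' D} {φ : σ → NC σ' K} (h : IsSub ψ φ)
    (h0 : ∀ l, φ l [] = 0) (f : NC σ D) (a a' : σ') :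
    ψ f [a, a'] = ∑ l, φ l [a, a'] • f [l] + ∑ l, ∑ l', (φ l [a] * φ l' [a']) • f [l, l'] := by
  rw [hom_rec ψ f, NC.add_apply, NC.sum_apply, h.1, C_cons, zero_add, ← Finset.sum_add_distrib]
  refine Finset.sum_congr rfl fun l _ => ?_
  rw [mul_pair, h.nil h0 (sh l f), h.single h0 (sh l f), h.2]
  simp only [NC.map_apply, h0, map_zero, zero_mul, zero_add, sh_apply, ← Algebra.smul_def,
    Finset.smul_sum, mul_smul]
  rw [add_comm]

theorem IsSub.congr {ψ ψ' : NC σ D →+* NC σ' D} {φ φ' : σ → NC σ' K} (h : IsSub ψ φ)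
    (h' : IsSub ψ' φ') (h0 : ∀ l, φ l [] = 0) {c : ℕ}
    (hc : ∀ l, ∀ u : List σ', u.length < c → φ l u = φ' l u) (f : NC σ D) (u : List σ')
    (hu : u.length < c) : ψ f u = ψ' f u := by
  have := hom_congr ((Filt.triv D).nc σ') ψ ψ' (fun _ => sol_mem0 _) (fun _ => sol_mem0 _)
    (fun d => by rw [h.1, h'.1]) (h.X_mem h0) (c := c) (fun l => by
      rw [Filt.mem_nc_triv]
      intro v hv
      simp [h.2, h'.2, hc l v hv]) f
  have := (Filt.mem_nc_triv _ _).1 this u hu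
  rwa [NC.sub_apply, sub_eq_zero] at this

theorem IsSub.tay1 {ψ ψ' : NC σ D →+* NC σ' D} {φ z : σ → NC σ' K} (h : IsSub ψ φ)
    (h' : IsSub ψ' (φ + z)) (h0 : ∀ l, φ l [] = 0) {c : ℕ} (hc : 1 ≤ c)
    (hz : ∀ l, ∀ u : List σ', u.length < c → z l u = 0) (f : NC σ D) (u : List σ')
    (hu : u.length ≤ c) : ψ' f u = ψ f u + ∑ l, z l u • f [l] := by
  have := taylor1 ((Filt.triv D).nc σ') ψ ψ' (fun _ => sol_mem0 _) (fun _ => sol_mem0 _)
    (fun d => by rw [h.1, h'.1]) le_rfl hc (h.X_mem h0) _ (sol_map_mem (D := D) hz)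
    (fun l => by rw [h.2, h'.2, Pi.add_apply, map_add]) f
  have := (Filt.mem_nc_triv _ _).1 this u (by omega)
  rw [NC.sub_apply, NC.sub_apply, NC.sum_apply, sub_sub, sub_eq_zero] at this
  rw [this]
  congr 1
  refine Finset.sum_congr rfl fun l _ => ?_
  rw [h.1, C_mul_apply, NC.map_apply, Algebra.smul_def, Algebra.commutes]

theorem IsSub.tay2 {ψ ψ' : NC σ D →+* NC σ' D} {φ z : σ → NC σ' K} (h : IsSub ψ φ)
    (h' : IsSub ψ' (φ + z)) (h0 : ∀ l, φ l [] = 0) {c : ℕ} (hc : 2 ≤ c)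
    (hz : ∀ l, ∀ u : List σ', u.length < c → z l u = 0) (f : NC σ D) (u : List σ')
    (hu : u.length ≤ c + 1) : ψ' f u = ψ f u + ∑ l, z l u • f [l] +
      ∑ l, ∑ l', ((φ l * z l') u + (z l * φ l') u) • f [l, l'] := by
  have := taylor2 ((Filt.triv D).nc σ') ψ ψ' (fun _ => sol_mem0 _) (fun _ => sol_mem0 _)
    (fun d => by rw [h.1, h'.1]) le_rfl (by omega : 2 * 1 ≤ c) (h.X_mem h0) _
    (sol_map_mem (D := D) hz) (fun l => by rw [h.2, h'.2, Pi.add_apply, map_add]) f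
  have := (Filt.mem_nc_triv _ _).1 this u (by omega)
  rw [NC.sub_apply, NC.sub_apply, NC.sub_apply, NC.sum_apply, NC.sum_apply, sub_sub, sub_sub,
    sub_eq_zero] at this
  rw [this, add_assoc]
  congr 2
  · refine Finset.sum_congr rfl fun l _ => ?_
    rw [h.1, C_mul_apply, NC.map_apply, Algebra.smul_def, Algebra.commutes]
  · refine Finset.sum_congr rfl fun l _ => ?_
    rw [NC.sum_apply]
    refine Finset.sum_congr rfl fun l' _ => ?_
    rw [h.1, C_mul_apply, h.2, h.2, ← map_mul, ← map_mul, ← map_add, NC.map_apply,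
      Algebra.smul_def, Algebra.commutes, NC.add_apply]

end Subst

section Prod
variable {σ K : Type} [Field K]

theorem sol_mul_zero {f g : NC σ K} {a c : ℕ} (hf : ∀ u : List σ, u.length < a → f u = 0)
    (hg : ∀ u : List σ, u.length < c → g u = 0) (u : List σ) (hu : u.length < a + c) :
    (f * g) u = 0 :=
  (Filt.mem_nc_triv _ _).1 (((Filt.triv K).nc σ).mul_mem ((Filt.mem_nc_triv _ _).2 hf)
    ((Filt.mem_nc_triv _ _).2 hg)) u hu

theorem sol_mul_left {f g : NC σ K} (hf : f [] = 0) {a : σ} {v : List σ}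
    (hg : ∀ u : List σ, u.length < v.length → g u = 0) : (f * g) (a :: v) = f [a] * g v := by
  rw [mul_cons, hf, zero_mul, zero_add, NC.mul_apply, Finset.sum_eq_single 0]
  · simp
  · intro k hk hk0
    rw [hg (v.drop k), mul_zero]
    simp only [Finset.mem_range] at hk
    simp only [List.length_drop]
    omega
  · simp

theorem sol_mul_right {f g : NC σ K} (hf : f [] = 0) {a : σ} {v : List σ}
    (hg : ∀ u : List σ, u.length < v.length → g u = 0) : (g * f) (v ++ [a]) = g v * f [a] := by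
  rw [NC.mul_apply, Finset.sum_eq_single v.length]
  · simp
  · intro k hk hk0
    simp only [Finset.mem_range, List.length_append, List.length_singleton] at hk
    rcases lt_or_gt_of_ne hk0 with hlt | hgt
    · rw [hg, zero_mul]
      simp only [List.length_take, List.length_append, List.length_singleton]
      omega
    · rw [List.drop_eq_nil_of_le (by simp; omega), hf, mul_zero]
  · simp

end Prod

namespace Tri
variable {S : St} (T : Tri S)

/-- the quadratic part as a bilinear map -/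
noncomputable def b2L : (Fin S.M → S.A.K) →ₗ[S.A.K] (Fin S.M → S.A.K) →ₗ[S.A.K] S.A.D :=
  LinearMap.mk₂ S.A.K T.b2
    (fun _ _ _ => by simp [b2, add_mul, add_smul, Finset.sum_add_distrib])
    (fun _ _ _ => by simp [b2, Finset.smul_sum, mul_smul])
    (fun _ _ _ => by simp [b2, mul_add, add_smul, Finset.sum_add_distrib])
    (fun c _ _ => by simp [b2, Finset.smul_sum, smul_smul, mul_left_comm c])

/-- the family of forms `τ(γ b₂)` on `H` -/
noncomputable def Qf : T.O →ₗ[S.A.K] T.H →ₗ[S.A.K] T.H →ₗ[S.A.K] S.A.K where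
  toFun γ := ((T.b2L.compl₁₂ T.H.subtype T.H.subtype).compr₂
    (S.A.τ ∘ₗ LinearMap.mulLeft S.A.K (γ : S.A.D)))
  map_add' γ γ' := by ext h h'; simp [add_mul]
  map_smul' c γ := by ext h h'; simp

theorem Qf_apply (γ : T.O) (h h' : T.H) : T.Qf γ h h' = S.A.τ (γ * T.b2 h h') := rfl

/-- invariant of the construction -/
structure Inv (x : Fin 2 → Fin S.M → S.A.K) (p : ℕ) (φ : Fin S.M → NC (Fin 2) S.A.K) : Prop where
  nil : ∀ l, φ l [] = 0
  one : ∀ l a, φ l [a] = x a l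
  van : ∀ ψ : S.R →+* NC (Fin 2) S.A.D, IsSub ψ φ → ∀ u : List (Fin 2), u.length < p → ψ T.b u = 0

variable {T}

theorem Inv.unobs (hU : T.Unobs) {x : Fin 2 → Fin S.M → S.A.K} (hx : LinearIndependent S.A.K x)
    {p : ℕ} (hp : 2 ≤ p) {φ : Fin S.M → NC (Fin 2) S.A.K} (h : T.Inv x p φ)
    {ψ : S.R →+* NC (Fin 2) S.A.D} (hψ : IsSub ψ φ) (u : List (Fin 2)) (hu : u.length = p) :
    ψ T.b u ∈ T.E' ∧ ∀ γ ∈ T.O, ∑ m ∈ Finset.range p, S.A.τ (γ * ψ T.b (u.rotate m)) = 0 :=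
  hU ψ φ hψ.1 hψ.2 h.nil (by simpa only [h.one] using hx) p hp (h.van ψ hψ) u hu

/-- the linear substitution -/
def linφ {M : ℕ} {K : Type} [Field K] (x : Fin 2 → Fin M → K) (l : Fin M) : NC (Fin 2) K :=
  fun u => match u with
    | [a] => x a l
    | _ => 0

theorem inv_lin {x : Fin 2 → Fin S.M → S.A.K} (hxH : ∀ a, x a ∈ T.H) : T.Inv x 2 (linφ x) where
  nil _ := rfl
  one _ _ := rfl
  van ψ hψ u hu := by
    match u, hu with
    | [], _ => rw [hψ.nil (fun _ => rfl), T.b_nil]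
    | [a], _ =>
      rw [hψ.single (fun _ => rfl)]
      exact (T.b1_apply _).symm.trans (hxH a)

theorem Inv.τ_pair {x : Fin 2 → Fin S.M → S.A.K} {p : ℕ} {φ : Fin S.M → NC (Fin 2) S.A.K}
    (h : T.Inv x p φ) {ψ : S.R →+* NC (Fin 2) S.A.D} (hψ : IsSub ψ φ) {γ : S.A.D} (hγ : γ ∈ T.O)
    (a a' : Fin 2) : S.A.τ (γ * ψ T.b [a, a']) = S.A.τ (γ * T.b2 (x a) (x a')) := by
  rw [hψ.pair h.nil, mul_add, map_add, ← T.b1_apply, hγ.2 _ ⟨_, rfl⟩, zero_add]
  simp only [h.one, b2]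

/-- antisymmetry for independent pairs -/
theorem anti_of_li (hU : T.Unobs) {x : Fin 2 → Fin S.M → S.A.K} (hx : LinearIndependent S.A.K x)
    (hxH : ∀ a, x a ∈ T.H) {γ : S.A.D} (hγ : γ ∈ T.O) (a a' : Fin 2) :
    S.A.τ (γ * T.b2 (x a) (x a')) + S.A.τ (γ * T.b2 (x a') (x a)) = 0 := by
  obtain ⟨ψ, hψ⟩ := exists_isSub (D := S.A.D) (linφ x) (fun _ => rfl)
  have := ((inv_lin hxH).unobs hU hx le_rfl hψ [a, a'] rfl).2 γ hγ
  rw [Finset.sum_range_succ, Finset.sum_range_one] at this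
  rw [← (inv_lin hxH).τ_pair hψ hγ, ← (inv_lin hxH).τ_pair hψ hγ]
  simpa using this

theorem anti (hU : T.Unobs) {x : Fin 2 → Fin S.M → S.A.K} (hx : LinearIndependent S.A.K x)
    (hxH : ∀ a, x a ∈ T.H) {γ : S.A.D} (hγ : γ ∈ T.O) (a : Fin 2) {h : Fin S.M → S.A.K}
    (hh : h ∈ T.H) : S.A.τ (γ * T.b2 (x a) h) + S.A.τ (γ * T.b2 h (x a)) = 0 := by
  by_cases hli : LinearIndependent S.A.K ![x a, h]
  · exact anti_of_li hU hli (fun b => by fin_cases b; exacts [hxH a, hh]) hγ 0 1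
  · rw [LinearIndependent.pair_iff' (hx.ne_zero a)] at hli
    push Not at hli
    obtain ⟨c, rfl⟩ := hli
    have h1 : T.b2 (x a) (c • x a) = c • T.b2 (x a) (x a) := (T.b2L (x a)).map_smul c _
    have h2 : T.b2 (c • x a) (x a) = c • T.b2 (x a) (x a) :=
      LinearMap.congr_fun (T.b2L.map_smul c (x a)) (x a)
    rw [h1, h2, mul_smul_comm, map_smul, ← smul_add, anti_of_li hU hx hxH hγ a a, smul_zero]

/-- second half of the step: the leading term lies in `V` and is removed -/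
theorem Inv.step2 (hU : T.Unobs) {x : Fin 2 → Fin S.M → S.A.K} (hx : LinearIndependent S.A.K x)
    {p : ℕ} (hp : 2 ≤ p) {φ : Fin S.M → NC (Fin 2) S.A.K} (h : T.Inv x p φ)
    {ψ : S.R →+* NC (Fin 2) S.A.D} (hψ : IsSub ψ φ)
    (hO : ∀ u : List (Fin 2), u.length = p → ∀ γ ∈ T.O, S.A.τ (γ * ψ T.b u) = 0) :
    ∃ φ', T.Inv x (p + 1) φ' ∧ ∀ l, ∀ u : List (Fin 2), u.length < p → φ' l u = φ l u := by
  have hV : ∀ u : List (Fin 2), ∃ g : Fin S.M → S.A.K, (u.length ≠ p → g = 0) ∧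
      (u.length = p → T.b1 g = - ψ T.b u) := by
    intro u
    by_cases hu : u.length = p
    · have : ψ T.b u ∈ T.V := S.A.mem_of_perp_perp T.E' T.V_le_E' (h.unobs hU hx hp hψ u hu).1
        fun c hc hc' => hO u hu c ⟨hc, hc'⟩
      obtain ⟨g, hg⟩ := T.V.neg_mem this
      exact ⟨g, fun h => (h hu).elim, fun _ => hg⟩
    · exact ⟨0, fun _ => rfl, fun h => (hu h).elim⟩
  choose g hg0 hg using hV
  let z : Fin S.M → NC (Fin 2) S.A.K := fun l u => g u l
  have hz : ∀ l, ∀ u : List (Fin 2), u.length < p → z l u = 0 := fun l u hu => by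
    simp [z, hg0 u hu.ne]
  refine ⟨φ + z, ⟨fun l => ?_, fun l a => ?_, fun ψ' hψ' u hu => ?_⟩, fun l u hu => ?_⟩
  · rw [Pi.add_apply, NC.add_apply, h.nil, hz l [] (by simp; omega), add_zero]
  · rw [Pi.add_apply, NC.add_apply, h.one, hz l [a] (by simp; omega), add_zero]
  · rw [hψ.tay1 hψ' h.nil (by omega) hz _ u (by omega), ← T.b1_apply]
    rcases (Nat.lt_succ_iff.1 hu).lt_or_eq with hlt | heq
    · rw [h.van ψ hψ u hlt, zero_add]
      change T.b1 (g u) = 0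
      rw [hg0 u hlt.ne, map_zero]
    · change _ + T.b1 (g u) = 0
      rw [hg u heq, add_neg_cancel]
  · rw [Pi.add_apply, NC.add_apply, hz l u hu, add_zero]

/-- first half of the step: the component of the leading term dual to `O` is removed -/
theorem Inv.step1 (hU : T.Unobs) {x : Fin 2 → T.H}
    (hx : LinearIndependent S.A.K fun a => (x a : Fin S.M → S.A.K))
    (hsurj : ∀ f : Fin 2 → T.O →ₗ[S.A.K] S.A.K, ∃ h, ∀ a γ, T.Qf γ (x a) h = f a γ)
    {c : ℕ} (hc : 2 ≤ c) {φ : Fin S.M → NC (Fin 2) S.A.K}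
    (h : T.Inv (fun a => x a) (c + 1) φ) :
    ∃ φ', T.Inv (fun a => x a) (c + 1) φ' ∧
      (∀ l, ∀ u : List (Fin 2), u.length < c → φ' l u = φ l u) ∧
      ∀ ψ' : S.R →+* NC (Fin 2) S.A.D, IsSub ψ' φ' →
        ∀ u : List (Fin 2), u.length = c + 1 → ∀ γ ∈ T.O, S.A.τ (γ * ψ' T.b u) = 0 := by
  obtain ⟨ψ, hψ⟩ := exists_isSub (D := S.A.D) φ h.nil
  let ρ : List (Fin 2) → T.O →ₗ[S.A.K] S.A.K := fun u =>
    S.A.τ ∘ₗ LinearMap.mulRight S.A.K (ψ T.b u) ∘ₗ T.O.subtype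
  have hρ : ∀ u (γ : T.O), ρ u γ = S.A.τ (γ * ψ T.b u) := fun _ _ => rfl
  obtain ⟨a, ha⟩ := exists_cyc (K := S.A.K) (p := c + 1) (by omega) ρ (fun u hu => by
    ext γ
    rw [LinearMap.sum_apply]
    exact (h.unobs hU hx (by omega) hψ u hu).2 γ γ.2)
  have hH : ∀ v : List (Fin 2), ∃ g : T.H, (v.length ≠ c → g = 0) ∧
      (v.length = c → ∀ l γ, T.Qf γ (x l) g = - a (l :: v) γ) := by
    intro v
    by_cases hv : v.length = c
    · obtain ⟨g, hg⟩ := hsurj fun l => - a (l :: v)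
      exact ⟨g, fun h => (h hv).elim, fun _ => hg⟩
    · exact ⟨0, fun _ => rfl, fun h => (hv h).elim⟩
  choose g hg0 hg using hH
  let z : Fin S.M → NC (Fin 2) S.A.K := fun l u => (g u : Fin S.M → S.A.K) l
  have hz : ∀ l, ∀ u : List (Fin 2), u.length < c → z l u = 0 := fun l u hu => by
    simp [z, hg0 u hu.ne]
  have hb1 : ∀ u, ∑ l, z l u • T.b [l] = 0 := fun u => (T.b1_apply _).symm.trans (g u).2
  refine ⟨φ + z, ⟨fun l => ?_, fun l a => ?_, fun ψ' hψ' u hu => ?_⟩, fun l u hu => ?_,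
    fun ψ' hψ' u hu γ hγ => ?_⟩
  · rw [Pi.add_apply, NC.add_apply, h.nil, hz l [] (by simp; omega), add_zero]
  · rw [Pi.add_apply, NC.add_apply, h.one, hz l [a] (by simp; omega), add_zero]
  · rw [hψ.tay1 hψ' h.nil (by omega) hz _ u (by omega), hb1, h.van ψ hψ u hu, add_zero]
  · rw [Pi.add_apply, NC.add_apply, hz l u hu, add_zero]
  · obtain ⟨l0, v, rfl⟩ := List.exists_cons_of_length_eq_add_one hu
    obtain ⟨v', l1, hv'⟩ : ∃ v' l1, l0 :: v = v' ++ [l1] :=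
      ⟨_, _, (List.dropLast_append_getLast (List.cons_ne_nil l0 v)).symm⟩
    have hv : v.length = c := by simpa using hu
    have hv'c : v'.length = c := by
      have := congrArg List.length hv'
      simp only [List.length_cons, List.length_append, List.length_nil] at this
      omega
    have e1 : ∀ l l', (φ l * z l') (l0 :: v) = (x l0 : Fin S.M → S.A.K) l * (g v).1 l' :=
      fun l l' => by rw [sol_mul_left (h.nil l) (fun u hu => hz l' u (by omega)), h.one]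
    have e2 : ∀ l l', (z l * φ l') (l0 :: v) = (g v').1 l * (x l1 : Fin S.M → S.A.K) l' :=
      fun l l' => by rw [hv', sol_mul_right (h.nil l') (fun u hu => hz l u (by omega)), h.one]
    have e3 : ∑ l, ∑ l', ((φ l * z l') (l0 :: v) + (z l * φ l') (l0 :: v)) • T.b [l, l'] =
        T.b2 (x l0) (g v) + T.b2 (g v') (x l1) := by
      simp only [e1, e2, b2, add_smul, Finset.sum_add_distrib]
    rw [hψ.tay2 hψ' h.nil hc hz _ _ hu.le, hb1, add_zero, e3, mul_add, mul_add, map_add, map_add]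
    have f1 := hg v hv l0 ⟨γ, hγ⟩
    have f2 := hg v' hv'c l1 ⟨γ, hγ⟩
    have f3 := anti hU hx (fun a => (x a).2) hγ l1 (g v').2
    have f4 := LinearMap.congr_fun (ha l0 v l1 v' hu hv') ⟨γ, hγ⟩
    rw [Qf_apply] at f1 f2
    rw [hρ, LinearMap.sub_apply] at f4
    dsimp only at f1 f2 f3 f4
    linear_combination f1 - f2 + f3 + f4

theorem Inv.step (hU : T.Unobs) {x : Fin 2 → T.H}
    (hx : LinearIndependent S.A.K fun a => (x a : Fin S.M → S.A.K))
    (h01 : ∀ γ, T.Qf γ (x 0) (x 1) = 0)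
    (hsurj : ∀ f : Fin 2 → T.O →ₗ[S.A.K] S.A.K, ∃ h, ∀ a γ, T.Qf γ (x a) h = f a γ)
    (n : ℕ) {φ : Fin S.M → NC (Fin 2) S.A.K} (h : T.Inv (fun a => x a) (n + 2) φ) :
    ∃ φ', T.Inv (fun a => x a) (n + 3) φ' ∧
      ∀ l, ∀ u : List (Fin 2), u.length < n → φ' l u = φ l u := by
  rcases Nat.eq_zero_or_pos n with rfl | hn
  · obtain ⟨ψ, hψ⟩ := exists_isSub (D := S.A.D) φ h.nil
    obtain ⟨φ', h', -⟩ := h.step2 hU hx le_rfl hψ (fun u hu γ hγ => by
      obtain ⟨a, a', rfl⟩ := List.length_eq_two.1 hu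
      rw [h.τ_pair hψ hγ]
      have e := anti_of_li hU hx (fun a => (x a).2) hγ
      have e01 : S.A.τ (γ * T.b2 (x 0) (x 1)) = 0 := h01 ⟨γ, hγ⟩
      have e00 := e 0 0
      have e11 := e 1 1
      have e10 := e 0 1
      fin_cases a <;> fin_cases a'
      · exact add_self_eq_zero.1 e00
      · exact e01
      · rwa [e01, zero_add] at e10
      · exact add_self_eq_zero.1 e11)
    exact ⟨φ', h', fun l u hu => by omega⟩
  · obtain ⟨φ1, h1, e1, hO⟩ := h.step1 hU hx hsurj (c := n + 1) (by omega)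
    obtain ⟨ψ, hψ⟩ := exists_isSub (D := S.A.D) φ1 h1.nil
    obtain ⟨φ', h', e2⟩ := h1.step2 hU hx (by omega) hψ (hO ψ hψ)
    exact ⟨φ', h', fun l u hu => by rw [e2 l u (by omega), e1 l u (by omega)]⟩

end Tri

theorem solve {S : St} {T : Tri S} (hU : T.Unobs) (hN : T.Nondeg) :
    ∃ m : Mor S ⟨S.A, 2, le_rfl⟩, m.φ T.b = 0 := by
  obtain ⟨α, β, hli, h01, hsurj⟩ := exists_lagr T.Qf hN.1 (fun γ hγ H' hH' => by
    obtain ⟨h, hh, h', hh', hne⟩ := hN.2 γ γ.2 (fun h => hγ (Subtype.ext h)) (H'.map T.H.subtype)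
      (Submodule.map_subtype_le _ _) (by rw [Submodule.finrank_map_subtype_eq]; exact hH')
    obtain ⟨h, hh, rfl⟩ := hh
    obtain ⟨h', hh', rfl⟩ := hh'
    exact ⟨h, hh, h', hh', hne⟩)
  let x : Fin 2 → T.H := ![α, β]
  have hx : LinearIndependent S.A.K fun a => (x a : Fin S.M → S.A.K) :=
    hli.map' T.H.subtype (Submodule.ker_subtype _)
  have hsurj' : ∀ f : Fin 2 → T.O →ₗ[S.A.K] S.A.K, ∃ h, ∀ a γ, T.Qf γ (x a) h = f a γ := by
    intro f
    obtain ⟨h, hh⟩ := hsurj (f 0) (f 1)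
    refine ⟨h, fun a γ => ?_⟩
    fin_cases a
    · exact (hh γ).1
    · exact (hh γ).2
  have step := fun n (φ : {φ // T.Inv (fun a => x a) (n + 2) φ}) =>
    Tri.Inv.step hU hx h01 hsurj' n φ.2
  choose nx hnx1 hnx2 using step
  let sq : ∀ n, {φ // T.Inv (fun a => x a) (n + 2) φ} := fun n =>
    Nat.rec ⟨Tri.linφ fun a => x a, Tri.inv_lin fun a => (x a).2⟩
      (fun n φ => ⟨nx n φ, hnx1 n φ⟩) n
  have hsq : ∀ n l, ∀ u : List (Fin 2), u.length < n → (sq (n + 1)).1 l u = (sq n).1 l u :=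
    fun n => hnx2 n (sq n)
  have hsq' : ∀ l (u : List (Fin 2)) k,
      (sq (u.length + 1 + k)).1 l u = (sq (u.length + 1)).1 l u := by
    intro l u k
    induction k with
    | zero => rfl
    | succ k ih => rw [← add_assoc, hsq _ l u (by omega), ih]
  let φ : Fin S.M → NC (Fin 2) S.A.K := fun l u => (sq (u.length + 1)).1 l u
  have h0 : ∀ l, φ l [] = 0 := fun l => (sq _).2.nil l
  have h1 : ∀ l a, φ l [a] = (x a : Fin S.M → S.A.K) l := fun l a => (sq _).2.one l a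
  obtain ⟨ψ, hψ⟩ := exists_isSub (D := S.A.D) φ h0
  refine ⟨⟨RingHom.id _, ψ, fun c => hψ.1 _, fun R hR =>
    isDns_subst ψ φ hψ.1 hψ.2 h0 (by simpa only [h1] using hx) R hR⟩, ?_⟩
  ext u
  obtain ⟨ψ', hψ'⟩ := exists_isSub (D := S.A.D) (sq (u.length + 1)).1 (sq _).2.nil
  change ψ T.b u = 0
  rw [hψ.congr hψ' h0 (c := u.length + 1) (fun l v hv => ?_) T.b u (by omega)]
  · exact (sq _).2.van ψ' hψ' u (by omega)
  · obtain ⟨k, hk⟩ : ∃ k, u.length + 1 = v.length + 1 + k := ⟨u.length - v.length, by omega⟩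
    rw [hk, hsq']

end Crest.Agent.R180
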