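import Crest.Agent.R180.Core2

/-! Extremal triples are unobstructed. -/

set_option autoImplicit false

namespace Crest.Agent.R180

open NC Module

theorem T3_wd_smul {σ K B : Type} [CommRing K] [Ring B] [Algebra K B] (c : K) (y : σ → B)
    (u : List σ) : wd (fun l => c • y l) u = c ^ u.length • wd y u := by
  induction u with
  | nil => simp
  | cons a u ih => simp [ih, pow_succ', mul_smul, smul_comm c]

theorem T3_dwd_smul {σ K B : Type} [CommRing K] [Ring B] [Algebra K B] (c : K) (y z : σ → B)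
    (u : List σ) : dwd (fun l => c • y l) (fun l => c • z l) u = c ^ u.length • dwd y z u := by
  induction u with
  | nil => simp
  | cons a u ih => simp [ih, T3_wd_smul, pow_succ', mul_smul, smul_comm c]

theorem T3_wd_mem {σ B : Type} [Ring B] (O : Subring B) {y : σ → B} (hy : ∀ l, y l ∈ O)
    (u : List σ) : wd y u ∈ O := by
  induction u with
  | nil => simpa using one_mem O
  | cons a u ih => simpa using mul_mem (hy a) ih

theorem T3_dwd_mem {σ B : Type} [Ring B] (O : Subring B) {y z : σ → B} (hy : ∀ l, y l ∈ O)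
    (hz : ∀ l, z l ∈ O) (u : List σ) : dwd y z u ∈ O := by
  induction u with
  | nil => simpa using zero_mem O
  | cons a u ih => simpa using add_mem (mul_mem (hz a) (T3_wd_mem O hy u)) (mul_mem (hy a) ih)

theorem T3_red_wd {A0 A : CDA} (L : Lau A0 A) {σ : Type} {y : σ → A.D} (hy : ∀ l, y l ∈ L.O)
    (u : List σ) : L.red (wd y u) = wd (fun l => L.red (y l)) u := by
  induction u with
  | nil => simpa using L.red_one
  | cons a u ih => rw [wd_cons, wd_cons, L.red_mul (hy a) (T3_wd_mem _ hy u), ih]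

theorem T3_red_dwd {A0 A : CDA} (L : Lau A0 A) {σ : Type} {y z : σ → A.D} (hy : ∀ l, y l ∈ L.O)
    (hz : ∀ l, z l ∈ L.O) (u : List σ) :
    L.red (dwd y z u) = dwd (fun l => L.red (y l)) (fun l => L.red (z l)) u := by
  induction u with
  | nil => simpa using L.red_zero
  | cons a u ih =>
    rw [dwd_cons, dwd_cons, L.red_add (mul_mem (hz a) (T3_wd_mem _ hy u))
      (mul_mem (hy a) (T3_dwd_mem _ hy hz u)), L.red_mul (hz a) (T3_wd_mem _ hy u),
      L.red_mul (hy a) (T3_dwd_mem _ hy hz u), ih, T3_red_wd L hy]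

/-- series all of whose coefficients lie in a subring -/
def T3_coefSub (σ : Type) {D : Type} [Ring D] (B : Subring D) : Subring (NC σ D) where
  carrier := {f | ∀ u, f u ∈ B}
  mul_mem' {f g} hf hg u := by
    rw [NC.mul_apply]; exact sum_mem fun k _ => mul_mem (hf _) (hg _)
  one_mem' u := by
    cases u with
    | nil => exact one_mem B
    | cons a u => exact zero_mem B
  add_mem' hf hg u := add_mem (hf u) (hg u)
  zero_mem' _ := zero_mem B
  neg_mem' hf u := neg_mem (hf u)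

theorem T3_C_mem {σ D : Type} [Ring D] {B : Subring D} {d : D} (hd : d ∈ B) :
    (C d : NC σ D) ∈ T3_coefSub σ B := by
  intro u
  cases u with
  | nil => exact hd
  | cons a u => exact zero_mem B

theorem T3_X_mem {σ D : Type} [DecidableEq σ] [Ring D] (B : Subring D) (l : σ) :
    (X l : NC σ D) ∈ T3_coefSub σ B := by
  intro u
  rw [X_apply]; split_ifs
  · exact one_mem B
  · exact zero_mem B

theorem T3_C_mem_filt {σ B : Type} [Ring B] (Φ : Filt B) {N : ℕ} {d : B} (hd : d ∈ Φ.F N) :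
    (C d : NC σ B) ∈ (Φ.nc σ).F N := by
  intro u
  cases u with
  | nil => simpa using hd
  | cons a u => exact zero_mem _

theorem T3_X_mem_filt {σ B : Type} [DecidableEq σ] [Ring B] (Φ : Filt B) (l : σ) :
    (X l : NC σ B) ∈ (Φ.nc σ).F 1 := by
  intro u
  rw [X_apply]; split_ifs with h
  · subst h; simpa using Φ.one_mem
  · exact zero_mem _

/-- coefficients of a substitution stay in `Γ` -/
theorem T3_subst_mem {σ σ' K D : Type} [Fintype σ] [DecidableEq σ] [Field K] [Ring D]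
    [Algebra K D] (Γ : Subalgebra K D) (ψ : NC σ D →+* NC σ' D) (φ : σ → NC σ' K)
    (hC : ∀ d, ψ (C d) = C d) (hX : ∀ l, ψ (X l) = NC.map (algebraMap K D) (φ l))
    (h0 : ∀ l, φ l [] = 0) {b : NC σ D} (hb : ∀ u, b u ∈ Γ) (u : List σ') : ψ b u ∈ Γ := by
  have := hom_mem_closed ((Filt.triv D).nc σ') ψ (fun f => by simp [Filt.mem_nc_triv])
    (fun l => by
      rw [Filt.mem_nc_triv]
      intro u hu
      obtain rfl : u = [] := List.length_eq_zero_iff.1 (by omega)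
      simp [hX, h0])
    (T3_coefSub σ' Γ.toSubring) (fun x hx u => by
      obtain ⟨y, hy, h⟩ := hx (u.length + 1)
      have := (Filt.mem_nc_triv _ _).1 h u (by omega)
      rw [NC.sub_apply, sub_eq_zero] at this
      rw [this]; exact hy u)
    (fun l u => by rw [hX]; exact Γ.algebraMap_mem _) (f := b)
    (fun u => by rw [hC]; exact T3_C_mem (hb u))
  exact this u

theorem T3_exists_dual {K : Type} [Field K] {M : ℕ} {v : Fin 2 → Fin M → K}
    (h : LinearIndependent K v) (a : Fin 2) :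
    ∃ lam : Fin M → K, ∀ a', ∑ l, lam l * v a' l = if a' = a then 1 else 0 := by
  obtain ⟨g, hg⟩ := (Fintype.linearCombination K v).exists_leftInverse_of_injective
    (LinearMap.ker_eq_bot.2 (linearIndependent_iff_injective_fintypeLinearCombination.1 h))
  refine ⟨fun l => g (Pi.single l 1) a, fun a' => ?_⟩
  have h1 : g (v a') = Pi.single a' 1 := by
    have := LinearMap.congr_fun hg (Pi.single a' 1)
    simpa [Fintype.linearCombination_apply_single] using this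
  have h2 : v a' = ∑ l, v a' l • (Pi.single l 1 : Fin M → K) := by
    ext l'; simp [Finset.sum_apply, Pi.single_apply]
  have h3 := congrFun h1 a
  rw [h2, map_sum] at h3
  simp only [map_smul, Finset.sum_apply, Pi.smul_apply, smul_eq_mul, Pi.single_apply] at h3
  rw [show (if a' = a then (1 : K) else 0) = if a = a' then 1 else 0 by simp [eq_comm], ← h3]
  exact Finset.sum_congr rfl fun l _ => mul_comm _ _

theorem T3_key {S : St} {T : Tri S} (hT : T.C4)
    (ψ : S.R →+* NC (Fin 2) S.A.D) (φ : Fin S.M → NC (Fin 2) S.A.K)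
    (hC : ∀ d, ψ (C d) = C d) (hX : ∀ l, ψ (X l) = NC.map (algebraMap S.A.K S.A.D) (φ l))
    (h0 : ∀ l, φ l [] = 0)
    (hli : LinearIndependent S.A.K (fun (a : Fin 2) (l : Fin S.M) => φ l [a]))
    {p : ℕ} (hp : 2 ≤ p) (hψ : ∀ u : List (Fin 2), u.length < p → ψ T.b u = 0)
    {A0 : CDA} {n : ℕ} (R : Tor S.A A0 n) (hn : n.Prime) (hMn : S.M < n)
    (y z : Fin 2 → A0.D) (hy : ∀ a, y a ∈ R.Λ) (hz : ∀ a, z a ∈ R.Λ) {x0 : A0.D}
    (hx0 : x0 ∈ R.dg (Subalgebra.toSubmodule T.Γ))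
    (hx0' : x0 ∈ A0.perp (R.dg0 T.V ⊔ R.dg1 (Subalgebra.toSubmodule T.E'))) :
    A0.τ (x0 * ∑ u ∈ wds (Fin 2) p, R.ι (ψ T.b u) * dwd y z u) = 0 := by
  obtain ⟨A', ⟨L⟩⟩ := exists_lau A0
  obtain ⟨t0, ht0⟩ : ∃ t0, T.b1 t0 = 1 := hT.1.1.1.1
  set Φ := L.filt.nc Unit with hΦ
  let ι' : S.A.D →+* A'.D := L.ι.comp R.ι
  let ιN : S.A.D →+* NC Unit A'.D := C.comp ι'
  have hιN : ∀ d, ιN d ∈ Φ.F 0 := fun d => T3_C_mem_filt _ (L.mem_filt_zero.2 (L.ι_mem _))
  have hlift : ∀ e ∈ R.Λ, L.ι e ∈ L.liftA R.Λ := fun e he => Algebra.subset_adjoin ⟨e, he, rfl⟩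
  let yg : Fin 2 → A0.D := ![R.i, R.j]
  have hyg : ∀ a, yg a ∈ R.Λ := by
    intro a; fin_cases a
    · exact R.i_mem
    · exact R.j_mem
  let Y : Fin 2 → A'.D := fun a => L.ι (y a) + L.t • L.ι (yg a)
  have hYO : ∀ a, Y a ∈ L.O := fun a => add_mem (L.ι_mem _) (L.smul_mem L.t_mem (L.ι_mem _))
  have hYΛ : ∀ a, Y a ∈ L.liftA R.Λ := fun a =>
    add_mem (hlift _ (hy a)) (Subalgebra.smul_mem _ (hlift _ (hyg a)) _)
  have hYred : ∀ a, L.red (Y a) = y a := fun a => by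
    have h1 : Y a - L.ι (y a) ∈ L.filt.F 1 := ⟨L.ι (yg a), L.ι_mem _, by simp [Y]⟩
    rw [(L.red_eq_of_sub_mem (L.ι_mem _) h1).2, L.red_ι]
  let Wt : Fin 2 → NC Unit A'.D := fun a => C (L.t ^ 5 • Y a) + C (L.t ^ 5 • L.ι (z a)) * X ()
  have hWt5 : ∀ a, Wt a ∈ Φ.F 5 := fun a =>
    add_mem (T3_C_mem_filt _ ⟨_, hYO a, rfl⟩) (Φ.anti (by omega : 5 ≤ 5 + 1)
      (Φ.mul_mem (T3_C_mem_filt _ ⟨_, L.ι_mem _, rfl⟩) (T3_X_mem_filt _ _)))
  have hWtnil : ∀ a, Wt a [] = L.t ^ 5 • Y a := fun a => by simp [Wt]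
  have hWtone : ∀ a, Wt a [()] = L.t ^ 5 • L.ι (z a) := fun a => by simp [Wt]
  have hcommC : ∀ d, ∀ e ∈ L.liftA R.Λ, Commute (ιN d) (C e) := fun d e he =>
    (commute_liftA R.toExt L d he).map C
  obtain ⟨Θ, hΘ0, hΘC, hΘX⟩ := exists_eval Φ ιN hιN Wt (fun a => Φ.anti (by omega) (hWt5 a))
    (fun d a => ((hcommC d _ (Subalgebra.smul_mem _ (hYΛ a) _)).add_right
      ((hcommC d _ (Subalgebra.smul_mem _ (hlift _ (hz a)) _)).mul_right (C_comm_X _ _))))
  have hΘX5 : ∀ a, Θ (X a) ∈ Φ.F 5 := fun a => hΘX a ▸ hWt5 a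
  let e : S.R →+* NC Unit A'.D := Θ.comp ψ
  have he0 : ∀ f, e f ∈ Φ.F 0 := fun f => hΘ0 _
  have heC : ∀ d, e (C d) = ιN d := fun d => by simp [e, hC, hΘC]
  have heX5 : ∀ l, e (X l) ∈ Φ.F 5 := fun l => by
    have := hom_mem Φ Θ hΘ0 hΘX5 (N := 1) (f := ψ (X l)) (fun u hu => by
      obtain rfl : u = [] := List.length_eq_zero_iff.1 (by omega)
      simp [hX, h0])
    rw [mul_one] at this
    exact this
  have hκ' : ∀ c : S.A.K, ι' (algebraMap _ _ c) = algebraMap _ _ (L.κ (R.κ c)) := fun c => by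
    simp [ι', R.compat, L.compat]
  have heXΛ : ∀ l u, e (X l) u ∈ L.liftA R.Λ := fun l => by
    refine hom_mem_closed Φ Θ hΘ0 (fun a => Φ.anti (by omega) (hΘX5 a))
      (T3_coefSub Unit (L.liftA R.Λ).toSubring) (fun x hx u => ?_) (fun a => ?_)
      (f := ψ (X l)) (fun u => ?_)
    · refine L.closedS (Subalgebra.toSubmodule (L.liftA R.Λ)) fun N => ?_
      obtain ⟨w, hw, h⟩ := hx (N + u.length)
      exact ⟨w u, hw u, by simpa using h u⟩
    · rw [hΘX]
      exact add_mem (T3_C_mem (Subalgebra.smul_mem _ (hYΛ a) _))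
        (mul_mem (T3_C_mem (Subalgebra.smul_mem _ (hlift _ (hz a)) _)) (T3_X_mem _ _))
    · rw [hΘC, hX, NC.map_apply]
      refine T3_C_mem ?_
      change ι' _ ∈ _
      rw [hκ']; exact Subalgebra.algebraMap_mem _ _
  set β := 5 * p - 2 with hβ
  let Xt : Fin S.M → A'.D := fun l => e (X l) []
  let W : Fin S.M → A'.D := fun l => Xt l + R.pt L t0 β l
  have hXt5 : ∀ l, Xt l ∈ L.filt.F 5 := fun l => by simpa using heX5 l []
  have hWΛ : ∀ l, W l ∈ L.liftA R.Λ := fun l => add_mem (heXΛ l []) (R.pt_mem_liftA L t0 β l)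
  have hb5 : e T.b ∈ Φ.F (5 * p) := hom_mem Φ Θ hΘ0 hΘX5 hψ
  -- generation
  have gen : L.liftA R.Λ ≤ Algebra.adjoin A'.K (Set.range W) := by
    have hw : ∀ a, ∃ w ∈ Algebra.adjoin A'.K (Set.range W), w - Y a ∈ L.filt.F 3 := by
      intro a
      obtain ⟨lam, hlam⟩ := T3_exists_dual hli a
      refine ⟨(L.t ^ 5)⁻¹ • ∑ l, L.κ (R.κ (lam l)) • W l, Subalgebra.smul_mem _ (sum_mem fun l _ =>
        Subalgebra.smul_mem _ (Algebra.subset_adjoin (Set.mem_range_self l)) _) _, ?_⟩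
      rw [← L.tpow_smul_mem_filt (a := 5), smul_sub, smul_inv_smul₀ (pow_ne_zero _ L.t_ne)]
      have h1 := hom_mem Φ Θ hΘ0 hΘX5 (N := 2)
        (f := ∑ l, C (algebraMap _ _ (lam l)) * ψ (X l) - X a) (fun u hu => by
          rw [NC.sub_apply, NC.sum_apply]
          match u, hu with
          | [], _ => simp [hX, h0]
          | [a'], _ =>
            simp only [hX, C_mul_apply, NC.map_apply, ← map_mul, ← map_sum, hlam, X_singleton]
            split_ifs <;> simp) []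
      have h2 : Θ (∑ l, C (algebraMap _ _ (lam l)) * ψ (X l) - X a) [] =
          ∑ l, L.κ (R.κ (lam l)) • Xt l - L.t ^ 5 • Y a := by
        rw [map_sub, map_sum, NC.sub_apply, NC.sum_apply, hΘX, hWtnil]
        congr 1
        refine Finset.sum_congr rfl fun l _ => ?_
        rw [map_mul, hΘC, NC.mul_nil, Algebra.smul_def, ← hκ']
        rfl
      rw [h2] at h1
      have h3 : ∑ l, L.κ (R.κ (lam l)) • R.pt L t0 β l ∈ L.filt.F (5 + 3) :=
        sum_mem fun l _ => L.smul_mem_filt (L.κ_mem _)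
          (L.filt.anti (by omega) (R.pt_mem_filt L t0 β l))
      have h4 := add_mem (L.filt.anti (show 5 + 3 ≤ 5 * 2 - ([] : List Unit).length by simp) h1) h3
      convert h4 using 1
      simp only [W, smul_add, Finset.sum_add_distrib]
      abel
    obtain ⟨w0, hw0, h0'⟩ := hw 0
    obtain ⟨w1, hw1, h1'⟩ := hw 1
    exact R.gen hn L hWΛ hw0 hw1 (R.noncomm hn L (y 0) (y 1) h0' h1')
  obtain ⟨T0, h1, h2, h3⟩ := exists_slice R.toExt L (W := W) hWΛ
  obtain ⟨c⟩ := exists_core hT.1.1.1 ht0 R hn hMn L (lam := 5) (β := β) (by omega) (by omega) Xt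
    hXt5 (fun l => heXΛ l []) (NC.c0.comp e) (fun f => by simpa using he0 f [])
    (fun d => by simp [heC, ιN, ι']) (fun l => rfl)
    (by
      have := hb5 []
      rw [show β + 2 = 5 * p by omega]
      simpa using this) (W := W) (fun l => rfl) gen T0 h1 h2 h3
  -- lift `x0`
  have hV := (c.c4 hn hT).2.2
  have hmem : x0 ∈ L.redS (Subalgebra.toSubmodule c.T'.Γ ⊓ A'.perp c.T'.V) := by
    rw [L.redS_perp c.T'.Γ c.T'.V_le_Γ, c.redΓ, hV]
    exact ⟨hx0, hx0'⟩
  obtain ⟨x, ⟨hxΓ, hxV⟩, hxO, hxred⟩ := hmem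
  -- the perturbed evaluation
  have hptC : ∀ l, (C (R.pt L t0 β l) : NC Unit A'.D) ∈ Φ.F β := fun l =>
    T3_C_mem_filt _ (R.pt_mem_filt L t0 β l)
  obtain ⟨e', he'0, he'C, he'X⟩ := exists_eval Φ ιN hιN (fun l => e (X l) + C (R.pt L t0 β l))
    (fun l => add_mem (Φ.anti (by omega) (heX5 l)) (Φ.anti (by omega) (hptC l)))
    (fun d l => by
      refine Commute.add_right ?_ (hcommC d _ (R.pt_mem_liftA L t0 β l))
      rw [← heC]; exact (C_comm_X d l).map e)
  have hkey := c.mv.key hxΓ hxV e' he'0 he'C (fun l => by rw [he'X]; simp [W, Xt])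
    (fun l => by rw [he'X]; simpa using heXΛ l [()])
  have ht1 := taylor1 Φ e e' he0 he'0 (fun d => by rw [heC, he'C]) (a := 5) (c := β) (by omega)
    (by omega) heX5 _ hptC he'X T.b [()]
  have ht2 := hom_sub_hmg Φ Θ hΘ0 hΘX5 hψ [()]
  set G : A'.D := ∑ u ∈ wds (Fin 2) p, ι' (ψ T.b u) * dwd Y (fun a => L.ι (z a)) u with hG
  have hm : ∀ u, ι' (ψ T.b u) ∈ L.O := fun _ => L.ι_mem _
  have hGO : G ∈ L.O := sum_mem fun u _ =>
    mul_mem (hm u) (T3_dwd_mem _ hYO (fun a => L.ι_mem _) u)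
  have hGred : L.red G = ∑ u ∈ wds (Fin 2) p, R.ι (ψ T.b u) * dwd y z u := by
    rw [hG, L.red_sum _ fun u _ => mul_mem (hm u) (T3_dwd_mem _ hYO (fun a => L.ι_mem _) u)]
    refine Finset.sum_congr rfl fun u _ => ?_
    rw [L.red_mul (hm u) (T3_dwd_mem _ hYO (fun a => L.ι_mem _) u),
      T3_red_dwd L hYO (fun a => L.ι_mem _)]
    simp [ι', L.red_ι, hYred]
  have hs1 : (∑ l, e (C (T.b [l])) * C (R.pt L t0 β l) : NC Unit A'.D) [()] = 0 := by
    rw [NC.sum_apply]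
    refine Finset.sum_eq_zero fun l _ => ?_
    simp [heC, ιN]
  have hs2 : (∑ u ∈ wds (Fin 2) p, Θ (C (ψ T.b u)) * wd (fun a => Θ (X a)) u) [()] =
      L.t ^ (5 * p) • G := by
    rw [NC.sum_apply, hG, Finset.smul_sum]
    refine Finset.sum_congr rfl fun u hu => ?_
    rw [hΘC]
    change (C (ι' _) * _ : NC Unit A'.D) [()] = _
    rw [C_mul_apply, wd_apply_singleton]
    simp only [hΘX, hWtnil, hWtone]
    rw [T3_dwd_smul, mem_wds.1 hu, ← pow_mul, mul_smul_comm]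
  rw [NC.sub_apply, NC.sub_apply, hs1, sub_zero] at ht1
  rw [NC.sub_apply, hs2] at ht2
  have h5 : e' T.b [()] - L.t ^ (5 * p) • G ∈ L.filt.F (5 * p + 1) := by
    have := add_mem (L.filt.anti (show 5 * p + 1 ≤ _ by simp; omega) ht1)
      (L.filt.anti (show 5 * p + 1 ≤ _ by simp; omega) ht2)
    convert this using 1
    simp [e]
  set G' : A'.D := (L.t ^ (5 * p))⁻¹ • e' T.b [()] with hG'
  have h6 : G' - G ∈ L.filt.F 1 := by
    rw [← L.tpow_smul_mem_filt (a := 5 * p), smul_sub, hG',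
      smul_inv_smul₀ (pow_ne_zero _ L.t_ne)]
    exact h5
  obtain ⟨hG'O, hG'red⟩ := L.red_eq_of_sub_mem hGO h6
  have h7 : A'.τ (x * G') = 0 := by rw [hG', mul_smul_comm, map_smul, hkey, smul_zero]
  have := L.τ_red_eq_zero (mul_mem hxO hG'O) h7
  rwa [L.red_mul hxO hG'O, hxred, hG'red, hGred] at this

theorem T3_dwd_mem_Λ {A A0 : CDA} {n : ℕ} (R : Tor A A0 n) {σ : Type} {y z : σ → A0.D}
    (hy : ∀ a, y a ∈ R.Λ) (hz : ∀ a, z a ∈ R.Λ) (u : List σ) : dwd y z u ∈ R.Λ :=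
  T3_dwd_mem R.Λ.toSubring hy hz u

theorem unobs_of_C4 {S : St} {T : Tri S} (hT : T.C4) : T.Unobs := by
  intro ψ φ hC hX h0 hli p hp hψ u hu
  obtain ⟨n, hn1, hn⟩ := Nat.exists_infinite_primes (S.M + p + 1)
  obtain ⟨A0, ⟨R⟩⟩ := exists_tor S.A hn
  have hE'Γ : T.E' ≤ T.Γ := Algebra.adjoin_le T.V_le_Γ
  have hτ : ∀ (δ : S.A.D) (y z : Fin 2 → A0.D), (∀ a, y a ∈ R.Λ) → (∀ a, z a ∈ R.Λ) →
      ∀ e ∈ R.Λ, A0.τ (R.ι δ * e * ∑ u ∈ wds (Fin 2) p, R.ι (ψ T.b u) * dwd y z u) =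
        A0.τ (e * ∑ u ∈ wds (Fin 2) p, R.κ (S.A.τ (δ * ψ T.b u)) • dwd y z u) := by
    intro δ y z hy hz e he
    rw [Finset.mul_sum, Finset.mul_sum, map_sum, map_sum]
    refine Finset.sum_congr rfl fun v _ => ?_
    rw [mul_smul_comm, map_smul, smul_eq_mul,
      ← R.toExt.τ_ι_mul _ (mul_mem he (T3_dwd_mem_Λ R hy hz v)), map_mul R.ι]
    refine congrArg A0.τ ?_
    rw [mul_assoc, ← mul_assoc e, ← (R.comm _ e he).eq]
    simp only [mul_assoc]
  constructor
  · refine S.A.mem_of_perp_perp T.Γ (V := Subalgebra.toSubmodule T.E') hE'Γ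
      (T3_subst_mem T.Γ ψ φ hC hX h0 T.b_mem u) fun δ hδ hδ' => ?_
    by_contra hne
    obtain ⟨y, z, hy, hz, hyz⟩ := R.test1 (p := p) (by omega) (by omega)
      (fun v => S.A.τ (δ * ψ T.b v)) hu hne
    apply hyz
    rw [← hτ δ y z hy hz _ R.i_mem]
    refine T3_key hT ψ φ hC hX h0 hli hp hψ R hn (by omega) y z hy hz
      (Submodule.subset_span ⟨δ, hδ, 1, by simp⟩) fun v hv => ?_
    have hv' : v ∈ R.dg (Subalgebra.toSubmodule T.E') :=
      (sup_le ((R.dg0_le_dg _).trans (R.dg_mono T.V_le_E')) (R.dg1_le_dg _)) hv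
    clear hv
    induction hv' using Submodule.span_induction with
    | mem w hw =>
      obtain ⟨x, hx, a, rfl⟩ := hw
      have : R.ι δ * R.i * (R.ι x * R.i ^ a) = R.ι (δ * x) * R.i ^ (a + 1) := by
        rw [map_mul R.ι, pow_succ', mul_assoc, ← mul_assoc R.i, ← (R.comm x _ R.i_mem).eq]
        simp only [mul_assoc]
      rw [this, R.toExt.τ_ι_mul _ (pow_mem R.i_mem _), hδ' x hx]
      simp
    | zero => simp
    | add v w _ _ hv hw => rw [mul_add, map_add, hv, hw, add_zero]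
    | smul a v _ hv => rw [mul_smul_comm, map_smul, hv, smul_zero]
  · intro γ hγ
    by_contra hne
    obtain ⟨y, z, hy, hz, hyz⟩ := R.test2 (p := p) (by omega) (by omega)
      (fun v => S.A.τ (γ * ψ T.b v)) hu hne
    apply hyz
    have := hτ γ y z hy hz 1 (one_mem _)
    rw [one_mul, mul_one] at this
    rw [← this]
    refine T3_key hT ψ φ hC hX h0 hli hp hψ R hn (by omega) y z hy hz
      (Submodule.subset_span ⟨γ, hE'Γ hγ.1, 0, by simp⟩) ?_
    have hle : R.dg0 T.V ⊔ R.dg1 (Subalgebra.toSubmodule T.E') ≤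
        LinearMap.ker (A0.τ ∘ₗ LinearMap.mulLeft A0.K (R.ι γ)) := by
      refine sup_le (Submodule.span_le.2 ?_) (Submodule.span_le.2 ?_)
      · rintro _ ⟨v, hv, rfl⟩
        have := R.toExt.τ_ι_mul (γ * v) (one_mem _)
        rw [mul_one, hγ.2 v hv, map_mul R.ι] at this
        simpa using this
      · rintro _ ⟨v, _, a, ha, rfl⟩
        have := R.τ_ι_mul_ipow (γ * v) ha
        rw [map_mul R.ι, mul_assoc] at this
        simpa using this
    intro v hv
    simpa using hle hv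

end Crest.Agent.R180
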