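import Crest.Agent.R180.T2
import Crest.Agent.R180.T3
import Crest.Agent.R180.Solve

/-! The main lemma: any element can be made algebraic. -/

set_option autoImplicit false

namespace Crest.Agent.R180

open NC Module

/-- minimising a natural-number invariant among the descendant triples with a property -/
theorem Main_exists_min {S : St} (a : S.R) (P : ∀ S' : St, Tri S' → Prop)
    (f : ∀ S' : St, Tri S' → ℕ) (h : ∃ (S' : St) (T' : Tri S'), Desc a T'.b ∧ P S' T') :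
    ∃ (S' : St) (T' : Tri S'), Desc a T'.b ∧ P S' T' ∧
      ∀ (S'' : St) (T'' : Tri S''), Desc T'.b T''.b → P S'' T'' → f S' T' ≤ f S'' T'' := by
  classical
  have hex : ∃ m, ∃ (S' : St) (T' : Tri S'), Desc a T'.b ∧ P S' T' ∧ f S' T' = m := by
    obtain ⟨S', T', h1, h2⟩ := h
    exact ⟨_, S', T', h1, h2, rfl⟩
  obtain ⟨S', T', h1, h2, h3⟩ := Nat.find_spec hex
  refine ⟨S', T', h1, h2, fun S'' T'' hd hP => ?_⟩
  rw [h3]
  exact Nat.find_min' hex ⟨S'', T'', h1.trans hd, hP, rfl⟩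

theorem Main_exists_C4 {S : St} (T : Tri S) (hb : T.b ≠ 0) :
    ∃ (S' : St) (T' : Tri S'), Desc T.b T'.b ∧ T'.C4 := by
  obtain ⟨S1, T1, d1, v1, m1⟩ :=
    Main_exists_min T.b (fun _ T' => T'.V ≠ ⊥) (fun _ T' => T'.μ) (fact0 T hb)
  obtain ⟨T2, d2, c2⟩ := exists_C1 (T := T1) m1 v1
  obtain ⟨S3, T3, d3, ⟨c3, e3⟩, m3⟩ := Main_exists_min T2.b (fun _ T' => T'.C1 ∧ T'.μ = T2.μ)
    (fun _ T' => T'.ν) ⟨S1, T2, Desc.refl _, c2, rfl⟩
  have c3' : T3.C2 := ⟨c3, fun S' T' hd h1 hμ => m3 S' T' hd ⟨h1, hμ.trans e3⟩⟩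
  obtain ⟨S4, T4, d4, c4⟩ := exists_C3 c3'
  obtain ⟨S5, T5, d5, ⟨c5, e5, e5'⟩, m5⟩ := Main_exists_min T4.b
    (fun _ T' => T'.C3 ∧ T'.μ = T4.μ ∧ T'.ν = T4.ν) (fun _ T' => T'.k)
    ⟨S4, T4, Desc.refl _, c4, rfl, rfl⟩
  exact ⟨S5, T5, (((d1.trans d2).trans d3).trans d4).trans d5, c5,
    fun S' T' hd h3 hμ hν => m5 S' T' hd ⟨h3, hμ.trans e5, hν.trans e5'⟩⟩

theorem main_lemma (S : St) (a : S.R) :
    ∃ (S' : St) (m : Mor S S'), IsAlgebraic S'.A.K (m.φ a) := by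
  obtain ⟨T, hT⟩ := exists_tri a
  by_cases hb : T.b = 0
  · rw [hb] at hT
    exact ⟨S, alg_of_desc_zero hT⟩
  obtain ⟨S1, T1, d1, c1⟩ := Main_exists_C4 T hb
  obtain ⟨S2, T2, d2, c2, n2⟩ := exists_nondeg c1
  obtain ⟨m', hm'⟩ := solve (unobs_of_C4 c2) n2
  obtain ⟨m, hm⟩ := (hT.trans d1).trans d2
  exact ⟨_, m'.comp m, hm _ m' (hm' ▸ isAlgebraic_zero)⟩

end Crest.Agent.R180
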