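import Crest.Agent.R180.TorLem1

/-! Computations in a quantum torus extension. -/

set_option autoImplicit false

namespace Crest.Agent.R180

open Module

/-- a fixed vector in a span of eigenvectors lies in the span of the fixed ones -/
theorem TorLem_fix {K V : Type} [Field K] [AddCommGroup V] [Module K V] (T : Module.End K V)
    (P : Submodule K V) (S : Set V)
    (hS : ∀ z ∈ S, (z ∈ P ∧ T z = z) ∨ ∃ c : K, c ≠ 1 ∧ T z = c • z) {x : V}
    (hx : x ∈ Submodule.span K S) (hT : T x = x) : x ∈ P := by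
  have h1 : Submodule.span K S ≤ (P ⊓ T.eigenspace 1) ⊔ ⨆ c, ⨆ (_ : c ≠ 1), T.eigenspace c := by
    refine Submodule.span_le.2 fun z hz => ?_
    rcases hS z hz with ⟨h, h'⟩ | ⟨c, hc, h⟩
    · exact Submodule.mem_sup_left ⟨h, Module.End.mem_eigenspace_iff.2 (by rw [h', one_smul])⟩
    · exact Submodule.mem_sup_right (Submodule.mem_iSup_of_mem c
        (Submodule.mem_iSup_of_mem hc (Module.End.mem_eigenspace_iff.2 h)))
  obtain ⟨p, hp, q, hq, rfl⟩ := Submodule.mem_sup.1 (h1 hx)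
  have h2 : q ∈ T.eigenspace 1 := by
    have h3 : p + q ∈ T.eigenspace 1 := Module.End.mem_eigenspace_iff.2 (by rw [hT, one_smul])
    simpa using sub_mem h3 hp.2
  have h4 := (Submodule.disjoint_def.1 (T.eigenspaces_iSupIndep 1)) q h2 hq
  rw [h4, add_zero]
  exact hp.1

theorem TorLem_rank {K V : Type} [Field K] [AddCommGroup V] [Module K V] [FiniteDimensional K V]
    (f : V →ₗ[K] V) (G P : Submodule K V) (h : ∀ x ∈ G, f x = 0 → x ∈ P) :
    finrank K G ≤ finrank K (G.map f) + finrank K P := by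
  have h1 := (f.domRestrict G).finrank_range_add_finrank_ker
  rw [LinearMap.range_domRestrict] at h1
  have h2 : finrank K (LinearMap.ker (f.domRestrict G)) ≤ finrank K P := by
    rw [← Submodule.finrank_map_subtype_eq G]
    refine Submodule.finrank_mono ?_
    rintro _ ⟨x, hx, rfl⟩
    exact h x x.2 hx
  omega

namespace Tor
variable {A A0 : CDA} {n : ℕ} (R : Tor A A0 n)

theorem TorLem_ci (d : A.D) : Commute (R.ι d) R.i := R.comm d _ R.i_mem

theorem TorLem_mem (X : Submodule A.K A.D) {x : A.D} (hx : x ∈ X) (a : ℕ) :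
    R.ι x * R.i ^ a ∈ R.dg X := Submodule.subset_span ⟨x, hx, a, rfl⟩

theorem TorLem_mul (x y : A.D) (a b : ℕ) :
    R.ι x * R.i ^ a * (R.ι y * R.i ^ b) = R.ι (x * y) * R.i ^ (a + b) := by
  rw [map_mul, pow_add, mul_assoc, ← mul_assoc (R.i ^ a), ← ((R.TorLem_ci y).pow_right a).eq]
  simp only [mul_assoc]

theorem TorLem_dg_mul (X Y : Submodule A.K A.D) : R.dg X * R.dg Y ≤ R.dg (X * Y) := by
  rw [dg, dg, Submodule.span_mul_span]
  refine Submodule.span_le.2 ?_
  rintro _ ⟨_, ⟨x, hx, a, rfl⟩, _, ⟨y, hy, b, rfl⟩, rfl⟩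
  show _ * _ ∈ R.dg _
  rw [TorLem_mul]
  exact R.TorLem_mem _ (Submodule.mul_mem_mul hx hy) _

theorem TorLem_sq (E : Subalgebra A.K A.D) :
    Subalgebra.toSubmodule E * Subalgebra.toSubmodule E ≤ Subalgebra.toSubmodule E :=
  Submodule.mul_le.2 fun _ hx _ hy => E.mul_mem hx hy

/-- `E ⊗ F₀[i]` as a subalgebra -/
def TorLem_dgA (E : Subalgebra A.K A.D) : Subalgebra A0.K A0.D :=
  (R.dg (Subalgebra.toSubmodule E)).toSubalgebra
    (by simpa using R.TorLem_mem (Subalgebra.toSubmodule E) E.one_mem 0)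
    fun _ _ hx hy => R.dg_mono (TorLem_sq E) (R.TorLem_dg_mul _ _ (Submodule.mul_mem_mul hx hy))

/-- `E ⊗ F₀` as a subalgebra -/
def TorLem_dg0A (E : Subalgebra A.K A.D) : Subalgebra A0.K A0.D :=
  (R.dg0 (Subalgebra.toSubmodule E)).toSubalgebra
    (Submodule.subset_span ⟨1, E.one_mem, map_one _⟩)
    fun _ _ hx hy => by
      have := Submodule.mul_mem_mul hx hy
      rw [dg0, Submodule.span_mul_span] at this
      refine Submodule.span_mono ?_ this
      rintro _ ⟨_, ⟨x, hx, rfl⟩, _, ⟨y, hy, rfl⟩, rfl⟩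
      exact ⟨x * y, E.mul_mem hx hy, map_mul _ _ _⟩

theorem TorLem_le_sup (X : Submodule A.K A.D) : R.dg X ≤ R.dg0 X ⊔ R.dg1 X := by
  refine Submodule.span_le.2 ?_
  rintro _ ⟨x, hx, a, rfl⟩
  by_cases ha : n ∣ a
  · obtain ⟨b, rfl⟩ := ha
    obtain ⟨u, hu⟩ := R.i_pow
    refine Submodule.mem_sup_left ?_
    rw [pow_mul, hu, ← map_pow, ← Algebra.commutes, ← Algebra.smul_def]
    exact Submodule.smul_mem _ _ (Submodule.subset_span ⟨x, hx, rfl⟩)
  · exact Submodule.mem_sup_right (Submodule.subset_span ⟨x, hx, a, ha, rfl⟩)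

theorem TorLem_perp (X Y : Submodule A.K A.D) {x y : A0.D} (hx : x ∈ R.dg0 X)
    (hy : y ∈ R.dg1 Y) : A0.τ (x * y) = 0 := by
  induction hx using Submodule.span_induction with
  | zero => simp
  | add a b _ _ ha hb => rw [add_mul, map_add, ha, hb, add_zero]
  | smul c a _ ha => rw [smul_mul_assoc, map_smul, ha, smul_zero]
  | mem a ha =>
    obtain ⟨d, -, rfl⟩ := ha
    induction hy using Submodule.span_induction with
    | zero => simp
    | add a b _ _ ha hb => rw [mul_add, map_add, ha, hb, add_zero]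
    | smul c a _ ha => rw [mul_smul_comm, map_smul, ha, smul_zero]
    | mem a ha =>
      obtain ⟨e, -, a, ha, rfl⟩ := ha
      rw [← mul_assoc, ← map_mul]
      exact R.τ_ι_mul_ipow _ ha

/-- the centraliser of `i` in `Γ ⊗ Λ` -/
theorem mem_dg_of_commute (hn : n.Prime) {Γ : Subalgebra A.K A.D} {x : A0.D}
    (hx : x ∈ R.toExt.big Γ) (h : Commute x R.i) : x ∈ R.dg (Subalgebra.toSubmodule Γ) := by
  have hω : IsPrimitiveRoot (R.κ R.ζ) n := R.hζ.map_of_injective R.κ.injective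
  refine TorLem_fix (LinearMap.mulLeftRight A0.K (R.i⁻¹, R.i)) _
    {z | ∃ γ ∈ Γ, ∃ a < n, ∃ b < n, z = R.ι γ * (R.i ^ a * R.j ^ b)} ?_ ?_ ?_
  · rintro _ ⟨γ, hγ, a, -, b, hb, rfl⟩
    have h1 : LinearMap.mulLeftRight A0.K (R.i⁻¹, R.i) (R.ι γ * (R.i ^ a * R.j ^ b)) =
        R.κ R.ζ ^ b • (R.ι γ * (R.i ^ a * R.j ^ b)) := by
      have h2 := R.jpow_mul_ipow 1 b
      rw [pow_one, one_mul] at h2
      rw [LinearMap.mulLeftRight_apply, mul_assoc, mul_assoc, mul_assoc, h2, mul_smul_comm,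
        mul_smul_comm, mul_smul_comm, ← mul_assoc (R.i ^ a), ← pow_succ, pow_succ',
        mul_assoc R.i, ← mul_assoc (R.ι γ), (R.TorLem_ci γ).eq, mul_assoc R.i,
        inv_mul_cancel_left₀ R.i_ne]
    rcases Nat.eq_zero_or_pos b with rfl | hb0
    · refine Or.inl ⟨?_, by rw [h1, pow_zero, one_smul]⟩
      rw [pow_zero, mul_one]
      exact R.TorLem_mem _ hγ a
    · exact Or.inr ⟨_, hω.pow_ne_one_of_pos_of_lt hb0.ne' hb, h1⟩
  · have hx' : x ∈ Subalgebra.toSubmodule (R.toExt.big Γ) := hx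
    rw [Ext.big_toSubmodule] at hx'
    refine Submodule.span_le.2 ?_ hx'
    rintro _ ⟨γ, hγ, e, he, rfl⟩
    have he' : e ∈ Subalgebra.toSubmodule R.Λ := he
    rw [R.Λ_toSubmodule hn] at he'
    have := Submodule.mem_map_of_mem (f := LinearMap.mulLeft A0.K (R.ι γ)) he'
    rw [Submodule.map_span] at this
    refine Submodule.span_mono ?_ this
    rintro _ ⟨_, ⟨a, ha, b, hb, rfl⟩, rfl⟩
    exact ⟨γ, hγ, a, ha, b, hb, rfl⟩
  · rw [LinearMap.mulLeftRight_apply, mul_assoc, h.eq, inv_mul_cancel_left₀ R.i_ne]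

theorem commute_of_mem_dg {X : Submodule A.K A.D} {x : A0.D} (hx : x ∈ R.dg X) :
    Commute x R.i := by
  induction hx using Submodule.span_induction with
  | zero => exact Commute.zero_left _
  | add a b _ _ ha hb => exact ha.add_left hb
  | smul c a _ ha => exact ha.smul_left c
  | mem a ha =>
    obtain ⟨d, -, a, rfl⟩ := ha
    exact (R.TorLem_ci d).mul_left ((Commute.refl _).pow_left a)

/-- `dg` of a subalgebra is contained in any subalgebra containing `ι V` and `i` -/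
theorem dg_adjoin_le {V : Submodule A.K A.D} {B : Subalgebra A0.K A0.D}
    (hV : ∀ v ∈ V, R.ι v ∈ B) (hi : R.i ∈ B) :
    R.dg (Subalgebra.toSubmodule (Algebra.adjoin A.K (V : Set A.D))) ≤
      Subalgebra.toSubmodule B := by
  refine Submodule.span_le.2 ?_
  rintro _ ⟨x, hx, a, rfl⟩
  refine B.mul_mem ?_ (B.pow_mem hi a)
  have hx' : x ∈ Algebra.adjoin A.K (V : Set A.D) := hx
  clear hx
  induction hx' using Algebra.adjoin_induction with
  | mem x hx => exact hV x hx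
  | algebraMap c => rw [R.compat]; exact B.algebraMap_mem _
  | add x y _ _ hx hy => rw [map_add]; exact B.add_mem hx hy
  | mul x y _ _ hx hy => rw [map_mul]; exact B.mul_mem hx hy

theorem dg_mul_le (X Y : Submodule A.K A.D) : R.dg (X * Y) ≤ R.dg X * R.dg Y := by
  refine Submodule.span_le.2 ?_
  rintro _ ⟨x, hx, a, rfl⟩
  refine Submodule.mul_induction_on (C := fun x => R.ι x * R.i ^ a ∈ R.dg X * R.dg Y) hx
    (fun x hx y hy => ?_) fun x y hx hy => ?_
  · have := Submodule.mul_mem_mul (R.TorLem_mem X hx 0) (R.TorLem_mem Y hy a)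
    rwa [TorLem_mul, zero_add] at this
  · rw [map_add, add_mul]
    exact add_mem hx hy

theorem dg_pow_le (V : Submodule A.K A.D) {q : ℕ} (hq : 1 ≤ q) : R.dg (V ^ q) ≤ R.dg V ^ q := by
  induction q, hq using Nat.le_induction with
  | base => rw [pow_one, pow_one]
  | succ q _ ih =>
    rw [pow_succ, pow_succ]
    exact (R.dg_mul_le _ _).trans (mul_le_mul' ih le_rfl)

/-- the gain in the exponent `q` -/
theorem dg_pow_succ_le (hn : n.Prime) (V : Submodule A.K A.D) {q : ℕ} (hq : 2 ≤ q)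
    {Y : Submodule A0.K A0.D} (h1 : R.dg V ≤ Y) (h2 : R.dg1 (V * V) ≤ Y) :
    R.dg (V ^ (q + 1)) ≤ Y ^ q := by
  obtain ⟨q, rfl⟩ : ∃ p, q = p + 1 := ⟨q - 1, by omega⟩
  have h3 : R.dg (V ^ q) ≤ Y ^ q :=
    (R.dg_pow_le V (by omega)).trans (pow_le_pow_left' h1 q)
  obtain ⟨u, hu⟩ := R.i_pow
  have hu0 : u ≠ 0 := by
    rintro rfl
    exact pow_ne_zero n R.i_ne (by rw [hu, map_zero])
  rw [pow_succ' V, pow_succ' V, ← mul_assoc, pow_succ' Y]
  refine Submodule.span_le.2 ?_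
  rintro _ ⟨x, hx, a, rfl⟩
  refine Submodule.mul_induction_on (C := fun x => R.ι x * R.i ^ a ∈ Y * Y ^ q) hx
    (fun x hx y hy => ?_) fun x y hx hy => ?_
  · have h4 : R.ι x * R.i ^ 1 ∈ Y :=
      h2 (Submodule.subset_span ⟨x, hx, 1, fun h => hn.one_lt.ne' (Nat.dvd_one.1 h), rfl⟩)
    have := Submodule.mul_mem_mul h4 (h3 (R.TorLem_mem _ hy (a + (n - 1))))
    rw [TorLem_mul, show 1 + (a + (n - 1)) = a + n by have := hn.pos; omega, pow_add, hu,
      ← mul_assoc, ← Algebra.commutes, ← Algebra.smul_def] at this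
    exact (Submodule.smul_mem_iff _ hu0).1 this
  · rw [map_add, add_mul]
    exact add_mem hx hy

set_option linter.unusedVariables false in
/-- an element of `E ⊗ F₀[i]` orthogonal to `E ⊗ (⊕_{a ≢ 0} F₀ i ^ a)` lies in `E ⊗ F₀` -/
theorem mem_dg0_of_perp (hn : n.Prime) {E : Subalgebra A.K A.D} {x : A0.D}
    (hx : x ∈ R.dg (Subalgebra.toSubmodule E))
    (h : x ∈ A0.perp (R.dg1 (Subalgebra.toSubmodule E))) :
    x ∈ R.dg0 (Subalgebra.toSubmodule E) := by
  obtain ⟨x0, h0, x1, h1, rfl⟩ := Submodule.mem_sup.1 (R.TorLem_le_sup _ hx)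
  have h2 : x1 = 0 := by
    by_contra hne
    have h3 : x1⁻¹ ∈ R.dg (Subalgebra.toSubmodule E) :=
      A0.inv_mem (R.TorLem_dgA E) (R.dg1_le_dg _ h1)
    obtain ⟨y0, hy0, y1, hy1, hy⟩ := Submodule.mem_sup.1 (R.TorLem_le_sup _ h3)
    have h4 := h y1 hy1
    rw [add_mul, map_add, R.TorLem_perp _ _ h0 hy1, zero_add] at h4
    have h5 := R.TorLem_perp _ _ hy0 h1
    rw [A0.τ_mul_comm] at h5
    have h6 := A0.τ_one
    rw [← mul_inv_cancel₀ hne, ← hy, mul_add, map_add, h4, h5, add_zero] at h6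
    exact zero_ne_one h6
  rw [h2, add_zero]
  exact h0

theorem τ_mul_of_mem_dg0 {X : Submodule A.K A.D} {x : A0.D} (hx : x ∈ R.dg0 X) {e : A0.D}
    (he : e ∈ R.Λ) : A0.τ (x * e) = A0.τ x * A0.τ e := by
  induction hx using Submodule.span_induction with
  | zero => simp
  | add a b _ _ ha hb => rw [add_mul, map_add, map_add, ha, hb, add_mul]
  | smul c a _ ha => rw [smul_mul_assoc, map_smul, map_smul, ha, smul_mul_assoc]
  | mem a ha =>
    obtain ⟨d, -, rfl⟩ := ha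
    have h1 := R.toExt.τ_ι_mul d R.Λ.one_mem
    rw [mul_one, A0.τ_one, mul_one] at h1
    rw [R.toExt.τ_ι_mul d he, h1]

theorem exists_τ_ne_zero_of_mem_dg0 {E : Subalgebra A.K A.D} {x : A0.D}
    (hx : x ∈ R.dg0 (Subalgebra.toSubmodule E)) (hx0 : x ≠ 0) :
    ∃ e ∈ E, A0.τ (x * R.ι e) ≠ 0 := by
  by_contra hne
  push Not at hne
  have h1 : ∀ y ∈ R.dg0 (Subalgebra.toSubmodule E), A0.τ (x * y) = 0 := by
    intro y hy
    induction hy using Submodule.span_induction with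
    | zero => simp
    | add a b _ _ ha hb => rw [mul_add, map_add, ha, hb, add_zero]
    | smul c a _ ha => rw [mul_smul_comm, map_smul, ha, smul_zero]
    | mem a ha =>
      obtain ⟨d, hd, rfl⟩ := ha
      exact hne d hd
  have h2 := h1 x⁻¹ (A0.inv_mem (R.TorLem_dg0A E) hx)
  rw [mul_inv_cancel₀ hx0, A0.τ_one] at h2
  exact one_ne_zero h2

theorem TorLem_cent (hn : n.Prime) {G : Submodule A0.K A0.D}
    (hG : G ≤ Subalgebra.toSubmodule R.Λ) (f : A0.D →ₗ[A0.K] A0.D)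
    (hf : ∀ x, f x = 0 → Commute x R.i) : finrank A0.K G ≤ finrank A0.K (G.map f) + n := by
  have h1 := TorLem_rank f G (R.dg (Subalgebra.toSubmodule (⊥ : Subalgebra A.K A.D)))
    fun x hx h0 => R.mem_dg_of_commute hn (Algebra.subset_adjoin (Or.inr (hG hx))) (hf x h0)
  rwa [R.finrank_dg hn, Subalgebra.finrank_toSubmodule, Subalgebra.finrank_bot, mul_one] at h1

/-- the Kirillov–Kostant form `τ(g [i, g'])` does not vanish on subspaces of small codimension -/
theorem exists_kks (hn : n.Prime) {G G' : Submodule A0.K A0.D}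
    (hG : G ≤ Subalgebra.toSubmodule R.Λ) (hG' : G' ≤ Subalgebra.toSubmodule R.Λ) {c : ℕ}
    (hc : n ^ 2 ≤ finrank A0.K G + c) (hc' : n ^ 2 ≤ finrank A0.K G' + c)
    (h : 2 * c + n < n ^ 2) : ∃ g ∈ G, ∃ g' ∈ G', A0.τ (g * (R.i * g' - g' * R.i)) ≠ 0 := by
  by_contra hne
  push Not at hne
  have h1 := R.TorLem_cent hn hG' (LinearMap.mulLeft A0.K R.i - LinearMap.mulRight A0.K R.i)
    fun x hx => (sub_eq_zero.1 hx).symm
  have h2 := A0.finrank_perp R.Λ hG
  rw [R.finrank_Λ hn] at h2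
  have h3 : G'.map (LinearMap.mulLeft A0.K R.i - LinearMap.mulRight A0.K R.i) ≤
      Subalgebra.toSubmodule R.Λ ⊓ A0.perp G := by
    rintro _ ⟨g', hg', rfl⟩
    refine ⟨R.Λ.sub_mem (R.Λ.mul_mem R.i_mem (hG' hg')) (R.Λ.mul_mem (hG' hg') R.i_mem),
      fun g hg => ?_⟩
    rw [A0.τ_mul_comm]
    exact hne g hg g' hg'
  have h4 := Submodule.finrank_mono h3
  omega

/-- dimension of `[Λ, i]` -/
theorem finrank_comm_i (hn : n.Prime) :
    n ^ 2 ≤ finrank A0.K ((Subalgebra.toSubmodule R.Λ).map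
      (LinearMap.mulRight A0.K R.i - LinearMap.mulLeft A0.K R.i)) + n := by
  have h1 := R.TorLem_cent hn le_rfl (LinearMap.mulRight A0.K R.i - LinearMap.mulLeft A0.K R.i)
    fun x hx => sub_eq_zero.1 hx
  rwa [Subalgebra.finrank_toSubmodule, R.finrank_Λ hn] at h1

end Tor

end Crest.Agent.R180
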