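import Crest.Agent.R180.Dense
import Crest.Agent.R180.Mor
import Crest.Agent.R180.TorLem

/-! Existence of moves and their basic properties. -/

set_option autoImplicit false

namespace Crest.Agent.R180

open NC Module

section
variable {A A0 A' : CDA} (X : Ext A A0) (L : Lau A0 A')

theorem mem_liftA_of_commute {g : A'.D} (hg : ∀ d, Commute (L.ι (X.ι d)) g) :
    g ∈ L.liftA X.Λ := by
  obtain ⟨m, p, q, hp, -⟩ := A.exists_AZ
  let P : A'.D →ₗ[A'.K] A'.D :=
    ∑ s, LinearMap.mulLeftRight A'.K (L.ι (X.ι (p s)), L.ι (X.ι (q s)))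
  have hP : ∀ x, P x = ∑ s, L.ι (X.ι (p s)) * x * L.ι (X.ι (q s)) := fun x => by
    simp [P, LinearMap.sum_apply]
  have h1 : P g = g := by
    have h2 := hp 1
    simp only [mul_one, CDA.τ_one, map_one] at h2
    rw [hP]
    calc ∑ s, L.ι (X.ι (p s)) * g * L.ι (X.ι (q s))
        = g * L.ι (X.ι (∑ s, p s * q s)) := by
          rw [map_sum, map_sum, Finset.mul_sum]
          refine Finset.sum_congr rfl fun s _ => ?_
          rw [(hg (p s)).eq, map_mul, map_mul, mul_assoc]
      _ = g := by rw [h2, map_one, map_one, mul_one]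
  have h3 : ∀ z : A0.D, P (L.ι z) ∈ L.liftA X.Λ := by
    intro z
    have hz : z ∈ Submodule.span A0.K {z | ∃ d, ∃ e ∈ X.Λ, z = X.ι d * e} := by
      rw [X.span_top]; trivial
    induction hz using Submodule.span_induction with
    | mem z hz =>
      obtain ⟨d, e, he, rfl⟩ := hz
      have : P (L.ι (X.ι d * e)) = L.ι (X.κ (A.τ d) • e) := by
        rw [hP, Algebra.smul_def, ← X.compat, ← hp, map_sum, Finset.sum_mul, map_sum]
        refine Finset.sum_congr rfl fun s _ => ?_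
        rw [← map_mul, ← map_mul, map_mul X.ι, map_mul X.ι]
        congr 1
        simp only [mul_assoc]
        rw [(X.comm (q s) e he).eq]
      rw [this]
      exact Algebra.subset_adjoin ⟨_, X.Λ.smul_mem he _, rfl⟩
    | zero => simp
    | add z z' _ _ h h' => rw [map_add, map_add]; exact add_mem h h'
    | smul c z _ h => rw [L.lau_ι_smul, map_smul]; exact Subalgebra.smul_mem _ h _
  have h4 : L.lift ⊤ ≤ (Subalgebra.toSubmodule (L.liftA X.Λ)).comap P := by
    refine Submodule.span_le.2 ?_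
    rintro _ ⟨z, -, rfl⟩
    exact h3 z
  rw [L.lift_top] at h4
  rw [← h1]
  exact h4 (Submodule.mem_top (x := g))

theorem commute_liftA (d : A.D) {e : A'.D} (he : e ∈ L.liftA X.Λ) : Commute (L.ι (X.ι d)) e := by
  refine Algebra.commute_of_mem_adjoin_of_forall_mem_commute he ?_
  rintro _ ⟨y, hy, rfl⟩
  exact (X.comm d y hy).map L.ι

theorem commute_liftA_big {Γ : Subalgebra A.K A.D} {e : A.D} (he : ∀ g ∈ Γ, Commute e g)
    {x : A'.D} (hx : x ∈ L.liftA (X.big Γ)) : Commute (L.ι (X.ι e)) x := by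
  refine Algebra.commute_of_mem_adjoin_of_forall_mem_commute hx ?_
  rintro _ ⟨y, hy, rfl⟩
  exact (X.commute_big he hy).map L.ι

theorem gauge_le {J : Type} [Fintype J] {W : J → A'.D} (hW : ∀ l, W l ∈ L.liftA X.Λ) :
    gauge X L W ≤ L.liftP (X.piΛ J) := by
  rintro h ⟨g, hg, e⟩
  refine (L.mem_liftP_pi X.Λ h).2 fun l => ?_
  have hg' := mem_liftA_of_commute X L hg
  rw [e]
  exact sub_mem (mul_mem hg' (hW l)) (mul_mem (hW l) hg')

theorem finrank_gauge_lt {J : Type} [Fintype J] (W : J → A'.D) :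
    finrank A'.K (gauge X L W) < finrank A0.K X.Λ := by
  let ad : A'.D →ₗ[A'.K] (J → A'.D) :=
    LinearMap.pi fun l => LinearMap.mulRight A'.K (W l) - LinearMap.mulLeft A'.K (W l)
  let S := Subalgebra.toSubmodule (L.liftA X.Λ)
  have hS : finrank A'.K S = finrank A0.K X.Λ := by
    rw [← L.finrank_redS, show S = _ from L.liftA_toSubmodule X.Λ, L.redS_lift,
      Subalgebra.finrank_toSubmodule]
  have h1 : gauge X L W ≤ LinearMap.range (ad ∘ₗ S.subtype) := by
    rintro h ⟨g, hg, e⟩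
    refine ⟨⟨g, mem_liftA_of_commute X L hg⟩, funext fun l => ?_⟩
    simp [ad, e]
  have h2 := LinearMap.finrank_range_add_finrank_ker (ad ∘ₗ S.subtype)
  have h3 : 0 < finrank A'.K (LinearMap.ker (ad ∘ₗ S.subtype)) := by
    refine Nat.pos_of_ne_zero fun h => ?_
    rw [Submodule.finrank_eq_zero, Submodule.eq_bot_iff] at h
    refine one_ne_zero (congrArg Subtype.val (h ⟨1, (L.liftA X.Λ).one_mem⟩ ?_))
    rw [LinearMap.mem_ker]
    funext l
    simp [ad]
  have h4 := Submodule.finrank_mono h1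
  omega

theorem finrank_piΛ (J : Type) [Fintype J] :
    finrank A0.K (X.piΛ J) = Fintype.card J * finrank A0.K X.Λ := by
  let f : (J → X.Λ) →ₗ[A0.K] (J → A0.D) := X.Λ.val.toLinearMap.compLeft J
  have hf : Function.Injective f := fun x y h => funext fun j => Subtype.ext (congrFun h j)
  have hr : LinearMap.range f = X.piΛ J := by
    ext z
    constructor
    · rintro ⟨x, rfl⟩ j _
      exact (x j).2
    · exact fun hz => ⟨fun j => ⟨z j, hz j trivial⟩, rfl⟩
  rw [← hr, LinearMap.finrank_range_of_inj hf, Module.finrank_pi_fintype, Finset.sum_const,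
    Finset.card_univ, smul_eq_mul]

/-- a slice exists -/
theorem exists_slice {J : Type} [Fintype J] {W : J → A'.D} (hW : ∀ l, W l ∈ L.liftA X.Λ) :
    ∃ T0 : Submodule A0.K (J → A0.D), T0 ≤ X.piΛ J ∧ Disjoint T0 (L.redP (gauge X L W)) ∧
      X.piΛ J ≤ T0 ⊔ L.redP (gauge X L W) := by
  have hG : L.redP (gauge X L W) ≤ X.piΛ J :=
    (L.redP_mono (gauge_le X L hW)).trans (L.redP_liftP _).le
  obtain ⟨U, hU⟩ := (L.redP (gauge X L W)).exists_isCompl
  refine ⟨U ⊓ X.piΛ J, inf_le_right, hU.symm.disjoint.mono_left inf_le_left, ?_⟩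
  rw [sup_comm, ← sup_inf_assoc_of_le _ hG, hU.sup_eq_top, top_inf_eq]

end

/-- series all of whose coefficients lie in a subalgebra -/
def MoveCoef {K D : Type} [Field K] [Ring D] [Algebra K D] (B : Subalgebra K D) (σ : Type) :
    Subring (NC σ D) where
  carrier := {f | ∀ u, f u ∈ B}
  mul_mem' {f g} hf hg u := by
    rw [NC.mul_apply]
    exact sum_mem fun k _ => mul_mem (hf _) (hg _)
  one_mem' u := by
    cases u with
    | nil => exact one_mem B
    | cons a u => exact zero_mem B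
  add_mem' hf hg u := add_mem (hf u) (hg u)
  zero_mem' _ := zero_mem B
  neg_mem' hf u := neg_mem (hf u)

theorem MoveCoef_C {K D : Type} [Field K] [Ring D] [Algebra K D] {B : Subalgebra K D} {σ : Type}
    {d : D} (hd : d ∈ B) : (C d : NC σ D) ∈ MoveCoef B σ := fun u => by
  cases u with
  | nil => exact hd
  | cons a u => exact zero_mem B

theorem MoveCoef_X {K D : Type} [Field K] [Ring D] [Algebra K D] {B : Subalgebra K D} {σ : Type}
    [DecidableEq σ] (l : σ) : (NC.X l : NC σ D) ∈ MoveCoef B σ := fun u => by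
  rw [X_apply]
  split_ifs
  · exact one_mem B
  · exact zero_mem B

theorem Move_C_mem {B σ : Type} [Ring B] (Φ : Filt B) {N : ℕ} {d : B} (hd : d ∈ Φ.F N) :
    (C d : NC σ B) ∈ (Φ.nc σ).F N := fun u => by
  cases u with
  | nil => exact hd
  | cons a u => exact zero_mem _

theorem Move_X_mem {B σ : Type} [Ring B] [DecidableEq σ] (Φ : Filt B) (l : σ) :
    (NC.X l : NC σ B) ∈ (Φ.nc σ).F 1 := fun u => by
  rw [X_apply]
  split_ifs with h
  · subst h; exact Φ.one_mem
  · exact zero_mem _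

theorem exists_mv {S : St} (T : Tri S) {A0 A' : CDA} (X : Ext S.A A0) (L : Lau A0 A')
    (W : Fin S.M → A'.D) (hW : ∀ l, W l ∈ L.filt.F 1) (hWΛ : ∀ l, W l ∈ L.liftA X.Λ)
    (gen : L.liftA X.Λ ≤ Algebra.adjoin A'.K (Set.range W))
    (T0 : Submodule A0.K (Fin S.M → A0.D)) (h1 : T0 ≤ X.piΛ (Fin S.M))
    (h2 : Disjoint T0 (L.redP (gauge X L W)))
    (h3 : X.piΛ (Fin S.M) ≤ T0 ⊔ L.redP (gauge X L W)) :
    ∃ (M' : ℕ) (hM' : 2 ≤ M') (T' : Tri ⟨A', M', hM'⟩), Nonempty (Mv T X L W T0 T') := by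
  -- dimension count
  have hM' : 2 ≤ finrank A0.K T0 := by
    have e1 := Submodule.finrank_mono h3
    have e2 := Submodule.finrank_add_le_finrank_add_finrank T0 (L.redP (gauge X L W))
    have e3 := finrank_gauge_lt X L W
    have e4 : 0 < finrank A0.K X.Λ := Module.finrank_pos
    rw [finrank_piΛ, Fintype.card_fin] at e1
    rw [L.finrank_redP] at e2
    have e5 := Nat.mul_le_mul_right (finrank A0.K X.Λ) S.hM
    omega
  obtain ⟨τb, hli, hsp⟩ := Lau.lau_exists_basis T0
  generalize finrank A0.K T0 = M' at hM' τb hli hsp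
  have hτ : ∀ s l, τb s l ∈ X.Λ := fun s l =>
    h1 (hsp.le (Submodule.subset_span ⟨s, rfl⟩)) l trivial
  have hτ' : ∀ s l, L.ι (τb s l) ∈ L.liftA X.Λ := fun s l =>
    Algebra.subset_adjoin ⟨_, hτ s l, rfl⟩
  let ι : S.A.D →+* NC (Fin M') A'.D := (C : A'.D →+* _).comp (L.ι.comp X.ι)
  let Y : Fin S.M → NC (Fin M') A'.D := fun l => C (W l) + ∑ s, C (L.ι (τb s l)) * NC.X s
  have hι : ∀ d, ι d ∈ (L.filt.nc (Fin M')).F 0 := fun d =>
    Move_C_mem _ (L.mem_filt_zero.2 (L.ι_mem _))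
  have hY : ∀ l, Y l ∈ (L.filt.nc (Fin M')).F 1 := fun l =>
    add_mem (Move_C_mem _ (hW l)) (sum_mem fun s _ =>
      (L.filt.nc (Fin M')).mul_mem (a := 0) (b := 1)
        (Move_C_mem _ (L.mem_filt_zero.2 (L.ι_mem _))) (Move_X_mem _ s))
  have hc : ∀ d l, Commute (ι d) (Y l) := fun d l =>
    ((commute_liftA X L d (hWΛ l)).map (C : A'.D →+* _)).add_right
      (Commute.sum_right _ _ _ fun s _ =>
        ((commute_liftA X L d (hτ' s l)).map (C : A'.D →+* _)).mul_right (C_comm_X _ s))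
  obtain ⟨φ, hφ, hφC, hφX⟩ := exists_eval (L.filt.nc (Fin M')) ι hι Y hY hc
  let m : Mor S ⟨A', M', hM'⟩ :=
    { κ := L.κ.comp X.κ
      φ := φ
      compat := fun c => by
        change φ (C (algebraMap S.A.K S.A.D c)) = C (algebraMap A'.K A'.D (L.κ (X.κ c)))
        rw [hφC, ← L.compat, ← X.compat]
        rfl
      dense := fun R hR =>
        isDns_move X L W hW gen τb hli (hsp.symm ▸ h2) φ hφ hφC hφX R hR }
  have hΛB : L.liftA X.Λ ≤ L.liftA (X.big T.Γ) :=
    Algebra.adjoin_mono (Set.image_mono fun x hx => Algebra.subset_adjoin (Or.inr hx))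
  have hΓB : ∀ g ∈ T.Γ, L.ι (X.ι g) ∈ L.liftA (X.big T.Γ) := fun g hg =>
    Algebra.subset_adjoin ⟨_, Algebra.subset_adjoin (Or.inl ⟨g, hg, rfl⟩), rfl⟩
  have hb : φ T.b ∈ MoveCoef (L.liftA (X.big T.Γ)) (Fin M') := by
    refine hom_mem_closed (L.filt.nc (Fin M')) φ hφ (fun l => (hφX l).symm ▸ hY l)
      (MoveCoef (L.liftA (X.big T.Γ)) (Fin M')) (fun x hx u => ?_) (fun l => ?_) fun u => ?_
    · refine L.closedS (Subalgebra.toSubmodule (L.liftA (X.big T.Γ))) fun N => ?_
      obtain ⟨y, hy, h⟩ := hx (N + u.length)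
      exact ⟨y u, hy u, by simpa using h u⟩
    · rw [hφX]
      exact add_mem (MoveCoef_C (hΛB (hWΛ l))) (sum_mem fun s _ =>
        mul_mem (MoveCoef_C (hΛB (hτ' s l))) (MoveCoef_X s))
    · rw [hφC]
      exact MoveCoef_C (hΓB _ (T.b_mem u))
  obtain ⟨g, b, hg1, hg, hb0, hbm, hconj⟩ := exists_nf A' (L.liftA (X.big T.Γ)) (φ T.b) hb
  let Γ' : Subalgebra A'.K A'.D :=
    L.liftA (X.big T.Γ) ⊓ Subalgebra.centralizer A'.K {φ T.b []}
  have hΓ' : ∀ x, x ∈ Γ' ↔ x ∈ L.liftA (X.big T.Γ) ∧ Commute x (φ T.b []) := fun x => by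
    simp only [Γ', Algebra.mem_inf, Subalgebra.mem_centralizer_iff, Set.mem_singleton_iff,
      forall_eq]
    exact and_congr_right fun _ => eq_comm
  let T' : Tri ⟨A', M', hM'⟩ :=
    { b := b
      Γ := Γ'
      E := Algebra.adjoin A'.K ((fun e => L.ι (X.ι e)) '' T.E ∪ {φ T.b []})
      b_nil := hb0
      b_mem := fun u => (hΓ' _).2 (hbm u)
      E_le := by
        refine Algebra.adjoin_le ?_
        rintro _ (⟨e, he, rfl⟩ | rfl)
        · exact (hΓ' _).2 ⟨hΓB e (T.E_le he), commute_liftA_big X L (T.E_comm e he) (hb [])⟩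
        · exact (hΓ' _).2 ⟨hb [], Commute.refl _⟩
      E_comm := fun e he x hx => by
        refine (Algebra.commute_of_mem_adjoin_of_forall_mem_commute he ?_).symm
        rintro _ (⟨e, he, rfl⟩ | rfl)
        · exact (commute_liftA_big X L (T.E_comm e he) ((hΓ' _).1 hx).1).symm
        · exact ((hΓ' _).1 hx).2 }
  exact ⟨M', hM', T', ⟨
    { W_mem := hW
      W_Λ := hWΛ
      T0_le := h1
      T0_disj := h2
      T0_sup := h3
      φ := φ
      τb := τb
      τb_li := hli
      τb_span := hsp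
      φ_bdd := hφ
      φ_C := hφC
      φ_X := hφX
      φb_mem := hb
      g := g
      g_nil := hg1
      g_mem := hg
      conj := hconj
      Γ_eq := hΓ'
      E_eq := rfl
      desc := desc_of_conj m T.b hg1 hconj fun u => (hbm u).2 }⟩⟩

end Crest.Agent.R180
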