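import Mathlib

/-! Noncommutative formal power series `D⟪w_l : l ∈ σ⟫` whose variables commute with the
coefficients: functions `List σ → D` with the concatenation (convolution) product. -/

set_option autoImplicit false

namespace Crest.Agent.R180

/-- noncommutative power series in variables `σ` with coefficients in `D` -/
def NC (σ D : Type) : Type := List σ → D

namespace NC
variable {σ D : Type}

instance : CoeFun (NC σ D) (fun _ => List σ → D) := ⟨fun f => f⟩

@[ext] theorem ext {f g : NC σ D} (h : ∀ u, f u = g u) : f = g := funext h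

/-- left shift: coefficients of the words starting with `l` -/
def sh (l : σ) (f : NC σ D) : NC σ D := fun u => f (l :: u)

@[simp] theorem sh_apply (l : σ) (f : NC σ D) (u : List σ) : sh l f u = f (l :: u) := rfl

section Ring
variable [Ring D]

instance : AddCommGroup (NC σ D) := inferInstanceAs (AddCommGroup (List σ → D))

@[simp] theorem zero_apply (u : List σ) : (0 : NC σ D) u = 0 := rfl
@[simp] theorem add_apply (f g : NC σ D) (u : List σ) : (f + g) u = f u + g u := rfl
@[simp] theorem neg_apply (f : NC σ D) (u : List σ) : (-f) u = - f u := rfl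
@[simp] theorem sub_apply (f g : NC σ D) (u : List σ) : (f - g) u = f u - g u := rfl

theorem sum_apply {ι : Type} (s : Finset ι) (f : ι → NC σ D) (u : List σ) :
    (∑ i ∈ s, f i) u = ∑ i ∈ s, f i u := by
  classical
  induction s using Finset.induction_on with
  | empty => simp
  | insert a s ha ih => simp [Finset.sum_insert ha, ih]

/-- the convolution product, by recursion on the word -/
def mulF : List σ → NC σ D → NC σ D → D
  | [], f, g => f [] * g []
  | a :: u, f, g => f [] * g (a :: u) + mulF u (sh a f) g

instance : Mul (NC σ D) := ⟨fun f g u => mulF u f g⟩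

/-- constant series (as a function) -/
def cst (d : D) : NC σ D := fun u => match u with
  | [] => d
  | _ :: _ => 0

instance : One (NC σ D) := ⟨cst 1⟩

@[simp] theorem mul_nil (f g : NC σ D) : (f * g) [] = f [] * g [] := rfl
theorem mul_cons (f g : NC σ D) (a : σ) (u : List σ) :
    (f * g) (a :: u) = f [] * g (a :: u) + (sh a f * g) u := rfl

theorem zero_mul' (g : NC σ D) : (0 : NC σ D) * g = 0 := by
  ext u
  induction u with
  | nil => simp
  | cons a u ih =>
    have : sh a (0 : NC σ D) = 0 := rfl
    rw [mul_cons, this, ih]; simp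

theorem mul_zero' (f : NC σ D) : f * (0 : NC σ D) = 0 := by
  ext u
  induction u generalizing f with
  | nil => simp
  | cons a u ih => rw [mul_cons, ih]; simp

theorem add_mul' (f f' g : NC σ D) : (f + f') * g = f * g + f' * g := by
  ext u
  induction u generalizing f f' with
  | nil => simp [add_mul]
  | cons a u ih =>
    have : sh a (f + f') = sh a f + sh a f' := rfl
    rw [add_apply, mul_cons, mul_cons, mul_cons, this, ih]; simp [add_mul]; abel

theorem mul_add' (f g g' : NC σ D) : f * (g + g') = f * g + f * g' := by
  ext u
  induction u generalizing f with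
  | nil => simp [mul_add]
  | cons a u ih =>
    rw [add_apply, mul_cons, mul_cons, mul_cons, ih]; simp [mul_add]; abel

theorem cst_mul (d : D) (g : NC σ D) (u : List σ) : (cst d * g : NC σ D) u = d * g u := by
  cases u with
  | nil => rfl
  | cons a u =>
    have : sh a (cst d : NC σ D) = 0 := rfl
    rw [mul_cons, this, zero_mul']; simp [cst]

theorem mul_cst (d : D) (f : NC σ D) (u : List σ) : (f * cst d : NC σ D) u = f u * d := by
  induction u generalizing f with
  | nil => rfl
  | cons a u ih => rw [mul_cons, ih]; simp [cst]

theorem sh_mul' (a : σ) (f g : NC σ D) : sh a (f * g) = cst (f []) * sh a g + sh a f * g := by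
  ext u
  rw [sh_apply, mul_cons, add_apply, cst_mul]; rfl

theorem cst_mul_assoc (d : D) (g h : NC σ D) : (cst d * g) * h = cst d * (g * h) := by
  ext u
  rw [cst_mul]
  induction u generalizing g with
  | nil => simp [cst_mul, mul_assoc, cst]
  | cons a u ih =>
    have : sh a (cst d * g) = cst d * sh a g := by
      ext v; rw [sh_apply, cst_mul, cst_mul]; rfl
    rw [mul_cons, mul_cons, this, ih, cst_mul]; simp [mul_add, mul_assoc]

theorem mul_assoc' (f g h : NC σ D) : f * g * h = f * (g * h) := by
  ext u
  induction u generalizing f with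
  | nil => simp [mul_assoc]
  | cons a u ih =>
    rw [mul_cons, sh_mul', add_mul', add_apply, ih, mul_cons f, mul_cons g, cst_mul_assoc, cst_mul]
    simp [mul_add, mul_assoc, add_assoc]

instance : Ring (NC σ D) where
  __ := (inferInstance : AddCommGroup (NC σ D))
  left_distrib := mul_add'
  right_distrib := add_mul'
  zero_mul := zero_mul'
  mul_zero := mul_zero'
  mul_assoc := mul_assoc'
  one_mul f := by ext u; exact (cst_mul 1 f u).trans (one_mul _)
  mul_one f := by ext u; exact (mul_cst 1 f u).trans (mul_one _)

/-- constants -/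
def C : D →+* NC σ D where
  toFun := cst
  map_one' := rfl
  map_mul' a b := by
    ext u; rw [cst_mul]; cases u <;> simp [cst]
  map_zero' := by ext u; cases u <;> rfl
  map_add' a b := by ext u; cases u <;> simp [cst]

@[simp] theorem C_nil (d : D) : (C d : NC σ D) [] = d := rfl
@[simp] theorem C_cons (d : D) (a : σ) (u : List σ) : (C d : NC σ D) (a :: u) = 0 := rfl
@[simp] theorem one_nil : (1 : NC σ D) [] = 1 := rfl
@[simp] theorem one_cons (a : σ) (u : List σ) : (1 : NC σ D) (a :: u) = 0 := rfl
@[simp] theorem C_mul_apply (d : D) (g : NC σ D) (u : List σ) :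
    (C d * g : NC σ D) u = d * g u :=
  cst_mul d g u
@[simp] theorem mul_C_apply (d : D) (f : NC σ D) (u : List σ) :
    (f * C d : NC σ D) u = f u * d :=
  mul_cst d f u

theorem sh_mul (a : σ) (f g : NC σ D) : sh a (f * g) = C (f []) * sh a g + sh a f * g :=
  sh_mul' a f g
@[simp] theorem sh_add (a : σ) (f g : NC σ D) : sh a (f + g) = sh a f + sh a g := rfl
@[simp] theorem sh_sub (a : σ) (f g : NC σ D) : sh a (f - g) = sh a f - sh a g := rfl
@[simp] theorem sh_zero (a : σ) : sh a (0 : NC σ D) = 0 := rfl
@[simp] theorem sh_C (a : σ) (d : D) : sh a (C d : NC σ D) = 0 := rfl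

theorem mul_singleton (f g : NC σ D) (a : σ) : (f * g) [a] = f [] * g [a] + f [a] * g [] := rfl

theorem mul_pair (f g : NC σ D) (a b : σ) :
    (f * g) [a, b] = f [] * g [a, b] + f [a] * g [b] + f [a, b] * g [] := by
  rw [mul_cons, mul_singleton]; simp [add_assoc]

/-- closed formula for the product -/
theorem mul_apply (f g : NC σ D) (u : List σ) :
    (f * g) u = ∑ k ∈ Finset.range (u.length + 1), f (u.take k) * g (u.drop k) := by
  induction u generalizing f with
  | nil => simp
  | cons a u ih =>
    rw [mul_cons, ih, List.length_cons, Finset.sum_range_succ' _ (u.length + 1)]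
    simp [add_comm]

/-- the constant term, as a ring hom -/
def c0 : NC σ D →+* D where
  toFun f := f []
  map_one' := rfl
  map_mul' _ _ := rfl
  map_zero' := rfl
  map_add' _ _ := rfl

@[simp] theorem c0_apply (f : NC σ D) : c0 f = f [] := rfl

/-- the variable `w_l` -/
def X [DecidableEq σ] (l : σ) : NC σ D := fun u => if u = [l] then 1 else 0

section X
variable [DecidableEq σ]
theorem X_apply (l : σ) (u : List σ) : (X l : NC σ D) u = if u = [l] then 1 else 0 := rfl
@[simp] theorem X_nil (l : σ) : (X l : NC σ D) [] = 0 := by simp [X_apply]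
@[simp] theorem X_singleton (l a : σ) : (X l : NC σ D) [a] = if a = l then 1 else 0 := by
  simp [X_apply]
@[simp] theorem X_cons_cons (l a b : σ) (u : List σ) : (X l : NC σ D) (a :: b :: u) = 0 := by
  simp [X_apply]

theorem sh_X (a l : σ) : sh a (X l : NC σ D) = if a = l then 1 else 0 := by
  ext u
  cases u <;> split_ifs <;> simp_all

@[simp] theorem X_mul_nil (l : σ) (f : NC σ D) : (X l * f : NC σ D) [] = 0 := by simp
theorem X_mul_cons (l a : σ) (f : NC σ D) (u : List σ) :
    (X l * f : NC σ D) (a :: u) = if a = l then f u else 0 := by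
  rw [mul_cons, sh_X]; split_ifs <;> simp

theorem C_comm_X (d : D) (l : σ) : Commute (C d : NC σ D) (X l) := by
  ext u
  change (C d * X l : NC σ D) u = (X l * C d : NC σ D) u
  rw [C_mul_apply, mul_C_apply, X_apply]; split_ifs <;> simp

/-- the basic recursion `f = f(∅) + ∑ w_l · (shift_l f)` -/
theorem eq_C_add_sum [Fintype σ] (f : NC σ D) : f = C (f []) + ∑ l, X l * sh l f := by
  ext u
  rw [add_apply, sum_apply]
  cases u with
  | nil => simp
  | cons a u => simp [X_mul_cons]
end X

/-- coefficientwise image under a ring hom -/
def map {D' : Type} [Ring D'] (ι : D →+* D') : NC σ D →+* NC σ D' where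
  toFun f := fun u => ι (f u)
  map_one' := by
    ext u
    cases u with
    | nil => exact ι.map_one
    | cons a u => exact ι.map_zero
  map_mul' f g := by
    ext u
    change ι ((f * g) u) = _
    rw [mul_apply, mul_apply, map_sum]
    simp
  map_zero' := by ext u; exact ι.map_zero
  map_add' f g := by ext u; exact ι.map_add _ _

@[simp] theorem map_apply {D' : Type} [Ring D'] (ι : D →+* D') (f : NC σ D) (u : List σ) :
    map ι f u = ι (f u) := rfl

theorem map_C {D' : Type} [Ring D'] (ι : D →+* D') (d : D) :
    map ι (C d : NC σ D) = C (ι d) := by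
  ext u; cases u <;> simp

theorem map_X [DecidableEq σ] {D' : Type} [Ring D'] (ι : D →+* D') (l : σ) :
    map ι (X l : NC σ D) = X l := by
  ext u; simp [X_apply, apply_ite ι]

instance [Nontrivial D] : Nontrivial (NC σ D) := c0.domain_nontrivial

instance [NoZeroDivisors D] : NoZeroDivisors (NC σ D) where
  eq_zero_or_eq_zero_of_mul_eq_zero {f g} h := by
    classical
    by_contra hne
    push Not at hne
    obtain ⟨hf, hg⟩ := hne
    have ef : ∃ n, ∃ u : List σ, u.length = n ∧ f u ≠ 0 := by
      by_contra hc
      push Not at hc
      exact hf (by ext u; exact hc _ u rfl)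
    have eg : ∃ n, ∃ u : List σ, u.length = n ∧ g u ≠ 0 := by
      by_contra hc
      push Not at hc
      exact hg (by ext u; exact hc _ u rfl)
    obtain ⟨u, hu, hfu⟩ := Nat.find_spec ef
    obtain ⟨v, hv, hgv⟩ := Nat.find_spec eg
    have hf' : ∀ w : List σ, w.length < u.length → f w = 0 := fun w hw => by
      by_contra hc
      exact Nat.find_min ef (hu ▸ hw) ⟨w, rfl, hc⟩
    have hg' : ∀ w : List σ, w.length < v.length → g w = 0 := fun w hw => by
      by_contra hc
      exact Nat.find_min eg (hv ▸ hw) ⟨w, rfl, hc⟩
    have h1 : (f * g) (u ++ v) = f u * g v := by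
      rw [mul_apply, Finset.sum_eq_single u.length]
      · simp
      · intro k hk hne
        rcases lt_or_gt_of_ne hne with hlt | hgt
        · rw [hf' _ (by simp; omega), zero_mul]
        · rw [hg' (List.drop k (u ++ v)) (by
            simp only [Finset.mem_range, List.length_append] at hk
            simp; omega), mul_zero]
      · intro hk; exfalso; apply hk; simp
    rw [h, zero_apply] at h1
    exact mul_ne_zero hfu hgv h1.symm

end Ring

section Algebra
variable {K : Type} [CommRing K] [Ring D] [Algebra K D]

instance : Module K (NC σ D) := inferInstanceAs (Module K (List σ → D))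

@[simp] theorem smul_apply (c : K) (f : NC σ D) (u : List σ) : (c • f) u = c • f u := rfl

instance : Algebra K (NC σ D) where
  algebraMap := C.comp (algebraMap K D)
  commutes' c f := by
    ext u
    simp [Algebra.commutes]
  smul_def' c f := by
    ext u
    simp [Algebra.smul_def]

theorem algebraMap_eq (c : K) : algebraMap K (NC σ D) c = C (algebraMap K D c) := rfl

end Algebra

end NC

end Crest.Agent.R180
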