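import Crest.Agent.R180.CSA
import Crest.Agent.R180.Eval

/-! Normal form under conjugation. -/

set_option autoImplicit false

namespace Crest.Agent.R180

open NC

/-- the recursion for the pair `(g u, b u)` -/
noncomputable def NF_gb {σ D : Type} [Ring D] (Y Z : D → D) (f : NC σ D) : List σ → D × D
  | [] => (1, 0)
  | a :: u =>
    let x := ∑ k : Fin (u.length + 1), (NF_gb Y Z f ((a :: u).take k)).1 * f ((a :: u).drop k) -
      ∑ k : Fin u.length, (NF_gb Y Z f ((a :: u).take (k + 1))).2 *
        (NF_gb Y Z f ((a :: u).drop (k + 1))).1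
    (Z x, Y x)
termination_by u => u.length
decreasing_by
  · have := k.2
    simp only [List.length_take, List.length_cons]; omega
  · have := k.2
    simp only [List.length_take, List.length_cons]; omega
  · have := k.2
    simp only [List.length_drop, List.length_cons]; omega

/-- the right-hand side of the recursion -/
noncomputable def NF_x {σ D : Type} [Ring D] (Y Z : D → D) (f : NC σ D) (a : σ) (u : List σ) : D :=
  ∑ k ∈ Finset.range (u.length + 1), (NF_gb Y Z f ((a :: u).take k)).1 * f ((a :: u).drop k) -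
    ∑ k ∈ Finset.range u.length, (NF_gb Y Z f ((a :: u).take (k + 1))).2 *
      (NF_gb Y Z f ((a :: u).drop (k + 1))).1

theorem NF_gb_nil {σ D : Type} [Ring D] (Y Z : D → D) (f : NC σ D) :
    NF_gb Y Z f [] = (1, 0) := by
  rw [NF_gb]

theorem NF_gb_cons {σ D : Type} [Ring D] (Y Z : D → D) (f : NC σ D) (a : σ) (u : List σ) :
    NF_gb Y Z f (a :: u) = (Z (NF_x Y Z f a u), Y (NF_x Y Z f a u)) := by
  rw [NF_gb, NF_x, Finset.sum_range, Finset.sum_range]

/-- a series is conjugate to one whose coefficients commute with the constant term -/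
theorem exists_nf (A : CDA) {σ : Type} (Γ : Subalgebra A.K A.D) (f : NC σ A.D)
    (hf : ∀ u, f u ∈ Γ) : ∃ g b : NC σ A.D, g [] = 1 ∧ (∀ u, g u ∈ Γ) ∧ b [] = 0 ∧
      (∀ u, b u ∈ Γ ∧ Commute (b u) (f [])) ∧ g * f = (C (f []) + b) * g := by
  classical
  have hdec : ∀ x : A.D, ∃ y z : A.D, x ∈ Γ → y ∈ Γ ∧ z ∈ Γ ∧ Commute y (f []) ∧
      x = y + (f [] * z - z * f []) := by
    intro x
    by_cases hx : x ∈ Γ
    · obtain ⟨y, hy, z, hz, h1, h2, -⟩ := A.cent_decomp Γ (hf []) hx
      exact ⟨y, z, fun _ => ⟨hy, hz, h1, h2⟩⟩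
    · exact ⟨0, 0, fun h => absurd h hx⟩
  choose Y Z hYZ using hdec
  have hmem : ∀ n, ∀ u : List σ, u.length < n →
      (NF_gb Y Z f u).1 ∈ Γ ∧ (NF_gb Y Z f u).2 ∈ Γ := by
    intro n
    induction n with
    | zero => intro u hu; omega
    | succ n ih =>
      intro u hu
      cases u with
      | nil => rw [NF_gb_nil]; exact ⟨one_mem _, zero_mem _⟩
      | cons a u =>
        have hx : NF_x Y Z f a u ∈ Γ := by
          simp only [List.length_cons] at hu
          refine sub_mem (sum_mem fun k hk => mul_mem (ih _ ?_).1 (hf _))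
            (sum_mem fun k hk => mul_mem (ih _ ?_).2 (ih _ ?_).1)
          · simp only [Finset.mem_range] at hk
            simp only [List.length_take, List.length_cons]; omega
          · simp only [Finset.mem_range] at hk
            simp only [List.length_take, List.length_cons]; omega
          · simp only [Finset.mem_range] at hk
            simp only [List.length_drop, List.length_cons]; omega
        rw [NF_gb_cons]
        exact ⟨(hYZ _ hx).2.1, (hYZ _ hx).1⟩
  have hmem' : ∀ u : List σ, (NF_gb Y Z f u).1 ∈ Γ ∧ (NF_gb Y Z f u).2 ∈ Γ :=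
    fun u => hmem _ u (Nat.lt_succ_self _)
  have hx : ∀ a u, NF_x Y Z f a u ∈ Γ := fun a u =>
    sub_mem (sum_mem fun k _ => mul_mem (hmem' _).1 (hf _))
      (sum_mem fun k _ => mul_mem (hmem' _).2 (hmem' _).1)
  let g : NC σ A.D := fun u => (NF_gb Y Z f u).1
  let b : NC σ A.D := fun u => (NF_gb Y Z f u).2
  have hg : ∀ u, g u = (NF_gb Y Z f u).1 := fun _ => rfl
  have hb : ∀ u, b u = (NF_gb Y Z f u).2 := fun _ => rfl
  have g0 : g [] = 1 := by rw [hg, NF_gb_nil]
  have b0 : b [] = 0 := by rw [hb, NF_gb_nil]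
  refine ⟨g, b, g0, fun u => (hmem' u).1, b0, fun u => ⟨(hmem' u).2, ?_⟩, ?_⟩
  · cases u with
    | nil => rw [b0]; exact Commute.zero_left _
    | cons a u => rw [hb, NF_gb_cons]; exact (hYZ _ (hx a u)).2.2.1
  · ext u
    cases u with
    | nil => simp [g0, b0]
    | cons a u =>
      have key := (hYZ _ (hx a u)).2.2.2
      have e1 : g (a :: u) = Z (NF_x Y Z f a u) := by rw [hg, NF_gb_cons]
      have e2 : b (a :: u) = Y (NF_x Y Z f a u) := by rw [hb, NF_gb_cons]
      rw [← e1, ← e2, NF_x] at key
      simp only [← hg, ← hb] at key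
      rw [add_mul, NC.add_apply, C_mul_apply, NC.mul_apply, NC.mul_apply, List.length_cons,
        Finset.sum_range_succ, Finset.sum_range_succ (fun k => b _ * g _),
        Finset.sum_range_succ' (fun k => b _ * g _)]
      have t1 : (a :: u).take (u.length + 1) = a :: u := by simp
      have t2 : (a :: u).drop (u.length + 1) = [] := by simp
      rw [t1, t2, g0, List.take_zero, b0, zero_mul, add_zero, mul_one]
      rw [sub_eq_iff_eq_add] at key
      rw [key]
      abel

end Crest.Agent.R180
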