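import Crest.Agent.R180.T2Aux

/-! After one test move the forms `Q_γ` are very nondegenerate (Kirillov–Kostant term). -/

set_option autoImplicit false

namespace Crest.Agent.R180

open NC Module

/-- reduction of the linear part in an integral direction -/
theorem T2_lin {S : St} {T : Tri S} {A0 A' : CDA} {X : Ext S.A A0} {L : Lau A0 A'}
    {W : Fin S.M → A'.D} {T0 : Submodule A0.K (Fin S.M → A0.D)} {M' : ℕ} {hM' : 2 ≤ M'}
    {T' : Tri ⟨A', M', hM'⟩} (mv : Mv T X L W T0 T') (h : Fin M' → A'.K)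
    (hx : ∀ l, ∑ s, h s • L.ι (mv.τb s l) ∈ L.O) :
    (∑ s, h s • mv.φ T.b [s]) ∈ L.O ∧ L.red (∑ s, h s • mv.φ T.b [s]) =
      ∑ l, X.ι (T.b [l]) * L.red (∑ s, h s • L.ι (mv.τb s l)) := by
  have hh := L.coord_mem_O mv.τb_li hx
  have hO : ∑ l, L.ι (X.ι (T.b [l])) * ∑ s, h s • L.ι (mv.τb s l) ∈ L.O :=
    sum_mem fun l _ => mul_mem (L.ι_mem _) (hx l)
  have hd : (∑ s, h s • mv.φ T.b [s]) -
      ∑ l, L.ι (X.ι (T.b [l])) * ∑ s, h s • L.ι (mv.τb s l) ∈ L.filt.F 1 := by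
    have e : (∑ s, h s • mv.φ T.b [s]) -
        ∑ l, L.ι (X.ι (T.b [l])) * ∑ s, h s • L.ι (mv.τb s l) =
        ∑ s, h s • (mv.φ T.b [s] - ∑ l, L.ι (X.ι (T.b [l]) * mv.τb s l)) := by
      simp only [smul_sub, Finset.sum_sub_distrib, Finset.mul_sum, Finset.smul_sum, map_mul,
        mul_smul_comm]
      rw [Finset.sum_comm]
    rw [e]
    exact sum_mem fun s _ => L.smul_mem_filt (hh s) (mv.φb_singleton le_rfl mv.W_mem s)
  obtain ⟨h1, h2⟩ := L.red_eq_of_sub_mem hO hd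
  refine ⟨h1, ?_⟩
  rw [h2, L.red_sum _ fun l _ => mul_mem (L.ι_mem _) (hx l)]
  exact Finset.sum_congr rfl fun l _ => by rw [L.red_mul (L.ι_mem _) (hx l), L.red_ι]

/-- the gauge parameter `z` has a pole of order at most `β` -/
theorem T2_z {S : St} {T : Tri S} {A0 A' : CDA} {n : ℕ} {R : Tor S.A A0 n} (hn : n.Prime)
    {L : Lau A0 A'} {W : Fin S.M → A'.D} {T0 : Submodule A0.K (Fin S.M → A0.D)} {β : ℕ}
    (c : Core T R L W T0 β) {h : Fin c.M' → A'.K} (hh : h ∈ c.T'.H)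
    (hy : (∑ s, h s • c.mv.φ T.b [s]) ∈ L.O) :
    ∃ z ∈ L.liftA (R.toExt.big T.Γ),
      c.mv.φ T.b [] * z - z * c.mv.φ T.b [] = ∑ s, h s • c.mv.φ T.b [s] ∧
      L.t ^ β • z ∈ L.O ∧
      R.i * L.red (L.t ^ β • z) - L.red (L.t ^ β • z) * R.i =
        L.red (∑ s, h s • c.mv.φ T.b [s]) := by
  obtain ⟨z, hz, hzc, hzp⟩ := c.mv.exists_z hh
  have e : c.bh * (L.t ^ β • z) - (L.t ^ β • z) * c.bh = ∑ s, h s • c.mv.φ T.b [s] := by
    rw [← hzc, c.c0_eq, mul_smul_comm, smul_mul_assoc, mul_smul_comm, smul_mul_assoc]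
  have hO : L.t ^ β • z ∈ L.O := by
    by_cases h0 : L.t ^ β • z = 0
    · rw [h0]; exact zero_mem _
    obtain ⟨m, hm, hr⟩ := L.exists_normalize h0
    rcases le_or_gt m 0 with hm0 | hm0
    · obtain ⟨k, rfl⟩ : ∃ k : ℕ, m = -k := ⟨(-m).toNat, by omega⟩
      have := T2_tpow_smul_mem L k hm
      rwa [smul_smul, zpow_neg, zpow_natCast, mul_inv_cancel₀ (pow_ne_zero k L.t_ne),
        one_smul] at this
    · exfalso
      obtain ⟨k, rfl⟩ : ∃ k : ℕ, m = k := ⟨m.toNat, by omega⟩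
      rw [zpow_natCast] at hm hr
      set z1 := L.t ^ k • L.t ^ β • z with hz1
      have hz1Λ : z1 ∈ L.liftA (R.toExt.big T.Γ) :=
        Subalgebra.smul_mem _ (Subalgebra.smul_mem _ hz _) _
      have e1 : c.bh * z1 - z1 * c.bh = L.t ^ k • ∑ s, h s • c.mv.φ T.b [s] := by
        rw [← e, hz1, mul_smul_comm (L.t ^ k), smul_mul_assoc (L.t ^ k), smul_sub]
      have e2 := congrArg L.red e1
      rw [T2_red_tpow_smul L (by omega) hy, L.red_sub (mul_mem c.bh_O hm) (mul_mem hm c.bh_O),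
        L.red_mul c.bh_O hm, L.red_mul hm c.bh_O, c.bh_red, sub_eq_zero] at e2
      have h1 := R.mem_dg_of_commute hn (L.red_mem_of_mem_liftA hz1Λ hm) e2.symm
      rw [← c.redΓ] at h1
      obtain ⟨w, hw, hwO, hwr⟩ := h1
      have hw0 : L.red w ≠ 0 := hwr ▸ hr
      obtain ⟨i1, i2⟩ := L.inv_mem_O hwO hw0
      have hwi : w⁻¹ ∈ c.T'.Γ := CDA.inv_mem A' c.T'.Γ hw
      have t1 : A'.τ (w⁻¹ * z1) = 0 := by
        rw [hz1, mul_smul_comm, mul_smul_comm, map_smul, map_smul, hzp _ hwi, smul_zero, smul_zero]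
      have t2 := L.τ_red_eq_zero (mul_mem i1 hm) t1
      rw [L.red_mul i1 hm, i2, hwr, inv_mul_cancel₀ hr, A0.τ_one] at t2
      exact one_ne_zero t2
  refine ⟨z, hz, hzc, hO, ?_⟩
  rw [← e, L.red_sub (mul_mem c.bh_O hO) (mul_mem hO c.bh_O), L.red_mul c.bh_O hO,
    L.red_mul hO c.bh_O, c.bh_red]

theorem T2_mul_ι_mem_dg0 {A A0 : CDA} {n : ℕ} (R : Tor A A0 n) {X : Submodule A.K A.D}
    {x : A0.D} (hx : x ∈ R.dg0 X) (e : A.D) : x * R.ι e ∈ R.dg0 ⊤ := by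
  induction hx using Submodule.span_induction with
  | mem y hy =>
    obtain ⟨d, -, rfl⟩ := hy
    exact Submodule.subset_span ⟨d * e, trivial, map_mul _ _ _⟩
  | zero => rw [zero_mul]; exact zero_mem _
  | add a b _ _ ha hb => rw [add_mul]; exact add_mem ha hb
  | smul a b _ hb => rw [smul_mul_assoc]; exact Submodule.smul_mem _ _ hb

/-- the leading term of the quadratic form is the Kirillov–Kostant term -/
theorem T2_kks {A A0 : CDA} {n : ℕ} (R : Tor A A0 n) {X : Submodule A.K A.D} {c0 : A0.D}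
    (hc0 : c0 ∈ R.dg0 X) (v v' : A.D) {g g' r : A0.D} (hg : g ∈ R.Λ) (hg' : g' ∈ R.Λ)
    (hr : R.i * r - r * R.i = R.ι v * (R.i * g - g * R.i)) :
    A0.τ (c0 * r * (R.ι v' * (R.i * g' - g' * R.i))) =
      A0.τ (c0 * R.ι (v * v')) * A0.τ (g * (R.i * g' - g' * R.i)) := by
  have hv : Commute (R.ι v) R.i := R.comm v _ R.i_mem
  have hv' : Commute (R.ι v') R.i := R.comm v' _ R.i_mem
  have hvg : Commute (R.ι v') g := R.comm v' _ hg
  have hc : Commute c0 R.i := R.commute_of_mem_dg (R.dg0_le_dg X hc0)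
  have hρ : Commute (r - R.ι v * g) R.i := by
    have : (r - R.ι v * g) * R.i - R.i * (r - R.ι v * g) =
        R.ι v * (R.i * g - g * R.i) - (R.i * r - r * R.i) + (R.i * R.ι v - R.ι v * R.i) * g := by
      noncomm_ring
    rw [hr, sub_self, zero_add, hv.eq, sub_self, zero_mul, sub_eq_zero] at this
    exact this
  have hu : Commute (c0 * (r - R.ι v * g) * R.ι v') R.i := (hc.mul_left hρ).mul_left hv'
  have e1 : A0.τ (c0 * (r - R.ι v * g) * R.ι v' * (R.i * g' - g' * R.i)) = 0 := by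
    rw [mul_sub, map_sub, ← mul_assoc, ← mul_assoc, A0.τ_mul_comm _ R.i, ← mul_assoc, hu.eq,
      sub_self]
  have e2 : c0 * r * (R.ι v' * (R.i * g' - g' * R.i)) =
      c0 * (r - R.ι v * g) * R.ι v' * (R.i * g' - g' * R.i) +
        c0 * R.ι (v * v') * (g * (R.i * g' - g' * R.i)) := by
    have : c0 * R.ι (v * v') * (g * (R.i * g' - g' * R.i)) =
        c0 * (R.ι v * g) * R.ι v' * (R.i * g' - g' * R.i) := by
      rw [map_mul]
      simp only [mul_assoc]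
      rw [← mul_assoc (R.ι v') g, hvg.eq, mul_assoc]
    rw [this]
    noncomm_ring
  rw [e2, map_add, e1, zero_add]
  exact R.τ_mul_of_mem_dg0 (T2_mul_ι_mem_dg0 R hc0 _)
    (mul_mem hg (sub_mem (mul_mem R.i_mem hg') (mul_mem hg' R.i_mem)))

/-- two directions `h₊, h₋` vanishing at `l0` on which `c0` pairs nontrivially -/
theorem T2_pair {S : St} {T : Tri S} (hT : T.C3) {t0 : Fin S.M → S.A.K} (ht0 : T.b1 t0 = 1)
    {l0 : Fin S.M} (h0 : t0 l0 ≠ 0) {A0 : CDA} {n : ℕ} (R : Tor S.A A0 n) {c0 : A0.D}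
    (hc0 : c0 ∈ R.dg0 (Subalgebra.toSubmodule T.E')) (hne : c0 ≠ 0)
    (hV : ∀ v ∈ T.V, A0.τ (c0 * R.ι v) = 0) :
    ∃ hp hm : Fin S.M → S.A.K, hp l0 = 0 ∧ hm l0 = 0 ∧
      A0.τ (c0 * R.ι (T.b1 hp * T.b1 hm)) ≠ 0 := by
  obtain ⟨e, he, hτ⟩ := R.exists_τ_ne_zero_of_mem_dg0 hc0 hne
  by_contra hcon
  push Not at hcon
  apply hτ
  have he' : e ∈ T.V * T.V := by rw [hT.2]; exact he
  refine Submodule.mul_induction_on he' ?_ ?_
  · rintro _ ⟨a, rfl⟩ _ ⟨b, rfl⟩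
    have ha : T.b1 a = T.b1 (a - (a l0 / t0 l0) • t0) + (a l0 / t0 l0) • (1 : S.A.D) := by
      rw [map_sub, map_smul, ht0, sub_add_cancel]
    have hb : T.b1 b = T.b1 (b - (b l0 / t0 l0) • t0) + (b l0 / t0 l0) • (1 : S.A.D) := by
      rw [map_sub, map_smul, ht0, sub_add_cancel]
    have h1 := hcon (a - (a l0 / t0 l0) • t0) (b - (b l0 / t0 l0) • t0)
      (by simp [div_mul_cancel₀ _ h0]) (by simp [div_mul_cancel₀ _ h0])
    have h2 : T.b1 a * T.b1 b = T.b1 (a - (a l0 / t0 l0) • t0) * T.b1 (b - (b l0 / t0 l0) • t0) +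
        ((b l0 / t0 l0) • T.b1 (a - (a l0 / t0 l0) • t0) + (a l0 / t0 l0) • T.b1 b) := by
      conv_lhs => rw [ha, add_mul, smul_mul_assoc, one_mul]
      conv_lhs => enter [1]; rw [hb, mul_add, mul_smul_comm, mul_one]
      rw [add_assoc]
    rw [h2, map_add, mul_add, map_add, h1, zero_add]
    exact hV _ (add_mem (T.V.smul_mem _ ⟨_, rfl⟩) (T.V.smul_mem _ ⟨_, rfl⟩))
  · intro x y hx hy
    rw [map_add, mul_add, map_add, hx, hy, add_zero]

/-- the direction `l ↦ κ(h l) • [i, g]` -/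
noncomputable def T2_dir {A A0 : CDA} {n : ℕ} (R : Tor A A0 n) {J : Type} (h : J → A.K) :
    A0.D →ₗ[A0.K] (J → A0.D) :=
  LinearMap.pi fun l => R.κ (h l) • (LinearMap.mulLeft A0.K R.i - LinearMap.mulRight A0.K R.i)

theorem T2_dir_apply {A A0 : CDA} {n : ℕ} (R : Tor A A0 n) {J : Type} (h : J → A.K) (g : A0.D)
    (l : J) : T2_dir R h g l = R.κ (h l) • (R.i * g - g * R.i) := rfl

/-- the map `h ↦ ∑ h_s τ_s` -/
noncomputable def T2_Θ {A0 A' : CDA} (L : Lau A0 A') {I J : Type} [Fintype I]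
    (τ : I → J → A0.D) : (I → A'.K) →ₗ[A'.K] (J → A'.D) :=
  Fintype.linearCombination A'.K fun s l => L.ι (τ s l)

theorem T2_Θ_apply {A0 A' : CDA} (L : Lau A0 A') {I J : Type} [Fintype I]
    (τ : I → J → A0.D) (h : I → A'.K) (l : J) : T2_Θ L τ h l = ∑ s, h s • L.ι (τ s l) := by
  simp [T2_Θ, Fintype.linearCombination_apply]

theorem T2_main {S : St} {T : Tri S} (hT : T.C4) {t0 : Fin S.M → S.A.K} (ht0 : T.b1 t0 = 1)
    {l0 : Fin S.M} (h0 : t0 l0 ≠ 0) {A0 A' : CDA} {n : ℕ} {R : Tor S.A A0 n} (hn : n.Prime)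
    (hbig : 2 * finrank S.A.K T.E' + 4 * T.k + 4 ≤ n)
    {L : Lau A0 A'} {W : Fin S.M → A'.D} {T0 : Submodule A0.K (Fin S.M → A0.D)} {β : ℕ}
    (hβ : 1 ≤ β) (c : Core T R L W T0 β) (hT0 : n ^ 2 + 1 ≤ finrank A0.K T0)
    (hP0 : finrank A0.K (R.toExt.piΛ (Fin S.M) ⊓
        LinearMap.ker (LinearMap.proj l0 : (Fin S.M → A0.D) →ₗ[A0.K] A0.D) :
          Submodule A0.K (Fin S.M → A0.D)) ≤
        finrank A0.K ((R.toExt.piΛ (Fin S.M) ⊓
          LinearMap.ker (LinearMap.proj l0 : (Fin S.M → A0.D) →ₗ[A0.K] A0.D)) ⊓ T0 :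
            Submodule A0.K (Fin S.M → A0.D)) + n) : c.T''.Nondeg := by
  obtain ⟨-, hk, hredV⟩ := c.c4 hn hT
  obtain ⟨-, -, hredE⟩ := c.c2 hn hT.1.1
  set ε := finrank S.A.K T.E' with hε
  have hH : c.T''.H = c.T'.H := c.T'.norm_H c.θ_inv c.θ_ne
  -- dimension of `H''`
  have hdimH : c.M' ≤ finrank A'.K c.T'.H + n * ε := by
    have a1 := c.T'.b1.finrank_range_add_finrank_ker
    have a2 : finrank A'.K (Fin c.M' → A'.K) = c.M' := by simp
    have a3 : finrank A0.K (L.redS c.T'.V) = finrank A'.K c.T'.V := L.finrank_redS c.T'.V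
    have a4 : L.redS c.T'.V ≤ R.dg (Subalgebra.toSubmodule T.E') := by
      rw [hredV]
      exact sup_le ((R.dg0_le_dg _).trans (R.dg_mono T.V_le_E')) (R.dg1_le_dg _)
    have a5 := Submodule.finrank_mono a4
    rw [R.finrank_dg hn] at a5
    have a6 : finrank A'.K c.T'.V + finrank A'.K c.T'.H = c.M' := a1.trans a2
    have a7 : finrank S.A.K (Subalgebra.toSubmodule T.E') = ε := rfl
    rw [a7, a3] at a5
    omega
  have hM' := c.mv.finrank_T0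
  have hnn : (2 * ε + 4 * T.k + 4) * n ≤ n ^ 2 := by
    rw [pow_two]; exact Nat.mul_le_mul_right _ hbig
  have hn1 : 1 ≤ n := hn.one_le
  refine ⟨?_, ?_⟩
  · rw [hH]
    change 2 ≤ finrank A'.K c.T'.H
    nlinarith
  intro γ hγ hγ0 H' hH' hdim
  rw [hH] at hH' hdim
  rw [hk] at hdim
  change finrank A'.K c.T'.H ≤ finrank A'.K H' + 2 * T.k at hdim
  -- normalise `γ`
  obtain ⟨m, hmO, hmr⟩ := L.exists_normalize (x := γ) hγ0
  have hθr : L.red c.θ ≠ 0 := by rw [c.θ_red]; exact one_ne_zero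
  obtain ⟨hθO, hθred⟩ := L.inv_mem_O c.θ_O hθr
  rw [c.θ_red, inv_one] at hθred
  set c0 := L.red (L.t ^ m • γ) with hc0
  set c1 : A'.D := (L.t ^ m • γ) * c.θ⁻¹ with hc1
  have hc1O : c1 ∈ L.O := mul_mem hmO hθO
  have hc1r : L.red c1 = c0 := by rw [hc1, L.red_mul hmO hθO, hθred, mul_one]
  have hE'Γ : c.T''.E' ≤ c.T''.Γ := Algebra.adjoin_le c.T''.V_le_Γ
  have hc1Γ : c1 ∈ c.T'.Γ :=
    mul_mem (Subalgebra.smul_mem c.T'.Γ (hE'Γ hγ.1) (L.t ^ m : A'.K)) c.θ_inv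
  have hc1V : ∀ v ∈ c.T'.V, A'.τ (c1 * v) = 0 := by
    intro v hv
    have := hγ.2 (c.θ⁻¹ * v) ((c.T'.mem_norm_V c.θ_inv).2 ⟨v, hv, rfl⟩)
    change A'.τ (γ * (c.θ⁻¹ * v)) = 0 at this
    rw [hc1, mul_assoc, smul_mul_assoc, map_smul, this, smul_zero]
  have hc0E : c0 ∈ R.dg (Subalgebra.toSubmodule T.E') := by
    rw [← hredE]
    exact ⟨_, Subalgebra.smul_mem c.T''.E' hγ.1 (L.t ^ m : A'.K), hmO, rfl⟩
  have hc0p : ∀ x ∈ L.redS c.T'.V, A0.τ (c0 * x) = 0 := by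
    rintro _ ⟨x, hx, hxO, rfl⟩
    have := L.τ_red_eq_zero (mul_mem hc1O hxO) (hc1V x hx)
    rwa [L.red_mul hc1O hxO, hc1r] at this
  rw [hredV] at hc0p
  have hc0d : c0 ∈ R.dg0 (Subalgebra.toSubmodule T.E') :=
    R.mem_dg0_of_perp hn hc0E fun x hx => hc0p x (Submodule.mem_sup_right hx)
  obtain ⟨hp, hm, hp0, hm0, hτ⟩ := T2_pair hT.1 ht0 h0 R hc0d hmr fun v hv =>
    hc0p _ (Submodule.mem_sup_left (Submodule.subset_span ⟨v, hv, rfl⟩))
  -- the space `Y`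
  set Y := L.redP (Submodule.map (T2_Θ L c.mv.τb) H') with hY
  have hΘinj : Function.Injective (T2_Θ L c.mv.τb) :=
    (L.li_lift c.mv.τb_li).fintypeLinearCombination_injective
  have hYdim : finrank A0.K Y = finrank A'.K H' := by
    rw [hY, L.finrank_redP]
    exact (Submodule.equivMapOfInjective _ hΘinj H').finrank_eq.symm
  have hYT0 : Y ≤ T0 := by
    refine le_of_le_of_eq (L.redP_mono ?_) (L.redP_liftP T0)
    rintro _ ⟨h, -, rfl⟩
    rw [T2_Θ, Fintype.linearCombination_apply]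
    refine Submodule.sum_mem _ fun s _ => Submodule.smul_mem _ _ (Submodule.subset_span ?_)
    exact ⟨c.mv.τb s, c.mv.τb_span.le (Submodule.subset_span ⟨s, rfl⟩), rfl⟩
  set P0 : Submodule A0.K (Fin S.M → A0.D) := R.toExt.piΛ (Fin S.M) ⊓
    LinearMap.ker (LinearMap.proj l0 : (Fin S.M → A0.D) →ₗ[A0.K] A0.D) with hP0def
  have hYP : finrank A0.K P0 ≤ finrank A0.K (Y ⊓ P0 : Submodule A0.K (Fin S.M → A0.D)) +
      (n + n * ε + 2 * T.k) := by
    have a1 := T2_inf_dim hYT0 (inf_le_right : P0 ⊓ T0 ≤ T0)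
    have a2 := Submodule.finrank_mono (inf_le_inf_left Y (inf_le_left : P0 ⊓ T0 ≤ P0))
    omega
  have hdir : ∀ h : Fin S.M → S.A.K, h l0 = 0 →
      (Subalgebra.toSubmodule R.Λ).map (T2_dir R h) ≤ P0 := by
    rintro h hl _ ⟨g, hg, rfl⟩
    refine ⟨fun l _ => ?_, ?_⟩
    · exact Subalgebra.smul_mem R.Λ (sub_mem (mul_mem R.i_mem hg) (mul_mem hg R.i_mem)) _
    · change T2_dir R h g l0 = 0
      rw [T2_dir_apply, hl, map_zero, zero_smul]
  have hΛ : finrank A0.K (Subalgebra.toSubmodule R.Λ) = n ^ 2 := R.finrank_Λ hn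
  have hGp := T2_comap_dim _ _ (hdir hp hp0) hYP
  have hGm := T2_comap_dim _ _ (hdir hm hm0) hYP
  rw [hΛ] at hGp hGm
  obtain ⟨g, ⟨hgΛ, hg⟩, g', ⟨hg'Λ, hg'⟩, hkks⟩ :=
    R.exists_kks hn inf_le_left inf_le_left hGp hGm (by nlinarith)
  obtain ⟨_, ⟨h, hh, rfl⟩, hxO, hxr⟩ := hg
  obtain ⟨_, ⟨h', hh', rfl⟩, hxO', hxr'⟩ := hg'
  simp only [T2_Θ_apply, T2_dir_apply] at hxO hxr hxO' hxr'
  have hred : ∀ (k : Fin S.M → S.A.K) (u : A0.D),
      ∑ l, R.ι (T.b [l]) * R.κ (k l) • u = R.ι (T.b1 k) * u := by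
    intro k u
    rw [T.b1_apply, map_sum, Finset.sum_mul]
    exact Finset.sum_congr rfl fun l _ => by
      rw [R.toExt.ι_smul, smul_mul_assoc, mul_smul_comm]
  obtain ⟨hyO, hyr⟩ := T2_lin c.mv h hxO
  obtain ⟨hyO', hyr'⟩ := T2_lin c.mv h' hxO'
  simp only [hxr] at hyr
  simp only [hxr'] at hyr'
  rw [hred] at hyr hyr'
  obtain ⟨z, hz, hzc, hzO, hzr⟩ := T2_z hn c (hH' hh) hyO
  rw [hyr] at hzr
  refine ⟨h, hh, h', hh', fun hzero => ?_⟩
  have hb2 : A'.τ (c1 * c.T'.b2 h h') = 0 := by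
    have e := c.T'.norm_b2 c.θ_inv h h'
    change c.T''.b2 h h' = _ at e
    rw [e] at hzero
    change A'.τ (γ * (c.θ⁻¹ * c.T'.b2 h h')) = 0 at hzero
    rw [hc1, mul_assoc, smul_mul_assoc, map_smul, hzero, smul_zero]
  rw [c.mv.quad hc1Γ (hH' hh') (hH' hh) hz hzc] at hb2
  have hh1 := L.coord_mem_O c.mv.τb_li hxO
  have hh2 := L.coord_mem_O c.mv.τb_li hxO'
  have hQO : ∑ s, ∑ s', (h s * h' s') • c.mv.φ T.b [s, s'] ∈ L.O := by
    refine sum_mem fun s _ => sum_mem fun s' _ => L.smul_mem ?_ ?_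
    · rw [map_mul]; exact mul_mem (hh1 s) (hh2 s')
    · exact L.mem_O_of_mem_filt (c.mv.φ_bdd T.b [s, s'])
  have hu1 := T2_tpow_smul_mem L β (mul_mem hc1O hQO)
  have hu2 := mul_mem (mul_mem hc1O hzO) hyO'
  have hτu : A'.τ (L.t ^ β • (c1 * ∑ s, ∑ s', (h s * h' s') • c.mv.φ T.b [s, s']) +
      c1 * (L.t ^ β • z) * ∑ s, h' s • c.mv.φ T.b [s]) = 0 := by
    rw [mul_smul_comm, smul_mul_assoc, ← smul_add, map_smul, map_add, hb2, smul_zero]
  have hfin := L.τ_red_eq_zero (add_mem hu1 hu2) hτu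
  rw [L.red_add hu1 hu2, T2_red_tpow_smul L hβ (mul_mem hc1O hQO), zero_add,
    L.red_mul (mul_mem hc1O hzO) hyO', L.red_mul hc1O hzO, hc1r, hyr',
    T2_kks R hc0d _ _ hgΛ hg'Λ hzr] at hfin
  exact mul_ne_zero hτ hkks hfin

theorem exists_nondeg {S : St} {T : Tri S} (hT : T.C4) :
    ∃ (S' : St) (T' : Tri S'), Desc T.b T'.b ∧ T'.C4 ∧ T'.Nondeg := by
  have hC1 : T.C1 := hT.1.1.1
  obtain ⟨t0, ht0⟩ : ∃ t0, T.b1 t0 = 1 := hC1.1
  obtain ⟨l0, h0⟩ : ∃ l0, t0 l0 ≠ 0 := by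
    by_contra hcon
    push Not at hcon
    have : t0 = 0 := funext hcon
    rw [this, map_zero] at ht0
    exact zero_ne_one ht0
  obtain ⟨n, hnle, hn⟩ :=
    Nat.exists_infinite_primes (S.M + 1 + (2 * finrank S.A.K T.E' + 4 * T.k + 4))
  obtain ⟨A0, ⟨R⟩⟩ := exists_tor S.A hn
  obtain ⟨A', ⟨L⟩⟩ := exists_lau A0
  obtain ⟨T0, h1, h2, h3, h4, h5⟩ := T2_slice R hn L S.hM h0
  obtain ⟨c⟩ := exists_core0 hC1 ht0 R hn (by omega) L T0 h1 h2 h3
  exact ⟨_, c.T'', c.desc, (c.c4 hn hT).1,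
    T2_main hT ht0 h0 hn (by omega) (by norm_num) c h4 h5⟩

end Crest.Agent.R180
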