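import Crest.Agent.R180.Core2

/-! Helpers for `T2.lean`: linear algebra and the choice of the slice. -/

set_option autoImplicit false

namespace Crest.Agent.R180

open NC Module

section LA
variable {K U Z : Type} [Field K] [AddCommGroup U] [Module K U] [AddCommGroup Z] [Module K Z]

theorem T2_rank_null [FiniteDimensional K U] (f : U →ₗ[K] Z) (P : Submodule K U) :
    finrank K (P.map f) + finrank K (P ⊓ LinearMap.ker f : Submodule K U) = finrank K P := by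
  have h := (f.domRestrict P).finrank_range_add_finrank_ker
  rw [LinearMap.range_domRestrict, LinearMap.ker_domRestrict] at h
  rw [← h]
  congr 1
  rw [← Submodule.finrank_map_subtype_eq P, Submodule.map_comap_subtype]

theorem T2_inf_dim [FiniteDimensional K Z] {T Y Q : Submodule K Z} (hY : Y ≤ T) (hQ : Q ≤ T) :
    finrank K Y + finrank K Q ≤ finrank K (Y ⊓ Q : Submodule K Z) + finrank K T := by
  have h1 := Submodule.finrank_sup_add_finrank_inf_eq Y Q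
  have h2 := Submodule.finrank_mono (sup_le hY hQ)
  omega

theorem T2_comap_dim [FiniteDimensional K U] [FiniteDimensional K Z] (f : U →ₗ[K] Z)
    (Λ : Submodule K U) {P Y : Submodule K Z} (hP : Λ.map f ≤ P) {c : ℕ}
    (hc : finrank K P ≤ finrank K (Y ⊓ P : Submodule K Z) + c) :
    finrank K Λ ≤ finrank K (Λ ⊓ Y.comap f : Submodule K U) + c := by
  have h1 := T2_rank_null (Y.mkQ ∘ₗ f) Λ
  rw [LinearMap.ker_comp, Submodule.ker_mkQ, Submodule.map_comp] at h1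
  have h2 := T2_rank_null Y.mkQ P
  rw [Submodule.ker_mkQ, inf_comm] at h2
  have h3 := Submodule.finrank_mono (Submodule.map_mono (f := Y.mkQ) hP)
  omega

theorem T2_compl {G P : Submodule K Z} (h : G ≤ P) :
    ∃ Q : Submodule K Z, Q ≤ P ∧ Disjoint Q G ∧ P ≤ Q ⊔ G := by
  obtain ⟨q, hq⟩ := G.exists_isCompl
  refine ⟨q ⊓ P, inf_le_right, hq.disjoint.symm.mono_left inf_le_left, fun x hx => ?_⟩
  have : x ∈ G ⊔ q := by rw [hq.sup_eq_top]; trivial
  obtain ⟨y, hy, z, hz, rfl⟩ := Submodule.mem_sup.1 this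
  have hzP : z ∈ P := by simpa using P.sub_mem hx (h hy)
  rw [add_comm]
  exact Submodule.add_mem_sup ⟨hz, hzP⟩ hy

theorem T2_slice_LA [FiniteDimensional K Z] {G P0 P : Submodule K Z} (hG : G ≤ P) (h0 : P0 ≤ P) :
    ∃ T0 : Submodule K Z, T0 ≤ P ∧ Disjoint T0 G ∧ P ≤ T0 ⊔ G ∧
      finrank K P0 ≤ finrank K (P0 ⊓ T0 : Submodule K Z) + finrank K (G ⊓ P0 : Submodule K Z) := by
  obtain ⟨T1, h1, h2, h3⟩ := T2_compl (inf_le_right : G ⊓ P0 ≤ P0)
  obtain ⟨Q, q1, q2, q3⟩ := T2_compl (sup_le (h1.trans h0) hG : T1 ⊔ G ≤ P)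
  have hT1G : Disjoint T1 G := by
    rw [Submodule.disjoint_def] at h2 ⊢
    exact fun x hx hxG => h2 x hx ⟨hxG, h1 hx⟩
  refine ⟨T1 ⊔ Q, sup_le (h1.trans h0) q1, ?_, ?_, ?_⟩
  · rw [Submodule.disjoint_def] at q2 hT1G ⊢
    intro x hx hxG
    obtain ⟨y, hy, z, hz, rfl⟩ := Submodule.mem_sup.1 hx
    have hz0 : z = 0 := q2 z hz (by
      have : z = -y + (y + z) := by abel
      rw [this]
      exact Submodule.add_mem_sup (T1.neg_mem hy) hxG)
    rw [hz0, add_zero] at hxG ⊢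
    exact hT1G y hy hxG
  · refine q3.trans (sup_le (le_sup_right.trans le_sup_left) ?_)
    exact sup_le (le_sup_left.trans le_sup_left) le_sup_right
  · have a1 := Submodule.finrank_mono h3
    have a2 := Submodule.finrank_add_le_finrank_add_finrank T1 (G ⊓ P0)
    have a3 := Submodule.finrank_mono (le_inf h1 le_sup_left : T1 ≤ P0 ⊓ (T1 ⊔ Q))
    omega

end LA

section Red
variable {A0 A : CDA} (L : Lau A0 A)

theorem T2_t_smul_mem {x : A.D} (hx : x ∈ L.O) : L.t • x ∈ L.O := L.smul_mem L.t_mem hx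

theorem T2_red_t_smul {x : A.D} (hx : x ∈ L.O) : L.red (L.t • x) = 0 :=
  (L.red_eq_zero (T2_t_smul_mem L hx)).2 ⟨x, hx, rfl⟩

theorem T2_tpow_smul_mem (N : ℕ) {x : A.D} (hx : x ∈ L.O) : L.t ^ N • x ∈ L.O :=
  L.smul_mem (L.tpow_mem N) hx

theorem T2_red_tpow_smul {N : ℕ} (hN : 1 ≤ N) {x : A.D} (hx : x ∈ L.O) :
    L.red (L.t ^ N • x) = 0 := by
  obtain ⟨N, rfl⟩ := Nat.exists_eq_add_of_le' hN
  rw [pow_succ', mul_smul]
  exact T2_red_t_smul L (T2_tpow_smul_mem L N hx)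

theorem T2_ι_smul (c : A0.K) (d : A0.D) : L.ι (c • d) = L.κ c • L.ι d := by
  rw [Algebra.smul_def, map_mul, L.compat, Algebra.smul_def]

end Red

/-- the gauge directions vanishing at `l0` have small dimension -/
theorem T2_gauge_dim {A A0 A' : CDA} {n : ℕ} (R : Tor A A0 n) (hn : n.Prime) (L : Lau A0 A')
    {M : ℕ} {t0 : Fin M → A.K} {l0 : Fin M} (h0 : t0 l0 ≠ 0) :
    finrank A0.K (L.redP (gauge R.toExt L (R.pt L t0 2)) ⊓
      LinearMap.ker (LinearMap.proj l0 : (Fin M → A0.D) →ₗ[A0.K] A0.D) :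
        Submodule A0.K (Fin M → A0.D)) ≤ n := by
  have h1 := T2_rank_null (LinearMap.proj l0 : (Fin M → A0.D) →ₗ[A0.K] A0.D)
    (L.redP (gauge R.toExt L (R.pt L t0 2)))
  have h2 := L.finrank_redP (gauge R.toExt L (R.pt L t0 2))
  have h3 := finrank_gauge_lt R.toExt L (R.pt L t0 2)
  have h4 := R.finrank_Λ hn
  have h5 := R.finrank_comm_i hn
  have h6 : (Subalgebra.toSubmodule R.Λ).map
      (LinearMap.mulRight A0.K R.i - LinearMap.mulLeft A0.K R.i) ≤
      (L.redP (gauge R.toExt L (R.pt L t0 2))).map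
        (LinearMap.proj l0 : (Fin M → A0.D) →ₗ[A0.K] A0.D) := by
    rintro _ ⟨g0, hg0, rfl⟩
    have hκ : R.κ (t0 l0) ≠ 0 := (map_ne_zero R.κ).2 h0
    set a : A0.K := (R.κ (t0 l0))⁻¹ with ha
    let x : Fin M → A'.D := fun l =>
      L.ι ((a * R.κ (t0 l)) • (g0 * R.i - R.i * g0)) +
        L.t • L.ι (a • (g0 * R.j ^ (l.val + 1) - R.j ^ (l.val + 1) * g0))
    refine ⟨fun l => (a * R.κ (t0 l)) • (g0 * R.i - R.i * g0), ⟨x, ?_, ?_, ?_⟩, ?_⟩
    · refine ⟨((L.t ^ 2)⁻¹ * L.κ a) • L.ι g0, fun d => ?_, fun l => ?_⟩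
      · exact ((R.comm d g0 hg0).map L.ι).smul_right _
      · have ht : (L.t ^ 2)⁻¹ * L.t ^ 2 = 1 := inv_mul_cancel₀ (pow_ne_zero 2 L.t_ne)
        have e1 : ∀ y : A'.D, ((L.t ^ 2)⁻¹ * L.κ a) • L.ι g0 * (L.t ^ 2 • y) -
            (L.t ^ 2 • y) * (((L.t ^ 2)⁻¹ * L.κ a) • L.ι g0) =
            L.κ a • (L.ι g0 * y - y * L.ι g0) := by
          intro y
          rw [smul_mul_smul_comm, smul_mul_smul_comm, mul_comm (L.t ^ 2), ← smul_sub,
            mul_right_comm, ht, one_mul]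
        rw [Tor.pt, e1]
        simp only [x, T2_ι_smul, map_sub, map_mul, mul_add, add_mul, mul_smul_comm,
          smul_mul_assoc, smul_sub, smul_add, mul_smul, smul_comm L.t (L.κ a)]
        abel
    · exact fun l => add_mem (L.ι_mem _) (T2_t_smul_mem L (L.ι_mem _))
    · intro l
      rw [L.red_add (L.ι_mem _) (T2_t_smul_mem L (L.ι_mem _)), L.red_ι,
        T2_red_t_smul L (L.ι_mem _), add_zero]
    · simp [ha, inv_mul_cancel₀ hκ]
  have h7 := Submodule.finrank_mono h6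
  have h8 : finrank A0.K R.toExt.Λ = n ^ 2 := h4
  omega

/-- the adapted slice -/
theorem T2_slice {A A0 A' : CDA} {n : ℕ} (R : Tor A A0 n) (hn : n.Prime) (L : Lau A0 A')
    {M : ℕ} (hM : 2 ≤ M) {t0 : Fin M → A.K} {l0 : Fin M} (h0 : t0 l0 ≠ 0) :
    ∃ T0 : Submodule A0.K (Fin M → A0.D), T0 ≤ R.toExt.piΛ (Fin M) ∧
      Disjoint T0 (L.redP (gauge R.toExt L (R.pt L t0 2))) ∧
      R.toExt.piΛ (Fin M) ≤ T0 ⊔ L.redP (gauge R.toExt L (R.pt L t0 2)) ∧
      n ^ 2 + 1 ≤ finrank A0.K T0 ∧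
      finrank A0.K (R.toExt.piΛ (Fin M) ⊓
        LinearMap.ker (LinearMap.proj l0 : (Fin M → A0.D) →ₗ[A0.K] A0.D) :
          Submodule A0.K (Fin M → A0.D)) ≤
        finrank A0.K ((R.toExt.piΛ (Fin M) ⊓
          LinearMap.ker (LinearMap.proj l0 : (Fin M → A0.D) →ₗ[A0.K] A0.D)) ⊓ T0 :
            Submodule A0.K (Fin M → A0.D)) + n := by
  have hG : L.redP (gauge R.toExt L (R.pt L t0 2)) ≤ R.toExt.piΛ (Fin M) := by
    have := L.redP_mono (gauge_le R.toExt L (fun l => R.pt_mem_liftA L t0 2 l))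
    rwa [L.redP_liftP] at this
  obtain ⟨T0, h1, h2, h3, h4⟩ := T2_slice_LA hG (inf_le_left : R.toExt.piΛ (Fin M) ⊓
    LinearMap.ker (LinearMap.proj l0 : (Fin M → A0.D) →ₗ[A0.K] A0.D) ≤ _)
  refine ⟨T0, h1, h2, h3, ?_, ?_⟩
  · have a1 := Submodule.finrank_mono h3
    have a2 := Submodule.finrank_add_le_finrank_add_finrank T0
      (L.redP (gauge R.toExt L (R.pt L t0 2)))
    have a3 := L.finrank_redP (gauge R.toExt L (R.pt L t0 2))
    have a4 := finrank_gauge_lt R.toExt L (R.pt L t0 2)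
    have a5 := finrank_piΛ R.toExt (Fin M)
    have a6 : finrank A0.K R.toExt.Λ = n ^ 2 := R.finrank_Λ hn
    rw [a6, Fintype.card_fin] at a5
    have a7 : 2 * n ^ 2 ≤ M * n ^ 2 := Nat.mul_le_mul_right _ hM
    omega
  · have a1 := T2_gauge_dim R hn L h0
    have a2 := Submodule.finrank_mono (inf_le_inf_left (L.redP (gauge R.toExt L (R.pt L t0 2)))
      (inf_le_right : R.toExt.piΛ (Fin M) ⊓
        LinearMap.ker (LinearMap.proj l0 : (Fin M → A0.D) →ₗ[A0.K] A0.D) ≤ _))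
    omega

end Crest.Agent.R180
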