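import Crest.Agent.R180.Defs

/-! Abstract part of the construction of the quantum torus extension. -/

set_option autoImplicit false

namespace Crest.Agent.R180

open Module

section Abs
variable {A : CDA} {F0 Ω : Type} [Field F0] [Ring Ω] [Algebra F0 Ω]

theorem TorEx_pow_rel {i j : Ω} {z : F0} (rel : j * i = z • (i * j)) (a b : ℕ) :
    j ^ b * i ^ a = z ^ (a * b) • (i ^ a * j ^ b) := by
  have h1 : ∀ a : ℕ, j * i ^ a = z ^ a • (i ^ a * j) := by
    intro a
    induction a with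
    | zero => simp
    | succ a ih =>
      rw [pow_succ, ← mul_assoc, ih, smul_mul_assoc, mul_assoc, rel, mul_smul_comm, smul_smul,
        pow_succ z, mul_assoc]
  induction b with
  | zero => simp
  | succ b ih =>
    rw [pow_succ' j, mul_assoc, ih, mul_smul_comm, ← mul_assoc, h1, smul_mul_assoc, smul_smul,
      mul_assoc, mul_add, mul_one, pow_add]

/-- normal form of the elements of the generated monoid -/
theorem TorEx_nf (κ : A.K →+* F0) (ι : A.D →+* Ω)
    (compat : ∀ c, ι (algebraMap A.K A.D c) = algebraMap F0 Ω (κ c)) (ζ : A.K) {i j : Ω}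
    (hi : ∀ d, Commute (ι d) i) (hj : ∀ d, Commute (ι d) j) (rel : j * i = κ ζ • (i * j))
    {z : Ω} (hz : z ∈ Submonoid.closure (Set.range ι ∪ {i, j})) :
    ∃ (d : A.D) (a b : ℕ), z = ι d * (i ^ a * j ^ b) := by
  induction hz using Submonoid.closure_induction with
  | mem x hx =>
    rcases hx with ⟨d, rfl⟩ | hx
    · exact ⟨d, 0, 0, by simp⟩
    · rcases hx with rfl | rfl
      · exact ⟨1, 1, 0, by simp⟩
      · exact ⟨1, 0, 1, by simp⟩
  | one => exact ⟨1, 0, 0, by simp⟩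
  | mul x y _ _ hx hy =>
    obtain ⟨d, a, b, rfl⟩ := hx
    obtain ⟨d', a', b', rfl⟩ := hy
    refine ⟨d * d' * algebraMap A.K A.D (ζ ^ (a' * b)), a + a', b + b', ?_⟩
    have c1 : Commute (ι d') (i ^ a * j ^ b) := ((hi d').pow_right a).mul_right ((hj d').pow_right b)
    rw [map_mul, map_mul, compat, map_pow, pow_add, pow_add, mul_assoc (ι d * ι d'),
      ← Algebra.smul_def]
    calc ι d * (i ^ a * j ^ b) * (ι d' * (i ^ a' * j ^ b'))
        = ι d * ((i ^ a * j ^ b) * ι d') * (i ^ a' * j ^ b') := by simp only [mul_assoc]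
      _ = ι d * ι d' * (i ^ a * (j ^ b * i ^ a') * j ^ b') := by
          rw [← c1.eq]; simp only [mul_assoc]
      _ = _ := by
          rw [TorEx_pow_rel rel]
          simp only [mul_assoc, mul_smul_comm, smul_mul_assoc]

theorem TorEx_fg (κ : A.K →+* F0) (ι : A.D →+* Ω)
    (compat : ∀ c, ι (algebraMap A.K A.D c) = algebraMap F0 Ω (κ c)) (ζ : A.K) {i j : Ω}
    (hi : ∀ d, Commute (ι d) i) (hj : ∀ d, Commute (ι d) j) (rel : j * i = κ ζ • (i * j))
    {n : ℕ} (hn : 0 < n) {u v : F0} (hu : i ^ n = algebraMap F0 Ω u)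
    (hv : j ^ n = algebraMap F0 Ω v) :
    (Subalgebra.toSubmodule (Algebra.adjoin F0 (Set.range ι ∪ {i, j}))).FG := by
  classical
  let b := Module.finBasis A.K A.D
  let T : Set Ω := Set.range fun x : Fin (finrank A.K A.D) × Fin n × Fin n =>
    ι (b x.1) * (i ^ (x.2.1 : ℕ) * j ^ (x.2.2 : ℕ))
  have hT : T.Finite := Set.finite_range _
  have hle : Subalgebra.toSubmodule (Algebra.adjoin F0 (Set.range ι ∪ {i, j})) ≤
      Submodule.span F0 T := by
    rw [Algebra.adjoin_eq_span, Submodule.span_le]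
    intro z hz
    obtain ⟨d, a, c, rfl⟩ := TorEx_nf κ ι compat ζ hi hj rel hz
    have e1 : i ^ a = u ^ (a / n) • i ^ (a % n) := by
      conv_lhs => rw [← Nat.div_add_mod a n, pow_add, pow_mul, hu, ← map_pow, ← Algebra.smul_def]
    have e2 : j ^ c = v ^ (c / n) • j ^ (c % n) := by
      conv_lhs => rw [← Nat.div_add_mod c n, pow_add, pow_mul, hv, ← map_pow, ← Algebra.smul_def]
    have e3 : ι d = ∑ k, κ (b.repr d k) • ι (b k) := by
      conv_lhs => rw [← b.sum_repr d, map_sum]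
      refine Finset.sum_congr rfl fun k _ => ?_
      rw [Algebra.smul_def, map_mul, compat, Algebra.smul_def]
    rw [e1, e2, e3, Finset.sum_mul]
    refine Submodule.sum_mem _ fun k _ => ?_
    simp only [smul_mul_assoc, mul_smul_comm]
    refine Submodule.smul_mem _ _ (Submodule.smul_mem _ _ (Submodule.smul_mem _ _ ?_))
    exact Submodule.subset_span ⟨(k, ⟨a % n, Nat.mod_lt _ hn⟩, ⟨c % n, Nat.mod_lt _ hn⟩), rfl⟩
  have : Module.Finite F0 (Submodule.span F0 T) := Module.Finite.span_of_finite F0 hT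
  have h2 : (Submodule.span F0 T).FG := Submodule.fg_span hT
  exact Submodule.FG.of_le_of_isNoetherian hle

theorem TorEx_abs (κ : A.K →+* F0) (ι : A.D →+* Ω)
    (compat : ∀ c, ι (algebraMap A.K A.D c) = algebraMap F0 Ω (κ c)) {n : ℕ} (hn : 0 < n)
    (ζ : A.K) (hζ : IsPrimitiveRoot ζ n) {i j : Ω}
    (hi : ∀ d, Commute (ι d) i) (hj : ∀ d, Commute (ι d) j) (rel : j * i = κ ζ • (i * j))
    {u v : F0} (hu : i ^ n = algebraMap F0 Ω u) (hv : j ^ n = algebraMap F0 Ω v)
    (hi0 : i ≠ 0) (hj0 : j ≠ 0)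
    (R : Subring Ω) (hRF : ∀ c, algebraMap F0 Ω c ∈ R) (hRι : ∀ d, ι d ∈ R) (hRi : i ∈ R)
    (hRj : j ∈ R) (dom : ∀ x ∈ R, ∀ y ∈ R, x * y = 0 → x = 0 ∨ y = 0)
    (cen : ∀ x ∈ R, (∀ d, Commute (ι d) x) → Commute i x → Commute j x →
      ∃ c, algebraMap F0 Ω c = x)
    (transc : ∀ f : Polynomial A.K, f ≠ 0 → Polynomial.aeval i (f.map κ) ≠ 0) :
    ∃ A0 : CDA, Nonempty (Tor A A0 n) := by
  classical
  let S : Subalgebra F0 Ω := Algebra.adjoin F0 (Set.range ι ∪ {i, j})
  have hSR : ∀ x ∈ S, x ∈ R := by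
    intro x hx
    induction hx using Algebra.adjoin_induction with
    | mem x hx =>
      rcases hx with ⟨d, rfl⟩ | hx
      · exact hRι d
      · rcases hx with rfl | rfl
        · exact hRi
        · exact hRj
    | algebraMap c => exact hRF c
    | add x y _ _ hx hy => exact add_mem hx hy
    | mul x y _ _ hx hy => exact mul_mem hx hy
  have hιS : ∀ d, ι d ∈ S := fun d => Algebra.subset_adjoin (Or.inl ⟨d, rfl⟩)
  have hiS : i ∈ S := Algebra.subset_adjoin (Or.inr (by simp))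
  have hjS : j ∈ S := Algebra.subset_adjoin (Or.inr (by simp))
  have : Nontrivial S := ⟨⟨⟨i, hiS⟩, 0, fun h => hi0 (congrArg Subtype.val h)⟩⟩
  have : NoZeroDivisors S := ⟨fun {x y} h => by
    rcases dom x (hSR _ x.2) y (hSR _ y.2) (congrArg Subtype.val h) with h | h
    · exact Or.inl (Subtype.ext h)
    · exact Or.inr (Subtype.ext h)⟩
  have : IsDomain S := NoZeroDivisors.to_isDomain _
  have : FiniteDimensional F0 S :=
    Module.Finite.iff_fg.2 (TorEx_fg κ ι compat ζ hi hj rel hn hu hv)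
  have : Algebra.IsCentral F0 S := ⟨fun x hx => by
    rw [Subalgebra.mem_center_iff] at hx
    obtain ⟨c, hc⟩ := cen x (hSR _ x.2)
      (fun d => congrArg Subtype.val (hx ⟨ι d, hιS d⟩))
      (congrArg Subtype.val (hx ⟨i, hiS⟩)) (congrArg Subtype.val (hx ⟨j, hjS⟩))
    exact Algebra.mem_bot.2 ⟨c, Subtype.ext hc⟩⟩
  have : CharZero F0 := (RingHom.charZero_iff κ.injective).1 inferInstance
  let A0 : CDA :=
    { K := F0
      D := S
      dD := divisionRingOfFiniteDimensional F0 S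
      alg := inferInstanceAs (Algebra F0 S)
      fd := inferInstanceAs (FiniteDimensional F0 S)
      cen := inferInstanceAs (Algebra.IsCentral F0 S)
      roots := fun m hm => by
        obtain ⟨ξ, hξ⟩ := A.roots m hm
        exact ⟨κ ξ, hξ.map_of_injective κ.injective⟩ }
  let ι' : A.D →+* S := ι.codRestrict S hιS
  let i' : S := ⟨i, hiS⟩
  let j' : S := ⟨j, hjS⟩
  let Λ : Subalgebra F0 S := Algebra.adjoin F0 {i', j'}
  have hcomm : ∀ d, ∀ e ∈ Λ, Commute (ι' d) e := by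
    intro d e he
    refine Algebra.commute_of_mem_adjoin_of_forall_mem_commute he ?_
    rintro x (rfl | rfl)
    · exact Subtype.ext (hi d)
    · exact Subtype.ext (hj d)
  have hspan : Submodule.span F0 {z : S | ∃ d, ∃ e ∈ Λ, z = ι' d * e} = ⊤ := by
    rw [eq_top_iff]
    rintro ⟨x, hx⟩ -
    have hx' : x ∈ Submodule.span F0 (S.val.toLinearMap '' {z : S | ∃ d, ∃ e ∈ Λ, z = ι' d * e}) := by
      have h1 : x ∈ Subalgebra.toSubmodule S := hx
      rw [Algebra.adjoin_eq_span] at h1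
      refine Submodule.span_mono ?_ h1
      intro z hz
      obtain ⟨d, a, b, rfl⟩ := TorEx_nf κ ι compat ζ hi hj rel hz
      refine ⟨ι' d * (i' ^ a * j' ^ b), ⟨d, _, ?_, rfl⟩, rfl⟩
      exact mul_mem (pow_mem (Algebra.subset_adjoin (by simp)) _)
        (pow_mem (Algebra.subset_adjoin (by simp)) _)
    exact (Submodule.apply_mem_span_image_iff_mem_span (f := S.val.toLinearMap)
      (x := ⟨x, hx⟩) Subtype.val_injective).1 hx'
  refine ⟨A0, ⟨{
    κ := κ
    ι := ι'
    compat := fun c => Subtype.ext (compat c)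
    Λ := Λ
    comm := hcomm
    span_top := hspan
    ζ := ζ
    hζ := hζ
    i := i'
    j := j'
    i_ne := fun h => hi0 (congrArg Subtype.val h)
    j_ne := fun h => hj0 (congrArg Subtype.val h)
    rel := Subtype.ext rel
    i_pow := ⟨u, Subtype.ext hu⟩
    j_pow := ⟨v, Subtype.ext hv⟩
    Λ_eq := rfl
    transc := fun f hf h => ?_ }⟩⟩
  have hf0 : f ≠ 0 := by rintro rfl; simp at hf
  apply transc f hf0
  have h' : Polynomial.aeval i' (f.map κ) = 0 := h
  have := Polynomial.aeval_algHom_apply S.val i' (f.map κ)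
  rw [h', map_zero] at this
  exact this

end Abs

theorem TorEx_abs' {A : CDA} {F0 Ω : Type} [Field F0] [Ring Ω] (ρ : F0 →+* Ω)
    (hρ : ∀ c x, ρ c * x = x * ρ c) (κ : A.K →+* F0) (ι : A.D →+* Ω)
    (compat : ∀ c, ι (algebraMap A.K A.D c) = ρ (κ c)) {n : ℕ} (hn : 0 < n)
    (ζ : A.K) (hζ : IsPrimitiveRoot ζ n) {i j : Ω}
    (hi : ∀ d, Commute (ι d) i) (hj : ∀ d, Commute (ι d) j) (rel : j * i = ρ (κ ζ) * (i * j))
    {u v : F0} (hu : i ^ n = ρ u) (hv : j ^ n = ρ v)
    (hi0 : i ≠ 0) (hj0 : j ≠ 0)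
    (R : Subring Ω) (hRF : ∀ c, ρ c ∈ R) (hRι : ∀ d, ι d ∈ R) (hRi : i ∈ R)
    (hRj : j ∈ R) (dom : ∀ x ∈ R, ∀ y ∈ R, x * y = 0 → x = 0 ∨ y = 0)
    (cen : ∀ x ∈ R, (∀ d, Commute (ι d) x) → Commute i x → Commute j x → ∃ c, ρ c = x)
    (transc : ∀ f : Polynomial A.K, f ≠ 0 →
      ∑ a ∈ Finset.range (f.natDegree + 1), ρ (κ (f.coeff a)) * i ^ a ≠ 0) :
    ∃ A0 : CDA, Nonempty (Tor A A0 n) := by
  letI : Algebra F0 Ω := ρ.toAlgebra' hρ
  refine TorEx_abs κ ι compat hn ζ hζ hi hj rel hu hv hi0 hj0 R hRF hRι hRi hRj dom cen ?_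
  intro f hf
  rw [Polynomial.aeval_eq_sum_range, Polynomial.natDegree_map]
  simp only [Polynomial.coeff_map]
  exact transc f hf

end Crest.Agent.R180
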