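import Crest.Agent.R180.CSA

/-! Computations in a quantum torus extension. -/

set_option autoImplicit false

namespace Crest.Agent.R180

open Module

/-- the span of a multiplicatively closed set containing `1` contains the generated algebra -/
theorem torLem1_adjoin_le {K D : Type} [Field K] [Ring D] [Algebra K D] {s t : Set D}
    (h1 : (1 : D) ∈ Submodule.span K t) (hm : ∀ x ∈ t, ∀ y ∈ t, x * y ∈ Submodule.span K t)
    (hs : s ⊆ Submodule.span K t) :
    Subalgebra.toSubmodule (Algebra.adjoin K s) ≤ Submodule.span K t := by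
  have hmul : ∀ x y, x ∈ Submodule.span K t → y ∈ Submodule.span K t →
      x * y ∈ Submodule.span K t := by
    intro x y hx hy
    have h := Submodule.mul_mem_mul hx hy
    rw [Submodule.span_mul_span] at h
    refine Submodule.span_le.2 ?_ h
    rintro _ ⟨a, ha, b, hb, rfl⟩
    exact hm a ha b hb
  exact (Algebra.adjoin_le (S := (Submodule.span K t).toSubalgebra h1 hmul) hs :)

/-- eigenvectors of a conjugation with different eigenvalues are orthogonal -/
theorem CDA.torLem1_τ_mul_inv (A : CDA) {y u v : A.D} {α β : A.K} (hy : y ≠ 0) (hv0 : v ≠ 0)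
    (hu : u * y = α • (y * u)) (hv : v * y = β • (y * v)) (h : α ≠ β) : A.τ (u * v⁻¹) = 0 := by
  have h1 : y * v⁻¹ = β • (v⁻¹ * y) := by
    have := congrArg (fun w => v⁻¹ * w * v⁻¹) hv
    simp only [mul_smul_comm, smul_mul_assoc] at this
    rw [← mul_assoc, inv_mul_cancel₀ hv0, one_mul, mul_assoc v⁻¹, mul_assoc y,
      mul_inv_cancel₀ hv0, mul_one] at this
    exact this
  have h2 : α * A.τ (u * v⁻¹) = A.τ (u * y * (v⁻¹ * y⁻¹)) := by
    rw [hu, smul_mul_assoc, map_smul, smul_eq_mul, mul_assoc y, A.τ_mul_comm y, mul_assoc u,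
      mul_assoc v⁻¹, inv_mul_cancel₀ hy, mul_one]
  have h3 : β * A.τ (u * v⁻¹) = A.τ (u * y * (v⁻¹ * y⁻¹)) := by
    rw [mul_assoc u, ← mul_assoc y, h1, smul_mul_assoc, mul_smul_comm, map_smul, smul_eq_mul,
      mul_assoc v⁻¹, mul_inv_cancel₀ hy, mul_one]
  have h4 : (α - β) * A.τ (u * v⁻¹) = 0 := by rw [sub_mul, h2, h3, sub_self]
  exact (mul_eq_zero.1 h4).resolve_left (sub_ne_zero.2 h)

theorem CDA.torLem1_τ_mul_inv' (A : CDA) {y u v : A.D} {α β : A.K} (hy : y ≠ 0) (hv0 : v ≠ 0)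
    (hu : y * u = α • (u * y)) (hv : y * v = β • (v * y)) (h : α ≠ β) : A.τ (u * v⁻¹) = 0 := by
  have key : ∀ {w : A.D} {c : A.K}, y * w = c • (w * y) → w * y⁻¹ = c • (y⁻¹ * w) := by
    intro w c hw
    have := congrArg (fun z => y⁻¹ * z * y⁻¹) hw
    simp only [mul_smul_comm, smul_mul_assoc] at this
    rw [← mul_assoc, inv_mul_cancel₀ hy, one_mul, mul_assoc y⁻¹, mul_assoc w,
      mul_inv_cancel₀ hy, mul_one] at this
    exact this
  exact A.torLem1_τ_mul_inv (inv_ne_zero hy) hv0 (key hu) (key hv) h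

/-- every functional is of the form `τ (δ ·)` -/
theorem CDA.torLem1_exists_dual (A : CDA) (f : Module.Dual A.K A.D) :
    ∃ δ : A.D, ∀ x, A.τ (δ * x) = f x := by
  let φ : A.D →ₗ[A.K] Module.Dual A.K A.D := (LinearMap.mul A.K A.D).compr₂ A.τ
  have hinj : Function.Injective φ := by
    rw [injective_iff_map_eq_zero]
    intro δ hδ
    by_contra h0
    have := LinearMap.congr_fun hδ δ⁻¹
    change A.τ (δ * δ⁻¹) = 0 at this
    rw [mul_inv_cancel₀ h0, A.τ_one] at this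
    exact one_ne_zero this
  have hsurj := (LinearMap.injective_iff_surjective_of_finrank_eq_finrank
    (Subspace.dual_finrank_eq (K := A.K) (V := A.D)).symm).1 hinj
  obtain ⟨δ, hδ⟩ := hsurj f
  exact ⟨δ, fun x => LinearMap.congr_fun hδ x⟩

namespace Ext
variable {A A0 : CDA} (X : Ext A A0)

theorem τ_ι_mul (d : A.D) {e : A0.D} (he : e ∈ X.Λ) : A0.τ (X.ι d * e) = X.κ (A.τ d) * A0.τ e :=
  A.τ_map_mul X.κ X.ι X.compat d fun d' => X.comm d' e he

theorem ι_smul (c : A.K) (d : A.D) : X.ι (c • d) = X.κ c • X.ι d := by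
  rw [Algebra.smul_def, map_mul, X.compat, Algebra.smul_def]

theorem big_toSubmodule (Γ : Subalgebra A.K A.D) : Subalgebra.toSubmodule (X.big Γ) =
    Submodule.span A0.K {z | ∃ γ ∈ Γ, ∃ e ∈ X.Λ, z = X.ι γ * e} := by
  refine le_antisymm (torLem1_adjoin_le ?_ ?_ ?_) (Submodule.span_le.2 ?_)
  · exact Submodule.subset_span ⟨1, one_mem _, 1, one_mem _, by simp⟩
  · rintro _ ⟨γ, hγ, e, he, rfl⟩ _ ⟨γ', hγ', e', he', rfl⟩
    refine Submodule.subset_span ⟨γ * γ', mul_mem hγ hγ', e * e', mul_mem he he', ?_⟩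
    rw [map_mul, mul_assoc, ← mul_assoc e, ← (X.comm γ' e he).eq, mul_assoc, mul_assoc]
  · rintro z (⟨γ, hγ, rfl⟩ | hz)
    · exact Submodule.subset_span ⟨γ, hγ, 1, one_mem _, by simp⟩
    · exact Submodule.subset_span ⟨1, one_mem _, z, hz, by simp⟩
  · rintro _ ⟨γ, hγ, e, he, rfl⟩
    exact (X.big Γ).mul_mem (Algebra.subset_adjoin (Or.inl ⟨γ, hγ, rfl⟩))
      (Algebra.subset_adjoin (Or.inr he))

/-- an element of `E` central in `Γ` stays central in `Γ ⊗ Λ` -/
theorem commute_big {Γ : Subalgebra A.K A.D} {e : A.D} (he : ∀ g ∈ Γ, Commute e g) {x : A0.D}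
    (hx : x ∈ X.big Γ) : Commute (X.ι e) x := by
  refine Algebra.commute_of_mem_adjoin_of_forall_mem_commute hx ?_
  rintro z (⟨γ, hγ, rfl⟩ | hz)
  · exact (he γ hγ).map X.ι
  · exact X.comm e z hz

/-- dimension of `⊕ₜ Xₜ ⊗ eₜ` for a family `e` in `Λ` having a dual family in `Λ` -/
theorem torLem1_finrank {T : Type} [Fintype T] [DecidableEq T] (e f : T → A0.D)
    (he : ∀ t, e t ∈ X.Λ) (hf : ∀ t, f t ∈ X.Λ)
    (hef : ∀ t t', A0.τ (e t * f t') = if t = t' then 1 else 0) (Y : T → Submodule A.K A.D) :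
    finrank A0.K (Submodule.span A0.K {z | ∃ t, ∃ x ∈ Y t, z = X.ι x * e t}) =
      ∑ t, finrank A.K (Y t) := by
  let b : ∀ t, Basis (Fin (finrank A.K (Y t))) A.K (Y t) := fun t => finBasis A.K (Y t)
  let v : (Σ t, Fin (finrank A.K (Y t))) → A0.D := fun p => X.ι (b p.1 p.2) * e p.1
  have hdual : ∀ t s, ∃ δ : A.D, ∀ s', A.τ (δ * b t s') = if s' = s then 1 else 0 := by
    intro t s
    obtain ⟨g, hg⟩ := LinearMap.exists_extend ((b t).coord s)
    obtain ⟨δ, hδ⟩ := A.torLem1_exists_dual g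
    refine ⟨δ, fun s' => ?_⟩
    have := LinearMap.congr_fun hg (b t s')
    rw [hδ]
    simp only [LinearMap.comp_apply, Submodule.subtype_apply, Basis.coord_apply, Basis.repr_self,
      Finsupp.single_apply] at this
    exact this
  choose δ hδ using hdual
  have hli : LinearIndependent A0.K v := by
    rw [Fintype.linearIndependent_iff]
    rintro c hc ⟨t, s⟩
    have h1 := congrArg (fun z => A0.τ (X.ι (δ t s) * z * f t)) hc
    simp only [Finset.mul_sum, Finset.sum_mul, mul_smul_comm, smul_mul_assoc, map_sum, map_smul,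
      mul_zero, zero_mul, map_zero, smul_eq_mul] at h1
    have h2 : ∀ p : (Σ t, Fin (finrank A.K (Y t))), A0.τ (X.ι (δ t s) * v p * f t) =
        if p = ⟨t, s⟩ then 1 else 0 := by
      rintro ⟨t', s'⟩
      have : X.ι (δ t s) * v ⟨t', s'⟩ * f t = X.ι (δ t s * b t' s') * (e t' * f t) := by
        simp only [v, map_mul, mul_assoc]
      rw [this, X.τ_ι_mul _ (mul_mem (he t') (hf t)), hef]
      by_cases ht : t' = t
      · subst ht
        rw [hδ]
        by_cases hs : s' = s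
        · simp [hs]
        · simp [hs]
      · simp [ht]
    simpa [h2] using h1
  have hspan : Submodule.span A0.K {z | ∃ t, ∃ x ∈ Y t, z = X.ι x * e t} =
      Submodule.span A0.K (Set.range v) := by
    refine le_antisymm (Submodule.span_le.2 ?_) (Submodule.span_mono ?_)
    · rintro _ ⟨t, x, hx, rfl⟩
      have h1 : x = ∑ s, (b t).repr ⟨x, hx⟩ s • (b t s : A.D) := by
        have := congrArg Subtype.val ((b t).sum_repr ⟨x, hx⟩)
        rw [Submodule.coe_sum] at this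
        exact this.symm
      rw [h1, map_sum, Finset.sum_mul]
      refine Submodule.sum_mem _ fun s _ => ?_
      rw [X.ι_smul, smul_mul_assoc]
      exact Submodule.smul_mem _ _ (Submodule.subset_span ⟨⟨t, s⟩, rfl⟩)
    · rintro _ ⟨⟨t, s⟩, rfl⟩
      exact ⟨t, b t s, (b t s).2, rfl⟩
  rw [hspan, finrank_span_eq_card hli, Fintype.card_sigma]
  simp

end Ext

theorem Ext.refl_big {A : CDA} (Γ : Subalgebra A.K A.D) : (Ext.refl A).big Γ = Γ := by
  refine le_antisymm (Algebra.adjoin_le ?_) fun x hx => Algebra.subset_adjoin (Or.inl ⟨x, hx, rfl⟩)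
  rintro z (⟨γ, hγ, rfl⟩ | hz)
  · exact hγ
  · exact (bot_le : (⊥ : Subalgebra A.K A.D) ≤ Γ) hz

namespace Tor
variable {A A0 : CDA} {n : ℕ} (R : Tor A A0 n)

theorem i_mem : R.i ∈ R.Λ := R.Λ_eq ▸ Algebra.subset_adjoin (by simp)
theorem j_mem : R.j ∈ R.Λ := R.Λ_eq ▸ Algebra.subset_adjoin (by simp)

theorem jpow_mul_ipow (a b : ℕ) : R.j ^ b * R.i ^ a = R.κ R.ζ ^ (a * b) • (R.i ^ a * R.j ^ b) := by
  have h1 : ∀ a : ℕ, R.j * R.i ^ a = R.κ R.ζ ^ a • (R.i ^ a * R.j) := by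
    intro a
    induction a with
    | zero => simp
    | succ a ih =>
      rw [pow_succ R.i, ← mul_assoc, ih, smul_mul_assoc, mul_assoc, R.rel, mul_smul_comm,
        smul_smul, ← pow_succ, mul_assoc]
  induction b with
  | zero => simp
  | succ b ih =>
    rw [pow_succ R.j, mul_assoc, h1, mul_smul_comm, ← mul_assoc, ih, smul_mul_assoc, smul_smul,
      ← pow_add, mul_assoc, mul_add, mul_one, add_comm]

theorem torLem1_prim : IsPrimitiveRoot (R.κ R.ζ) n := R.hζ.map_of_injective R.κ.injective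

theorem torLem1_ipow_mod (a : ℕ) : ∃ c : A0.K, R.i ^ a = c • R.i ^ (a % n) := by
  obtain ⟨u, hu⟩ := R.i_pow
  refine ⟨u ^ (a / n), ?_⟩
  conv_lhs => rw [← Nat.div_add_mod a n, pow_add, pow_mul, hu, ← map_pow, ← Algebra.smul_def]

theorem torLem1_jpow_mod (a : ℕ) : ∃ c : A0.K, R.j ^ a = c • R.j ^ (a % n) := by
  obtain ⟨u, hu⟩ := R.j_pow
  refine ⟨u ^ (a / n), ?_⟩
  conv_lhs => rw [← Nat.div_add_mod a n, pow_add, pow_mul, hu, ← map_pow, ← Algebra.smul_def]

theorem Λ_toSubmodule (hn : n.Prime) : Subalgebra.toSubmodule R.Λ =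
    Submodule.span A0.K {z | ∃ a < n, ∃ b < n, z = R.i ^ a * R.j ^ b} := by
  have key : ∀ a b : ℕ, R.i ^ a * R.j ^ b ∈
      Submodule.span A0.K {z | ∃ a < n, ∃ b < n, z = R.i ^ a * R.j ^ b} := by
    intro a b
    obtain ⟨c, hc⟩ := R.torLem1_ipow_mod a
    obtain ⟨d, hd⟩ := R.torLem1_jpow_mod b
    rw [hc, hd, smul_mul_smul_comm]
    exact Submodule.smul_mem _ _ (Submodule.subset_span
      ⟨_, Nat.mod_lt _ hn.pos, _, Nat.mod_lt _ hn.pos, rfl⟩)
  refine le_antisymm ?_ (Submodule.span_le.2 ?_)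
  · rw [R.Λ_eq]
    refine torLem1_adjoin_le (by simpa using key 0 0) ?_ ?_
    · rintro _ ⟨a, -, b, -, rfl⟩ _ ⟨a', -, b', -, rfl⟩
      rw [mul_assoc, ← mul_assoc (R.j ^ b), jpow_mul_ipow, smul_mul_assoc, mul_smul_comm,
        mul_assoc, ← mul_assoc, ← pow_add, ← pow_add]
      exact Submodule.smul_mem _ _ (key _ _)
    · rintro z (rfl | rfl)
      · simpa using key 1 0
      · simpa using key 0 1
  · rintro _ ⟨a, -, b, -, rfl⟩
    exact R.Λ.mul_mem (pow_mem R.i_mem _) (pow_mem R.j_mem _)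

theorem torLem1_τ_mono {a b a' b' : ℕ} (ha : a < n) (hb : b < n) (ha' : a' < n) (hb' : b' < n) :
    A0.τ (R.i ^ a * R.j ^ b * (R.i ^ a' * R.j ^ b')⁻¹) = if a = a' ∧ b = b' then 1 else 0 := by
  have h0 : R.i ^ a' * R.j ^ b' ≠ 0 := mul_ne_zero (pow_ne_zero _ R.i_ne) (pow_ne_zero _ R.j_ne)
  have hi : ∀ a b : ℕ, R.i ^ a * R.j ^ b * R.i = R.κ R.ζ ^ b • (R.i * (R.i ^ a * R.j ^ b)) := by
    intro a b
    have := R.jpow_mul_ipow 1 b
    rw [pow_one, one_mul] at this
    rw [mul_assoc, this, mul_smul_comm, ← mul_assoc, ← mul_assoc, ← pow_succ, ← pow_succ']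
  have hj : ∀ a b : ℕ, R.j * (R.i ^ a * R.j ^ b) = R.κ R.ζ ^ a • (R.i ^ a * R.j ^ b * R.j) := by
    intro a b
    have := R.jpow_mul_ipow a 1
    rw [pow_one, mul_one] at this
    rw [← mul_assoc, this, smul_mul_assoc, mul_assoc, mul_assoc, ← pow_succ, ← pow_succ']
  split_ifs with h
  · rw [h.1, h.2, mul_inv_cancel₀ h0, A0.τ_one]
  · by_cases hbb : b = b'
    · have haa : a ≠ a' := fun h' => h ⟨h', hbb⟩
      exact A0.torLem1_τ_mul_inv' R.j_ne h0 (hj a b) (hj a' b')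
        fun h' => haa (R.torLem1_prim.pow_inj ha ha' h')
    · exact A0.torLem1_τ_mul_inv R.i_ne h0 (hi a b) (hi a' b')
        fun h' => hbb (R.torLem1_prim.pow_inj hb hb' h')

theorem finrank_Λ (hn : n.Prime) : finrank A0.K R.Λ = n ^ 2 := by
  let v : Fin n × Fin n → A0.D := fun p => R.i ^ (p.1 : ℕ) * R.j ^ (p.2 : ℕ)
  have hli : LinearIndependent A0.K v := by
    rw [Fintype.linearIndependent_iff]
    intro c hc q
    have h1 := congrArg (fun z => A0.τ (z * (v q)⁻¹)) hc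
    simp only [Finset.sum_mul, smul_mul_assoc, map_sum, map_smul, zero_mul, map_zero,
      smul_eq_mul] at h1
    have h2 : ∀ p, A0.τ (v p * (v q)⁻¹) = if p = q then 1 else 0 := by
      intro p
      rw [R.torLem1_τ_mono p.1.2 p.2.2 q.1.2 q.2.2]
      simp only [Fin.val_inj, Prod.ext_iff]
    simpa [h2] using h1
  have h : Subalgebra.toSubmodule R.Λ = Submodule.span A0.K (Set.range v) := by
    rw [R.Λ_toSubmodule hn]
    congr 1
    ext z
    constructor
    · rintro ⟨a, ha, b, hb, rfl⟩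
      exact ⟨(⟨a, ha⟩, ⟨b, hb⟩), rfl⟩
    · rintro ⟨p, rfl⟩
      exact ⟨_, p.1.2, _, p.2.2, rfl⟩
  rw [← Subalgebra.finrank_toSubmodule, h, finrank_span_eq_card hli]
  simp [sq]

/-- elements of nonzero `j`-degree are traceless -/
theorem τ_eq_zero_of_rel {z : A0.D} {m : ℕ} (hm : ¬ n ∣ m) (h : z * R.i = R.κ R.ζ ^ m • (R.i * z)) :
    A0.τ z = 0 := by
  have := A0.torLem1_τ_mul_inv (v := 1) (β := 1) R.i_ne one_ne_zero h (by simp)
    fun h' => hm ((R.torLem1_prim.pow_eq_one_iff_dvd m).1 h')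
  simpa using this

theorem τ_ι_mul_ipow (d : A.D) {a : ℕ} (ha : ¬ n ∣ a) : A0.τ (R.ι d * R.i ^ a) = 0 := by
  have h := R.jpow_mul_ipow a 1
  rw [pow_one, mul_one] at h
  have := A0.torLem1_τ_mul_inv' (v := 1) (β := 1) R.j_ne one_ne_zero h (by simp)
    fun h' => ha ((R.torLem1_prim.pow_eq_one_iff_dvd a).1 h')
  rw [inv_one, mul_one] at this
  rw [R.toExt.τ_ι_mul d (pow_mem R.i_mem a), this, mul_zero]

theorem torLem1_finrank (Y : Fin n → Submodule A.K A.D) :
    finrank A0.K (Submodule.span A0.K {z | ∃ t : Fin n, ∃ x ∈ Y t, z = R.ι x * R.i ^ (t : ℕ)}) =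
      ∑ t, finrank A.K (Y t) := by
  refine R.toExt.torLem1_finrank (fun t : Fin n => R.i ^ (t : ℕ)) (fun t => (R.i ^ (t : ℕ))⁻¹)
    (fun t => pow_mem R.i_mem _) (fun t => A0.inv_mem _ (pow_mem R.i_mem _)) (fun t t' => ?_) Y
  have := R.torLem1_τ_mono t.2 t.pos t'.2 t.pos
  simpa [Fin.val_inj] using this

theorem finrank_dg (hn : n.Prime) (X : Submodule A.K A.D) :
    finrank A0.K (R.dg X) = n * finrank A.K X := by
  have h : R.dg X =
      Submodule.span A0.K {z | ∃ t : Fin n, ∃ x ∈ X, z = R.ι x * R.i ^ (t : ℕ)} := by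
    refine le_antisymm (Submodule.span_le.2 ?_) (Submodule.span_mono ?_)
    · rintro _ ⟨x, hx, a, rfl⟩
      obtain ⟨c, hc⟩ := R.torLem1_ipow_mod a
      rw [hc, mul_smul_comm]
      exact Submodule.smul_mem _ _ (Submodule.subset_span ⟨⟨_, Nat.mod_lt _ hn.pos⟩, x, hx, rfl⟩)
    · rintro _ ⟨t, x, hx, rfl⟩
      exact ⟨x, hx, t, rfl⟩
  rw [h, R.torLem1_finrank fun _ => X]
  simp

theorem finrank_dg0 (X : Submodule A.K A.D) : finrank A0.K (R.dg0 X) = finrank A.K X := by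
  have h := R.toExt.torLem1_finrank (fun _ : Unit => (1 : A0.D)) (fun _ => 1)
    (fun _ => one_mem _) (fun _ => one_mem _) (fun _ _ => by simp [A0.τ_one]) fun _ => X
  have h1 : {z | ∃ _ : Unit, ∃ x ∈ X, z = R.ι x * 1} = R.ι '' X := by
    ext z
    simp [eq_comm]
  rw [h1, Fintype.sum_unique] at h
  exact h

theorem finrank_dg0_sup_dg1 (hn : n.Prime) (X Y : Submodule A.K A.D) :
    finrank A0.K (R.dg0 X ⊔ R.dg1 Y : Submodule A0.K A0.D) =
      finrank A.K X + (n - 1) * finrank A.K Y := by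
  obtain ⟨m, rfl⟩ : ∃ m, n = m + 1 := ⟨n - 1, by have := hn.pos; omega⟩
  have h : R.dg0 X ⊔ R.dg1 Y = Submodule.span A0.K {z | ∃ t : Fin (m + 1),
      ∃ x ∈ (Fin.cons X (fun _ => Y) : Fin (m + 1) → Submodule A.K A.D) t,
        z = R.ι x * R.i ^ (t : ℕ)} := by
    refine le_antisymm (sup_le (Submodule.span_le.2 ?_) (Submodule.span_le.2 ?_))
      (Submodule.span_le.2 ?_)
    · rintro _ ⟨x, hx, rfl⟩
      exact Submodule.subset_span ⟨0, x, hx, by simp⟩
    · rintro _ ⟨x, hx, a, ha, rfl⟩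
      obtain ⟨c, hc⟩ := R.torLem1_ipow_mod a
      rw [hc, mul_smul_comm]
      have h0 : a % (m + 1) ≠ 0 := fun h => ha (Nat.dvd_of_mod_eq_zero h)
      have h1 := Nat.mod_lt a hn.pos
      obtain ⟨k, hk⟩ := Nat.exists_eq_succ_of_ne_zero h0
      rw [hk]
      exact Submodule.smul_mem _ _ (Submodule.subset_span
        ⟨Fin.succ ⟨k, by omega⟩, x, hx, rfl⟩)
    · rintro _ ⟨t, x, hx, rfl⟩
      refine Fin.cases (fun hx => ?_) (fun k hx => ?_) t hx
      · exact Submodule.mem_sup_left (Submodule.subset_span ⟨x, hx, by simp⟩)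
      · refine Submodule.mem_sup_right (Submodule.subset_span ⟨x, hx, _, ?_, rfl⟩)
        exact Nat.not_dvd_of_pos_of_lt (by simp) k.succ.2
  rw [h, R.torLem1_finrank, Fin.sum_univ_succ]
  change finrank A.K X + ∑ _i : Fin m, finrank A.K Y = _
  simp

theorem dg_mono {X Y : Submodule A.K A.D} (h : X ≤ Y) : R.dg X ≤ R.dg Y := by
  refine Submodule.span_mono ?_
  rintro _ ⟨x, hx, a, rfl⟩
  exact ⟨x, h hx, a, rfl⟩

theorem dg0_le_dg (X : Submodule A.K A.D) : R.dg0 X ≤ R.dg X := by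
  refine Submodule.span_mono ?_
  rintro _ ⟨x, hx, rfl⟩
  exact ⟨x, hx, 0, by simp⟩

theorem dg1_le_dg (X : Submodule A.K A.D) : R.dg1 X ≤ R.dg X := by
  refine Submodule.span_mono ?_
  rintro _ ⟨x, hx, a, -, rfl⟩
  exact ⟨x, hx, a, rfl⟩

end Tor

end Crest.Agent.R180
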